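import Vale.Agent.Lib.P328.Samp.Defs

/-!
# P328, explicit algorithm: the matrix of the chain is stochastic (part of module Q)
-/

namespace Vale.Agent.Lib.P328.Samp

open Finset

section Grid

variable {ι : Type} [Fintype ι] [DecidableEq ι] {M : ℕ}

theorem q_propStep_nonneg {p : ℝ} (h0 : 0 ≤ p) (h1 : p ≤ 1 / 2) (a b : Fin M) :
    0 ≤ propStep p a b := by
  unfold propStep
  split_ifs <;> linarith

theorem q_sum_ite_le_of_unique {X : Type} [Fintype X] {Q : X → Prop} [DecidablePred Q] {p : ℝ}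
    (h0 : 0 ≤ p) (hQ : ∀ a b, Q a → Q b → a = b) : ∑ b, (if Q b then p else 0) ≤ p := by
  by_cases h : ∃ a, Q a
  · obtain ⟨a, ha⟩ := h
    rw [Finset.sum_eq_single a]
    · simp [ha]
    · intro b _ hb
      rw [if_neg]
      intro hQb
      exact hb (hQ b a hQb ha)
    · intro h'
      exact absurd (mem_univ a) h'
  · push Not at h
    simp [h, h0]

theorem q_propStep_sum_le {p : ℝ} (h0 : 0 ≤ p) (h1 : p ≤ 1 / 2) (a : Fin M) :
    ∑ b, propStep p a b ≤ 1 := by
  have hle : ∀ b : Fin M, propStep p a b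
      ≤ (if b = a then 1 - 2 * p else 0) + (if (b : ℕ) = a + 1 then p else 0)
        + (if (b : ℕ) + 1 = a then p else 0) := by
    intro b
    unfold propStep
    by_cases hab : a = b
    · subst hab
      simp only [if_true]
      have h2 : ¬ ((a : ℕ) = a + 1) := by omega
      have h3 : ¬ ((a : ℕ) + 1 = a) := by omega
      simp [h2, h3]
    · have hba : ¬ b = a := fun h => hab h.symm
      rw [if_neg hab, if_neg hba]
      split_ifs <;> first | linarith | (exfalso; omega)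
  refine (Finset.sum_le_sum fun b _ => hle b).trans ?_
  rw [Finset.sum_add_distrib, Finset.sum_add_distrib]
  have h2 : ∑ b : Fin M, (if b = a then 1 - 2 * p else 0) = 1 - 2 * p := by
    simp
  have h3 : ∑ b : Fin M, (if (b : ℕ) = a + 1 then p else 0) ≤ p :=
    q_sum_ite_le_of_unique h0 fun x y hx hy => Fin.ext (by omega)
  have h4 : ∑ b : Fin M, (if (b : ℕ) + 1 = a then p else 0) ≤ p :=
    q_sum_ite_le_of_unique h0 fun x y hx hy => Fin.ext (by omega)
  linarith

theorem q_prop_nonneg {p : ℝ} (h0 : 0 ≤ p) (h1 : p ≤ 1 / 2) (z z' : ι → Fin M) : 0 ≤ prop p z z' :=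
  Finset.prod_nonneg fun i _ => q_propStep_nonneg h0 h1 _ _

theorem q_prop_sum_le {p : ℝ} (h0 : 0 ≤ p) (h1 : p ≤ 1 / 2) (z : ι → Fin M) :
    ∑ z', prop p z z' ≤ 1 := by
  have h := Finset.prod_univ_sum (fun _ : ι => (univ : Finset (Fin M)))
    (fun i b => propStep p (z i) b)
  rw [Fintype.piFinset_univ] at h
  unfold prop
  rw [← h]
  exact Finset.prod_le_one (fun i _ => Finset.sum_nonneg fun b _ => q_propStep_nonneg h0 h1 _ _)
    fun i _ => q_propStep_sum_le h0 h1 _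

theorem q_gridP_mem {p : ℝ} (h0 : 0 ≤ p) (h1 : p ≤ 1 / 2) {w : (ι → Fin M) → ℝ}
    (hw : ∀ z, 0 < w z) : gridP p w ∈ Matrix.rowStochastic ℝ (ι → Fin M) := by
  have hq0 : ∀ z z' : ι → Fin M, 0 ≤ (1 / 2) * prop p z z' * min 1 (w z' / w z) := by
    intro z z'
    have h2 := q_prop_nonneg h0 h1 z z'
    have h3 : 0 ≤ min 1 (w z' / w z) := le_min zero_le_one (div_pos (hw z') (hw z)).le
    positivity
  have hq1 : ∀ z z' : ι → Fin M,
      (1 / 2) * prop p z z' * min 1 (w z' / w z) ≤ (1 / 2) * prop p z z' := by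
    intro z z'
    have h2 := q_prop_nonneg h0 h1 z z'
    have h3 : min 1 (w z' / w z) ≤ 1 := min_le_left _ _
    have h4 : 0 ≤ (1 / 2) * prop p z z' := by positivity
    nlinarith
  have hdiag : ∀ z : ι → Fin M,
      ∑ z'' ∈ univ.erase z, (1 / 2) * prop p z z'' * min 1 (w z'' / w z) ≤ 1 / 2 := by
    intro z
    have h2 : ∑ z'' ∈ univ.erase z, (1 / 2) * prop p z z'' * min 1 (w z'' / w z)
        ≤ ∑ z'' ∈ univ.erase z, (1 / 2) * prop p z z'' :=
      Finset.sum_le_sum fun z'' _ => hq1 z z''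
    have h3 : ∑ z'' ∈ univ.erase z, (1 / 2) * prop p z z'' ≤ ∑ z'', (1 / 2) * prop p z z'' :=
      Finset.sum_le_sum_of_subset_of_nonneg (Finset.erase_subset _ _) fun z'' _ _ => by
        have := q_prop_nonneg h0 h1 z z''
        positivity
    have h4 : ∑ z'', (1 / 2) * prop p z z'' = (1 / 2) * ∑ z'', prop p z z'' := by
      rw [Finset.mul_sum]
    have h5 := q_prop_sum_le h0 h1 z
    linarith
  rw [Matrix.mem_rowStochastic_iff_sum]
  refine ⟨?_, ?_⟩
  · intro z z'
    unfold gridP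
    split_ifs with h
    · have := hdiag z
      linarith
    · exact hq0 z z'
  · intro z
    rw [← Finset.add_sum_erase univ _ (mem_univ z)]
    have h2 : ∑ z' ∈ univ.erase z, gridP p w z z'
        = ∑ z'' ∈ univ.erase z, (1 / 2) * prop p z z'' * min 1 (w z'' / w z) := by
      refine Finset.sum_congr rfl fun z' hz' => ?_
      unfold gridP
      rw [if_neg (Finset.ne_of_mem_erase hz').symm]
    rw [h2]
    unfold gridP
    rw [if_pos rfl]
    ring

end Grid

section Chain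

variable {m n : ℕ}

theorem q_step_ok (m n : ℕ) : (0 : ℝ) ≤ 1 / (4 * ((n : ℝ) * m)) ∧ 1 / (4 * ((n : ℝ) * m)) ≤ 1 / 2 := by
  constructor
  · positivity
  · rcases Nat.eq_zero_or_pos (n * m) with h | h
    · have h2 : (n : ℝ) * m = 0 := by exact_mod_cast h
      rw [h2]
      norm_num
    · have h2 : (1 : ℝ) ≤ (n : ℝ) * m := by exact_mod_cast h
      refine one_div_le_one_div_of_le (by norm_num) ?_
      linarith

theorem q_chain_mem (W Nb : ℕ) (i0 : Fin m) (j0 : Fin n) (r : Fin m → ℕ) (c : Fin n → ℕ) (a : ℝ) :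
    (gridP (1 / (4 * ((n : ℝ) * m))) (fun z' => Real.exp (-a * psiCell W Nb i0 j0 r c z'))
      ^ chainT W) ∈ Matrix.rowStochastic ℝ (Fin n × Fin m → Fin (cellM W)) :=
  pow_mem (q_gridP_mem (q_step_ok m n).1 (q_step_ok m n).2 fun _ => Real.exp_pos _) _

theorem q_chainLaw_nonneg (W Nb : ℕ) (i0 : Fin m) (j0 : Fin n) (r : Fin m → ℕ) (c : Fin n → ℕ) (a : ℝ)
    (z : Fin n × Fin m → Fin (cellM W)) : 0 ≤ chainLaw W Nb i0 j0 r c a z :=
  (Matrix.mem_rowStochastic_iff_sum.1 (q_chain_mem W Nb i0 j0 r c a)).1 _ _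

theorem q_chainLaw_sum (W Nb : ℕ) (i0 : Fin m) (j0 : Fin n) (r : Fin m → ℕ) (c : Fin n → ℕ) (a : ℝ) :
    ∑ z, chainLaw W Nb i0 j0 r c a z = 1 :=
  (Matrix.mem_rowStochastic_iff_sum.1 (q_chain_mem W Nb i0 j0 r c a)).2 _

end Chain

end Vale.Agent.Lib.P328.Samp
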