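import Mathlib

/-!
# P328: annealing on a finite set (finite probability, Chernoff by hand)
-/

namespace Vale.Agent.Lib.P328.Samp

open Finset

section AnnealCore

theorem sum_prod_fun {Y : Type} [Fintype Y] {n : ℕ} (F : Fin n → Y → ℝ) :
    ∑ ν : Fin n → Y, ∏ s, F s (ν s) = ∏ s, ∑ z, F s z := by
  have := Finset.prod_univ_sum (fun _ : Fin n => (Finset.univ : Finset Y)) F
  rw [this, Fintype.piFinset_univ]

variable {Z : Type} [Fintype Z]

theorem mgf_bound {ℓ X : Z → ℝ} (h0 : ∀ z, 0 ≤ ℓ z) (h1 : ∑ z, ℓ z = 1) {m θ : ℝ}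
    (hm : m = ∑ z, ℓ z * X z) (hX : ∀ z, |X z - m| ≤ 2) (hθ : |θ| ≤ 1 / 2) :
    ∑ z, ℓ z * Real.exp (θ * (X z - m)) ≤ Real.exp (4 * θ ^ 2) := by
  have hpt : ∀ z ∈ (univ : Finset Z), ℓ z * Real.exp (θ * (X z - m))
      ≤ ℓ z * (1 + θ * (X z - m) + 4 * θ ^ 2) := by
    intro z _
    refine mul_le_mul_of_nonneg_left ?_ (h0 z)
    set y := θ * (X z - m) with hy
    have hy1 : |y| ≤ |θ| * 2 := by
      rw [hy, abs_mul]
      exact mul_le_mul_of_nonneg_left (hX z) (abs_nonneg _)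
    have hy2 : |y| ≤ 1 := by linarith
    have hy3 := Real.abs_exp_sub_one_sub_id_le hy2
    have hy4 : y ^ 2 ≤ 4 * θ ^ 2 := by
      have : y ^ 2 ≤ (|θ| * 2) ^ 2 := by
        rw [← sq_abs y]
        exact pow_le_pow_left₀ (abs_nonneg _) hy1 2
      have e : (|θ| * 2) ^ 2 = 4 * θ ^ 2 := by
        rw [mul_pow, sq_abs]
        ring
      linarith
    have := (abs_le.mp hy3).2
    linarith
  have hsum : ∑ z, ℓ z * (1 + θ * (X z - m) + 4 * θ ^ 2) = 1 + 4 * θ ^ 2 := by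
    have h2 : ∀ z ∈ (univ : Finset Z), ℓ z * (1 + θ * (X z - m) + 4 * θ ^ 2)
        = ℓ z * (1 - θ * m + 4 * θ ^ 2) + θ * (ℓ z * X z) := by
      intro z _
      ring
    rw [sum_congr rfl h2, sum_add_distrib, ← sum_mul, ← mul_sum, h1, ← hm]
    ring
  calc ∑ z, ℓ z * Real.exp (θ * (X z - m))
      ≤ ∑ z, ℓ z * (1 + θ * (X z - m) + 4 * θ ^ 2) := sum_le_sum hpt
    _ = 1 + 4 * θ ^ 2 := hsum
    _ ≤ Real.exp (4 * θ ^ 2) := by linarith [Real.add_one_le_exp (4 * θ ^ 2)]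

/-- One tail of the Chernoff bound. -/
theorem tail_one {S : ℕ} (hS : 0 < S) {ℓ X : Z → ℝ} (h0 : ∀ z, 0 ≤ ℓ z) (h1 : ∑ z, ℓ z = 1) {m : ℝ}
    (hm : m = ∑ z, ℓ z * X z) (hX : ∀ z, |X z - m| ≤ 2) {ξ : ℝ} (hξ : 0 < ξ) (hξ4 : ξ ≤ 4) {σ : ℝ}
    (hσ : |σ| = 1) :
    ∑ ν : Fin S → Z, (∏ s, ℓ (ν s)) *
        (if ξ < σ * ((S : ℝ)⁻¹ * ∑ s, X (ν s) - m) then (1 : ℝ) else 0)
      ≤ Real.exp (-((S : ℝ) * ξ ^ 2 / 16)) := by
  have hSpos : (0 : ℝ) < S := by exact_mod_cast hS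
  set θ := σ * (ξ / 8) with hθdef
  have hθabs : |θ| = ξ / 8 := by
    rw [hθdef, abs_mul, hσ, one_mul, abs_of_pos (by positivity)]
  have hθ : |θ| ≤ 1 / 2 := by
    rw [hθabs]
    linarith
  have hθ2 : θ ^ 2 = ξ ^ 2 / 64 := by
    rw [hθdef, mul_pow, ← sq_abs σ, hσ]
    ring
  have hone := mgf_bound h0 h1 hm hX hθ
  have hpt : ∀ ν ∈ (univ : Finset (Fin S → Z)),
      (∏ s, ℓ (ν s)) * (if ξ < σ * ((S : ℝ)⁻¹ * ∑ s, X (ν s) - m) then (1 : ℝ) else 0)
        ≤ (∏ s, (ℓ (ν s) * Real.exp (θ * (X (ν s) - m)))) * Real.exp (-((S : ℝ) * ξ ^ 2 / 8)) := by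
    intro ν _
    have hw : 0 ≤ ∏ s, ℓ (ν s) := prod_nonneg fun s _ => h0 _
    rw [prod_mul_distrib, mul_assoc]
    refine mul_le_mul_of_nonneg_left ?_ hw
    rw [← Real.exp_sum, ← Real.exp_add]
    split_ifs with h
    · apply Real.one_le_exp
      have e1 : ∑ s : Fin S, θ * (X (ν s) - m) = θ * (∑ s, X (ν s) - S * m) := by
        rw [← mul_sum, sum_sub_distrib]
        simp
      have e2 : σ * (∑ s, X (ν s) - S * m) = S * (σ * ((S : ℝ)⁻¹ * ∑ s, X (ν s) - m)) := by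
        field_simp
      have e3 : θ * (∑ s, X (ν s) - S * m) = (ξ / 8) * (σ * (∑ s, X (ν s) - S * m)) := by
        rw [hθdef]
        ring
      rw [e1, e3, e2]
      have h2 : (S : ℝ) * ξ < S * (σ * ((S : ℝ)⁻¹ * ∑ s, X (ν s) - m)) :=
        mul_lt_mul_of_pos_left h hSpos
      have h3 := mul_le_mul_of_nonneg_left h2.le (by positivity : (0 : ℝ) ≤ ξ / 8)
      have e4 : ξ / 8 * ((S : ℝ) * ξ) = (S : ℝ) * ξ ^ 2 / 8 := by ring
      linarith
    · exact (Real.exp_pos _).le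
  calc ∑ ν : Fin S → Z, (∏ s, ℓ (ν s)) *
        (if ξ < σ * ((S : ℝ)⁻¹ * ∑ s, X (ν s) - m) then (1 : ℝ) else 0)
      ≤ ∑ ν : Fin S → Z, (∏ s, (ℓ (ν s) * Real.exp (θ * (X (ν s) - m))))
          * Real.exp (-((S : ℝ) * ξ ^ 2 / 8)) := sum_le_sum hpt
    _ = (∏ _s : Fin S, ∑ z, ℓ z * Real.exp (θ * (X z - m))) * Real.exp (-((S : ℝ) * ξ ^ 2 / 8)) := by
        rw [← sum_mul, sum_prod_fun (fun _ z => ℓ z * Real.exp (θ * (X z - m)))]
    _ ≤ (∏ _s : Fin S, Real.exp (4 * θ ^ 2)) * Real.exp (-((S : ℝ) * ξ ^ 2 / 8)) := by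
        refine mul_le_mul_of_nonneg_right ?_ (Real.exp_pos _).le
        refine prod_le_prod (fun _ _ => ?_) (fun _ _ => hone)
        exact sum_nonneg fun z _ => mul_nonneg (h0 z) (Real.exp_pos _).le
    _ = Real.exp (-((S : ℝ) * ξ ^ 2 / 16)) := by
        rw [prod_const, card_univ, Fintype.card_fin, ← Real.exp_nat_mul, ← Real.exp_add, hθ2]
        congr 1
        ring

/-- Both tails of the Chernoff bound. -/
theorem tail_two {S : ℕ} (hS : 0 < S) {ℓ X : Z → ℝ} (h0 : ∀ z, 0 ≤ ℓ z) (h1 : ∑ z, ℓ z = 1) {m : ℝ}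
    (hm : m = ∑ z, ℓ z * X z) (hX : ∀ z, |X z - m| ≤ 2) {ξ : ℝ} (hξ : 0 < ξ) (hξ4 : ξ ≤ 4) :
    ∑ ν : Fin S → Z, (∏ s, ℓ (ν s)) *
        (if ξ < |(S : ℝ)⁻¹ * ∑ s, X (ν s) - m| then (1 : ℝ) else 0)
      ≤ 2 * Real.exp (-((S : ℝ) * ξ ^ 2 / 16)) := by
  have h2 := tail_one hS h0 h1 hm hX hξ hξ4 (σ := 1) (by simp)
  have h3 := tail_one hS h0 h1 hm hX hξ hξ4 (σ := -1) (by simp)
  have key : ∑ ν : Fin S → Z, (∏ s, ℓ (ν s)) *
        (if ξ < |(S : ℝ)⁻¹ * ∑ s, X (ν s) - m| then (1 : ℝ) else 0)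
      ≤ ∑ ν : Fin S → Z, (∏ s, ℓ (ν s)) *
        (if ξ < 1 * ((S : ℝ)⁻¹ * ∑ s, X (ν s) - m) then (1 : ℝ) else 0)
      + ∑ ν : Fin S → Z, (∏ s, ℓ (ν s)) *
        (if ξ < -1 * ((S : ℝ)⁻¹ * ∑ s, X (ν s) - m) then (1 : ℝ) else 0) := by
    rw [← sum_add_distrib]
    refine sum_le_sum fun ν _ => ?_
    have hw : 0 ≤ ∏ s, ℓ (ν s) := prod_nonneg fun s _ => h0 _
    rw [← mul_add]
    refine mul_le_mul_of_nonneg_left ?_ hw
    set a := (S : ℝ)⁻¹ * ∑ s, X (ν s) - m with ha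
    by_cases hc : ξ < |a|
    · rw [if_pos hc]
      rcases lt_abs.1 hc with hc1 | hc1
      · rw [if_pos (by linarith : ξ < 1 * a)]
        split_ifs <;> norm_num
      · rw [if_pos (by linarith : ξ < -1 * a)]
        split_ifs <;> norm_num
    · rw [if_neg hc]
      split_ifs <;> norm_num
  linarith

/-- The marginal of a coordinate block of the product law. -/
theorem marginal_block {K S : ℕ} (L : Fin K → Z → ℝ) (hL1 : ∀ k, ∑ z, L k z = 1) (k0 : Fin K)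
    (φ : (Fin S → Z) → ℝ) :
    ∑ ω : Fin K → Fin S → Z, (∏ k, ∏ s, L k (ω k s)) * φ (ω k0)
      = ∑ ν : Fin S → Z, (∏ s, L k0 (ν s)) * φ ν := by
  classical
  have e1 : ∀ ω : Fin K → Fin S → Z, (∏ k, ∏ s, L k (ω k s)) * φ (ω k0)
      = ∏ k, ((∏ s, L k (ω k s)) * (if k = k0 then φ (ω k) else 1)) := by
    intro ω
    rw [prod_mul_distrib, prod_ite_eq' univ k0 (fun k => φ (ω k))]
    simp
  simp_rw [e1]
  have := sum_prod_fun (Y := Fin S → Z) (n := K)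
    (fun k ν => (∏ s, L k (ν s)) * (if k = k0 then φ ν else 1))
  rw [this, prod_eq_single k0]
  · simp
  · intro k _ hk
    simp only [if_neg hk, mul_one]
    rw [sum_prod_fun (fun _ z => L k z)]
    simp [hL1 k]
  · simp

theorem sum_block_one {K S : ℕ} (L : Fin K → Z → ℝ) (hL1 : ∀ k, ∑ z, L k z = 1) :
    ∑ ω : Fin K → Fin S → Z, ∏ k, ∏ s, L k (ω k s) = 1 := by
  rw [sum_prod_fun (Y := Fin S → Z) (n := K) (fun k ν => ∏ s, L k (ν s))]
  refine prod_eq_one fun k _ => ?_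
  rw [sum_prod_fun (fun _ z => L k z)]
  simp [hL1 k]

/-- A product of ratios close to one. -/
theorem prod_ratio_close {K : ℕ} (hK : 0 < K) (a : Fin K → ℝ) {x : ℝ} (hx0 : 0 ≤ x)
    (h : ∀ k, |a k - 1| ≤ x) (hKx : (K : ℝ) * x ≤ 1 / 2) :
    |∏ k, a k - 1| ≤ 2 * ((K : ℝ) * x) := by
  have hK1 : (1 : ℝ) ≤ K := by exact_mod_cast hK
  have hx1 : x ≤ 1 / 2 := by nlinarith
  have hup : ∏ k, a k ≤ (1 + x) ^ K := by
    have : ∏ k : Fin K, a k ≤ ∏ _k : Fin K, (1 + x) := by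
      refine prod_le_prod (fun k _ => ?_) (fun k _ => ?_)
      · have := (abs_le.mp (h k)).1
        linarith
      · have := (abs_le.mp (h k)).2
        linarith
    simpa using this
  have hlo : (1 - x) ^ K ≤ ∏ k, a k := by
    have : ∏ _k : Fin K, (1 - x) ≤ ∏ k : Fin K, a k := by
      refine prod_le_prod (fun k _ => by linarith) (fun k _ => ?_)
      have := (abs_le.mp (h k)).1
      linarith
    simpa using this
  have hb : 1 + (K : ℝ) * (-x) ≤ (1 + -x) ^ K :=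
    one_add_mul_le_pow (by linarith) K
  have he : (1 + x) ^ K ≤ 1 + 2 * ((K : ℝ) * x) := by
    have h1 : (1 + x) ^ K ≤ (Real.exp x) ^ K :=
      pow_le_pow_left₀ (by linarith) (by linarith [Real.add_one_le_exp x]) K
    rw [← Real.exp_nat_mul] at h1
    set y := (K : ℝ) * x with hy
    have hy0 : 0 ≤ y := by positivity
    have hy1 : |y| ≤ 1 := by
      rw [abs_of_nonneg hy0]
      linarith
    have h2 := (abs_le.mp (Real.abs_exp_sub_one_sub_id_le hy1)).2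
    nlinarith
  rw [abs_le]
  constructor
  · have e : (1 + -x) = 1 - x := by ring
    rw [e] at hb
    nlinarith
  · linarith

theorem exp_half_bounds {u : ℝ} (hu : |u| ≤ 1 / 2) : 1 / 2 ≤ Real.exp u ∧ Real.exp u ≤ 2 := by
  have hh : Real.exp (1 / 2) ≤ 2 := by
    have h1 : Real.exp (1 / 2) * Real.exp (1 / 2) = Real.exp 1 := by
      rw [← Real.exp_add]
      norm_num
    have h2 := Real.exp_one_lt_d9
    have h3 := Real.exp_pos (1 / 2)
    nlinarith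
  have h1 := abs_le.mp hu
  constructor
  · have h2 : Real.exp (-(1 / 2)) ≤ Real.exp u := Real.exp_le_exp.2 h1.1
    have h3 : 1 / 2 ≤ Real.exp (-(1 / 2)) := by
      rw [Real.exp_neg]
      have h4 := Real.exp_pos (1 / 2)
      rw [le_inv_comm₀ (by norm_num) h4]
      linarith
    linarith
  · exact (Real.exp_le_exp.2 h1.2).trans hh

/-- **Annealing on a finite set.** -/
theorem anneal_generic_core {Z : Type} [Fintype Z] [Nonempty Z] {g : Z → ℝ} {G : ℝ}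
    (hg : ∀ z, |g z| ≤ G) {K S : ℕ} (hK0 : 0 < K) (hK : 2 * G ≤ K) (hS : 0 < S) {L : Fin K → Z → ℝ}
    (hL0 : ∀ k z, 0 ≤ L k z) (hL1 : ∀ k, ∑ z, L k z = 1) {τ ξ ε δ : ℝ} (hτ0 : 0 ≤ τ) (hξ0 : 0 < ξ)
    (hL : ∀ k : Fin K, ∑ z, |L k z - Real.exp (-(((k : ℕ) : ℝ) / K) * g z)
        / ∑ z', Real.exp (-(((k : ℕ) : ℝ) / K) * g z')| ≤ τ)
    (hε : (K : ℝ) * (4 * (ξ + 2 * τ)) ≤ ε / 2) (hε1 : ε ≤ 1)
    (hδ : 2 * (K : ℝ) * Real.exp (-((S : ℝ) * ξ ^ 2 / 16)) ≤ δ) :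
    1 - δ ≤ ∑ ω : Fin K → Fin S → Z, (∏ k, ∏ s, L k (ω k s))
      * if |(Fintype.card Z : ℝ) * ∏ k, ((S : ℝ)⁻¹ * ∑ s, Real.exp (-(g (ω k s)) / K))
            - ∑ z, Real.exp (-(g z))| ≤ ε * ∑ z, Real.exp (-(g z)) then 1 else 0 := by
  classical
  have hKpos : (0 : ℝ) < K := by exact_mod_cast hK0
  have hK1 : (1 : ℝ) ≤ K := by exact_mod_cast hK0
  -- the ratio variable
  set X : Z → ℝ := fun z => Real.exp (-(g z) / K) with hXdef
  have hXb : ∀ z, 1 / 2 ≤ X z ∧ X z ≤ 2 := by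
    intro z
    apply exp_half_bounds
    rw [abs_div, abs_neg, abs_of_pos hKpos, div_le_iff₀ hKpos]
    have := hg z
    linarith
  -- the partition functions
  set Zk : ℕ → ℝ := fun k => ∑ z, Real.exp (-((k : ℝ) / K) * g z) with hZk
  have hZpos : ∀ k, 0 < Zk k := fun k =>
    sum_pos (fun z _ => Real.exp_pos _) univ_nonempty
  set T := ∑ z, Real.exp (-(g z)) with hT
  have hTpos : 0 < T := sum_pos (fun z _ => Real.exp_pos _) univ_nonempty
  have hZ0 : Zk 0 = (Fintype.card Z : ℝ) := by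
    simp [hZk, card_univ]
  have hZK : Zk K = T := by
    simp only [hZk, hT]
    refine sum_congr rfl fun z _ => ?_
    rw [div_self hKpos.ne']
    congr 1
    ring
  -- the ratios
  set R : Fin K → ℝ := fun k => Zk ((k : ℕ) + 1) / Zk k with hR
  have hRprod : (Fintype.card Z : ℝ) * ∏ k, R k = T := by
    have h1 : ∏ k : Fin K, R k = ∏ k ∈ range K, (Zk (k + 1) / Zk k) :=
      Fin.prod_univ_eq_prod_range (fun k => Zk (k + 1) / Zk k) K
    have h2 : ∀ n : ℕ, ∏ k ∈ range n, (Zk (k + 1) / Zk k) = Zk n / Zk 0 := by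
      intro n
      induction n with
      | zero =>
        rw [prod_range_zero, div_self (hZpos 0).ne']
      | succ n ih =>
        rw [prod_range_succ, ih]
        have h3 := (hZpos n).ne'
        have h4 := (hZpos 0).ne'
        field_simp
    rw [h1, h2 K, ← hZ0, ← hZK]
    have := (hZpos 0).ne'
    field_simp
  -- the annealing laws
  set π : Fin K → Z → ℝ := fun k z => Real.exp (-(((k : ℕ) : ℝ) / K) * g z) / Zk k with hπ
  have hπ0 : ∀ k z, 0 ≤ π k z := fun k z => div_nonneg (Real.exp_pos _).le (hZpos _).le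
  have hπ1 : ∀ k, ∑ z, π k z = 1 := by
    intro k
    simp only [hπ]
    rw [← sum_div]
    exact div_self (hZpos _).ne'
  have hRsum : ∀ k : Fin K, R k = ∑ z, π k z * X z := by
    intro k
    simp only [hR, hπ, hXdef]
    have e0 : ∀ z, Real.exp (-(((k : ℕ) : ℝ) / K) * g z) / Zk k * Real.exp (-(g z) / K)
        = Real.exp (-((((k : ℕ) + 1 : ℕ) : ℝ) / K) * g z) / Zk k := by
      intro z
      rw [div_mul_eq_mul_div, ← Real.exp_add]
      congr 2
      push_cast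
      field_simp
      ring
    simp_rw [e0]
    rw [← sum_div]
  have hRb : ∀ k, 1 / 2 ≤ R k := by
    intro k
    rw [hRsum k]
    calc (1 / 2 : ℝ) = ∑ z, π k z * (1 / 2) := by
          rw [← sum_mul, hπ1 k]
          ring
      _ ≤ _ := sum_le_sum fun z _ => mul_le_mul_of_nonneg_left (hXb z).1 (hπ0 k z)
  -- the means under the laws `L`
  set m : Fin K → ℝ := fun k => ∑ z, L k z * X z with hm
  have hmb : ∀ k, 1 / 2 ≤ m k ∧ m k ≤ 2 := by
    intro k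
    constructor
    · calc (1 / 2 : ℝ) = ∑ z, L k z * (1 / 2) := by
            rw [← sum_mul, hL1 k]
            ring
        _ ≤ _ := sum_le_sum fun z _ => mul_le_mul_of_nonneg_left (hXb z).1 (hL0 k z)
    · calc m k ≤ ∑ z, L k z * 2 := sum_le_sum fun z _ => mul_le_mul_of_nonneg_left (hXb z).2 (hL0 k z)
        _ = 2 := by
            rw [← sum_mul, hL1 k]
            ring
  have hmR : ∀ k, |m k - R k| ≤ 2 * τ := by
    intro k
    rw [hRsum k]
    simp only [hm]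
    rw [← sum_sub_distrib]
    calc |∑ z, (L k z * X z - π k z * X z)| ≤ ∑ z, |L k z * X z - π k z * X z| :=
          abs_sum_le_sum_abs _ _
      _ ≤ ∑ z, |L k z - π k z| * 2 := by
          refine sum_le_sum fun z _ => ?_
          rw [← sub_mul, abs_mul, abs_of_nonneg (by linarith [(hXb z).1] : (0 : ℝ) ≤ X z)]
          exact mul_le_mul_of_nonneg_left (hXb z).2 (abs_nonneg _)
      _ = 2 * ∑ z, |L k z - π k z| := by
          rw [← sum_mul]
          ring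
      _ ≤ 2 * τ := by
          have := hL k
          exact mul_le_mul_of_nonneg_left this (by norm_num)
  have hx0 : 0 ≤ 4 * (ξ + 2 * τ) := by positivity
  have hx1 : 4 * (ξ + 2 * τ) ≤ 1 / 2 := by
    have h1 : 4 * (ξ + 2 * τ) ≤ (K : ℝ) * (4 * (ξ + 2 * τ)) :=
      le_mul_of_one_le_left hx0 hK1
    linarith
  have hξ4 : ξ ≤ 4 := by linarith
  -- the bad events
  have hblock : ∀ k : Fin K, ∑ ω : Fin K → Fin S → Z, (∏ k, ∏ s, L k (ω k s)) *
      (if ξ < |(S : ℝ)⁻¹ * ∑ s, X (ω k s) - m k| then (1 : ℝ) else 0)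
        ≤ 2 * Real.exp (-((S : ℝ) * ξ ^ 2 / 16)) := by
    intro k
    rw [marginal_block L hL1 k (fun ν : Fin S → Z =>
      if ξ < |(S : ℝ)⁻¹ * ∑ s, X (ν s) - m k| then (1 : ℝ) else 0)]
    refine tail_two hS (hL0 k) (hL1 k) rfl (fun z => ?_) hξ0 hξ4
    rw [abs_le]
    have h1 := hXb z
    have h2 := hmb k
    constructor <;> linarith [h1.1, h1.2, h2.1, h2.2]
  -- the deterministic part
  have hdet : ∀ ω : Fin K → Fin S → Z,
      (∀ k, |(S : ℝ)⁻¹ * ∑ s, X (ω k s) - m k| ≤ ξ) →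
      |(Fintype.card Z : ℝ) * ∏ k, ((S : ℝ)⁻¹ * ∑ s, X (ω k s)) - T| ≤ ε * T := by
    intro ω hω
    set A : Fin K → ℝ := fun k => (S : ℝ)⁻¹ * ∑ s, X (ω k s) with hA
    have hRpos : ∀ k, 0 < R k := fun k => by linarith [hRb k]
    have hratio : ∀ k, |A k / R k - 1| ≤ 4 * (ξ + 2 * τ) := by
      intro k
      have e : A k / R k - 1 = (A k - R k) / R k := by
        have := (hRpos k).ne'
        field_simp
      rw [e, abs_div, abs_of_pos (hRpos k), div_le_iff₀ (hRpos k)]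
      have h1 : |A k - R k| ≤ ξ + 2 * τ := by
        have e2 : A k - R k = (A k - m k) + (m k - R k) := by ring
        rw [e2]
        exact (abs_add_le _ _).trans (add_le_add (hω k) (hmR k))
      have h2 := hRb k
      have h3 : 0 ≤ ξ + 2 * τ := by positivity
      nlinarith
    have hP := prod_ratio_close hK0 (fun k => A k / R k) hx0 hratio (by linarith)
    have hsplit : ∏ k, A k = (∏ k, R k) * ∏ k, (A k / R k) := by
      rw [← prod_mul_distrib]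
      refine prod_congr rfl fun k _ => ?_
      have := (hRpos k).ne'
      field_simp
    have e3 : (Fintype.card Z : ℝ) * ∏ k, A k - T = T * (∏ k, (A k / R k) - 1) := by
      rw [hsplit, ← mul_assoc, hRprod]
      ring
    rw [e3, abs_mul, abs_of_pos hTpos, mul_comm]
    refine mul_le_mul_of_nonneg_right ?_ hTpos.le
    linarith
  -- the union bound
  have hW : ∀ ω : Fin K → Fin S → Z, 0 ≤ ∏ k, ∏ s, L k (ω k s) :=
    fun ω => prod_nonneg fun k _ => prod_nonneg fun s _ => hL0 k _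
  have hpt : ∀ ω : Fin K → Fin S → Z, (∏ k, ∏ s, L k (ω k s))
        - ∑ k, ((∏ k, ∏ s, L k (ω k s)) *
          (if ξ < |(S : ℝ)⁻¹ * ∑ s, X (ω k s) - m k| then (1 : ℝ) else 0))
      ≤ (∏ k, ∏ s, L k (ω k s))
        * if |(Fintype.card Z : ℝ) * ∏ k, ((S : ℝ)⁻¹ * ∑ s, X (ω k s)) - T| ≤ ε * T then 1 else 0 := by
    intro ω
    by_cases hg1 : ∀ k, |(S : ℝ)⁻¹ * ∑ s, X (ω k s) - m k| ≤ ξ
    · rw [if_pos (hdet ω hg1), mul_one]
      have : 0 ≤ ∑ k, ((∏ k, ∏ s, L k (ω k s)) *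
          (if ξ < |(S : ℝ)⁻¹ * ∑ s, X (ω k s) - m k| then (1 : ℝ) else 0)) :=
        sum_nonneg fun k _ => mul_nonneg (hW ω) (by split_ifs <;> norm_num)
      linarith
    · push Not at hg1
      obtain ⟨k0, hk0⟩ := hg1
      have h1 : (∏ k, ∏ s, L k (ω k s)) ≤ ∑ k, ((∏ k, ∏ s, L k (ω k s)) *
          (if ξ < |(S : ℝ)⁻¹ * ∑ s, X (ω k s) - m k| then (1 : ℝ) else 0)) := by
        have h2 := single_le_sum (f := fun k => (∏ k, ∏ s, L k (ω k s)) *
          (if ξ < |(S : ℝ)⁻¹ * ∑ s, X (ω k s) - m k| then (1 : ℝ) else 0))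
          (fun k _ => mul_nonneg (hW ω) (by split_ifs <;> norm_num)) (mem_univ k0)
        simp only [if_pos hk0, mul_one] at h2
        exact h2
      have h3 : 0 ≤ (∏ k, ∏ s, L k (ω k s))
        * if |(Fintype.card Z : ℝ) * ∏ k, ((S : ℝ)⁻¹ * ∑ s, X (ω k s)) - T| ≤ ε * T then (1 : ℝ) else 0 :=
        mul_nonneg (hW ω) (by split_ifs <;> norm_num)
      linarith
  calc 1 - δ ≤ 1 - ∑ _k : Fin K, (2 * Real.exp (-((S : ℝ) * ξ ^ 2 / 16))) := by
        rw [sum_const, card_univ, Fintype.card_fin, nsmul_eq_mul]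
        linarith
    _ ≤ ∑ ω : Fin K → Fin S → Z, (∏ k, ∏ s, L k (ω k s))
          - ∑ k : Fin K, ∑ ω : Fin K → Fin S → Z, (∏ k, ∏ s, L k (ω k s)) *
            (if ξ < |(S : ℝ)⁻¹ * ∑ s, X (ω k s) - m k| then (1 : ℝ) else 0) := by
        rw [sum_block_one L hL1]
        have := sum_le_sum (s := (univ : Finset (Fin K))) (fun k _ => hblock k)
        linarith
    _ = ∑ ω : Fin K → Fin S → Z, ((∏ k, ∏ s, L k (ω k s))
          - ∑ k, ((∏ k, ∏ s, L k (ω k s)) *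
          (if ξ < |(S : ℝ)⁻¹ * ∑ s, X (ω k s) - m k| then (1 : ℝ) else 0))) := by
        rw [sum_sub_distrib, sum_comm]
    _ ≤ _ := sum_le_sum fun ω _ => hpt ω

end AnnealCore

end Vale.Agent.Lib.P328.Samp
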