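import Vale.Agent.Lib.P328.Samp.Law
import Vale.Agent.Lib.P328.Samp.AnnealCore

/-!
# P328, explicit algorithm: the estimate at the root (module A)

Generic part `anneal_generic`. `Z` finite, `g : Z → ℝ`, `|g| ≤ G`, `2 G ≤ K`. `a_k = k / K`, `Z_k = Σ_z exp (-a_k g z)`, `π_k = exp (-a_k g) / Z_k`, `X = exp (-g / K) ∈ [1/2, 2]`.
`E_{π_k} X = Z_{k+1} / Z_k =: R_k`, `R_k ≥ 1/2`, and `Z_0 = card Z`, `Z_K = Σ exp (-g)`, so `card Z ∏ R_k = Σ exp (-g)`.
`L k` are laws on `Z` with `Σ_z |L k z - π_k z| ≤ τ`. So `m_k = E_{L k} X` has `|m_k - R_k| ≤ 2 τ`. Average `A_k` of `S` independent samples from `L k`: for `|θ| ≤ 1/2`: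
`E exp (θ (X - m)) ≤ 1 + 4 θ² ·(…)`: use `exp x ≤ 1 + x + x²` for `|x| ≤ 1`, `|X - m| ≤ 2`: `≤ 1 + 4 θ² ≤ exp (4 θ²)`. Markov with `θ = ξ / 8`: `P (|A_k - m_k| ≥ ξ) ≤ 2 exp (-S ξ² / 16)`. Sum over `k < K` (union bound over the finite product law, as in `Fpras/Est`).
On the good event `|A_k - R_k| ≤ ξ + 2 τ`, so `A_k / R_k ∈ [1 - 4 (ξ + 2τ), 1 + 4 (ξ + 2τ)]`, and if `K * 4 (ξ + 2τ) ≤ ε / 2 ≤ 1/2` the product is in `[1 - ε, 1 + ε]` (`(1 + x)^K ≤ exp (K x) ≤ 1 + 2 K x`, `(1 - x)^K ≥ 1 - K x`).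

Instance `annealEst_close`. `g = psiCell`, `G = W^32 + 1`, `K = annealK W = W^34`, `τ = exp (-W)` by `chain_tv` (`a_k ≤ 1`). `ε' = ε / 8 ≥ 1 / (8 W)`, `ξ = ε' / (32 K)`, `S = annealS W δ ≥ W^74 (log (4/δ) + W)`, so `2 K exp (-S ξ² / 16) ≤ δ`. Then `annealEst ω = (betaC c / ∏ r!) (detT exp (-phiMin) δ^D) annealSum ω`,
`annealSum ≈ Σ exp (-psiCell)` up to `ε / 8`, and `sum_close`; `Aval r c = betaC c * (∫⁻ wmat capa).toReal / ∏ r!` by the definitions of `Ihat`, `wmat`. Total error `≤ ε / 4`.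
-/

namespace Vale.Agent.Lib.P328.Samp

open Finset MeasureTheory Vale.Agent.Lib.P328.Cap Vale.Agent.Lib.P328.Fpras
open scoped ENNReal

variable {m n : ℕ} {i0 : Fin m} {j0 : Fin n} {r : Fin m → ℕ} {c : Fin n → ℕ}

/-- **Annealing on a finite set.** -/
theorem anneal_generic {Z : Type} [Fintype Z] [Nonempty Z] [DecidableEq Z] {g : Z → ℝ} {G : ℝ}
    (hg : ∀ z, |g z| ≤ G) {K S : ℕ} (hK0 : 0 < K) (hK : 2 * G ≤ K) (hS : 0 < S) {L : Fin K → Z → ℝ}
    (hL0 : ∀ k z, 0 ≤ L k z) (hL1 : ∀ k, ∑ z, L k z = 1) {τ ξ ε δ : ℝ} (hτ0 : 0 ≤ τ) (hξ0 : 0 < ξ)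
    (hL : ∀ k : Fin K, ∑ z, |L k z - Real.exp (-(((k : ℕ) : ℝ) / K) * g z)
        / ∑ z', Real.exp (-(((k : ℕ) : ℝ) / K) * g z')| ≤ τ)
    (hε : (K : ℝ) * (4 * (ξ + 2 * τ)) ≤ ε / 2) (hε1 : ε ≤ 1)
    (hδ : 2 * (K : ℝ) * Real.exp (-((S : ℝ) * ξ ^ 2 / 16)) ≤ δ) :
    1 - δ ≤ ∑ ω : Fin K → Fin S → Z, (∏ k, ∏ s, L k (ω k s))
      * if |(Fintype.card Z : ℝ) * ∏ k, ((S : ℝ)⁻¹ * ∑ s, Real.exp (-(g (ω k s)) / K))
            - ∑ z, Real.exp (-(g z))| ≤ ε * ∑ z, Real.exp (-(g z)) then 1 else 0 :=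
  anneal_generic_core hg hK0 hK hS hL0 hL1 hτ0 hξ0 hL hε hε1 hδ

/-! ### The chain is a stochastic matrix -/

theorem propStep_sum_le {p : ℝ} (hp : 0 ≤ p) (hp1 : p ≤ 1 / 2) {M : ℕ} (a : Fin M) :
    ∑ b, propStep p a b ≤ 1 := by
  have hpt : ∀ b : Fin M, propStep p a b
      ≤ (1 - 2 * p) * (if a = b then 1 else 0) + p * (if (a : ℕ) + 1 = b then 1 else 0)
        + p * (if (b : ℕ) + 1 = a then 1 else 0) := by
    intro b
    unfold propStep
    have h1 : 0 ≤ 1 - 2 * p := by linarith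
    by_cases h2 : a = b
    · subst h2
      simp
    · rw [if_neg h2, if_neg h2, mul_zero, zero_add]
      by_cases h3 : (a : ℕ) + 1 = b
      · rw [if_pos (Or.inl h3), if_pos h3]
        split_ifs <;> linarith
      · by_cases h4 : (b : ℕ) + 1 = a
        · rw [if_pos (Or.inr h4), if_pos h4]
          split_ifs <;> linarith
        · rw [if_neg (by tauto), if_neg h3, if_neg h4]
          simp
  have hone : ∀ (x : ℕ), ∑ b : Fin M, (if x = (b : ℕ) then (1 : ℝ) else 0) ≤ 1 := by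
    intro x
    by_cases hx : x < M
    · have : ∑ b : Fin M, (if x = (b : ℕ) then (1 : ℝ) else 0) = 1 := by
        rw [Finset.sum_eq_single (⟨x, hx⟩ : Fin M)]
        · simp
        · intro b _ hb
          rw [if_neg]
          intro h
          exact hb (Fin.ext h.symm)
        · simp
      exact this.le
    · have : ∑ b : Fin M, (if x = (b : ℕ) then (1 : ℝ) else 0) = 0 := by
        refine Finset.sum_eq_zero fun b _ => ?_
        rw [if_neg]
        intro h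
        exact hx (h ▸ b.2)
      rw [this]
      norm_num
  have hone2 : ∑ b : Fin M, (if (b : ℕ) + 1 = a then (1 : ℝ) else 0) ≤ 1 := by
    by_cases ha : (a : ℕ) = 0
    · have : ∑ b : Fin M, (if (b : ℕ) + 1 = a then (1 : ℝ) else 0) = 0 := by
        refine Finset.sum_eq_zero fun b _ => ?_
        rw [if_neg]
        omega
      rw [this]
      norm_num
    · have h0 := hone ((a : ℕ) - 1)
      refine le_trans (le_of_eq (Finset.sum_congr rfl fun b _ => ?_)) h0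
      have : ((b : ℕ) + 1 = a) ↔ ((a : ℕ) - 1 = b) := by omega
      simp only [this]
  have hone1 : ∑ b : Fin M, (if a = b then (1 : ℝ) else 0) ≤ 1 := by
    have : ∑ b : Fin M, (if a = b then (1 : ℝ) else 0) = 1 := by simp
    exact this.le
  calc ∑ b, propStep p a b ≤ ∑ b : Fin M, ((1 - 2 * p) * (if a = b then 1 else 0)
        + p * (if (a : ℕ) + 1 = b then 1 else 0) + p * (if (b : ℕ) + 1 = a then 1 else 0)) :=
        Finset.sum_le_sum fun b _ => hpt b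
    _ = (1 - 2 * p) * ∑ b : Fin M, (if a = b then 1 else 0)
        + p * ∑ b : Fin M, (if (a : ℕ) + 1 = b then 1 else 0)
        + p * ∑ b : Fin M, (if (b : ℕ) + 1 = a then 1 else 0) := by
        rw [Finset.sum_add_distrib, Finset.sum_add_distrib, Finset.mul_sum, Finset.mul_sum,
          Finset.mul_sum]
    _ ≤ (1 - 2 * p) * 1 + p * 1 + p * 1 := by
        have h1 : 0 ≤ 1 - 2 * p := by linarith
        exact add_le_add (add_le_add (mul_le_mul_of_nonneg_left hone1 h1)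
          (mul_le_mul_of_nonneg_left (hone _) hp)) (mul_le_mul_of_nonneg_left hone2 hp)
    _ = 1 := by ring

section GridStoch

variable {ι : Type} [Fintype ι] [DecidableEq ι]

theorem prop_sum_le {p : ℝ} (hp : 0 ≤ p) (hp1 : p ≤ 1 / 2) {M : ℕ} (z : ι → Fin M) :
    ∑ z', prop p z z' ≤ 1 := by
  unfold prop
  have h := Finset.prod_univ_sum (fun _ : ι => (Finset.univ : Finset (Fin M)))
    (fun i b => propStep p (z i) b)
  rw [Fintype.piFinset_univ] at h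
  rw [← h]
  refine Finset.prod_le_one (fun i _ => ?_) (fun i _ => propStep_sum_le hp hp1 _)
  exact Finset.sum_nonneg fun b _ => propStep_nonneg hp hp1 _ _

theorem gridP_stoch {p : ℝ} (hp : 0 ≤ p) (hp1 : p ≤ 1 / 2) {M : ℕ} {w : (ι → Fin M) → ℝ}
    (hw : ∀ z, 0 < w z) : gridP p w ∈ Matrix.rowStochastic ℝ (ι → Fin M) := by
  rw [Matrix.mem_rowStochastic_iff_sum]
  have hmin : ∀ z z' : ι → Fin M, 0 ≤ min 1 (w z' / w z) := fun z z' =>
    le_min (by norm_num) (div_nonneg (hw _).le (hw _).le)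
  have hmin1 : ∀ z z' : ι → Fin M, min 1 (w z' / w z) ≤ 1 := fun z z' => min_le_left _ _
  constructor
  · intro z z'
    unfold gridP
    split_ifs with h
    · have h1 : ∑ z'' ∈ univ.erase z, (1 / 2) * prop p z z'' * min 1 (w z'' / w z)
          ≤ ∑ z'', (1 / 2) * prop p z z'' := by
        refine (Finset.sum_le_sum (fun z'' _ => ?_)).trans
          (Finset.sum_le_sum_of_subset_of_nonneg (Finset.erase_subset _ _) (fun z'' _ _ => ?_))
        · have h2 : 0 ≤ (1 / 2) * prop p z z'' := mul_nonneg (by norm_num) (prop_nonneg hp hp1 _ _)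
          calc (1 / 2) * prop p z z'' * min 1 (w z'' / w z) ≤ (1 / 2) * prop p z z'' * 1 :=
                mul_le_mul_of_nonneg_left (hmin1 _ _) h2
            _ = _ := mul_one _
        · exact mul_nonneg (by norm_num) (prop_nonneg hp hp1 _ _)
      rw [← Finset.mul_sum] at h1
      have h3 := prop_sum_le hp hp1 z
      linarith
    · exact mul_nonneg (mul_nonneg (by norm_num) (prop_nonneg hp hp1 _ _)) (hmin _ _)
  · intro z
    rw [← Finset.add_sum_erase _ _ (Finset.mem_univ z)]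
    have e1 : gridP p w z z = 1 - ∑ z'' ∈ univ.erase z, (1 / 2) * prop p z z'' * min 1 (w z'' / w z) := by
      unfold gridP
      simp
    have e2 : ∑ z' ∈ univ.erase z, gridP p w z z'
        = ∑ z'' ∈ univ.erase z, (1 / 2) * prop p z z'' * min 1 (w z'' / w z) := by
      refine Finset.sum_congr rfl fun z' hz' => ?_
      unfold gridP
      rw [if_neg (Finset.ne_of_mem_erase hz').symm]
    rw [e1, e2]
    ring

end GridStoch

theorem chainLaw_stoch (W Nb : ℕ) (i0 : Fin m) (j0 : Fin n) (r : Fin m → ℕ) (c : Fin n → ℕ) (a : ℝ)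
    (hm : 0 < m) (hn : 0 < n) :
    (∀ z, 0 ≤ chainLaw W Nb i0 j0 r c a z) ∧ ∑ z, chainLaw W Nb i0 j0 r c a z = 1 := by
  have hD : (1 : ℝ) ≤ (n : ℝ) * m := by
    have h1 : (1 : ℝ) ≤ n := by exact_mod_cast hn
    have h2 : (1 : ℝ) ≤ m := by exact_mod_cast hm
    nlinarith
  have hp0 : (0 : ℝ) ≤ 1 / (4 * ((n : ℝ) * m)) := by positivity
  have hp1 : 1 / (4 * ((n : ℝ) * m)) ≤ (1 / 2 : ℝ) := by
    rw [div_le_iff₀ (by positivity)]
    nlinarith
  have h := gridP_stoch (ι := Fin n × Fin m) (M := cellM W) hp0 hp1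
    (w := fun z' => Real.exp (-a * psiCell W Nb i0 j0 r c z')) (fun z => Real.exp_pos _)
  have h2 := pow_mem h (chainT W)
  constructor
  · intro z
    exact Matrix.nonneg_of_mem_rowStochastic h2
  · exact Matrix.sum_row_of_mem_rowStochastic h2 _

/-! ### Numerics -/

theorem pow_le_exp_of_large {W : ℝ} (hW : (10 : ℝ) ^ 6 ≤ W) : 1000 * W ^ 35 ≤ Real.exp W := by
  have hW0 : 0 < W := lt_of_lt_of_le (by norm_num) hW
  have h1 : W / 72 ≤ Real.exp (W / 72) := by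
    linarith [Real.add_one_le_exp (W / 72)]
  have h2 : (W / 72) ^ 72 ≤ Real.exp (W / 72) ^ 72 :=
    pow_le_pow_left₀ (by positivity) h1 72
  rw [← Real.exp_nat_mul] at h2
  have e : ((72 : ℕ) : ℝ) * (W / 72) = W := by
    push_cast
    ring
  rw [e] at h2
  refine le_trans ?_ h2
  rw [div_pow]
  rw [le_div_iff₀ (by positivity)]
  have h3 : (10 : ℝ) ^ 222 ≤ W ^ 37 := by
    calc (10 : ℝ) ^ 222 = ((10 : ℝ) ^ 6) ^ 37 := by norm_num
      _ ≤ W ^ 37 := pow_le_pow_left₀ (by norm_num) hW 37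
  have h4 : W ^ 72 = W ^ 35 * W ^ 37 := by ring
  rw [h4]
  have h5 : 0 < W ^ 35 := by positivity
  have h6 : (1000 : ℝ) * 72 ^ 72 ≤ 10 ^ 222 := by norm_num
  calc 1000 * W ^ 35 * 72 ^ 72 = W ^ 35 * (1000 * 72 ^ 72) := by ring
    _ ≤ W ^ 35 * W ^ 37 := mul_le_mul_of_nonneg_left (h6.trans h3) h5.le

theorem anneal_tau {W K : ℝ} (hW6 : (10 : ℝ) ^ 6 ≤ W) (hKr : K = W ^ 34) {ε ξ : ℝ}
    (hε0 : 1 / W ≤ ε) (hξ : ξ = ε / 8 / (32 * K)) :
    K * (4 * (ξ + 2 * Real.exp (-W))) ≤ ε / 8 / 2 := by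
  have hWpos : 0 < W := lt_of_lt_of_le (by norm_num) hW6
  have hKpos : 0 < K := by
    rw [hKr]
    positivity
  have hexp := pow_le_exp_of_large hW6
  have hexpp := Real.exp_pos W
  have e1 : K * (4 * ξ) = ε / 8 / 8 := by
    rw [hξ]
    field_simp
    ring
  have e2 : K * Real.exp (-W) * W ≤ 1 / 1000 := by
    rw [hKr, Real.exp_neg, mul_assoc, mul_comm ((Real.exp W)⁻¹), ← mul_assoc, ← div_eq_mul_inv,
      div_le_iff₀ hexpp]
    have : W ^ 34 * W = W ^ 35 := by ring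
    rw [this]
    linarith
  have e4 : K * Real.exp (-W) ≤ (1 / 1000) * (1 / W) := by
    rw [mul_one_div, le_div_iff₀ hWpos]
    exact e2
  have e5 : 0 < 1 / W := by positivity
  have e6 : K * (4 * (ξ + 2 * Real.exp (-W))) = K * (4 * ξ) + 8 * (K * Real.exp (-W)) := by ring
  rw [e6, e1]
  nlinarith

theorem anneal_delta {W K : ℝ} (hW6 : (10 : ℝ) ^ 6 ≤ W) (hKr : K = W ^ 34) {ε ξ δ Sr : ℝ}
    (hε0 : 1 / W ≤ ε) (hξ : ξ = ε / 8 / (32 * K)) (hδ0 : 0 < δ) (hlog : 0 ≤ Real.log (4 / δ))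
    (hSr : W ^ 74 * (Real.log (4 / δ) + W) ≤ Sr) :
    2 * K * Real.exp (-(Sr * ξ ^ 2 / 16)) ≤ δ := by
  have hWpos : 0 < W := lt_of_lt_of_le (by norm_num) hW6
  have hW1 : 1 ≤ W := by linarith [(by norm_num : (1 : ℝ) ≤ 10 ^ 6)]
  have hKpos : 0 < K := by
    rw [hKr]
    positivity
  have hexp := pow_le_exp_of_large hW6
  have hexpp := Real.exp_pos W
  have e1 : 1 / (256 * W ^ 35) ≤ ξ := by
    rw [hξ, hKr]
    have : ε / 8 / (32 * W ^ 34) = ε / (256 * W ^ 34) := by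
      field_simp
      ring
    rw [this, div_le_div_iff₀ (by positivity) (by positivity)]
    have h5 : 1 ≤ ε * W := by
      rw [div_le_iff₀ hWpos] at hε0
      exact hε0
    have h6 : (0 : ℝ) < 256 * W ^ 34 := by positivity
    calc 1 * (256 * W ^ 34) ≤ (ε * W) * (256 * W ^ 34) :=
          mul_le_mul_of_nonneg_right h5 h6.le
      _ = ε * (256 * W ^ 35) := by ring
  have e2 : (1 / (256 * W ^ 35)) ^ 2 ≤ ξ ^ 2 :=
    pow_le_pow_left₀ (by positivity) e1 2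
  have e3 : Real.log (4 / δ) + W ≤ Sr * ξ ^ 2 / 16 := by
    have h6 : 0 ≤ Real.log (4 / δ) + W := by positivity
    have h7 : W ^ 74 * (Real.log (4 / δ) + W) * (1 / (256 * W ^ 35)) ^ 2 ≤ Sr * ξ ^ 2 :=
      mul_le_mul hSr e2 (by positivity) (le_trans (by positivity) hSr)
    have h8 : W ^ 74 * (Real.log (4 / δ) + W) * (1 / (256 * W ^ 35)) ^ 2
        = W ^ 4 * (Real.log (4 / δ) + W) / 65536 := by
      field_simp
      ring
    rw [h8] at h7
    have h9 : (1048576 : ℝ) ≤ W ^ 4 := by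
      calc (1048576 : ℝ) ≤ ((10 : ℝ) ^ 6) ^ 4 := by norm_num
        _ ≤ W ^ 4 := pow_le_pow_left₀ (by norm_num) hW6 4
    have h10 : 1048576 * (Real.log (4 / δ) + W) ≤ W ^ 4 * (Real.log (4 / δ) + W) :=
      mul_le_mul_of_nonneg_right h9 h6
    linarith
  have e4 : Real.exp (-(Sr * ξ ^ 2 / 16)) ≤ Real.exp (-(Real.log (4 / δ) + W)) :=
    Real.exp_le_exp.2 (by linarith)
  have e5 : Real.exp (-(Real.log (4 / δ) + W)) = δ / 4 * Real.exp (-W) := by
    rw [neg_add, Real.exp_add, Real.exp_neg (Real.log (4 / δ)), Real.exp_log (by positivity)]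
    field_simp
  have e6 : K * Real.exp (-W) ≤ 1 := by
    rw [hKr, Real.exp_neg, ← div_eq_mul_inv, div_le_one hexpp]
    have h1 : W ^ 34 ≤ W ^ 35 := pow_le_pow_right₀ hW1 (by norm_num)
    have h2 : 0 ≤ W ^ 35 := by positivity
    linarith
  calc 2 * K * Real.exp (-(Sr * ξ ^ 2 / 16))
      ≤ 2 * K * (δ / 4 * Real.exp (-W)) :=
        mul_le_mul_of_nonneg_left (e4.trans (le_of_eq e5)) (by positivity)
    _ = (δ / 2) * (K * Real.exp (-W)) := by ring
    _ ≤ (δ / 2) * 1 := mul_le_mul_of_nonneg_left e6 (by positivity)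
    _ ≤ δ := by linarith

theorem anneal_det {C0 Sm T I ε F B : ℝ} (hC0 : 0 ≤ C0) (hI0 : 0 ≤ I) (hFpos : 0 < F) (hB : 0 ≤ B)
    (hε0 : 0 < ε) (hε1 : ε ≤ 1) (hgood : |Sm - T| ≤ ε / 8 * T)
    (hsc : |C0 * T - I| ≤ ε / 16 * I) :
    |B * (C0 * Sm) / F - B * I / F| ≤ ε / 4 * (B * I / F) := by
  have hkey : |C0 * Sm - I| ≤ ε / 4 * I := by
    have h1 := abs_le.mp hsc
    have hC0T : C0 * T ≤ I + ε / 16 * I := by linarith [h1.2]
    have h3 : |C0 * Sm - C0 * T| ≤ ε / 8 * (C0 * T) := by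
      rw [← mul_sub, abs_mul, abs_of_nonneg hC0]
      calc C0 * |Sm - T| ≤ C0 * (ε / 8 * T) := mul_le_mul_of_nonneg_left hgood hC0
        _ = _ := by ring
    have h4 : ε / 8 * (C0 * T) ≤ ε / 8 * (I + ε / 16 * I) :=
      mul_le_mul_of_nonneg_left hC0T (by positivity)
    have h5 : ε / 8 * (I + ε / 16 * I) ≤ 3 * (ε / 16) * I := by
      have h6 : ε / 8 * (I + ε / 16 * I) = (ε / 8) * I * (1 + ε / 16) := by ring
      rw [h6]
      have h7 : (1 + ε / 16) ≤ 3 / 2 := by linarith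
      have h8 : 0 ≤ (ε / 8) * I := by positivity
      calc (ε / 8) * I * (1 + ε / 16) ≤ (ε / 8) * I * (3 / 2) :=
            mul_le_mul_of_nonneg_left h7 h8
        _ = _ := by ring
    have h9 : C0 * Sm - I = (C0 * Sm - C0 * T) + (C0 * T - I) := by ring
    rw [h9]
    refine (abs_add_le _ _).trans ?_
    have h10 : ε / 4 * I = 3 * (ε / 16) * I + ε / 16 * I := by ring
    rw [h10]
    exact add_le_add (h3.trans (h4.trans h5)) hsc
  have e1 : B * (C0 * Sm) / F - B * I / F = (B / F) * (C0 * Sm - I) := by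
    field_simp
  have hBF : 0 ≤ B / F := by positivity
  rw [e1, abs_mul, abs_of_nonneg hBF]
  calc B / F * |C0 * Sm - I| ≤ B / F * (ε / 4 * I) :=
        mul_le_mul_of_nonneg_left hkey hBF
    _ = ε / 4 * (B * I / F) := by ring

theorem Aval_eq (r : Fin m → ℕ) (c : Fin n → ℕ) :
    Aval r c = betaC c * (∫⁻ t, wmat t * capa r c t).toReal / ∏ i, (Nat.factorial (r i) : ℝ) := by
  unfold Aval
  rw [Ihat_eq, ENNReal.toReal_div]
  simp only [ENNReal.toReal_natCast]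
  push_cast
  ring

theorem card_cells (n m W : ℕ) :
    (Fintype.card (Fin n × Fin m → Fin (cellM W)) : ℝ) = (cellM W : ℝ) ^ (n * m) := by
  simp [Fintype.card_pi, Finset.prod_const]

theorem annealEst_eq_aux (W Nb : ℕ) (i0 : Fin m) (j0 : Fin n) (r : Fin m → ℕ) (c : Fin n → ℕ)
    (S : ℕ) (ω : Anneal n m W (annealK W) S) :
    annealEst W Nb i0 j0 r c S ω = betaC c * ((detT i0 j0 r c * Real.exp (-phiMin r) * cellD W ^ (n * m))
      * ((Fintype.card (Fin n × Fin m → Fin (cellM W)) : ℝ)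
        * ∏ k, ((S : ℝ)⁻¹ * ∑ s, Real.exp (-(psiCell W Nb i0 j0 r c (ω k s)) / (annealK W : ℝ)))))
      / ∏ i, (Nat.factorial (r i) : ℝ) := by
  unfold annealEst annealSum
  rw [card_cells]
  ring

/-- **The estimate at the root.** -/
theorem annealEst_close (h : InstOK i0 j0 r c) {W : ℕ} (hW : WOK m n W) (hm : 0 < m) (hn : 0 < n)
    {ε δ : ℝ} (hε0 : 1 / (W : ℝ) ≤ ε) (hε1 : ε ≤ 1) (hδ0 : 0 < δ) (hδ1 : δ ≤ 1) :
    1 - δ ≤ ∑ ω, annealLaw W (∑ i, r i) i0 j0 r c (annealS W δ) ω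
      * if |annealEst W (∑ i, r i) i0 j0 r c (annealS W δ) ω - Aval r c| ≤ ε / 4 * Aval r c
        then 1 else 0 := by
  classical
  set Nb := ∑ i, r i with hNb
  set g := psiCell W Nb i0 j0 r c with hg
  set K := annealK W with hK
  set S := annealS W δ with hS
  -- the size of `W`
  have hW6 : (10 : ℝ) ^ 6 ≤ (W : ℝ) := by
    have hD : (0 : ℝ) ≤ (n : ℝ) * m := by positivity
    have h1 : (1 : ℝ) ≤ ((n : ℝ) * m + 1) ^ 2 := by nlinarith
    have h2 : 10 ^ 6 * ((n : ℝ) * m + 1) ^ 2 ≤ W := hW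
    nlinarith
  have hWpos : (0 : ℝ) < W := lt_of_lt_of_le (by norm_num) hW6
  have hWn : 0 < W := by exact_mod_cast hWpos
  have hW1 : (1 : ℝ) ≤ W := by linarith [(by norm_num : (1 : ℝ) ≤ 10 ^ 6)]
  have hKr : (K : ℝ) = (W : ℝ) ^ 34 := by
    simp [hK, annealK]
  have hK0 : 0 < K := by
    simp only [hK, annealK]
    positivity
  have hKpos : (0 : ℝ) < K := by exact_mod_cast hK0
  -- the hypotheses of the generic theorem
  have hb : ∀ z, |g z| ≤ (W : ℝ) ^ 32 + 1 := by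
    intro z
    obtain ⟨h1, h2⟩ := psiCell_bounds h hW z
    have h3 : (0 : ℝ) < (W : ℝ) ^ 32 := by positivity
    rw [abs_le]
    constructor <;> linarith
  have hKG : 2 * ((W : ℝ) ^ 32 + 1) ≤ K := by
    rw [hKr]
    have h1 : (W : ℝ) ^ 34 = (W : ℝ) ^ 32 * (W : ℝ) ^ 2 := by ring
    have h2 : (1 : ℝ) ≤ (W : ℝ) ^ 32 := one_le_pow₀ hW1
    have h3 : (4 : ℝ) ≤ (W : ℝ) ^ 2 := by nlinarith
    rw [h1]
    nlinarith
  have hlog : 0 ≤ Real.log (4 / δ) := by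
    apply Real.log_nonneg
    rw [le_div_iff₀ hδ0]
    linarith
  have hSr : (W : ℝ) ^ 74 * (Real.log (4 / δ) + W) ≤ (S : ℝ) := Nat.le_ceil _
  have hS0 : 0 < S := by
    have h1 : 0 < (W : ℝ) ^ 74 * (Real.log (4 / δ) + W) := by positivity
    have h2 : (0 : ℝ) < S := lt_of_lt_of_le h1 hSr
    exact_mod_cast h2
  set L : Fin K → (Fin n × Fin m → Fin (cellM W)) → ℝ :=
    fun k z => chainLaw W Nb i0 j0 r c (((k : ℕ) : ℝ) / (K : ℝ)) z with hL
  have hL0 : ∀ k z, 0 ≤ L k z := fun k z => (chainLaw_stoch W Nb i0 j0 r c _ hm hn).1 z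
  have hL1 : ∀ k, ∑ z, L k z = 1 := fun k => (chainLaw_stoch W Nb i0 j0 r c _ hm hn).2
  have hLtv : ∀ k : Fin K, ∑ z, |L k z - Real.exp (-(((k : ℕ) : ℝ) / K) * g z)
      / ∑ z', Real.exp (-(((k : ℕ) : ℝ) / K) * g z')| ≤ Real.exp (-(W : ℝ)) := by
    intro k
    have hk0 : (0 : ℝ) ≤ ((k : ℕ) : ℝ) / K := by positivity
    have hk1 : ((k : ℕ) : ℝ) / K ≤ 1 := by
      rw [div_le_one hKpos]
      exact_mod_cast k.2.le
    exact chain_tv h hW hm hn hk0 hk1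
  have hε0' : 0 < ε := lt_of_lt_of_le (by positivity) hε0
  set ξ := ε / 8 / (32 * (K : ℝ)) with hξ
  have hξ0 : 0 < ξ := by positivity
  have hτ := anneal_tau hW6 hKr hε0 hξ
  have hδ' := anneal_delta hW6 hKr hε0 hξ hδ0 hlog hSr
  have : Nonempty (Fin n × Fin m → Fin (cellM W)) := ⟨zStart _ W⟩
  have main := anneal_generic (g := g) (G := (W : ℝ) ^ 32 + 1) hb hK0 hKG hS0 hL0 hL1
    (τ := Real.exp (-(W : ℝ))) (ξ := ξ) (ε := ε / 8) (δ := δ) (Real.exp_pos _).le hξ0 hLtv hτ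
    (by linarith) hδ'
  refine main.trans (Finset.sum_le_sum fun ω _ => ?_)
  have hw : 0 ≤ ∏ k, ∏ s, L k (ω k s) :=
    Finset.prod_nonneg fun k _ => Finset.prod_nonneg fun s _ => hL0 _ _
  have eW : annealLaw W Nb i0 j0 r c S ω = ∏ k, ∏ s, L k (ω k s) := rfl
  rw [eW]
  refine mul_le_mul_of_nonneg_left ?_ hw
  by_cases hgood : |(Fintype.card (Fin n × Fin m → Fin (cellM W)) : ℝ)
      * ∏ k, ((S : ℝ)⁻¹ * ∑ s, Real.exp (-(g (ω k s)) / K)) - ∑ z, Real.exp (-(g z))|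
        ≤ ε / 8 * ∑ z, Real.exp (-(g z))
  · rw [if_pos hgood, if_pos]
    have hη : 20 / (W : ℝ) ^ 24 ≤ ε / 16 := by
      have h1 : 1 / (W : ℝ) / 16 ≤ ε / 16 := by linarith
      refine le_trans ?_ h1
      rw [div_div, div_le_div_iff₀ (by positivity) (by positivity)]
      have h2 : (W : ℝ) ^ 24 = (W : ℝ) ^ 23 * W := by ring
      have h3 : (320 : ℝ) ≤ (W : ℝ) ^ 23 := by
        have h4 : (W : ℝ) ≤ (W : ℝ) ^ 23 := by
          calc (W : ℝ) = (W : ℝ) ^ 1 := (pow_one _).symm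
            _ ≤ (W : ℝ) ^ 23 := pow_le_pow_right₀ hW1 (by norm_num)
        linarith [(by norm_num : (320 : ℝ) ≤ 10 ^ 6)]
      rw [h2]
      nlinarith
    have hI0 : 0 ≤ (∫⁻ t, wmat t * capa r c t).toReal := ENNReal.toReal_nonneg
    have hsc' := (sum_close h hW hm hn).trans (mul_le_mul_of_nonneg_right hη hI0)
    have hC0 : 0 ≤ detT i0 j0 r c * Real.exp (-phiMin r) * cellD W ^ (n * m) := by
      have h1 := detT_pos i0 j0 r c
      have h2 := cellD_pos hWn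
      positivity
    have hFpos : 0 < ∏ i, (Nat.factorial (r i) : ℝ) :=
      Finset.prod_pos fun i _ => by exact_mod_cast Nat.factorial_pos _
    rw [annealEst_eq_aux, Aval_eq]
    exact anneal_det hC0 hI0 hFpos (betaC_nonneg c) hε0' hε1 hgood hsc'
  · rw [if_neg hgood]
    split_ifs <;> norm_num

end Vale.Agent.Lib.P328.Samp
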