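import Vale.Agent.Lib.P328.Samp.Ell
import Vale.Agent.Lib.P328.Fpras.Solver

/-!
# P328, explicit algorithm: the capacity by the ellipsoid method (module E2)

`capG r c t β = log Phi r c t (exp β)` for `t > 0`. Subgradient: with `p_j = t_ji e^{β_j} / Σ_l t_li e^{β_l}`,
`log (Σ_j t_ji e^{β'_j}) - log (Σ_j t_ji e^{β_j}) = log (Σ_j p_j e^{β'_j - β_j}) ≥ Σ_j p_j (β'_j - β_j)` (Jensen, or
`exp x ≥ 1 + x` after scaling).

`logCapHat_bound`. Lower bound: `capa ≤ Phi (exp β)` for every `β`. Upper bound: let `N = Σ r`,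
`bm = 1 / (4 (N + 1) (n + 1) (Nb + 1) W ^ 61)`. Take `b > 0` with
`log Phi b ≤ log capa + η / 4`. By homogeneity (`Σ r = Σ c`) scale so that `max b = 1`. Let `b' = max b bm`, `x0 = log b'`,
`θ = η / (2 (N + 1))`, and apply `ellBest_le` on the cube `x0 + [0, θ]^n`.
-/

namespace Vale.Agent.Lib.P328.Samp

open Finset MeasureTheory Vale.Agent.Lib.P328.Cap Vale.Agent.Lib.P328.Fpras
open scoped ENNReal Matrix

variable {m n : ℕ}

/-- Jensen for the exponential, in the form we need. -/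
private lemma sum_mul_le_log {ι : Type*} [Fintype ι] {p δ : ι → ℝ} (hp : ∀ j, 0 ≤ p j)
    (hs : ∑ j, p j = 1) : ∑ j, p j * δ j ≤ Real.log (∑ j, p j * Real.exp (δ j)) := by
  set x := ∑ j, p j * δ j with hx
  have h : Real.exp x ≤ ∑ j, p j * Real.exp (δ j) := by
    have h1 : ∀ j, p j * (Real.exp x * (1 + (δ j - x))) ≤ p j * Real.exp (δ j) := by
      intro j
      refine mul_le_mul_of_nonneg_left ?_ (hp j)
      have h1 := Real.add_one_le_exp (δ j - x)
      have h2 : Real.exp (δ j) = Real.exp x * Real.exp (δ j - x) := by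
        rw [← Real.exp_add]; congr 1; ring
      rw [h2]
      exact mul_le_mul_of_nonneg_left (by linarith) (Real.exp_pos x).le
    have h2 : Real.exp x = ∑ j, p j * (Real.exp x * (1 + (δ j - x))) := by
      have h3 : ∀ j, p j * (Real.exp x * (1 + (δ j - x)))
          = Real.exp x * (p j + (p j * δ j - x * p j)) := fun j => by ring
      simp only [h3, ← Finset.mul_sum, Finset.sum_add_distrib, Finset.sum_sub_distrib, hs]
      rw [← hx]
      ring
    rw [h2]
    exact Finset.sum_le_sum fun j _ => h1 j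
  exact (Real.le_log_iff_exp_le (lt_of_lt_of_le (Real.exp_pos x) h)).2 h

/-- The linear forms. -/
private lemma sum_pos_aux {t : Fin n → Fin m → ℝ} (ht : ∀ j i, 0 < t j i) (hn : 0 < n)
    (β : Fin n → ℝ) (i : Fin m) : 0 < ∑ j, t j i * Real.exp (β j) :=
  Finset.sum_pos (fun j _ => mul_pos (ht j i) (Real.exp_pos _)) ⟨⟨0, hn⟩, mem_univ _⟩

/-- `capG` is convex with subgradient `capGrad`. -/
theorem capG_sub (r : Fin m → ℕ) (c : Fin n → ℕ) {t : Fin n → Fin m → ℝ} (ht : ∀ j i, 0 < t j i)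
    (hn : 0 < n) (β β' : Fin n → ℝ) :
    capG r c t β + capGrad r c t β ⬝ᵥ (β' - β) ≤ capG r c t β' := by
  have key : ∀ i, Real.log (∑ j, t j i * Real.exp (β j))
      + ∑ j, (t j i * Real.exp (β j) / ∑ l, t l i * Real.exp (β l)) * (β' j - β j)
      ≤ Real.log (∑ j, t j i * Real.exp (β' j)) := by
    intro i
    have hS := sum_pos_aux ht hn β i
    set S := ∑ l, t l i * Real.exp (β l) with hSdef
    have h1 := sum_mul_le_log (p := fun j => t j i * Real.exp (β j) / S) (δ := fun j => β' j - β j)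
      (fun j => div_nonneg (mul_pos (ht j i) (Real.exp_pos _)).le hS.le)
      (by rw [← Finset.sum_div]; exact div_self hS.ne')
    have h2 : ∑ j, t j i * Real.exp (β j) / S * Real.exp (β' j - β j)
        = (∑ j, t j i * Real.exp (β' j)) / S := by
      rw [Finset.sum_div]
      refine Finset.sum_congr rfl fun j _ => ?_
      have h3 : Real.exp (β' j) = Real.exp (β j) * Real.exp (β' j - β j) := by
        rw [← Real.exp_add]; congr 1; ring
      rw [h3]; ring
    rw [h2, Real.log_div (sum_pos_aux ht hn β' i).ne' hS.ne'] at h1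
    linarith
  have hdot : capGrad r c t β ⬝ᵥ (β' - β)
      = ∑ i, (r i : ℝ) * ∑ j, (t j i * Real.exp (β j) / ∑ l, t l i * Real.exp (β l)) * (β' j - β j)
        - ∑ j, (c j : ℝ) * (β' j - β j) := by
    unfold capGrad dotProduct
    simp only [Pi.sub_apply, sub_mul, Finset.sum_sub_distrib]
    congr 1
    simp only [Finset.sum_mul, Finset.mul_sum]
    rw [Finset.sum_comm]
    refine Finset.sum_congr rfl fun i _ => Finset.sum_congr rfl fun j _ => ?_
    ring
  have h1 : capG r c t β + capGrad r c t β ⬝ᵥ (β' - β)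
      = ∑ i, (r i : ℝ) * (Real.log (∑ j, t j i * Real.exp (β j))
          + ∑ j, (t j i * Real.exp (β j) / ∑ l, t l i * Real.exp (β l)) * (β' j - β j))
        - ∑ j, (c j : ℝ) * β' j := by
    rw [hdot]
    unfold capG
    simp only [mul_add, Finset.sum_add_distrib, mul_sub, Finset.sum_sub_distrib]
    ring
  rw [h1]
  unfold capG
  refine sub_le_sub_right ?_ _
  exact Finset.sum_le_sum fun i _ => mul_le_mul_of_nonneg_left (key i) (Nat.cast_nonneg _)

/-- `capG` is the logarithm of `Phi`. -/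
theorem Phi_exp (r : Fin m → ℕ) (c : Fin n → ℕ) {t : Fin n → Fin m → ℝ} (ht : ∀ j i, 0 < t j i)
    (hn : 0 < n) (β : Fin n → ℝ) :
    Phi r c t (fun j => Real.exp (β j)) = Real.exp (capG r c t β) := by
  unfold Phi capG
  rw [Real.exp_sub, Real.exp_sum, Real.exp_sum]
  congr 1
  · refine Finset.prod_congr rfl fun i _ => ?_
    rw [mul_comm, Real.exp_mul, Real.exp_log (sum_pos_aux ht hn β i), Real.rpow_natCast]
  · refine Finset.prod_congr rfl fun j _ => ?_
    rw [mul_comm, Real.exp_mul, Real.rpow_natCast]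

/-- Comparison of two points. -/
lemma capG_compare (r : Fin m → ℕ) (c : Fin n → ℕ) {t : Fin n → Fin m → ℝ}
    (ht : ∀ j i, 0 < t j i) (hn : 0 < n) {β β' : Fin n → ℝ} {ε : ℝ}
    (hS : ∀ i, ∑ j, t j i * Real.exp (β' j) ≤ (∑ j, t j i * Real.exp (β j)) * Real.exp ε)
    (hc : ∀ j, β j ≤ β' j) :
    capG r c t β' ≤ capG r c t β + ((∑ i, r i : ℕ) : ℝ) * ε := by
  unfold capG
  have h1 : ∑ j, (c j : ℝ) * β j ≤ ∑ j, (c j : ℝ) * β' j :=
    Finset.sum_le_sum fun j _ => mul_le_mul_of_nonneg_left (hc j) (Nat.cast_nonneg _)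
  have h2 : ∀ i, Real.log (∑ j, t j i * Real.exp (β' j))
      ≤ Real.log (∑ j, t j i * Real.exp (β j)) + ε := by
    intro i
    have h3 := Real.log_le_log (sum_pos_aux ht hn β' i) (hS i)
    rwa [Real.log_mul (sum_pos_aux ht hn β i).ne' (Real.exp_pos _).ne', Real.log_exp] at h3
  have h4 : ∑ i, (r i : ℝ) * Real.log (∑ j, t j i * Real.exp (β' j))
      ≤ ∑ i, (r i : ℝ) * (Real.log (∑ j, t j i * Real.exp (β j)) + ε) :=
    Finset.sum_le_sum fun i _ => mul_le_mul_of_nonneg_left (h2 i) (Nat.cast_nonneg _)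
  have h5 : ∑ i, (r i : ℝ) * (Real.log (∑ j, t j i * Real.exp (β j)) + ε)
      = ∑ i, (r i : ℝ) * Real.log (∑ j, t j i * Real.exp (β j)) + ((∑ i, r i : ℕ) : ℝ) * ε := by
    rw [Nat.cast_sum, Finset.sum_mul, ← Finset.sum_add_distrib]
    exact Finset.sum_congr rfl fun i _ => by ring
  linarith

/-- Shifting all coordinates does not change `capG` when the margins balance. -/
private lemma capG_shift {r : Fin m → ℕ} {c : Fin n → ℕ} (hsum : ∑ i, r i = ∑ j, c j)
    {t : Fin n → Fin m → ℝ} (ht : ∀ j i, 0 < t j i) (hn : 0 < n) (β : Fin n → ℝ) (s : ℝ) :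
    capG r c t (fun j => β j + s) = capG r c t β := by
  unfold capG
  have h1 : ∀ i, Real.log (∑ j, t j i * Real.exp (β j + s))
      = Real.log (∑ j, t j i * Real.exp (β j)) + s := by
    intro i
    have h2 : ∑ j, t j i * Real.exp (β j + s) = (∑ j, t j i * Real.exp (β j)) * Real.exp s := by
      rw [Finset.sum_mul]
      exact Finset.sum_congr rfl fun j _ => by rw [Real.exp_add]; ring
    rw [h2, Real.log_mul (sum_pos_aux ht hn β i).ne' (Real.exp_pos _).ne', Real.log_exp]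
  simp only [h1, mul_add, Finset.sum_add_distrib]
  have h3 : ∑ i, (r i : ℝ) * s = ∑ j, (c j : ℝ) * s := by
    rw [← Finset.sum_mul, ← Finset.sum_mul]
    have : ((∑ i, r i : ℕ) : ℝ) = ((∑ j, c j : ℕ) : ℝ) := by rw [hsum]
    rw [Nat.cast_sum, Nat.cast_sum] at this
    rw [this]
  rw [h3]
  ring

lemma log_W_bound {W : ℕ} (hW : (10 : ℝ) ^ 6 ≤ W) : 62 * Real.log W + 1 ≤ W := by
  have hW0 : (0 : ℝ) < W := lt_of_lt_of_le (by norm_num) hW
  have h1 : Real.log ((W : ℝ) / 124) ≤ (W : ℝ) / 124 - 1 :=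
    Real.log_le_sub_one_of_pos (by positivity)
  rw [Real.log_div hW0.ne' (by norm_num)] at h1
  have h2 : Real.log 124 ≤ 5 := by
    rw [Real.log_le_iff_le_exp (by norm_num)]
    have h3 := Real.exp_one_gt_d9
    have h4 : Real.exp 5 = Real.exp 1 ^ 5 := by
      rw [← Real.exp_nat_mul]; norm_num
    rw [h4]
    calc (124 : ℝ) ≤ 2.7 ^ 5 := by norm_num
      _ ≤ Real.exp 1 ^ 5 := by
        refine pow_le_pow_left₀ (by norm_num) ?_ _
        linarith
  have hW' : (1000000 : ℝ) ≤ W := by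
    have : (10 : ℝ) ^ 6 = 1000000 := by norm_num
    linarith
  linarith

lemma log_cap_le (r : Fin m → ℕ) (c : Fin n → ℕ) {t : Fin n → Fin m → ℝ}
    (hsum : ∑ i, r i = ∑ j, c j) (ht : ∀ j i, 0 < t j i) (hn : 0 < n) (β : Fin n → ℝ) :
    Real.log (capa r c t).toReal ≤ capG r c t β := by
  have hle : capa r c t ≤ ENNReal.ofReal (Real.exp (capG r c t β)) := by
    unfold capa
    refine iInf_le_of_le ⟨fun j => Real.exp (β j), fun j => Real.exp_pos _⟩ ?_
    have := Phi_exp r c ht hn β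
    unfold Phi at this
    rw [this]
  have hpos := capa_pos r c hsum t ht
  have htop : capa r c t ≠ ⊤ := ne_top_of_le_ne_top ENNReal.ofReal_ne_top hle
  have h1 : (capa r c t).toReal ≤ Real.exp (capG r c t β) := by
    have := ENNReal.toReal_mono ENNReal.ofReal_ne_top hle
    rwa [ENNReal.toReal_ofReal (Real.exp_pos _).le] at this
  have h2 : 0 < (capa r c t).toReal := ENNReal.toReal_pos hpos.ne' htop
  calc Real.log (capa r c t).toReal ≤ Real.log (Real.exp (capG r c t β)) :=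
        Real.log_le_log h2 h1
    _ = capG r c t β := Real.log_exp _

/-- Near minimiser, normalized so that the largest coordinate is zero. -/
lemma exists_near (r : Fin m → ℕ) (c : Fin n → ℕ) {t : Fin n → Fin m → ℝ}
    (hsum : ∑ i, r i = ∑ j, c j) (ht : ∀ j i, 0 < t j i) (hn : 0 < n) {e : ℝ} (he : 0 < e) :
    ∃ β : Fin n → ℝ, capG r c t β ≤ Real.log (capa r c t).toReal + e ∧ (∀ j, β j ≤ 0)
      ∧ ∃ j, β j = 0 := by
  have hpos := capa_pos r c hsum t ht
  have hfin : capa r c t ≠ ⊤ := by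
    have : capa r c t ≤ ENNReal.ofReal (Real.exp (capG r c t 0)) := by
      unfold capa
      refine iInf_le_of_le ⟨fun j => Real.exp ((0 : Fin n → ℝ) j), fun j => Real.exp_pos _⟩ ?_
      have := Phi_exp r c ht hn 0
      unfold Phi at this
      rw [this]
    exact ne_top_of_le_ne_top ENNReal.ofReal_ne_top this
  set C := (capa r c t).toReal with hC
  have hC0 : 0 < C := ENNReal.toReal_pos hpos.ne' hfin
  have h1 : capa r c t < ENNReal.ofReal (C * Real.exp e) := by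
    rw [← ENNReal.ofReal_toReal hfin, ← hC]
    refine (ENNReal.ofReal_lt_ofReal_iff (by positivity)).2 ?_
    have : 1 < Real.exp e := Real.one_lt_exp_iff.2 he
    nlinarith
  unfold capa at h1
  obtain ⟨b, hb⟩ := iInf_lt_iff.1 h1
  have hb2 : (∏ i, (∑ j, t j i * b.1 j) ^ r i) / ∏ j, b.1 j ^ c j < C * Real.exp e :=
    (ENNReal.ofReal_lt_ofReal_iff (by positivity)).1 hb
  obtain ⟨j0, -, hj0⟩ := Finset.exists_max_image univ (fun j => Real.log (b.1 j))
    ⟨⟨0, hn⟩, mem_univ _⟩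
  refine ⟨fun j => Real.log (b.1 j) + (-Real.log (b.1 j0)), ?_, ?_, j0, by ring⟩
  · rw [capG_shift hsum ht hn]
    have h2 := Phi_exp r c ht hn (fun j => Real.log (b.1 j))
    have h3 : (fun j => Real.exp (Real.log (b.1 j))) = b.1 := by
      funext j
      exact Real.exp_log (b.2 j)
    rw [h3] at h2
    unfold Phi at h2
    rw [h2] at hb2
    have h4 := Real.log_lt_log (Real.exp_pos _) hb2
    rw [Real.log_exp, Real.log_mul hC0.ne' (Real.exp_pos _).ne', Real.log_exp] at h4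
    exact h4.le
  · intro j
    have := hj0 j (mem_univ _)
    linarith

/-- Basic facts about `W`. -/
private lemma W_facts {W : ℕ} (hW : 10 ^ 6 * ((n : ℝ) + 1) ^ 2 ≤ W) :
    (10 : ℝ) ^ 6 ≤ W ∧ 4 * ((n : ℝ) + 1) ≤ W := by
  have hn0 : (0 : ℝ) ≤ n := Nat.cast_nonneg _
  constructor
  · have : (1 : ℝ) ≤ ((n : ℝ) + 1) ^ 2 := by nlinarith
    nlinarith
  · nlinarith

/-- The lower cut is not too small. -/
private lemma log_bm_le {W Nb N : ℕ} (hW : 10 ^ 6 * ((n : ℝ) + 1) ^ 2 ≤ W) (hNb : N ≤ Nb) :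
    -Real.log (1 / (4 * ((N : ℝ) + 1) * ((n : ℝ) + 1) * ((Nb : ℝ) + 1) * (W : ℝ) ^ 61))
      ≤ 2 * Real.log ((Nb : ℝ) + 2) + W := by
  obtain ⟨hW6, hnW⟩ := W_facts hW
  have hW0 : (0 : ℝ) < W := lt_of_lt_of_le (by norm_num) hW6
  have hn0 : (0 : ℝ) ≤ n := Nat.cast_nonneg _
  have hNR : (N : ℝ) ≤ Nb := by exact_mod_cast hNb
  have hNR0 : (0 : ℝ) ≤ N := Nat.cast_nonneg _
  have hNb0 : (0 : ℝ) ≤ Nb := Nat.cast_nonneg _
  have hlogW := log_W_bound hW6
  have hlog4 : Real.log (4 * ((n : ℝ) + 1)) ≤ Real.log W := Real.log_le_log (by positivity) hnW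
  have hlogN : Real.log ((N : ℝ) + 1) ≤ Real.log ((Nb : ℝ) + 2) :=
    Real.log_le_log (by positivity) (by linarith)
  have hlogNb : Real.log ((Nb : ℝ) + 1) ≤ Real.log ((Nb : ℝ) + 2) :=
    Real.log_le_log (by positivity) (by linarith)
  have h1 : -Real.log (1 / (4 * ((N : ℝ) + 1) * ((n : ℝ) + 1) * ((Nb : ℝ) + 1) * (W : ℝ) ^ 61))
      = Real.log (4 * ((n : ℝ) + 1)) + Real.log ((N : ℝ) + 1) + Real.log ((Nb : ℝ) + 1)
        + 61 * Real.log W := by
    rw [one_div, Real.log_inv, neg_neg]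
    have h2 : 4 * ((N : ℝ) + 1) * ((n : ℝ) + 1) * ((Nb : ℝ) + 1) * (W : ℝ) ^ 61
        = (4 * ((n : ℝ) + 1)) * ((N : ℝ) + 1) * ((Nb : ℝ) + 1) * (W : ℝ) ^ 61 := by ring
    rw [h2, Real.log_mul (by positivity) (by positivity), Real.log_mul (by positivity) (by positivity),
      Real.log_mul (by positivity) (by positivity), Real.log_pow]
    norm_num
  rw [h1]
  linarith

/-- The first step: raising the small coordinates to the lower cut. -/
private lemma step_cut {W Nb : ℕ} {r : Fin m → ℕ} {c : Fin n → ℕ} {t : Fin n → Fin m → ℝ}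
    (hW0 : (0 : ℝ) < W)
    (ht : ∀ j i, cutK W ≤ t j i ∧ t j i ≤ ((Nb : ℝ) + 1) * (W : ℝ) ^ 5) (hn : 0 < n)
    {β0 : Fin n → ℝ} {j1 : Fin n} (hj1 : β0 j1 = 0) {N : ℕ} :
    capG r c t (fun j => max (β0 j)
        (Real.log (1 / (4 * ((N : ℝ) + 1) * ((n : ℝ) + 1) * ((Nb : ℝ) + 1) * (W : ℝ) ^ 61))))
      ≤ capG r c t β0 + ((∑ i, r i : ℕ) : ℝ)
        * ((n : ℝ) / (4 * ((N : ℝ) + 1) * ((n : ℝ) + 1) * (W : ℝ) ^ 30)) := by
  have hn0 : (0 : ℝ) ≤ n := Nat.cast_nonneg _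
  have hNR0 : (0 : ℝ) ≤ N := Nat.cast_nonneg _
  have hNb0 : (0 : ℝ) ≤ Nb := Nat.cast_nonneg _
  have hκ : 0 < cutK W := by unfold cutK; positivity
  have ht0 : ∀ j i, 0 < t j i := fun j i => lt_of_lt_of_le hκ (ht j i).1
  generalize hbm : (1 / (4 * ((N : ℝ) + 1) * ((n : ℝ) + 1) * ((Nb : ℝ) + 1) * (W : ℝ) ^ 61))
    = bm
  have hbm0 : 0 < bm := by rw [← hbm]; positivity
  generalize hε : ((n : ℝ) / (4 * ((N : ℝ) + 1) * ((n : ℝ) + 1) * (W : ℝ) ^ 30)) = ε
  have hε0 : 0 ≤ ε := by rw [← hε]; positivity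
  refine capG_compare r c ht0 hn (fun i => ?_) (fun j => le_max_left _ _)
  have hlow : cutK W ≤ ∑ j, t j i * Real.exp (β0 j) := by
    have h1 : t j1 i * Real.exp (β0 j1) ≤ ∑ j, t j i * Real.exp (β0 j) :=
      Finset.single_le_sum (f := fun j => t j i * Real.exp (β0 j))
        (fun j _ => (mul_pos (ht0 j i) (Real.exp_pos _)).le) (mem_univ j1)
    rw [hj1, Real.exp_zero, mul_one] at h1
    exact le_trans (ht j1 i).1 h1
  have hup : ∑ j, t j i * Real.exp (max (β0 j) (Real.log bm))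
      ≤ (∑ j, t j i * Real.exp (β0 j)) + bm * ((n : ℝ) * (((Nb : ℝ) + 1) * (W : ℝ) ^ 5)) := by
    have h1 : ∀ j, t j i * Real.exp (max (β0 j) (Real.log bm))
        ≤ t j i * Real.exp (β0 j) + bm * (((Nb : ℝ) + 1) * (W : ℝ) ^ 5) := by
      intro j
      have h2 : Real.exp (max (β0 j) (Real.log bm)) ≤ Real.exp (β0 j) + bm := by
        rcases le_total (β0 j) (Real.log bm) with h | h
        · simp only [max_eq_right h]
          rw [Real.exp_log hbm0]
          linarith [Real.exp_pos (β0 j)]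
        · simp only [max_eq_left h]
          linarith
      have h3 : t j i * Real.exp (max (β0 j) (Real.log bm)) ≤ t j i * (Real.exp (β0 j) + bm) :=
        mul_le_mul_of_nonneg_left h2 (ht0 j i).le
      have h4 : t j i * bm ≤ ((Nb : ℝ) + 1) * (W : ℝ) ^ 5 * bm :=
        mul_le_mul_of_nonneg_right (ht j i).2 hbm0.le
      nlinarith
    calc ∑ j, t j i * Real.exp (max (β0 j) (Real.log bm))
        ≤ ∑ j, (t j i * Real.exp (β0 j) + bm * (((Nb : ℝ) + 1) * (W : ℝ) ^ 5)) :=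
          Finset.sum_le_sum fun j _ => h1 j
      _ = _ := by
          rw [Finset.sum_add_distrib, Finset.sum_const, Finset.card_univ, Fintype.card_fin,
            nsmul_eq_mul]
          ring
  have hval : bm * ((n : ℝ) * (((Nb : ℝ) + 1) * (W : ℝ) ^ 5)) = ε * cutK W := by
    rw [← hbm, ← hε]
    unfold cutK
    field_simp
  have hS0 := lt_of_lt_of_le hκ hlow
  calc ∑ j, t j i * Real.exp (max (β0 j) (Real.log bm))
      ≤ (∑ j, t j i * Real.exp (β0 j)) + ε * cutK W := by rw [← hval]; exact hup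
    _ ≤ (∑ j, t j i * Real.exp (β0 j)) * (1 + ε) := by nlinarith
    _ ≤ (∑ j, t j i * Real.exp (β0 j)) * Real.exp ε := by
        refine mul_le_mul_of_nonneg_left ?_ hS0.le
        linarith [Real.add_one_le_exp ε]

/-- The number of steps is large enough. -/
private lemma iter_bound {W Nb N : ℕ} (hW : 10 ^ 6 * ((n : ℝ) + 1) ^ 2 ≤ W) (hNb : N ≤ Nb) :
    (2 * ellRad n W Nb / ((1 / (W : ℝ) ^ 30) / (2 * ((N : ℝ) + 1)))) ^ n
      * Real.exp (-(ellIters W Nb : ℝ) / (2 * ((n : ℝ) + 2))) < 1 := by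
  obtain ⟨hW6, hnW⟩ := W_facts hW
  have hW0 : (0 : ℝ) < W := lt_of_lt_of_le (by norm_num) hW6
  have hW1 : (1 : ℝ) ≤ W := le_trans (by norm_num) hW6
  have hn0 : (0 : ℝ) ≤ n := Nat.cast_nonneg _
  have hNR : (N : ℝ) ≤ Nb := by exact_mod_cast hNb
  have hNR0 : (0 : ℝ) ≤ N := Nat.cast_nonneg _
  have hNb0 : (0 : ℝ) ≤ Nb := Nat.cast_nonneg _
  have hR0eq : ellRad n W Nb = ((n : ℝ) + 1) * (2 * Real.log ((Nb : ℝ) + 2) + W + 1) := rfl
  have hiter : (W : ℝ) ^ 2 * (Real.log ((Nb : ℝ) + 2) + W) ≤ ellIters W Nb := Nat.le_ceil _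
  generalize ellIters W Nb = I at hiter ⊢
  rw [hR0eq]
  have hlogN : Real.log ((N : ℝ) + 1) ≤ Real.log ((Nb : ℝ) + 2) :=
    Real.log_le_log (by positivity) (by linarith)
  have hL0 : 0 ≤ Real.log ((Nb : ℝ) + 2) := Real.log_nonneg (by linarith)
  generalize Real.log ((Nb : ℝ) + 2) = L at hiter hlogN hL0 ⊢
  have hlogW := log_W_bound hW6
  have hlogW0 : 0 ≤ Real.log W := Real.log_nonneg hW1
  have hlog4 : Real.log (4 * ((n : ℝ) + 1)) ≤ Real.log W := Real.log_le_log (by positivity) hnW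
  set A : ℝ := 2 * (((n : ℝ) + 1) * (2 * L + W + 1)) / ((1 / (W : ℝ) ^ 30) / (2 * ((N : ℝ) + 1)))
    with hA
  have hA0 : 0 < A := by positivity
  have hlogA : Real.log A ≤ W + 3 * L := by
    have hA2 : A = (4 * ((n : ℝ) + 1)) * ((N : ℝ) + 1) * (2 * L + W + 1) * (W : ℝ) ^ 30 := by
      rw [hA]
      field_simp
      ring
    have hB0 : 0 < 2 * L + W + 1 := by positivity
    rw [hA2, Real.log_mul (by positivity) (by positivity),
      Real.log_mul (by positivity) (by positivity),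
      Real.log_mul (by positivity) (by positivity), Real.log_pow]
    have h1 : Real.log (2 * L + W + 1) ≤ Real.log W + (2 * L + 1) := by
      have h2 : 2 * L + W + 1 ≤ W * (2 * L + 2) := by nlinarith
      have h3 := Real.log_le_log hB0 h2
      rw [Real.log_mul hW0.ne' (by positivity)] at h3
      have h4 := Real.log_le_sub_one_of_pos (show 0 < 2 * L + 2 by positivity)
      linarith
    push_cast
    linarith
  have hpow : A ^ n = Real.exp ((n : ℝ) * Real.log A) := by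
    rw [mul_comm, Real.exp_mul, Real.exp_log hA0, Real.rpow_natCast]
  rw [hpow, ← Real.exp_add, Real.exp_lt_one_iff]
  have hd : 0 < 2 * ((n : ℝ) + 2) := by positivity
  have h1 : (n : ℝ) * Real.log A ≤ (n : ℝ) * (W + 3 * L) :=
    mul_le_mul_of_nonneg_left hlogA hn0
  have h2 : (I : ℝ) / (2 * ((n : ℝ) + 2)) > (n : ℝ) * (W + 3 * L) := by
    rw [gt_iff_lt, lt_div_iff₀ hd]
    have hLW : 0 < L + W := by positivity
    have h3 : 6 * (n : ℝ) * ((n : ℝ) + 2) < (W : ℝ) ^ 2 := by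
      have h4 : (W : ℝ) ≤ (W : ℝ) ^ 2 := by nlinarith
      nlinarith
    have h5 : (n : ℝ) * (W + 3 * L) * (2 * ((n : ℝ) + 2))
        ≤ 6 * (n : ℝ) * ((n : ℝ) + 2) * (L + W) := by
      have h6 : (0 : ℝ) ≤ (n : ℝ) * ((n : ℝ) + 2) := by positivity
      nlinarith
    have h7 : 6 * (n : ℝ) * ((n : ℝ) + 2) * (L + W) < (W : ℝ) ^ 2 * (L + W) :=
      mul_lt_mul_of_pos_right h3 hLW
    linarith
  have h3 : -(I : ℝ) / (2 * ((n : ℝ) + 2)) = -((I : ℝ) / (2 * ((n : ℝ) + 2))) := by ring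
  rw [h3]
  linarith

/-- The cube. -/
lemma cube_good {r : Fin m → ℕ} {c : Fin n → ℕ} {t : Fin n → Fin m → ℝ}
    (ht0 : ∀ j i, 0 < t j i) (hn : 0 < n) {β1 x : Fin n → ℝ} {θ v R : ℝ} (hθ1 : θ ≤ 1)
    (hR1 : 1 ≤ R)
    (hv : capG r c t β1 + ((∑ i, r i : ℕ) : ℝ) * θ ≤ v)
    (hlow : ∀ j, -R + 1 ≤ β1 j) (hup : ∀ j, β1 j ≤ 0)
    (hx : ∀ i, β1 i ≤ x i ∧ x i ≤ β1 i + θ) :
    capG r c t x ≤ v ∧ x ⬝ᵥ x ≤ (((n : ℝ) + 1) * R) ^ 2 := by
  have hn0 : (0 : ℝ) ≤ n := Nat.cast_nonneg _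
  constructor
  · have h1 : capG r c t x ≤ capG r c t β1 + ((∑ i, r i : ℕ) : ℝ) * θ := by
      refine capG_compare r c ht0 hn (fun i => ?_) (fun j => (hx j).1)
      rw [Finset.sum_mul]
      refine Finset.sum_le_sum fun j _ => ?_
      rw [mul_assoc, ← Real.exp_add]
      refine mul_le_mul_of_nonneg_left ?_ (ht0 j i).le
      exact Real.exp_le_exp.2 (hx j).2
    linarith
  · have h1 : ∀ j, x j * x j ≤ R ^ 2 := by
      intro j
      have h2 : -R ≤ x j := by linarith [hlow j, (hx j).1]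
      have h4 : x j ≤ R := by linarith [hup j, (hx j).2]
      have := sq_le_sq' h2 h4
      nlinarith
    unfold dotProduct
    calc ∑ j, x j * x j ≤ ∑ _j : Fin n, R ^ 2 :=
          Finset.sum_le_sum fun j _ => h1 j
      _ = (n : ℝ) * R ^ 2 := by
          rw [Finset.sum_const, Finset.card_univ, Fintype.card_fin, nsmul_eq_mul]
      _ ≤ (((n : ℝ) + 1) * R) ^ 2 := by
          rw [mul_pow]
          refine mul_le_mul_of_nonneg_right ?_ (by positivity)
          nlinarith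

/-- The upper bound for positive `n`. -/
private lemma logCapHat_upper {W Nb : ℕ} (hW : 10 ^ 6 * ((n : ℝ) + 1) ^ 2 ≤ W) {r : Fin m → ℕ}
    {c : Fin n → ℕ} (hsum : ∑ i, r i = ∑ j, c j) (hNb : ∑ i, r i ≤ Nb) {t : Fin n → Fin m → ℝ}
    (ht : ∀ j i, cutK W ≤ t j i ∧ t j i ≤ ((Nb : ℝ) + 1) * (W : ℝ) ^ 5) (hn : 0 < n) :
    logCapHat W Nb r c t ≤ Real.log (capa r c t).toReal + 1 / (W : ℝ) ^ 30 := by
  have hn0 : (0 : ℝ) ≤ n := Nat.cast_nonneg _
  obtain ⟨hW6, -⟩ := W_facts hW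
  have hW0 : (0 : ℝ) < W := lt_of_lt_of_le (by norm_num) hW6
  have hW1 : (1 : ℝ) ≤ W := le_trans (by norm_num) hW6
  have hκ : 0 < cutK W := by unfold cutK; positivity
  have ht0 : ∀ j i, 0 < t j i := fun j i => lt_of_lt_of_le hκ (ht j i).1
  have hNR0 : (0 : ℝ) ≤ ((∑ i, r i : ℕ) : ℝ) := Nat.cast_nonneg _
  have hη0 : 0 < 1 / (W : ℝ) ^ 30 := by positivity
  have hη1 : 1 / (W : ℝ) ^ 30 ≤ 1 := by
    rw [div_le_one (by positivity)]
    exact one_le_pow₀ hW1
  have hL0 : 0 ≤ Real.log ((Nb : ℝ) + 2) :=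
    Real.log_nonneg (by have : (0 : ℝ) ≤ Nb := Nat.cast_nonneg _; linarith)
  have hlogbm := log_bm_le (N := ∑ i, r i) hW hNb
  obtain ⟨β0, hβ0, hβle, j1, hj1⟩ := exists_near r c hsum ht0 hn
    (e := (1 / (W : ℝ) ^ 30) / 4) (by positivity)
  have hstep := step_cut (N := ∑ i, r i) (r := r) (c := c) hW0 ht hn hj1
  have hI := iter_bound (N := ∑ i, r i) hW hNb
  have hR0eq : ellRad n W Nb = ((n : ℝ) + 1) * (2 * Real.log ((Nb : ℝ) + 2) + W + 1) := rfl
  have hR00 : 0 < ellRad n W Nb := by rw [hR0eq]; positivity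
  have hcut : ((∑ i, r i : ℕ) : ℝ)
      * ((n : ℝ) / (4 * ((((∑ i, r i : ℕ) : ℝ)) + 1) * ((n : ℝ) + 1) * (W : ℝ) ^ 30))
      ≤ (1 / (W : ℝ) ^ 30) / 4 := by
    have h1 : ((∑ i, r i : ℕ) : ℝ)
        * ((n : ℝ) / (4 * ((((∑ i, r i : ℕ) : ℝ)) + 1) * ((n : ℝ) + 1) * (W : ℝ) ^ 30))
        = (((∑ i, r i : ℕ) : ℝ) / (((∑ i, r i : ℕ) : ℝ) + 1)) * ((n : ℝ) / ((n : ℝ) + 1))
          * ((1 / (W : ℝ) ^ 30) / 4) := by
      field_simp
    rw [h1]
    have h2 : ((∑ i, r i : ℕ) : ℝ) / (((∑ i, r i : ℕ) : ℝ) + 1) ≤ 1 := by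
      rw [div_le_one (by positivity)]; linarith
    have h3 : (n : ℝ) / ((n : ℝ) + 1) ≤ 1 := by
      rw [div_le_one (by positivity)]; linarith
    have h4 := mul_le_one₀ h2 (by positivity) h3
    have h5 : 0 ≤ (1 / (W : ℝ) ^ 30) / 4 := by positivity
    nlinarith
  have hθ0 : 0 < (1 / (W : ℝ) ^ 30) / (2 * (((∑ i, r i : ℕ) : ℝ) + 1)) := by positivity
  have hθ1 : (1 / (W : ℝ) ^ 30) / (2 * (((∑ i, r i : ℕ) : ℝ) + 1)) ≤ 1 := by
    rw [div_le_one (by positivity)]
    nlinarith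
  have hNθ : ((∑ i, r i : ℕ) : ℝ) * ((1 / (W : ℝ) ^ 30) / (2 * (((∑ i, r i : ℕ) : ℝ) + 1)))
      ≤ (1 / (W : ℝ) ^ 30) / 2 := by
    have h1 : ((∑ i, r i : ℕ) : ℝ) * ((1 / (W : ℝ) ^ 30) / (2 * (((∑ i, r i : ℕ) : ℝ) + 1)))
        = (((∑ i, r i : ℕ) : ℝ) / (((∑ i, r i : ℕ) : ℝ) + 1)) * ((1 / (W : ℝ) ^ 30) / 2) := by
      field_simp
    rw [h1]
    have h2 : ((∑ i, r i : ℕ) : ℝ) / (((∑ i, r i : ℕ) : ℝ) + 1) ≤ 1 := by
      rw [div_le_one (by positivity)]; linarith
    have h5 : 0 ≤ (1 / (W : ℝ) ^ 30) / 2 := by positivity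
    nlinarith
  have hgood : ∀ x : Fin n → ℝ, (∀ i, (max (β0 i) (Real.log (1 / (4 * (((∑ i, r i : ℕ) : ℝ) + 1)
      * ((n : ℝ) + 1) * ((Nb : ℝ) + 1) * (W : ℝ) ^ 61)))) ≤ x i
      ∧ x i ≤ (max (β0 i) (Real.log (1 / (4 * (((∑ i, r i : ℕ) : ℝ) + 1)
        * ((n : ℝ) + 1) * ((Nb : ℝ) + 1) * (W : ℝ) ^ 61))))
        + (1 / (W : ℝ) ^ 30) / (2 * (((∑ i, r i : ℕ) : ℝ) + 1))) →
      capG r c t x ≤ Real.log (capa r c t).toReal + 1 / (W : ℝ) ^ 30
        ∧ x ⬝ᵥ x ≤ ellRad n W Nb ^ 2 := by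
    intro x hx
    rw [hR0eq]
    refine cube_good ht0 hn hθ1 (by linarith) ?_ ?_ ?_ hx
    · linarith
    · intro j
      have := le_max_right (β0 j) (Real.log (1 / (4 * (((∑ i, r i : ℕ) : ℝ) + 1) * ((n : ℝ) + 1)
        * ((Nb : ℝ) + 1) * (W : ℝ) ^ 61)))
      linarith
    · intro j
      refine max_le (hβle j) ?_
      refine Real.log_nonpos (by positivity) ?_
      rw [div_le_one (by positivity)]
      have h1 : (1 : ℝ) ≤ 4 * (((∑ i, r i : ℕ) : ℝ) + 1) := by linarith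
      have h2 : (1 : ℝ) ≤ (n : ℝ) + 1 := by linarith
      have h3 : (1 : ℝ) ≤ (Nb : ℝ) + 1 := by
        have : (0 : ℝ) ≤ Nb := Nat.cast_nonneg _
        linarith
      have h4 : (1 : ℝ) ≤ (W : ℝ) ^ 61 := one_le_pow₀ hW1
      exact one_le_mul_of_one_le_of_one_le
        (one_le_mul_of_one_le_of_one_le (one_le_mul_of_one_le_of_one_le h1 h2) h3) h4
  exact ellBest_le (capG_sub r c ht0 hn) hR00 hθ0 hgood hI

/-- **The computed logarithm of the capacity is correct up to `1 / W ^ 30`.** -/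
theorem logCapHat_bound {W Nb : ℕ} (hW : 10 ^ 6 * ((n : ℝ) + 1) ^ 2 ≤ W) {r : Fin m → ℕ}
    {c : Fin n → ℕ} (hsum : ∑ i, r i = ∑ j, c j) (hNb : ∑ i, r i ≤ Nb) {t : Fin n → Fin m → ℝ}
    (ht : ∀ j i, cutK W ≤ t j i ∧ t j i ≤ ((Nb : ℝ) + 1) * (W : ℝ) ^ 5) :
    Real.log (capa r c t).toReal ≤ logCapHat W Nb r c t
      ∧ logCapHat W Nb r c t ≤ Real.log (capa r c t).toReal + 1 / (W : ℝ) ^ 30 := by
  rcases Nat.eq_zero_or_pos n with hn | hn
  · subst hn
    have hr : ∀ i, r i = 0 := by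
      have h0 : ∑ i, r i = 0 := by rw [hsum]; simp
      intro i
      exact (Finset.sum_eq_zero_iff.1 h0) i (mem_univ _)
    have hcap : capa r c t = 1 := by
      unfold capa
      simp [hr]
    have hG : ∀ β, capG r c t β = 0 := by
      intro β
      simp [capG, hr]
    have hW0 : (0 : ℝ) ≤ 1 / (W : ℝ) ^ 30 := by positivity
    unfold logCapHat
    rw [hcap, hG]
    simp only [ENNReal.toReal_one, Real.log_one, le_refl, true_and, zero_add]
    exact hW0
  · have hW0 : (0 : ℝ) < W := by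
      have h1 : (0 : ℝ) < 10 ^ 6 * ((n : ℝ) + 1) ^ 2 := by positivity
      linarith
    have hκ : 0 < cutK W := by unfold cutK; positivity
    refine ⟨log_cap_le r c hsum (fun j i => lt_of_lt_of_le hκ (ht j i).1) hn _, ?_⟩
    exact logCapHat_upper hW hsum hNb ht hn

private lemma measurable_capG (r : Fin m → ℕ) (c : Fin n → ℕ) :
    Measurable fun p : (Fin n → Fin m → ℝ) × (Fin n → ℝ) => capG r c p.1 p.2 := by
  unfold capG
  refine Measurable.sub ?_ ?_
  · refine Finset.measurable_sum _ fun i _ => ?_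
    refine Measurable.const_mul ?_ _
    refine Real.measurable_log.comp ?_
    refine Finset.measurable_sum _ fun j _ => ?_
    refine Measurable.mul ?_ ?_
    · exact (measurable_pi_apply i).comp ((measurable_pi_apply j).comp measurable_fst)
    · exact Real.measurable_exp.comp ((measurable_pi_apply j).comp measurable_snd)
  · refine Finset.measurable_sum _ fun j _ => ?_
    refine Measurable.const_mul ?_ _
    exact (measurable_pi_apply j).comp measurable_snd

private lemma measurable_capGrad (r : Fin m → ℕ) (c : Fin n → ℕ) :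
    Measurable fun p : (Fin n → Fin m → ℝ) × (Fin n → ℝ) => capGrad r c p.1 p.2 := by
  refine measurable_pi_iff.2 fun j => ?_
  unfold capGrad
  refine Measurable.sub_const ?_ _
  refine Finset.measurable_sum _ fun i _ => ?_
  refine Measurable.const_mul ?_ _
  refine Measurable.div ?_ ?_
  · refine Measurable.mul ?_ ?_
    · exact (measurable_pi_apply i).comp ((measurable_pi_apply j).comp measurable_fst)
    · exact Real.measurable_exp.comp ((measurable_pi_apply j).comp measurable_snd)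
  · refine Finset.measurable_sum _ fun l _ => ?_
    refine Measurable.mul ?_ ?_
    · exact (measurable_pi_apply i).comp ((measurable_pi_apply l).comp measurable_fst)
    · exact Real.measurable_exp.comp ((measurable_pi_apply l).comp measurable_snd)

/-- The computed minimiser is measurable in the matrix. -/
theorem measurable_betaHat (W Nb : ℕ) (r : Fin m → ℕ) (c : Fin n → ℕ) :
    Measurable (betaHat W Nb r c) := by
  have h := measurable_ellBest (f := fun t => capG r c t) (gr := fun t => capGrad r c t)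
    (measurable_capG r c) (measurable_capGrad r c) (ellRad n W Nb) (ellIters W Nb)
  exact h

theorem measurable_logCapHat (W Nb : ℕ) (r : Fin m → ℕ) (c : Fin n → ℕ) :
    Measurable (logCapHat W Nb r c) := by
  have h := (measurable_capG r c).comp (measurable_id.prodMk (measurable_betaHat W Nb r c))
  exact h

end Vale.Agent.Lib.P328.Samp
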