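import Vale.Agent.Lib.P328.Samp.Defs

/-!
# P328, explicit algorithm: the small cubes

`smallC W z`: the closed small cube, the image of the unit cube under `cellPt W z`. `smallO W z`: the half open one.
-/

namespace Vale.Agent.Lib.P328.Samp

open Finset MeasureTheory
open scoped ENNReal

variable {ι : Type} [Fintype ι] [DecidableEq ι] {W : ℕ}

/-- The closed small cube. -/
def smallC (W : ℕ) (z : ι → Fin (cellM W)) : Set (ι → ℝ) :=
  Set.Icc (fun k => -rQ W + cellD W * ((z k : ℕ) : ℝ)) (fun k => -rQ W + cellD W * (((z k : ℕ) : ℝ) + 1))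

/-- The half open small cube. -/
def smallO (W : ℕ) (z : ι → Fin (cellM W)) : Set (ι → ℝ) :=
  Set.pi Set.univ fun k => Set.Ico (-rQ W + cellD W * ((z k : ℕ) : ℝ)) (-rQ W + cellD W * (((z k : ℕ) : ℝ) + 1))

/-- The big cube. -/
def bigQ (ι : Type) (W : ℕ) : Set (ι → ℝ) := {y | ∀ k, |y k| ≤ rQ W}

theorem rQ_pos (hW : 0 < W) : 0 < rQ W := by
  unfold rQ
  have : (0 : ℝ) < W := by exact_mod_cast hW
  positivity

theorem cellM_pos (W : ℕ) : 0 < cellM W := Nat.succ_pos _

theorem cellD_pos (hW : 0 < W) : 0 < cellD W := by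
  unfold cellD
  have h1 := rQ_pos hW
  have h2 : (0 : ℝ) < cellM W := by exact_mod_cast cellM_pos W
  positivity

theorem cellD_mul (W : ℕ) : cellD W * (cellM W : ℝ) = 2 * rQ W := by
  unfold cellD
  have h2 : (cellM W : ℝ) ≠ 0 := by exact_mod_cast (cellM_pos W).ne'
  field_simp

theorem cellPt_eq (z : ι → Fin (cellM W)) (u : ι → ℝ) :
    cellPt W z u = (fun k => -rQ W + cellD W * ((z k : ℕ) : ℝ)) + cellD W • u := by
  funext k
  simp only [cellPt, Pi.add_apply, Pi.smul_apply, smul_eq_mul]
  ring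

theorem cellPt_mem_iff (hW : 0 < W) (z : ι → Fin (cellM W)) (u : ι → ℝ) :
    cellPt W z u ∈ smallC W z ↔ u ∈ Set.Icc (0 : ι → ℝ) 1 := by
  have hδ := cellD_pos hW
  simp only [smallC, Set.mem_Icc, Pi.le_def, cellPt, Pi.zero_apply, Pi.one_apply]
  constructor
  · rintro ⟨h1, h2⟩
    refine ⟨fun k => ?_, fun k => ?_⟩
    · have := h1 k
      nlinarith
    · have := h2 k
      nlinarith
  · rintro ⟨h1, h2⟩
    refine ⟨fun k => ?_, fun k => ?_⟩
    · have := h1 k
      nlinarith
    · have := h2 k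
      nlinarith

theorem mem_smallC_iff (hW : 0 < W) (z : ι → Fin (cellM W)) (y : ι → ℝ) :
    y ∈ smallC W z ↔ ∃ u ∈ Set.Icc (0 : ι → ℝ) 1, y = cellPt W z u := by
  have hδ := cellD_pos hW
  constructor
  · intro h
    refine ⟨fun k => (y k + rQ W) / cellD W - ((z k : ℕ) : ℝ), ?_, ?_⟩
    · rw [← cellPt_mem_iff hW z]
      convert h using 1
      funext k
      simp only [cellPt]
      field_simp
      ring
    · funext k
      simp only [cellPt]
      field_simp
      ring
  · rintro ⟨u, hu, rfl⟩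
    exact (cellPt_mem_iff hW z u).2 hu

/-- The change of variables in a small cube. -/
theorem lintegral_smallC (hW : 0 < W) (z : ι → Fin (cellM W)) {g : (ι → ℝ) → ℝ≥0∞} (hg : Measurable g) :
    ∫⁻ y in smallC W z, g y
      = ENNReal.ofReal (cellD W ^ Fintype.card ι)
        * ∫⁻ u in Set.Icc (0 : ι → ℝ) 1, g (cellPt W z u) := by
  have hδ := cellD_pos hW
  set v : ι → ℝ := fun k => -rQ W + cellD W * ((z k : ℕ) : ℝ) with hv
  have hD : (0 : ℝ) < cellD W ^ Fintype.card ι := pow_pos hδ _
  have hmeas : MeasurableSet (smallC W z) := measurableSet_Icc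
  -- the map
  have hmap : Measure.map (fun u : ι → ℝ => v + cellD W • u) volume
      = ENNReal.ofReal (cellD W ^ Fintype.card ι)⁻¹ • (volume : Measure (ι → ℝ)) := by
    have h1 : (fun u : ι → ℝ => v + cellD W • u) = (fun y => v + y) ∘ fun u => cellD W • u := rfl
    rw [h1, ← Measure.map_map (measurable_const_add v) (measurable_const_smul _)]
    have h2 := Measure.map_addHaar_smul (volume : Measure (ι → ℝ)) hδ.ne'
    rw [h2, Measure.map_smul]
    have h3 : Measure.map (fun y : ι → ℝ => v + y) volume = volume :=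
      (measurePreserving_add_left volume v).map_eq
    rw [h3]
    congr 2
    rw [Module.finrank_fintype_fun_eq_card, abs_of_pos (by positivity)]
  have hT : Measurable fun u : ι → ℝ => v + cellD W • u :=
    (measurable_const_add v).comp (measurable_const_smul _)
  have h4 : ∫⁻ u, (smallC W z).indicator g (v + cellD W • u)
      = ENNReal.ofReal (cellD W ^ Fintype.card ι)⁻¹ * ∫⁻ y in smallC W z, g y := by
    rw [← lintegral_map (hg.indicator hmeas) hT, hmap, lintegral_smul_measure,
      lintegral_indicator hmeas, smul_eq_mul]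
  have h5 : ∫⁻ u in Set.Icc (0 : ι → ℝ) 1, g (cellPt W z u)
      = ∫⁻ u, (smallC W z).indicator g (v + cellD W • u) := by
    rw [← lintegral_indicator measurableSet_Icc]
    refine lintegral_congr fun u => ?_
    have e : v + cellD W • u = cellPt W z u := (cellPt_eq z u).symm
    rw [e]
    by_cases hu : u ∈ Set.Icc (0 : ι → ℝ) 1
    · rw [Set.indicator_of_mem hu, Set.indicator_of_mem ((cellPt_mem_iff hW z u).2 hu)]
    · rw [Set.indicator_of_notMem hu,
        Set.indicator_of_notMem (fun h => hu ((cellPt_mem_iff hW z u).1 h))]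
  rw [h5, h4, ← mul_assoc, ← ENNReal.ofReal_mul hD.le, mul_inv_cancel₀ hD.ne']
  simp

/-- The big cube is covered by the closed small cubes. -/
theorem exists_smallC (hW : 0 < W) {y : ι → ℝ} (hy : y ∈ bigQ ι W) : ∃ z, y ∈ smallC W z := by
  have hδ := cellD_pos hW
  have hR := rQ_pos hW
  have hM : (0 : ℝ) < cellM W := by exact_mod_cast cellM_pos W
  have hmul := cellD_mul W
  have key : ∀ k, ∃ a : Fin (cellM W), -rQ W + cellD W * ((a : ℕ) : ℝ) ≤ y k
      ∧ y k ≤ -rQ W + cellD W * (((a : ℕ) : ℝ) + 1) := by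
    intro k
    have hk := abs_le.1 (hy k)
    set x := (y k + rQ W) / cellD W with hx
    have hx0 : 0 ≤ x := div_nonneg (by linarith) hδ.le
    have hxM : x ≤ cellM W := by
      rw [hx, div_le_iff₀ hδ]
      nlinarith
    have hxe : y k = -rQ W + cellD W * x := by
      rw [hx]
      field_simp
      ring
    set a := min ⌊x⌋₊ (cellM W - 1) with ha
    have ha1 : a < cellM W := by
      have := cellM_pos W
      omega
    refine ⟨⟨a, ha1⟩, ?_, ?_⟩
    · simp only
      rw [hxe]
      have : (a : ℝ) ≤ x := by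
        have h1 : a ≤ ⌊x⌋₊ := min_le_left _ _
        exact (Nat.cast_le.2 h1).trans (Nat.floor_le hx0)
      nlinarith
    · simp only
      rw [hxe]
      have : x ≤ (a : ℝ) + 1 := by
        by_cases h : ⌊x⌋₊ ≤ cellM W - 1
        · rw [ha, min_eq_left h]
          exact (Nat.lt_floor_add_one x).le
        · rw [ha, min_eq_right (by omega)]
          have h2 : (((cellM W - 1 : ℕ) : ℝ)) + 1 = cellM W := by
            have := cellM_pos W
            have h3 : cellM W - 1 + 1 = cellM W := by omega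
            exact_mod_cast h3
          rw [h2]
          exact hxM
      nlinarith
  choose z hz using key
  exact ⟨z, fun k => (hz k).1, fun k => (hz k).2⟩

/-- The half open small cubes are disjoint. -/
theorem smallO_disjoint (hW : 0 < W) {z z' : ι → Fin (cellM W)} (h : z ≠ z') :
    Disjoint (smallO W z) (smallO W z') := by
  have hδ := cellD_pos hW
  obtain ⟨k, hk⟩ := Function.ne_iff.1 h
  rw [Set.disjoint_left]
  intro y hy hy'
  have h1 := hy k (Set.mem_univ k)
  have h2 := hy' k (Set.mem_univ k)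
  have hne : ((z k : ℕ)) ≠ (z' k : ℕ) := fun e => hk (Fin.ext e)
  rcases Nat.lt_or_gt_of_ne hne with h3 | h3
  · have h4 : (((z k : ℕ) : ℝ)) + 1 ≤ ((z' k : ℕ) : ℝ) := by exact_mod_cast h3
    have := h1.2
    have := h2.1
    nlinarith
  · have h4 : (((z' k : ℕ) : ℝ)) + 1 ≤ ((z k : ℕ) : ℝ) := by exact_mod_cast h3
    have := h1.1
    have := h2.2
    nlinarith

theorem measurableSet_smallO (z : ι → Fin (cellM W)) : MeasurableSet (smallO W z) :=
  MeasurableSet.univ_pi fun _ => measurableSet_Ico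

theorem smallO_subset_smallC (z : ι → Fin (cellM W)) : smallO W z ⊆ smallC W z := by
  intro y hy
  exact ⟨fun k => (hy k (Set.mem_univ k)).1, fun k => (hy k (Set.mem_univ k)).2.le⟩

theorem smallC_subset_bigQ (hW : 0 < W) (z : ι → Fin (cellM W)) : smallC W z ⊆ bigQ ι W := by
  have hδ := cellD_pos hW
  have hR := rQ_pos hW
  have hmul := cellD_mul W
  intro y hy k
  have h1 := hy.1 k
  have h2 := hy.2 k
  simp only at h1 h2
  have h3 : (0 : ℝ) ≤ ((z k : ℕ) : ℝ) := Nat.cast_nonneg _
  have h4 : ((z k : ℕ) : ℝ) + 1 ≤ cellM W := by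
    have := (z k).2
    exact_mod_cast this
  rw [abs_le]
  constructor
  · nlinarith
  · nlinarith

theorem volume_smallO (hW : 0 < W) (z : ι → Fin (cellM W)) :
    volume (smallO W z) = ENNReal.ofReal (cellD W ^ Fintype.card ι) := by
  have hδ := cellD_pos hW
  unfold smallO
  rw [Real.volume_pi_Ico]
  have : ∀ k, (-rQ W + cellD W * (((z k : ℕ) : ℝ) + 1)) - (-rQ W + cellD W * ((z k : ℕ) : ℝ)) = cellD W := by
    intro k
    ring
  simp_rw [this]
  rw [Finset.prod_const, Finset.card_univ, ENNReal.ofReal_pow hδ.le]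

theorem volume_smallC_le (hW : 0 < W) (z : ι → Fin (cellM W)) :
    volume (smallC W z) ≤ ENNReal.ofReal (cellD W ^ Fintype.card ι) := by
  have hδ := cellD_pos hW
  unfold smallC
  rw [Real.volume_Icc_pi]
  have : ∀ k, (-rQ W + cellD W * (((z k : ℕ) : ℝ) + 1)) - (-rQ W + cellD W * ((z k : ℕ) : ℝ)) = cellD W := by
    intro k
    ring
  simp_rw [this]
  rw [Finset.prod_const, Finset.card_univ, ENNReal.ofReal_pow hδ.le]

end Vale.Agent.Lib.P328.Samp
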