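import Vale.Agent.Lib.P328.Samp.Round

/-!
# P328, explicit algorithm: the mass outside the domain of the chain (module T)

`Fy y = wmat (tMap y) * capa r c (tMap y)`, zero unless `tMap y > 0`, where it is `ofReal (exp (-phiMin) exp (-phiT))` (`wmat_capa_eq`).

`tail_Q`. `φ y = phiT (tMap y)` is convex on `K0 = {tMap y > 0}` (`phiT_convex`, `tMap_affine`), `φ 0 ≤ 2 D` (`tMap_inner`), `0 ∈ K0`. Let `U = W²`, so `80 D³ U ≤ W⁴`. If `y ∈ K0` and `|y|∞ > rQ W = 2 W⁴`: `y/2 ∈ K0`, `|y/2|∞ > 80 D³ U`, so `φ (y/2) > U` (`tMap_outer`).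
Convexity: `φ (y/2) ≤ φ y / 2 + φ 0 / 2`, so `φ y - φ (y/2) ≥ φ (y/2) - φ 0 ≥ U - 2 D`. So `Fy y ≤ e^{-(U - 2D)} Fy (y/2)`, and `∫ Fy (y/2) dy = 2^D ∫ Fy`, and `2^D e^{-(W² - 2D)} ≤ 1/W^30`.

`tail_K`. In `t` coordinates (`tMap_volume`): `F t = wmat t * capa t`. `capa` is monotone in each entry, so `F t ≤ e^a F (t + a e_ji)` for `a > 0`, `t > 0`. So with `κ = cutK W`, `S_k = {t : k κ ≤ t j i < (k+1) κ}`: `∫_{S_0} F ≤ e^{k κ} ∫_{S_k} F`.
With `K = ⌊1/κ⌋`: `K ∫_{S_0} F ≤ e ∫ F`. `{t : t j i < κ} ∩ {F ≠ 0} ⊆ S_0`. Union over `D` entries: fraction `≤ D e / K ≤ 2 e D κ ≤ 1 / W^25`.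
-/

namespace Vale.Agent.Lib.P328.Samp

open Finset MeasureTheory Vale.Agent.Lib.P328.Cap Vale.Agent.Lib.P328.Fpras
open scoped ENNReal

variable {m n : ℕ} {i0 : Fin m} {j0 : Fin n} {r : Fin m → ℕ} {c : Fin n → ℕ}

/-- The density in the coordinates `y`. -/
noncomputable def Fy (i0 : Fin m) (j0 : Fin n) (r : Fin m → ℕ) (c : Fin n → ℕ)
    (y : Fin n × Fin m → ℝ) : ℝ≥0∞ :=
  wmat (tMap i0 j0 r c y) * capa r c (tMap i0 j0 r c y)

theorem measurable_Fy (i0 : Fin m) (j0 : Fin n) (r : Fin m → ℕ) (c : Fin n → ℕ) :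
    Measurable (Fy i0 j0 r c) := by
  have h := (continuous_tMap i0 j0 r c).measurable
  exact (measurable_wmat.comp h).mul ((capa_measurable r c).comp h)

/-- The elementary inequality on the parameters: the cube of the dimension is small. -/
private theorem param_cube {D W : ℝ} (hD : 0 ≤ D) (hW : 10 ^ 6 * (D + 1) ^ 2 ≤ W) :
    80 * D ^ 3 * W ^ 2 ≤ W ^ 4 := by
  have hX : 1 ≤ D + 1 := by linarith
  have hX2 : 1 ≤ (D + 1) ^ 2 := one_le_pow₀ hX
  have hW0 : 0 ≤ W := by nlinarith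
  have h1 : (10 ^ 6 * (D + 1) ^ 2) ^ 2 ≤ W ^ 2 := pow_le_pow_left₀ (by positivity) hW 2
  have h2 : D ^ 3 ≤ (D + 1) ^ 4 := by
    have h3 : D ^ 3 ≤ (D + 1) ^ 3 := pow_le_pow_left₀ hD (by linarith) 3
    have h4 : (D + 1) ^ 3 ≤ (D + 1) ^ 4 := pow_le_pow_right₀ hX (by norm_num)
    linarith
  have h5 : 80 * D ^ 3 ≤ W ^ 2 := by
    have : (10 ^ 6 * (D + 1) ^ 2) ^ 2 = 10 ^ 12 * (D + 1) ^ 4 := by ring
    nlinarith [pow_nonneg (by linarith : (0 : ℝ) ≤ D + 1) 4]
  have h6 : 0 ≤ W ^ 2 := by positivity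
  calc 80 * D ^ 3 * W ^ 2 ≤ W ^ 2 * W ^ 2 := mul_le_mul_of_nonneg_right h5 h6
    _ = W ^ 4 := by ring

/-- The pointwise estimate outside the big cube. -/
private theorem Fy_half_bound (h : InstOK i0 j0 r c) {W : ℕ}
    (hW : 10 ^ 6 * ((n : ℝ) * m + 1) ^ 2 ≤ W) {y : Fin n × Fin m → ℝ}
    (hy : ¬ ∀ k, |y k| ≤ rQ W) :
    Fy i0 j0 r c y ≤ ENNReal.ofReal (Real.exp (-((W : ℝ) ^ 2 - 2 * ((n : ℝ) * m))))
      * Fy i0 j0 r c ((1 / 2 : ℝ) • y) := by
  by_cases h0 : wmat (tMap i0 j0 r c y) = 0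
  · simp [Fy, h0]
  have htp := wmat_ne_zero_pos h0
  set D : ℝ := (n : ℝ) * m with hD
  have hD0 : 0 ≤ D := by positivity
  have hW1 : (1 : ℝ) ≤ W := by nlinarith [sq_nonneg (D + 1), sq_nonneg D]
  have hW0 : (0 : ℝ) < W := by linarith
  obtain ⟨hi1, hi2⟩ := tMap_inner h (y := 0) (by simp)
  have hsplit : (1 / 2 : ℝ) • y = (1 / 2 : ℝ) • y + (1 / 2 : ℝ) • (0 : Fin n × Fin m → ℝ) := by simp
  have haff := tMap_affine i0 j0 r c y 0 (a := 1 / 2) (b := 1 / 2) (by norm_num)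
  rw [← hsplit] at haff
  have htq : ∀ j i, 0 < tMap i0 j0 r c ((1 / 2 : ℝ) • y) j i := by
    intro j i
    rw [haff]
    have h1 := htp j i
    have h2 := hi1 j i
    simp only [Pi.add_apply, Pi.smul_apply, smul_eq_mul]
    linarith
  have hconv := (phiT_convex (r := r) (c := c) h.hsum).2
    (show tMap i0 j0 r c y ∈ {t : Fin n → Fin m → ℝ | ∀ j i, 0 < t j i} from htp)
    (show tMap i0 j0 r c 0 ∈ {t : Fin n → Fin m → ℝ | ∀ j i, 0 < t j i} from
      fun j i => lt_of_lt_of_le (by norm_num) (hi1 j i))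
    (by norm_num : (0 : ℝ) ≤ 1 / 2) (by norm_num : (0 : ℝ) ≤ 1 / 2) (by norm_num)
  rw [← haff] at hconv
  simp only [smul_eq_mul] at hconv
  have hU1 : (1 : ℝ) ≤ (W : ℝ) ^ 2 := one_le_pow₀ hW1
  have hgt : (W : ℝ) ^ 2 < phiT r c (tMap i0 j0 r c ((1 / 2 : ℝ) • y)) := by
    by_contra hle
    rw [not_lt] at hle
    have hout := tMap_outer h hU1 htq hle
    apply hy
    intro k
    have h1 := hout k
    have h2 := param_cube hD0 hW
    simp only [Pi.smul_apply, smul_eq_mul, abs_mul] at h1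
    rw [abs_of_pos (by norm_num : (0 : ℝ) < 1 / 2)] at h1
    unfold rQ
    have h3 : 80 * ((n : ℝ) * m) ^ 3 * (W : ℝ) ^ 2 ≤ (W : ℝ) ^ 4 := h2
    linarith
  have hkey : (W : ℝ) ^ 2 - 2 * D + phiT r c (tMap i0 j0 r c ((1 / 2 : ℝ) • y))
      ≤ phiT r c (tMap i0 j0 r c y) := by
    have hi2' : phiT r c (tMap i0 j0 r c 0) ≤ 2 * D := hi2
    linarith
  simp only [Fy]
  rw [wmat_capa_eq h.hsum htp, wmat_capa_eq h.hsum htq,
    ← ENNReal.ofReal_mul (Real.exp_pos _).le]
  refine ENNReal.ofReal_le_ofReal ?_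
  have hE : 0 < Real.exp (-phiMin r) := Real.exp_pos _
  have hrw : Real.exp (-((W : ℝ) ^ 2 - 2 * D)) * (Real.exp (-phiMin r)
      * Real.exp (-phiT r c (tMap i0 j0 r c ((1 / 2 : ℝ) • y))))
      = Real.exp (-phiMin r) * Real.exp (-((W : ℝ) ^ 2 - 2 * D)
        + -phiT r c (tMap i0 j0 r c ((1 / 2 : ℝ) • y))) := by
    rw [Real.exp_add]; ring
  rw [hrw]
  exact mul_le_mul_of_nonneg_left (Real.exp_le_exp.mpr (by linarith)) hE.le

/-- The change of variables for the scaling by one half. -/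
private theorem lintegral_half {ι : Type} [Fintype ι] {f : (ι → ℝ) → ℝ≥0∞} (hf : Measurable f) :
    ∫⁻ y, f ((1 / 2 : ℝ) • y) = ENNReal.ofReal (2 ^ Fintype.card ι) * ∫⁻ y, f y := by
  have hr : (1 / 2 : ℝ) ≠ 0 := by norm_num
  have hmap := Measure.map_addHaar_smul (volume : Measure (ι → ℝ)) hr
  have hmeas : Measurable fun y : ι → ℝ => (1 / 2 : ℝ) • y := measurable_const_smul _
  have h1 : ∫⁻ y, f ((1 / 2 : ℝ) • y)
      = ∫⁻ y, f y ∂(Measure.map (fun y : ι → ℝ => (1 / 2 : ℝ) • y) volume) :=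
    (lintegral_map hf hmeas).symm
  rw [h1, hmap, lintegral_smul_measure]
  have hfin : Module.finrank ℝ (ι → ℝ) = Fintype.card ι := by simp
  rw [hfin]
  have h2 : |((1 / 2 : ℝ) ^ Fintype.card ι)⁻¹| = 2 ^ Fintype.card ι := by
    rw [one_div, inv_pow, inv_inv, abs_of_pos (by positivity)]
  rw [h2]
  rfl

/-- The numerical inequality of `tail_Q`. -/
private theorem tail_Q_num {W : ℕ} (hW : 10 ^ 6 * ((n : ℝ) * m + 1) ^ 2 ≤ W) :
    Real.exp (-((W : ℝ) ^ 2 - 2 * ((n : ℝ) * m))) * 2 ^ (n * m) ≤ 1 / (W : ℝ) ^ 30 := by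
  set D : ℝ := (n : ℝ) * m with hD
  have hD0 : 0 ≤ D := by positivity
  have hX : (1 : ℝ) ≤ (D + 1) ^ 2 := one_le_pow₀ (by linarith)
  have hD1 : D ≤ (D + 1) ^ 2 := by nlinarith
  have hW1 : (10 : ℝ) ^ 6 ≤ W := by nlinarith
  have hWD : D ≤ W := by nlinarith
  have hW0 : (0 : ℝ) < W := by linarith
  rw [le_div_iff₀ (by positivity)]
  have h2 : ((2 : ℝ)) ^ (n * m) ≤ Real.exp D := by
    have h3 : (2 : ℝ) ≤ Real.exp 1 := by
      have := Real.add_one_le_exp (1 : ℝ)
      linarith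
    calc (2 : ℝ) ^ (n * m) ≤ Real.exp 1 ^ (n * m) := pow_le_pow_left₀ (by norm_num) h3 _
      _ = Real.exp D := by
        rw [← Real.exp_nat_mul, mul_one, hD]
        push_cast
        rfl
  have hlog : Real.log W ≤ W := by
    have := Real.log_le_sub_one_of_pos hW0
    linarith
  have h4 : (W : ℝ) ^ 30 = Real.exp (30 * Real.log W) := by
    rw [show (30 : ℝ) = ((30 : ℕ) : ℝ) by norm_num, Real.exp_nat_mul, Real.exp_log hW0]
  have h5 : 33 * (W : ℝ) ≤ (W : ℝ) ^ 2 := by nlinarith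
  calc Real.exp (-((W : ℝ) ^ 2 - 2 * D)) * 2 ^ (n * m) * (W : ℝ) ^ 30
      ≤ Real.exp (-((W : ℝ) ^ 2 - 2 * D)) * Real.exp D * Real.exp (30 * Real.log W) := by
        rw [h4]
        gcongr
    _ = Real.exp (-((W : ℝ) ^ 2 - 2 * D) + D + 30 * Real.log W) := by
        rw [Real.exp_add, Real.exp_add]
    _ ≤ Real.exp 0 := Real.exp_le_exp.mpr (by nlinarith)
    _ = 1 := Real.exp_zero

theorem tail_Q (h : InstOK i0 j0 r c) {W : ℕ} (hW : 10 ^ 6 * ((n : ℝ) * m + 1) ^ 2 ≤ W) :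
    ∫⁻ y in {y : Fin n × Fin m → ℝ | ¬ ∀ k, |y k| ≤ rQ W}, Fy i0 j0 r c y
      ≤ ENNReal.ofReal (1 / (W : ℝ) ^ 30) * ∫⁻ y, Fy i0 j0 r c y := by
  have hcard : Fintype.card (Fin n × Fin m) = n * m := by simp
  have hm := measurable_Fy i0 j0 r c
  set b : ℝ := Real.exp (-((W : ℝ) ^ 2 - 2 * ((n : ℝ) * m))) with hb
  have hb0 : 0 ≤ b := (Real.exp_pos _).le
  have hA : MeasurableSet {y : Fin n × Fin m → ℝ | ∀ k, |y k| ≤ rQ W} := by
    have : {y : Fin n × Fin m → ℝ | ∀ k, |y k| ≤ rQ W}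
        = ⋂ k, {y : Fin n × Fin m → ℝ | |y k| ≤ rQ W} := by
      ext y; simp
    rw [this]
    exact MeasurableSet.iInter fun k =>
      measurableSet_le ((measurable_pi_apply k).abs) measurable_const
  have hA' : MeasurableSet {y : Fin n × Fin m → ℝ | ¬ ∀ k, |y k| ≤ rQ W} := hA.compl
  calc ∫⁻ y in {y : Fin n × Fin m → ℝ | ¬ ∀ k, |y k| ≤ rQ W}, Fy i0 j0 r c y
      ≤ ∫⁻ y in {y : Fin n × Fin m → ℝ | ¬ ∀ k, |y k| ≤ rQ W},
          ENNReal.ofReal b * Fy i0 j0 r c ((1 / 2 : ℝ) • y) :=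
        setLIntegral_mono' hA' fun y hy => Fy_half_bound h hW hy
    _ ≤ ∫⁻ y, ENNReal.ofReal b * Fy i0 j0 r c ((1 / 2 : ℝ) • y) :=
        setLIntegral_le_lintegral _ _
    _ = ENNReal.ofReal b * ∫⁻ y, Fy i0 j0 r c ((1 / 2 : ℝ) • y) :=
        lintegral_const_mul _ (hm.comp (measurable_const_smul _))
    _ = ENNReal.ofReal b * (ENNReal.ofReal (2 ^ (n * m)) * ∫⁻ y, Fy i0 j0 r c y) := by
        rw [lintegral_half hm, hcard]
    _ = ENNReal.ofReal (b * 2 ^ (n * m)) * ∫⁻ y, Fy i0 j0 r c y := by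
        rw [ENNReal.ofReal_mul hb0, mul_assoc]
    _ ≤ ENNReal.ofReal (1 / (W : ℝ) ^ 30) * ∫⁻ y, Fy i0 j0 r c y := by
        gcongr
        exact tail_Q_num hW

/-! ### The mass near the boundary -/

/-- The density in the coordinates `t`. -/
private noncomputable def Ft (r : Fin m → ℕ) (c : Fin n → ℕ) (t : Fin n → Fin m → ℝ) : ℝ≥0∞ :=
  wmat t * capa r c t

private theorem measurable_Ft (r : Fin m → ℕ) (c : Fin n → ℕ) : Measurable (Ft r c) :=
  measurable_wmat.mul (capa_measurable r c)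

private theorem expDens_of_pos {x : ℝ} (hx : 0 < x) : expDens x = ENNReal.ofReal (Real.exp (-x)) := by
  unfold expDens
  rw [if_pos hx]

/-- The density on positive matrices. -/
private theorem wmat_of_pos {t : Fin n → Fin m → ℝ} (ht : ∀ j i, 0 < t j i) :
    wmat t = ENNReal.ofReal (Real.exp (-∑ j, ∑ i, t j i)) := by
  unfold wmat wcol
  have h1 : ∀ j, ∏ i, expDens (t j i) = ENNReal.ofReal (Real.exp (-∑ i, t j i)) := by
    intro j
    rw [← Finset.sum_neg_distrib, Real.exp_sum,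
      ENNReal.ofReal_prod_of_nonneg fun i _ => (Real.exp_pos _).le]
    exact Finset.prod_congr rfl fun i _ => expDens_of_pos (ht j i)
  simp_rw [h1]
  rw [← ENNReal.ofReal_prod_of_nonneg fun j _ => (Real.exp_pos _).le, ← Real.exp_sum,
    Finset.sum_neg_distrib]

/-- The capacity is monotone in the matrix. -/
private theorem capa_mono_t {t t' : Fin n → Fin m → ℝ} (ht : ∀ j i, 0 ≤ t j i)
    (htt : ∀ j i, t j i ≤ t' j i) : capa r c t ≤ capa r c t' := by
  unfold capa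
  refine iInf_mono fun b => ENNReal.ofReal_le_ofReal ?_
  have hb := b.2
  have hden : 0 ≤ ∏ j, b.1 j ^ c j := Finset.prod_nonneg fun j _ => pow_nonneg (hb j).le _
  refine div_le_div_of_nonneg_right ?_ hden
  refine Finset.prod_le_prod (fun i _ => pow_nonneg (Finset.sum_nonneg fun j _ =>
    mul_nonneg (ht j i) (hb j).le) _) fun i _ => ?_
  refine pow_le_pow_left₀ (Finset.sum_nonneg fun j _ => mul_nonneg (ht j i) (hb j).le) ?_ _
  exact Finset.sum_le_sum fun j _ => mul_le_mul_of_nonneg_right (htt j i) (hb j).le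

/-- The translation by `a` of one entry. -/
private def bump (j : Fin n) (i : Fin m) (a : ℝ) : Fin n → Fin m → ℝ :=
  fun j' i' => if j' = j ∧ i' = i then a else 0

private theorem sum_bump (j : Fin n) (i : Fin m) (a : ℝ) :
    ∑ j', ∑ i', bump j i a j' i' = a := by
  unfold bump
  rw [Finset.sum_eq_single j, Finset.sum_eq_single i]
  · simp
  · intro i' _ hi'; simp [hi']
  · simp
  · intro j' _ hj'; simp [hj']
  · simp

private theorem bump_nonneg (j : Fin n) (i : Fin m) {a : ℝ} (ha : 0 ≤ a) (j' : Fin n) (i' : Fin m) :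
    0 ≤ bump j i a j' i' := by
  unfold bump
  split_ifs
  · exact ha
  · exact le_rfl

/-- Moving one entry up by `a` loses at most the factor `exp a`. -/
private theorem Ft_le_shift (j : Fin n) (i : Fin m) {a : ℝ} (ha : 0 ≤ a)
    {t : Fin n → Fin m → ℝ} (ht : ∀ j i, 0 < t j i) :
    Ft r c t ≤ ENNReal.ofReal (Real.exp a) * Ft r c (t + bump j i a) := by
  have ht' : ∀ j' i', 0 < (t + bump j i a) j' i' := fun j' i' => by
    have := bump_nonneg j i ha j' i'
    have := ht j' i'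
    simp only [Pi.add_apply]
    linarith
  unfold Ft
  rw [wmat_of_pos ht, wmat_of_pos ht', ← mul_assoc, ← ENNReal.ofReal_mul (Real.exp_pos _).le,
    ← Real.exp_add]
  have hs : ∑ j', ∑ i', (t + bump j i a) j' i' = ∑ j', ∑ i', t j' i' + a := by
    have h1 : ∀ j', ∑ i', (t + bump j i a) j' i' = ∑ i', t j' i' + ∑ i', bump j i a j' i' :=
      fun j' => by simp [Finset.sum_add_distrib]
    simp_rw [h1]
    rw [Finset.sum_add_distrib, sum_bump]
  rw [hs, show a + -(∑ j', ∑ i', t j' i' + a) = -∑ j', ∑ i', t j' i' by ring]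
  gcongr
  refine capa_mono_t (fun j' i' => (ht j' i').le) fun j' i' => ?_
  have := bump_nonneg j i ha j' i'
  simp only [Pi.add_apply]
  linarith

/-- The strip of entries `k κ ≤ t j i < (k + 1) κ`. -/
private def strip (κ : ℝ) (j : Fin n) (i : Fin m) (k : ℕ) : Set (Fin n → Fin m → ℝ) :=
  {t | (k : ℝ) * κ ≤ t j i ∧ t j i < ((k : ℝ) + 1) * κ}

private theorem measurable_strip (κ : ℝ) (j : Fin n) (i : Fin m) (k : ℕ) :
    MeasurableSet (strip κ j i k) := by
  have hm : Measurable fun t : Fin n → Fin m → ℝ => t j i :=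
    (measurable_pi_apply i).comp (measurable_pi_apply j)
  exact (measurableSet_le measurable_const hm).inter (measurableSet_lt hm measurable_const)

/-- One entry below the bound, compared with a strip. -/
private theorem strip_compare {κ : ℝ} (hκ : 0 < κ) (j : Fin n) (i : Fin m) (k : ℕ) :
    ∫⁻ t, {t : Fin n → Fin m → ℝ | t j i < κ}.indicator (Ft r c) t
      ≤ ENNReal.ofReal (Real.exp ((k : ℝ) * κ)) * ∫⁻ t, (strip κ j i k).indicator (Ft r c) t := by
  have ha : 0 ≤ (k : ℝ) * κ := by positivity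
  set a : ℝ := (k : ℝ) * κ with ha'
  have hmS := measurable_strip κ j i k
  have hmF : Measurable ((strip κ j i k).indicator (Ft r c)) := (measurable_Ft r c).indicator hmS
  have htr : ∫⁻ t, (strip κ j i k).indicator (Ft r c) (t + bump j i a)
      = ∫⁻ t, (strip κ j i k).indicator (Ft r c) t :=
    lintegral_add_right_eq_self _ _
  have hc : ENNReal.ofReal (Real.exp a) * ∫⁻ t, (strip κ j i k).indicator (Ft r c) (t + bump j i a)
      = ∫⁻ t, ENNReal.ofReal (Real.exp a) * (strip κ j i k).indicator (Ft r c) (t + bump j i a) :=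
    (lintegral_const_mul _ (hmF.comp (measurable_add_const _))).symm
  rw [← htr, hc]
  refine lintegral_mono fun t => ?_
  by_cases hlt : t j i < κ
  · rw [Set.indicator_of_mem (show t ∈ {t : Fin n → Fin m → ℝ | t j i < κ} from hlt)]
    by_cases h0 : wmat t = 0
    · simp [Ft, h0]
    have htp := wmat_ne_zero_pos h0
    have hmem : t + bump j i a ∈ strip κ j i k := by
      have h1 : (t + bump j i a) j i = t j i + a := by
        simp [bump]
      constructor
      · rw [h1, ← ha']; linarith [htp j i]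
      · rw [h1, ha']; nlinarith
    rw [Set.indicator_of_mem hmem]
    exact Ft_le_shift j i ha htp
  · rw [Set.indicator_of_notMem (show t ∉ {t : Fin n → Fin m → ℝ | t j i < κ} from hlt)]
    exact zero_le

/-- The bound for one entry. -/
private theorem entry_bound {K : ℕ} (hK : 0 < K) (j : Fin n) (i : Fin m) :
    (K : ℝ≥0∞) * ∫⁻ t, {t : Fin n → Fin m → ℝ | t j i < 1 / (K : ℝ)}.indicator (Ft r c) t
      ≤ ENNReal.ofReal (Real.exp 1) * ∫⁻ t, Ft r c t := by
  have hK0 : (0 : ℝ) < K := by exact_mod_cast hK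
  set κ : ℝ := 1 / (K : ℝ) with hκ
  have hκ0 : 0 < κ := by positivity
  set X := ∫⁻ t, {t : Fin n → Fin m → ℝ | t j i < κ}.indicator (Ft r c) t with hX
  have h1 : ∀ k ∈ Finset.range K,
      X ≤ ENNReal.ofReal (Real.exp 1) * ∫⁻ t, (strip κ j i k).indicator (Ft r c) t := by
    intro k hk
    refine le_trans (strip_compare hκ0 j i k) ?_
    gcongr
    have hk' : (k : ℝ) < K := by exact_mod_cast Finset.mem_range.mp hk
    rw [hκ]
    rw [mul_one_div, div_le_one hK0]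
    exact hk'.le
  have h2 : (K : ℝ≥0∞) * X = ∑ _k ∈ Finset.range K, X := by
    simp
  have hmeas : ∀ k ∈ Finset.range K,
      Measurable ((strip κ j i k).indicator (Ft r c)) := fun k _ =>
    (measurable_Ft r c).indicator (measurable_strip κ j i k)
  calc (K : ℝ≥0∞) * X = ∑ _k ∈ Finset.range K, X := h2
    _ ≤ ∑ k ∈ Finset.range K, ENNReal.ofReal (Real.exp 1)
          * ∫⁻ t, (strip κ j i k).indicator (Ft r c) t := Finset.sum_le_sum h1
    _ = ENNReal.ofReal (Real.exp 1)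
          * ∑ k ∈ Finset.range K, ∫⁻ t, (strip κ j i k).indicator (Ft r c) t := by
        rw [Finset.mul_sum]
    _ = ENNReal.ofReal (Real.exp 1)
          * ∫⁻ t, ∑ k ∈ Finset.range K, (strip κ j i k).indicator (Ft r c) t := by
        rw [lintegral_finsetSum _ hmeas]
    _ ≤ ENNReal.ofReal (Real.exp 1) * ∫⁻ t, Ft r c t := by
        gcongr with t
        by_cases hex : ∃ k ∈ Finset.range K, t ∈ strip κ j i k
        · obtain ⟨k, hk, hkm⟩ := hex
          rw [Finset.sum_eq_single k]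
          · rw [Set.indicator_of_mem hkm]
          · intro k' _ hk'
            rw [Set.indicator_of_notMem]
            intro hk'm
            apply hk'
            have h3 := hkm.1
            have h4 := hkm.2
            have h5 := hk'm.1
            have h6 := hk'm.2
            have h7 : (k : ℝ) < (k' : ℝ) + 1 := by
              by_contra hc
              rw [not_lt] at hc
              nlinarith
            have h8 : (k' : ℝ) < (k : ℝ) + 1 := by
              by_contra hc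
              rw [not_lt] at hc
              nlinarith
            have h9 : k < k' + 1 := by exact_mod_cast h7
            have h10 : k' < k + 1 := by exact_mod_cast h8
            omega
          · intro hk'
            exact absurd hk hk'
        · rw [Finset.sum_eq_zero]
          · exact zero_le
          · intro k hk
            rw [Set.indicator_of_notMem]
            exact fun hkm => hex ⟨k, hk, hkm⟩

/-- The bound in the coordinates `t`. -/
private theorem tail_t {W : ℕ} (hW : 10 ^ 6 * ((n : ℝ) * m + 1) ^ 2 ≤ W) :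
    ∫⁻ t, {t : Fin n → Fin m → ℝ | ¬ ∀ j i, cutK W ≤ t j i}.indicator (Ft r c) t
      ≤ ENNReal.ofReal (1 / (W : ℝ) ^ 25) * ∫⁻ t, Ft r c t := by
  set D : ℝ := (n : ℝ) * m with hD
  have hD0 : 0 ≤ D := by positivity
  have hX : (1 : ℝ) ≤ (D + 1) ^ 2 := one_le_pow₀ (by linarith)
  have hD1 : D ≤ (D + 1) ^ 2 := by nlinarith
  have hW1 : (10 : ℝ) ^ 6 ≤ W := by nlinarith
  have hWD : D * 10 ^ 6 ≤ W := by nlinarith
  have hW0 : (0 : ℝ) < W := by linarith
  have hWn : 0 < W := by exact_mod_cast hW0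
  set K : ℕ := W ^ 26 with hK
  have hK0 : 0 < K := pow_pos hWn _
  have hKr : (K : ℝ) = (W : ℝ) ^ 26 := by rw [hK]; push_cast; rfl
  have hcut : cutK W = 1 / (K : ℝ) := by rw [hKr]; rfl
  set I := ∫⁻ t, Ft r c t with hI
  have hone : ∀ j i, ∫⁻ t, {t : Fin n → Fin m → ℝ | t j i < cutK W}.indicator (Ft r c) t
      ≤ ENNReal.ofReal (Real.exp 1 / (K : ℝ)) * I := by
    intro j i
    have h1 := entry_bound (r := r) (c := c) hK0 j i
    rw [← hcut] at h1
    have hKne : (K : ℝ≥0∞) ≠ 0 := by exact_mod_cast hK0.ne'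
    have hKtop : (K : ℝ≥0∞) ≠ ⊤ := ENNReal.natCast_ne_top K
    have h2 : ENNReal.ofReal (Real.exp 1 / (K : ℝ)) * (K : ℝ≥0∞)
        = ENNReal.ofReal (Real.exp 1) := by
      rw [← ENNReal.ofReal_natCast, ← ENNReal.ofReal_mul (by positivity)]
      congr 1
      have : (K : ℝ) ≠ 0 := by positivity
      field_simp
    rw [← ENNReal.mul_le_mul_iff_right hKne hKtop]
    calc (K : ℝ≥0∞) * _ ≤ ENNReal.ofReal (Real.exp 1) * I := h1
      _ = (K : ℝ≥0∞) * (ENNReal.ofReal (Real.exp 1 / (K : ℝ)) * I) := by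
        rw [← h2]; ring
  have hmeas : ∀ p ∈ (Finset.univ : Finset (Fin n × Fin m)),
      Measurable ({t : Fin n → Fin m → ℝ | t p.1 p.2 < cutK W}.indicator (Ft r c)) := by
    intro p _
    refine (measurable_Ft r c).indicator ?_
    have hm : Measurable fun t : Fin n → Fin m → ℝ => t p.1 p.2 :=
      (measurable_pi_apply p.2).comp (measurable_pi_apply p.1)
    exact measurableSet_lt hm measurable_const
  calc ∫⁻ t, {t : Fin n → Fin m → ℝ | ¬ ∀ j i, cutK W ≤ t j i}.indicator (Ft r c) t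
      ≤ ∫⁻ t, ∑ p : Fin n × Fin m, {t : Fin n → Fin m → ℝ | t p.1 p.2 < cutK W}.indicator (Ft r c) t := by
        refine lintegral_mono fun t => ?_
        by_cases hB : ∀ j i, cutK W ≤ t j i
        · rw [Set.indicator_of_notMem (by simpa using hB)]
          exact zero_le
        · rw [Set.indicator_of_mem (show t ∈ {t : Fin n → Fin m → ℝ | ¬ ∀ j i, cutK W ≤ t j i} from hB)]
          have hB' := hB
          simp only [not_forall, not_le] at hB'
          obtain ⟨j, i, hji⟩ := hB'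
          calc Ft r c t = {t : Fin n → Fin m → ℝ | t (j, i).1 (j, i).2 < cutK W}.indicator (Ft r c) t := by
                rw [Set.indicator_of_mem (show t ∈ {t : Fin n → Fin m → ℝ | t (j, i).1 (j, i).2 < cutK W} from hji)]
            _ ≤ _ := Finset.single_le_sum
                (f := fun p : Fin n × Fin m => {t : Fin n → Fin m → ℝ | t p.1 p.2 < cutK W}.indicator (Ft r c) t)
                (fun _ _ => zero_le) (Finset.mem_univ (j, i))
    _ = ∑ p : Fin n × Fin m, ∫⁻ t, {t : Fin n → Fin m → ℝ | t p.1 p.2 < cutK W}.indicator (Ft r c) t :=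
        lintegral_finsetSum _ hmeas
    _ ≤ ∑ _p : Fin n × Fin m, ENNReal.ofReal (Real.exp 1 / (K : ℝ)) * I :=
        Finset.sum_le_sum fun p _ => hone p.1 p.2
    _ = ((n * m : ℕ) : ℝ≥0∞) * (ENNReal.ofReal (Real.exp 1 / (K : ℝ)) * I) := by
        simp
    _ = ENNReal.ofReal (D * (Real.exp 1 / (K : ℝ))) * I := by
        rw [← mul_assoc, ENNReal.ofReal_mul hD0]
        congr 2
        rw [hD, ← ENNReal.ofReal_natCast]
        push_cast
        rfl
    _ ≤ ENNReal.ofReal (1 / (W : ℝ) ^ 25) * I := by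
        gcongr
        rw [hKr, ← mul_div_assoc, div_le_div_iff₀ (by positivity) (by positivity)]
        have he : Real.exp 1 ≤ 3 := by
          have := Real.exp_one_lt_d9
          linarith
        have h5 : D * Real.exp 1 ≤ W := by nlinarith [Real.exp_pos 1]
        calc D * Real.exp 1 * (W : ℝ) ^ 25 ≤ (W : ℝ) * (W : ℝ) ^ 25 := by gcongr
          _ = 1 * (W : ℝ) ^ 26 := by ring

theorem tail_K (h : InstOK i0 j0 r c) {W : ℕ} (hW : 10 ^ 6 * ((n : ℝ) * m + 1) ^ 2 ≤ W) :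
    ∫⁻ y in {y : Fin n × Fin m → ℝ | ¬ ∀ j i, cutK W ≤ tMap i0 j0 r c y j i}, Fy i0 j0 r c y
      ≤ ENNReal.ofReal (1 / (W : ℝ) ^ 25) * ∫⁻ y, Fy i0 j0 r c y := by
  have hmeasB : MeasurableSet {t : Fin n → Fin m → ℝ | ¬ ∀ j i, cutK W ≤ t j i} := by
    have : {t : Fin n → Fin m → ℝ | ¬ ∀ j i, cutK W ≤ t j i}
        = (⋂ j, ⋂ i, {t : Fin n → Fin m → ℝ | cutK W ≤ t j i})ᶜ := by
      ext t; simp
    rw [this]
    refine (MeasurableSet.iInter fun j => MeasurableSet.iInter fun i => ?_).compl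
    exact measurableSet_le measurable_const ((measurable_pi_apply i).comp (measurable_pi_apply j))
  set B : Set (Fin n → Fin m → ℝ) := {t | ¬ ∀ j i, cutK W ≤ t j i} with hB
  have hmT := (continuous_tMap i0 j0 r c).measurable
  have hmF := measurable_Ft r c
  have hd0 : 0 < detT i0 j0 r c := detT_pos i0 j0 r c
  have hne : ENNReal.ofReal (detT i0 j0 r c) ≠ 0 := by
    simpa using hd0
  have hnt : ENNReal.ofReal (detT i0 j0 r c) ≠ ⊤ := ENNReal.ofReal_ne_top
  have h1 : ∫⁻ t, B.indicator (Ft r c) t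
      = ENNReal.ofReal (detT i0 j0 r c) * ∫⁻ y, B.indicator (Ft r c) (tMap i0 j0 r c y) :=
    tMap_volume i0 j0 r c (hmF.indicator hmeasB)
  have h2 : ∫⁻ t, Ft r c t
      = ENNReal.ofReal (detT i0 j0 r c) * ∫⁻ y, Fy i0 j0 r c y :=
    tMap_volume i0 j0 r c hmF
  have h3 : ∫⁻ y in {y : Fin n × Fin m → ℝ | ¬ ∀ j i, cutK W ≤ tMap i0 j0 r c y j i}, Fy i0 j0 r c y
      = ∫⁻ y, B.indicator (Ft r c) (tMap i0 j0 r c y) := by
    have hset : {y : Fin n × Fin m → ℝ | ¬ ∀ j i, cutK W ≤ tMap i0 j0 r c y j i}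
        = (tMap i0 j0 r c) ⁻¹' B := rfl
    rw [hset, ← lintegral_indicator (hmT hmeasB)]
    refine lintegral_congr fun y => ?_
    by_cases hy : tMap i0 j0 r c y ∈ B
    · rw [Set.indicator_of_mem hy, Set.indicator_of_mem (show y ∈ (tMap i0 j0 r c) ⁻¹' B from hy)]
      rfl
    · rw [Set.indicator_of_notMem hy, Set.indicator_of_notMem (show y ∉ (tMap i0 j0 r c) ⁻¹' B from hy)]
  have h4 := tail_t (r := r) (c := c) hW
  rw [h1, h2] at h4
  change (∫⁻ y in (tMap i0 j0 r c) ⁻¹' B, Fy i0 j0 r c y) ≤ _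
  rw [show (∫⁻ y in (tMap i0 j0 r c) ⁻¹' B, Fy i0 j0 r c y)
      = ∫⁻ y, B.indicator (Ft r c) (tMap i0 j0 r c y) from h3]
  rw [← ENNReal.mul_le_mul_iff_right hne hnt]
  calc ENNReal.ofReal (detT i0 j0 r c) * ∫⁻ y, B.indicator (Ft r c) (tMap i0 j0 r c y)
      ≤ ENNReal.ofReal (1 / (W : ℝ) ^ 25) * (ENNReal.ofReal (detT i0 j0 r c) * ∫⁻ y, Fy i0 j0 r c y) := h4
    _ = ENNReal.ofReal (detT i0 j0 r c) * (ENNReal.ofReal (1 / (W : ℝ) ^ 25) * ∫⁻ y, Fy i0 j0 r c y) := by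
        ring

end Vale.Agent.Lib.P328.Samp
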