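import Vale.Agent.Lib.P328.Samp.PsiNum
import Vale.Agent.Lib.P328.Samp.Tail
import Vale.Agent.Lib.P328.Samp.Cells
import Vale.Agent.Lib.P328.Fpras.Trial

/-!
# P328, explicit algorithm: the law of the sampler (module L)

Fix an instance, `Nb = Σ r`, `D = n m`, `V = cellD W ^ D`, `law = chainLaw W Nb i0 j0 r c 1`, `π z = exp (-psiCell z) / S`, `S = Σ_z' exp (-psiCell z')`, `Z = ∫⁻ wmat * capa`.
In coordinates (`tMap_volume`, `wLaw`): `∫ H dwLaw = IF⁻¹ ∫⁻ y, Fy y * H (tMap y)`, `IF = ∫⁻ Fy`.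

With `a = exp (3/W^25)`, `b = 1 + 1/W^24`, `E = exp (-phiMin)`:
`sum_upper`: `E V S ≤ a b IF` (half open cubes are disjoint, `psiCell_close`, `psi_mass`, `Fy = E exp (-phiY)` on `domY`).
`cover_bound`: `∫_{Q ∩ K} Fy g ≤ Σ_z ofReal (E a exp (-psiCell z)) ∫_{smallC z} g` (`reg_le`, `psiCell_close`, `exists_smallC`).
The functional `g ↦ κ IF⁻¹ ∫_{Q∩K} Fy g`, `κ = (a a b)⁻¹`, is below both `g ↦ IF⁻¹ ∫ Fy g` and `g ↦ Σ_z π z ∫_u g (cellPt z u)`, and has mass at least `1 - 3/W^24` (`tail_Q`, `tail_K`).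
So for a family with sum at most one the two differ by at most `6/W^24` in `ℓ¹` (`family_close`), and replacing `π` by `law` costs `exp (-W)` (`chain_tv`).
-/

namespace Vale.Agent.Lib.P328.Samp

open Finset MeasureTheory Vale.Agent.Lib.P328.Cap Vale.Agent.Lib.P328.Fpras
open scoped ENNReal

section Abstract

/-- Two functionals that dominate a common additive functional of almost full mass are close on a
family with sum at most one. -/
theorem family_close_aux {Ω : Type*} [MeasurableSpace Ω] {A C : (Ω → ℝ≥0∞) → ℝ≥0∞}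
    (hA : ∀ f g, Measurable f → Measurable g → A (f + g) = A f + A g)
    (hC : ∀ f g, Measurable f → Measurable g → C (f + g) = C f + C g)
    (hA0 : A 0 = 0) (hC0 : C 0 = 0)
    (hle : ∀ g, Measurable g → C g ≤ A g) (hA1 : A 1 = 1) {e : ℝ}
    (he : 1 ≤ C 1 + ENNReal.ofReal e) (he0 : 0 ≤ e)
    {X : Type} {S : Finset X} {g : X → Ω → ℝ≥0∞} (hg : ∀ x ∈ S, Measurable (g x))
    (hg1 : ∀ ω, ∑ x ∈ S, g x ω ≤ 1) :
    ∑ x ∈ S, |(A (g x)).toReal - (C (g x)).toReal| ≤ e := by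
  classical
  set G : Ω → ℝ≥0∞ := fun ω => ∑ x ∈ S, g x ω with hG
  have hGm : Measurable G := Finset.measurable_sum _ hg
  have hsum : ∀ {B : (Ω → ℝ≥0∞) → ℝ≥0∞}, (∀ f g, Measurable f → Measurable g → B (f + g) = B f + B g) →
      B 0 = 0 → ∀ T : Finset X, T ⊆ S → B (fun ω => ∑ x ∈ T, g x ω) = ∑ x ∈ T, B (g x) := by
    intro B hB hB0 T
    induction T using Finset.induction_on with
    | empty =>
      intro _
      have e : (fun ω => ∑ x ∈ (∅ : Finset X), g x ω) = 0 := by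
        funext ω
        simp
      rw [e, hB0, Finset.sum_empty]
    | insert a T ha ih =>
      intro hT
      have h1 : (fun ω => ∑ x ∈ insert a T, g x ω) = g a + fun ω => ∑ x ∈ T, g x ω := by
        funext ω
        rw [Finset.sum_insert ha]
        rfl
      rw [h1, hB _ _ (hg a (hT (Finset.mem_insert_self _ _)))
        (Finset.measurable_sum _ fun x hx => hg x (hT (Finset.mem_insert_of_mem hx))),
        ih fun x hx => hT (Finset.mem_insert_of_mem hx), Finset.sum_insert ha]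
  have hAG : A G = ∑ x ∈ S, A (g x) := hsum hA hA0 S (Finset.Subset.refl _)
  have hCG : C G = ∑ x ∈ S, C (g x) := hsum hC hC0 S (Finset.Subset.refl _)
  set G' : Ω → ℝ≥0∞ := fun ω => 1 - G ω with hG'
  have hG'm : Measurable G' := measurable_const.sub hGm
  have hadd : G + G' = 1 := by
    funext ω
    simp only [Pi.add_apply, Pi.one_apply, hG']
    exact add_tsub_cancel_of_le (hg1 ω)
  have hA2 : A G + A G' = 1 := by
    rw [← hA _ _ hGm hG'm, hadd, hA1]
  have hC2 : C G + C G' = C 1 := by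
    rw [← hC _ _ hGm hG'm, hadd]
  have hAGf : A G ≠ ⊤ := fun h => by simp [h] at hA2
  have hAG'f : A G' ≠ ⊤ := fun h => by simp [h] at hA2
  have hCGf : C G ≠ ⊤ := ne_top_of_le_ne_top hAGf (hle G hGm)
  have hCG'f : C G' ≠ ⊤ := ne_top_of_le_ne_top hAG'f (hle G' hG'm)
  have hAx : ∀ x ∈ S, A (g x) ≠ ⊤ := by
    intro x hx
    rw [hAG] at hAGf
    exact (ENNReal.sum_ne_top.1 hAGf) x hx
  have hCx : ∀ x ∈ S, C (g x) ≠ ⊤ := fun x hx => ne_top_of_le_ne_top (hAx x hx) (hle _ (hg x hx))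
  have h1 : ∑ x ∈ S, |(A (g x)).toReal - (C (g x)).toReal|
      = ∑ x ∈ S, ((A (g x)).toReal - (C (g x)).toReal) := by
    refine Finset.sum_congr rfl fun x hx => ?_
    rw [abs_of_nonneg]
    exact sub_nonneg.2 (ENNReal.toReal_mono (hAx x hx) (hle _ (hg x hx)))
  rw [h1, Finset.sum_sub_distrib, ← ENNReal.toReal_sum hAx, ← ENNReal.toReal_sum hCx, ← hAG, ← hCG]
  -- real numbers
  have h2 : (A G).toReal + (A G').toReal = 1 := by
    rw [← ENNReal.toReal_add hAGf hAG'f, hA2]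
    simp
  have hC1f : C 1 ≠ ⊤ := by
    rw [← hC2]
    exact ENNReal.add_ne_top.2 ⟨hCGf, hCG'f⟩
  have h3 : (C G).toReal + (C G').toReal = (C 1).toReal := by
    rw [← ENNReal.toReal_add hCGf hCG'f, hC2]
  have h4 : (C G').toReal ≤ (A G').toReal := ENNReal.toReal_mono hAG'f (hle G' hG'm)
  have h5 : 1 ≤ (C 1).toReal + e := by
    have h6 : (1 : ℝ≥0∞).toReal ≤ (C 1 + ENNReal.ofReal e).toReal :=
      ENNReal.toReal_mono (ENNReal.add_ne_top.2 ⟨hC1f, ENNReal.ofReal_ne_top⟩) he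
    rw [ENNReal.toReal_add hC1f ENNReal.ofReal_ne_top, ENNReal.toReal_ofReal he0] at h6
    simpa using h6
  linarith

end Abstract

variable {m n : ℕ} {i0 : Fin m} {j0 : Fin n} {r : Fin m → ℕ} {c : Fin n → ℕ}

/-- The total mass in the coordinates. -/
noncomputable def IFy (i0 : Fin m) (j0 : Fin n) (r : Fin m → ℕ) (c : Fin n → ℕ) : ℝ≥0∞ :=
  ∫⁻ y, Fy i0 j0 r c y

section Facts

theorem WOK.pos {W : ℕ} (hW : WOK m n W) : 0 < W := by
  have h : (10 : ℝ) ^ 6 * ((n : ℝ) * m + 1) ^ 2 ≤ W := hW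
  have h1 : (0 : ℝ) < 10 ^ 6 * ((n : ℝ) * m + 1) ^ 2 := by positivity
  exact_mod_cast lt_of_lt_of_le h1 h

theorem WOK.ge {W : ℕ} (hW : WOK m n W) : (10 : ℝ) ^ 6 ≤ W := by
  have h : (10 : ℝ) ^ 6 * ((n : ℝ) * m + 1) ^ 2 ≤ W := hW
  have h1 : (1 : ℝ) ≤ ((n : ℝ) * m + 1) ^ 2 := one_le_pow₀ (by
    have : (0 : ℝ) ≤ (n : ℝ) * m := by positivity
    linarith)
  nlinarith

theorem cutK_pos {W : ℕ} (hW : 0 < W) : 0 < cutK W := by
  unfold cutK
  have : (0 : ℝ) < W := by exact_mod_cast hW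
  positivity

/-- The density on the domain of the potential. -/
theorem Fy_eq (h : InstOK i0 j0 r c) {W : ℕ} (hW : WOK m n W) {y : Fin n × Fin m → ℝ}
    (hy : y ∈ domY W i0 j0 r c) :
    Fy i0 j0 r c y = ENNReal.ofReal (Real.exp (-phiMin r) * Real.exp (-phiY i0 j0 r c y)) := by
  unfold Fy phiY
  exact wmat_capa_eq h.hsum fun j i => lt_of_lt_of_le (cutK_pos hW.pos) (hy j i)

theorem measurableSet_domY (W : ℕ) (i0 : Fin m) (j0 : Fin n) (r : Fin m → ℕ) (c : Fin n → ℕ) :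
    MeasurableSet (domY W i0 j0 r c) := by
  have h : domY W i0 j0 r c = ⋂ j, ⋂ i, {y | cutK W ≤ tMap i0 j0 r c y j i} := by
    ext y
    simp [domY]
  rw [h]
  refine MeasurableSet.iInter fun j => MeasurableSet.iInter fun i => ?_
  have hc : Continuous fun y => tMap i0 j0 r c y j i :=
    (continuous_apply i).comp ((continuous_apply j).comp (continuous_tMap i0 j0 r c))
  exact measurableSet_le measurable_const hc.measurable

theorem measurableSet_bigQ (ι : Type) [Fintype ι] (W : ℕ) : MeasurableSet (bigQ ι W) := by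
  have h : bigQ ι W = ⋂ k, {y : ι → ℝ | |y k| ≤ rQ W} := by
    ext y
    simp [bigQ]
  rw [h]
  refine MeasurableSet.iInter fun k => ?_
  exact measurableSet_le (measurable_pi_apply k).abs measurable_const

theorem IFy_eq (i0 : Fin m) (j0 : Fin n) (r : Fin m → ℕ) (c : Fin n → ℕ) :
    ∫⁻ t, wmat t * capa r c t = ENNReal.ofReal (detT i0 j0 r c) * IFy i0 j0 r c := by
  have hm : Measurable fun t : Fin n → Fin m → ℝ => wmat t * capa r c t :=
    measurable_wmat.mul (capa_measurable r c)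
  exact tMap_volume i0 j0 r c hm

theorem IFy_ne_top (i0 : Fin m) (j0 : Fin n) (r : Fin m → ℕ) (c : Fin n → ℕ) : IFy i0 j0 r c ≠ ⊤ := by
  intro h
  have h1 := IFy_eq i0 j0 r c
  rw [h, ENNReal.mul_top (by simpa using detT_pos i0 j0 r c)] at h1
  exact Z_ne_top r c h1

/-- The mass is positive. -/
theorem IFy_ne_zero (h : InstOK i0 j0 r c) : IFy i0 j0 r c ≠ 0 := by
  have hsub : Set.Icc (fun _ => -1 : Fin n × Fin m → ℝ) (fun _ => 1)
      ⊆ {y | ENNReal.ofReal (Real.exp (-phiMin r) * Real.exp (-(2 * ((n : ℝ) * m)))) ≤ Fy i0 j0 r c y} := by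
    intro y hy
    have hy' : ∀ k, |y k| ≤ 1 := fun k => abs_le.2 ⟨hy.1 k, hy.2 k⟩
    obtain ⟨h1, h2⟩ := tMap_inner h hy'
    have hpos : ∀ j i, 0 < tMap i0 j0 r c y j i := fun j i => lt_of_lt_of_le (by norm_num) (h1 j i)
    show _ ≤ Fy i0 j0 r c y
    unfold Fy
    rw [wmat_capa_eq h.hsum hpos]
    refine ENNReal.ofReal_le_ofReal ?_
    have h3 : Real.exp (-(2 * ((n : ℝ) * m))) ≤ Real.exp (-phiT r c (tMap i0 j0 r c y)) :=
      Real.exp_le_exp.2 (by linarith)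
    exact mul_le_mul_of_nonneg_left h3 (Real.exp_pos _).le
  have hvol : volume (Set.Icc (fun _ => -1 : Fin n × Fin m → ℝ) (fun _ => 1)) ≠ 0 := by
    rw [Real.volume_Icc_pi]
    refine Finset.prod_ne_zero_iff.2 fun k _ => ?_
    norm_num
  unfold IFy
  intro h0
  have h1 := (lintegral_eq_zero_iff (measurable_Fy i0 j0 r c)).1 h0
  have h2 : volume {y | ENNReal.ofReal (Real.exp (-phiMin r) * Real.exp (-(2 * ((n : ℝ) * m)))) ≤ Fy i0 j0 r c y} = 0 := by
    refine measure_mono_null ?_ (ae_iff.1 h1)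
    intro y hy
    simp only [Set.mem_ofPred_eq] at hy ⊢
    intro h4
    rw [h4] at hy
    have : (0 : ℝ) < Real.exp (-phiMin r) * Real.exp (-(2 * ((n : ℝ) * m))) := by positivity
    simp only [Pi.zero_apply, nonpos_iff_eq_zero, ENNReal.ofReal_eq_zero] at hy
    linarith
  exact hvol (measure_mono_null hsub h2)

/-- The law `wLaw` in the coordinates. -/
theorem lintegral_wLaw_y (h : InstOK i0 j0 r c) {f : (Fin n → Fin m → ℝ) → ℝ≥0∞} (hf : Measurable f) :
    ∫⁻ t, f t ∂(wLaw r c)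
      = (IFy i0 j0 r c)⁻¹ * ∫⁻ y, Fy i0 j0 r c y * f (tMap i0 j0 r c y) := by
  have hm : Measurable fun t : Fin n → Fin m → ℝ => wmat t * capa r c t * f t :=
    (measurable_wmat.mul (capa_measurable r c)).mul hf
  have hd0 : ENNReal.ofReal (detT i0 j0 r c) ≠ 0 := by simpa using detT_pos i0 j0 r c
  rw [lintegral_wLaw, IFy_eq i0 j0 r c, tMap_volume i0 j0 r c hm,
    ENNReal.mul_inv (Or.inl hd0) (Or.inl ENNReal.ofReal_ne_top)]
  have e : (ENNReal.ofReal (detT i0 j0 r c))⁻¹ * (IFy i0 j0 r c)⁻¹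
      * (ENNReal.ofReal (detT i0 j0 r c) * ∫⁻ y, Fy i0 j0 r c y * f (tMap i0 j0 r c y))
      = ((ENNReal.ofReal (detT i0 j0 r c))⁻¹ * ENNReal.ofReal (detT i0 j0 r c)) * ((IFy i0 j0 r c)⁻¹
        * ∫⁻ y, Fy i0 j0 r c y * f (tMap i0 j0 r c y)) := by ring
  unfold Fy at e ⊢
  rw [e, ENNReal.inv_mul_cancel hd0 ENNReal.ofReal_ne_top, one_mul]

/-- The mass outside the domain of the chain. -/
theorem Fy_bad (h : InstOK i0 j0 r c) {W : ℕ} (hW : WOK m n W) :
    ∫⁻ y in (bigQ _ W ∩ domY W i0 j0 r c)ᶜ, Fy i0 j0 r c y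
      ≤ ENNReal.ofReal (2 / (W : ℝ) ^ 25) * IFy i0 j0 r c := by
  have hW' : (0 : ℝ) < W := by exact_mod_cast hW.pos
  have hW1 : (1 : ℝ) ≤ W := by linarith [hW.ge, show (1 : ℝ) ≤ 10 ^ 6 by norm_num]
  have hsub : (bigQ _ W ∩ domY W i0 j0 r c)ᶜ
      = {y : Fin n × Fin m → ℝ | ¬ ∀ k, |y k| ≤ rQ W} ∪ {y | ¬ ∀ j i, cutK W ≤ tMap i0 j0 r c y j i} := by
    ext y
    simp only [Set.mem_compl_iff, Set.mem_inter_iff, bigQ, domY, Set.mem_ofPred_eq, Set.mem_union]
    tauto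
  rw [hsub]
  refine (lintegral_union_le _ _ _).trans ?_
  have h1 := tail_Q h hW
  have h2 := tail_K h hW
  refine (add_le_add h1 h2).trans ?_
  unfold IFy
  rw [← add_mul, ← ENNReal.ofReal_add (by positivity) (by positivity)]
  gcongr
  have h3 : 1 / (W : ℝ) ^ 30 ≤ 1 / (W : ℝ) ^ 25 := by
    apply one_div_le_one_div_of_le (by positivity)
    exact pow_le_pow_right₀ hW1 (by norm_num)
  have h4 : 2 / (W : ℝ) ^ 25 = 1 / (W : ℝ) ^ 25 + 1 / (W : ℝ) ^ 25 := by ring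
  linarith

/-- **The good set has almost all the mass of `wLaw`.** -/
theorem wLaw_good_bad (h : InstOK i0 j0 r c) {W : ℕ} (hW : WOK m n W)
    {f : (Fin n → Fin m → ℝ) → ℝ≥0∞} (hf : Measurable f) {a b : ℝ≥0∞}
    (ha : ∀ y, (∀ k, |y k| ≤ rQ W) → (∀ j i, cutK W ≤ tMap i0 j0 r c y j i) → f (tMap i0 j0 r c y) ≤ a)
    (hb : ∀ t, f t ≤ b) :
    ∫⁻ t, f t ∂(wLaw r c) ≤ a + b * ENNReal.ofReal (2 / (W : ℝ) ^ 25) := by
  rw [lintegral_wLaw_y h hf]
  have hF0 := IFy_ne_zero h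
  have hFt := IFy_ne_top i0 j0 r c
  have hms : MeasurableSet (bigQ (Fin n × Fin m) W ∩ domY W i0 j0 r c) :=
    (measurableSet_bigQ _ W).inter (measurableSet_domY W i0 j0 r c)
  have h1 : ∫⁻ y, Fy i0 j0 r c y * f (tMap i0 j0 r c y)
      = (∫⁻ y in bigQ _ W ∩ domY W i0 j0 r c, Fy i0 j0 r c y * f (tMap i0 j0 r c y))
        + ∫⁻ y in (bigQ _ W ∩ domY W i0 j0 r c)ᶜ, Fy i0 j0 r c y * f (tMap i0 j0 r c y) :=
    by rw [lintegral_add_compl _ hms]
  have h2 : ∫⁻ y in bigQ _ W ∩ domY W i0 j0 r c, Fy i0 j0 r c y * f (tMap i0 j0 r c y)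
      ≤ ∫⁻ y, Fy i0 j0 r c y * a := by
    calc _ ≤ ∫⁻ y in bigQ _ W ∩ domY W i0 j0 r c, Fy i0 j0 r c y * a := by
          refine setLIntegral_mono' hms fun y hy => ?_
          exact mul_le_mul_right (ha y hy.1 hy.2) _
      _ ≤ _ := setLIntegral_le_lintegral _ _
  have h3 : ∫⁻ y in (bigQ _ W ∩ domY W i0 j0 r c)ᶜ, Fy i0 j0 r c y * f (tMap i0 j0 r c y)
      ≤ ∫⁻ y in (bigQ _ W ∩ domY W i0 j0 r c)ᶜ, Fy i0 j0 r c y * b :=
    setLIntegral_mono' hms.compl fun y _ => mul_le_mul_right (hb _) _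
  rw [lintegral_mul_const _ (measurable_Fy i0 j0 r c)] at h2 h3
  have h4 := Fy_bad h hW
  have h5 : ∫⁻ y, Fy i0 j0 r c y = IFy i0 j0 r c := rfl
  rw [h5] at h2
  rw [h1]
  calc (IFy i0 j0 r c)⁻¹ * (_ + _)
      ≤ (IFy i0 j0 r c)⁻¹ * (IFy i0 j0 r c * a
          + (ENNReal.ofReal (2 / (W : ℝ) ^ 25) * IFy i0 j0 r c) * b) := by
        gcongr
        exact h3.trans (mul_le_mul_left h4 _)
    _ = a + b * ENNReal.ofReal (2 / (W : ℝ) ^ 25) := by
        rw [mul_add]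
        have e1 : (IFy i0 j0 r c)⁻¹ * (IFy i0 j0 r c * a) = a := by
          rw [← mul_assoc, ENNReal.inv_mul_cancel hF0 hFt, one_mul]
        have e2 : (IFy i0 j0 r c)⁻¹ * (ENNReal.ofReal (2 / (W : ℝ) ^ 25) * IFy i0 j0 r c * b)
            = b * ENNReal.ofReal (2 / (W : ℝ) ^ 25) := by
          have : (IFy i0 j0 r c)⁻¹ * (ENNReal.ofReal (2 / (W : ℝ) ^ 25) * IFy i0 j0 r c * b)
              = ((IFy i0 j0 r c)⁻¹ * IFy i0 j0 r c) * (b * ENNReal.ofReal (2 / (W : ℝ) ^ 25)) := by ring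
          rw [this, ENNReal.inv_mul_cancel hF0 hFt, one_mul]
        rw [e1, e2]

end Facts

section Main

variable (i0 j0 r c) in
/-- The sum over the cubes. -/
noncomputable def sumS (W : ℕ) : ℝ := ∑ z, Real.exp (-psiCell W (∑ i, r i) i0 j0 r c z)

theorem sumS_pos (W : ℕ) (hm : 0 < m) (hn : 0 < n) : 0 < sumS i0 j0 r c W := by
  unfold sumS
  have : Nonempty (Fin n × Fin m → Fin (cellM W)) := ⟨zStart _ W⟩
  exact Finset.sum_pos (fun z _ => Real.exp_pos _) Finset.univ_nonempty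

/-- On a small cube, in the domain. -/
theorem exp_phiY_le (h : InstOK i0 j0 r c) {W : ℕ} (hW : WOK m n W)
    {z : Fin n × Fin m → Fin (cellM W)} {y : Fin n × Fin m → ℝ} (hy : y ∈ smallC W z) :
    Real.exp (-psiE W i0 j0 r c y)
      ≤ Real.exp (3 / (W : ℝ) ^ 25) * Real.exp (-psiCell W (∑ i, r i) i0 j0 r c z) := by
  obtain ⟨u, hu, rfl⟩ := (mem_smallC_iff hW.pos z y).1 hy
  have h1 := psiCell_close h hW z (u := u) fun k => ⟨hu.1 k, hu.2 k⟩
  rw [← Real.exp_add]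
  exact Real.exp_le_exp.2 (by linarith [(abs_le.1 h1).2])

theorem exp_psiCell_le (h : InstOK i0 j0 r c) {W : ℕ} (hW : WOK m n W)
    {z : Fin n × Fin m → Fin (cellM W)} {y : Fin n × Fin m → ℝ} (hy : y ∈ smallC W z) :
    Real.exp (-psiCell W (∑ i, r i) i0 j0 r c z)
      ≤ Real.exp (3 / (W : ℝ) ^ 25) * Real.exp (-psiE W i0 j0 r c y) := by
  obtain ⟨u, hu, rfl⟩ := (mem_smallC_iff hW.pos z y).1 hy
  have h1 := psiCell_close h hW z (u := u) fun k => ⟨hu.1 k, hu.2 k⟩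
  rw [← Real.exp_add]
  exact Real.exp_le_exp.2 (by linarith [(abs_le.1 h1).1])

theorem measurable_exp_psiE (h : InstOK i0 j0 r c) {W : ℕ} (hW : WOK m n W) :
    Measurable fun y => ENNReal.ofReal (Real.exp (-psiE W i0 j0 r c y)) := by
  have hU : (0 : ℝ) ≤ 2 * ((n : ℝ) * m) := by positivity
  have hΛ : (0 : ℝ) ≤ (W : ℝ) ^ 27 := by positivity
  have hc := reg_continuous (regHyp_inst h hW) hΛ hU
  exact (Real.continuous_exp.comp hc.neg).measurable.ennreal_ofReal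

/-- The upper bound for the sum over the cubes. -/
theorem sum_upper (h : InstOK i0 j0 r c) {W : ℕ} (hW : WOK m n W) (hm : 0 < m) (hn : 0 < n) :
    ENNReal.ofReal (Real.exp (-phiMin r) * cellD W ^ (n * m) * sumS i0 j0 r c W)
      ≤ ENNReal.ofReal (Real.exp (3 / (W : ℝ) ^ 25) * (1 + 1 / (W : ℝ) ^ 24)) * IFy i0 j0 r c := by
  classical
  have hW0 := hW.pos
  have hW' : (0 : ℝ) < W := by exact_mod_cast hW0
  have hδ := cellD_pos hW0
  set a := Real.exp (3 / (W : ℝ) ^ 25) with ha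
  have hcard : Fintype.card (Fin n × Fin m) = n * m := by simp
  -- first the sum against the integral of `exp (-psiE)`
  have h1 : ∀ z : Fin n × Fin m → Fin (cellM W),
      ENNReal.ofReal (cellD W ^ (n * m) * Real.exp (-psiCell W (∑ i, r i) i0 j0 r c z))
        ≤ ∫⁻ y in smallO W z, ENNReal.ofReal a * ENNReal.ofReal (Real.exp (-psiE W i0 j0 r c y)) := by
    intro z
    have hv := volume_smallO hW0 z
    rw [hcard] at hv
    calc ENNReal.ofReal (cellD W ^ (n * m) * Real.exp (-psiCell W (∑ i, r i) i0 j0 r c z))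
        = ∫⁻ _ in smallO W z, ENNReal.ofReal (Real.exp (-psiCell W (∑ i, r i) i0 j0 r c z)) := by
          rw [lintegral_const, Measure.restrict_apply MeasurableSet.univ, Set.univ_inter, hv,
            mul_comm, ENNReal.ofReal_mul (by positivity)]
      _ ≤ _ := by
          refine setLIntegral_mono' (measurableSet_smallO z) fun y hy => ?_
          rw [← ENNReal.ofReal_mul (Real.exp_pos _).le]
          exact ENNReal.ofReal_le_ofReal (exp_psiCell_le h hW (smallO_subset_smallC z hy))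
  have h2 : ENNReal.ofReal (cellD W ^ (n * m) * sumS i0 j0 r c W)
      ≤ ∫⁻ y in bigQ _ W, ENNReal.ofReal a * ENNReal.ofReal (Real.exp (-psiE W i0 j0 r c y)) := by
    have e : cellD W ^ (n * m) * sumS i0 j0 r c W
        = ∑ z, cellD W ^ (n * m) * Real.exp (-psiCell W (∑ i, r i) i0 j0 r c z) := by
      unfold sumS
      rw [Finset.mul_sum]
    rw [e, ENNReal.ofReal_sum_of_nonneg fun z _ => by positivity]
    refine (Finset.sum_le_sum fun z _ => h1 z).trans ?_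
    rw [← lintegral_biUnion_finset (fun z _ z' _ hne => smallO_disjoint hW0 hne)
      (fun z _ => measurableSet_smallO z)]
    refine lintegral_mono_set ?_
    intro y hy
    simp only [Set.mem_iUnion] at hy
    obtain ⟨z, _, hz⟩ := hy
    exact smallC_subset_bigQ hW0 z (smallO_subset_smallC z hz)
  have h3 := psi_mass h hW hm hn
  have hQ : bigQ (Fin n × Fin m) W = {y : Fin n × Fin m → ℝ | ∀ k, |y k| ≤ rQ W} := rfl
  rw [lintegral_const_mul _ (measurable_exp_psiE h hW)] at h2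
  rw [← hQ] at h3
  have h4 : ENNReal.ofReal (Real.exp (-phiMin r))
        * ∫⁻ y in domY W i0 j0 r c, ENNReal.ofReal (Real.exp (-phiY i0 j0 r c y))
      ≤ IFy i0 j0 r c := by
    rw [← lintegral_const_mul' _ _ ENNReal.ofReal_ne_top]
    unfold IFy
    refine le_trans ?_ (setLIntegral_le_lintegral (domY W i0 j0 r c) _)
    refine setLIntegral_mono' (measurableSet_domY W i0 j0 r c) fun y hy => ?_
    rw [Fy_eq h hW hy, ENNReal.ofReal_mul (Real.exp_pos _).le]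
  have hb0 : 0 ≤ 1 + 1 / (W : ℝ) ^ 24 := by positivity
  have ha0 : 0 ≤ a := (Real.exp_pos _).le
  calc ENNReal.ofReal (Real.exp (-phiMin r) * cellD W ^ (n * m) * sumS i0 j0 r c W)
      = ENNReal.ofReal (Real.exp (-phiMin r)) * ENNReal.ofReal (cellD W ^ (n * m) * sumS i0 j0 r c W) := by
        rw [← ENNReal.ofReal_mul (Real.exp_pos _).le, mul_assoc]
    _ ≤ ENNReal.ofReal (Real.exp (-phiMin r)) * (ENNReal.ofReal a * (ENNReal.ofReal (1 + 1 / (W : ℝ) ^ 24)
          * ∫⁻ y in domY W i0 j0 r c, ENNReal.ofReal (Real.exp (-phiY i0 j0 r c y)))) := by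
        gcongr
        exact h2.trans (by gcongr)
    _ = ENNReal.ofReal (a * (1 + 1 / (W : ℝ) ^ 24)) * (ENNReal.ofReal (Real.exp (-phiMin r))
          * ∫⁻ y in domY W i0 j0 r c, ENNReal.ofReal (Real.exp (-phiY i0 j0 r c y))) := by
        rw [ENNReal.ofReal_mul ha0]
        ring
    _ ≤ _ := by gcongr

/-- The integral over the good set is bounded by the sum over the cubes. -/
theorem cover_bound (h : InstOK i0 j0 r c) {W : ℕ} (hW : WOK m n W) {g : (Fin n × Fin m → ℝ) → ℝ≥0∞} :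
    ∫⁻ y in bigQ _ W ∩ domY W i0 j0 r c, Fy i0 j0 r c y * g y
      ≤ ∑ z, ENNReal.ofReal (Real.exp (-phiMin r) * Real.exp (3 / (W : ℝ) ^ 25)
          * Real.exp (-psiCell W (∑ i, r i) i0 j0 r c z)) * ∫⁻ y in smallC W z, g y := by
  classical
  have hW0 := hW.pos
  have hms : MeasurableSet (bigQ (Fin n × Fin m) W ∩ domY W i0 j0 r c) :=
    (measurableSet_bigQ _ W).inter (measurableSet_domY W i0 j0 r c)
  have hU : (0 : ℝ) ≤ 2 * ((n : ℝ) * m) := by positivity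
  have hΛ : (0 : ℝ) ≤ (W : ℝ) ^ 27 := by positivity
  have hcov : bigQ (Fin n × Fin m) W ∩ domY W i0 j0 r c ⊆ ⋃ z, (smallC W z ∩ domY W i0 j0 r c) := by
    intro y hy
    obtain ⟨z, hz⟩ := exists_smallC hW0 hy.1
    exact Set.mem_iUnion.2 ⟨z, hz, hy.2⟩
  refine (lintegral_mono_set hcov).trans ((lintegral_iUnion_le _ _).trans ?_)
  rw [tsum_fintype]
  refine Finset.sum_le_sum fun z _ => ?_
  have hc : MeasurableSet (smallC W z ∩ domY W i0 j0 r c) :=
    measurableSet_Icc.inter (measurableSet_domY W i0 j0 r c)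
  rw [← lintegral_const_mul' _ _ ENNReal.ofReal_ne_top]
  refine le_trans (setLIntegral_mono' hc fun y hy => ?_) (lintegral_mono_set Set.inter_subset_left)
  refine mul_le_mul_left ?_ _
  rw [Fy_eq h hW hy.2]
  refine ENNReal.ofReal_le_ofReal ?_
  have h1 : psiE W i0 j0 r c y ≤ phiY i0 j0 r c y := reg_le (regHyp_inst h hW) hΛ hy.2
  have h2 := exp_phiY_le h hW hy.1
  have h3 : Real.exp (-phiY i0 j0 r c y) ≤ Real.exp (-psiE W i0 j0 r c y) :=
    Real.exp_le_exp.2 (by linarith)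
  rw [mul_assoc]
  exact mul_le_mul_of_nonneg_left (h3.trans h2) (Real.exp_pos _).le

/-- The lower bound for the sum over the cubes. -/
theorem sum_lower (h : InstOK i0 j0 r c) {W : ℕ} (hW : WOK m n W) :
    IFy i0 j0 r c
      ≤ ENNReal.ofReal (Real.exp (3 / (W : ℝ) ^ 25) * (Real.exp (-phiMin r) * cellD W ^ (n * m) * sumS i0 j0 r c W))
        + ENNReal.ofReal (2 / (W : ℝ) ^ 25) * IFy i0 j0 r c := by
  classical
  have hW0 := hW.pos
  have hδ := cellD_pos hW0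
  have hcard : Fintype.card (Fin n × Fin m) = n * m := by simp
  have hms : MeasurableSet (bigQ (Fin n × Fin m) W ∩ domY W i0 j0 r c) :=
    (measurableSet_bigQ _ W).inter (measurableSet_domY W i0 j0 r c)
  have h1 : IFy i0 j0 r c = (∫⁻ y in bigQ _ W ∩ domY W i0 j0 r c, Fy i0 j0 r c y)
      + ∫⁻ y in (bigQ _ W ∩ domY W i0 j0 r c)ᶜ, Fy i0 j0 r c y := by
    rw [lintegral_add_compl _ hms]
    rfl
  rw [h1.le.antisymm (by rw [h1])] 
  refine add_le_add ?_ (by rw [← h1]; exact Fy_bad h hW)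
  have h2 := cover_bound h hW (g := fun _ => 1)
  simp only [mul_one, lintegral_const, Measure.restrict_apply, MeasurableSet.univ, Set.univ_inter] at h2
  refine h2.trans ?_
  have e : Real.exp (3 / (W : ℝ) ^ 25) * (Real.exp (-phiMin r) * cellD W ^ (n * m) * sumS i0 j0 r c W)
      = ∑ z, Real.exp (-phiMin r) * Real.exp (3 / (W : ℝ) ^ 25)
          * Real.exp (-psiCell W (∑ i, r i) i0 j0 r c z) * cellD W ^ (n * m) := by
    unfold sumS
    rw [Finset.mul_sum, Finset.mul_sum]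
    refine Finset.sum_congr rfl fun z _ => ?_
    ring
  rw [e, ENNReal.ofReal_sum_of_nonneg fun z _ => by positivity]
  refine Finset.sum_le_sum fun z _ => ?_
  have hv := volume_smallC_le hW0 z
  rw [hcard] at hv
  rw [one_mul]
  calc _ ≤ ENNReal.ofReal (Real.exp (-phiMin r) * Real.exp (3 / (W : ℝ) ^ 25)
        * Real.exp (-psiCell W (∑ i, r i) i0 j0 r c z)) * ENNReal.ofReal (cellD W ^ (n * m)) :=
        mul_le_mul_right hv _
    _ = _ := (ENNReal.ofReal_mul (by positivity)).symm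

/-- The numbers. -/
theorem law_numbers {W : ℕ} (hW : (10 : ℝ) ^ 6 ≤ W) :
    Real.exp (3 / (W : ℝ) ^ 25) * (1 + 1 / (W : ℝ) ^ 24) ≤ 1 + 2 / (W : ℝ) ^ 24
      ∧ 1 - 3 / (W : ℝ) ^ 24 ≤ (Real.exp (3 / (W : ℝ) ^ 25) * Real.exp (3 / (W : ℝ) ^ 25) * (1 + 1 / (W : ℝ) ^ 24))⁻¹
          * (1 - 2 / (W : ℝ) ^ 25)
      ∧ Real.exp (-(W : ℝ)) ≤ 1 / (W : ℝ) ^ 24
      ∧ 5 / (W : ℝ) ^ 25 ≤ 1 / (W : ℝ) ^ 24 ∧ 1 / (W : ℝ) ^ 24 ≤ 1 / 10 ^ 6 := by
  have hW0 : (0 : ℝ) < W := by linarith [show (0 : ℝ) < 10 ^ 6 by norm_num]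
  set x : ℝ := 1 / (W : ℝ) ^ 24 with hx
  have hx0 : 0 < x := by positivity
  have hz : 1 / (W : ℝ) ^ 25 = x / W := by
    rw [hx]
    field_simp
  have hx1 : x ≤ 1 / 10 ^ 6 := by
    rw [hx]
    apply one_div_le_one_div_of_le (by norm_num)
    have h1 : (1 : ℝ) ≤ W := by linarith [show (1 : ℝ) ≤ 10 ^ 6 by norm_num]
    calc (10 : ℝ) ^ 6 ≤ W := hW
      _ = (W : ℝ) ^ 1 := (pow_one _).symm
      _ ≤ (W : ℝ) ^ 24 := pow_le_pow_right₀ h1 (by norm_num)
  have hz1 : x / W ≤ x / 10 ^ 6 := div_le_div_of_nonneg_left hx0.le (by norm_num) hW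
  set z : ℝ := 1 / (W : ℝ) ^ 25 with hzdef
  have hz0 : 0 < z := by positivity
  have hzx : z ≤ x / 10 ^ 6 := by rw [hz]; exact hz1
  have e3 : 3 / (W : ℝ) ^ 25 = 3 * z := by rw [hzdef]; ring
  have e2 : 2 / (W : ℝ) ^ 25 = 2 * z := by rw [hzdef]; ring
  have e5 : 5 / (W : ℝ) ^ 25 = 5 * z := by rw [hzdef]; ring
  have e22 : 2 / (W : ℝ) ^ 24 = 2 * x := by rw [hx]; ring
  have e32 : 3 / (W : ℝ) ^ 24 = 3 * x := by rw [hx]; ring
  set a := Real.exp (3 / (W : ℝ) ^ 25) with ha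
  have hzz12 : z ≤ 1 / 10 ^ 12 := by
    have h0 : x / 10 ^ 6 ≤ 1 / 10 ^ 12 := by
      rw [div_le_div_iff₀ (by norm_num) (by norm_num)]
      have h00 : x * 10 ^ 6 ≤ 1 := by
        rw [le_div_iff₀ (by norm_num)] at hx1
        exact hx1
      nlinarith
    linarith
  have ha1 : a ≤ 1 + 6 * z := by
    rw [ha, e3]
    have h1 := Real.add_one_le_exp (-(3 * z))
    have h2 : Real.exp (3 * z) * Real.exp (-(3 * z)) = 1 := by
      rw [← Real.exp_add]
      simp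
    have h3 : 0 < Real.exp (3 * z) := Real.exp_pos _
    have h4 : (0 : ℝ) < -(3 * z) + 1 := by linarith
    have h5 : Real.exp (3 * z) * (-(3 * z) + 1) ≤ 1 := by
      calc _ ≤ Real.exp (3 * z) * Real.exp (-(3 * z)) := by gcongr
        _ = 1 := h2
    by_contra hcon
    push Not at hcon
    have h6 : (1 + 6 * z) * (-(3 * z) + 1) ≤ 1 := by
      calc _ ≤ Real.exp (3 * z) * (-(3 * z) + 1) := by gcongr
        _ ≤ 1 := h5
    nlinarith
  have ha0 : 1 ≤ a := Real.one_le_exp (by positivity)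
  have hzz : z ≤ x / 10 ^ 6 := hzx
  have hxs : x ≤ 1 / 10 ^ 6 := hx1
  have h1 : a * (1 + x) ≤ 1 + 2 * x := by
    have h2 : a * (1 + x) ≤ (1 + 6 * z) * (1 + x) := by gcongr
    nlinarith
  have h2 : a * a * (1 + x) ≤ 1 + 2 * x := by
    have h3 : a * a * (1 + x) ≤ (1 + 6 * z) * (1 + 6 * z) * (1 + x) := by gcongr
    nlinarith
  refine ⟨by rw [e22]; exact h1, ?_, ?_, ?_, hx1⟩
  · rw [e32, e2]
    have hpos : 0 < a * a * (1 + x) := by positivity
    have h3 : (1 + 2 * x)⁻¹ ≤ (a * a * (1 + x))⁻¹ := inv_anti₀ hpos h2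
    have h4 : 1 - 2 * x ≤ (1 + 2 * x)⁻¹ := by
      rw [← one_div, le_div_iff₀ (by positivity)]
      nlinarith
    have h5 : 0 ≤ 1 - 2 * z := by nlinarith
    calc 1 - 3 * x ≤ (1 - 2 * x) * (1 - 2 * z) := by nlinarith
      _ ≤ (a * a * (1 + x))⁻¹ * (1 - 2 * z) := by
          exact mul_le_mul_of_nonneg_right (h4.trans h3) h5
  · -- the exponential beats the power
    have h3 : (W : ℝ) / 48 ≤ Real.exp ((W : ℝ) / 48) := by
      linarith [Real.add_one_le_exp ((W : ℝ) / 48)]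
    have h4 : ((W : ℝ) / 48) ^ 48 ≤ Real.exp (W : ℝ) := by
      calc ((W : ℝ) / 48) ^ 48 ≤ Real.exp ((W : ℝ) / 48) ^ 48 := by gcongr
        _ = Real.exp (W : ℝ) := by
            rw [← Real.exp_nat_mul]
            congr 1
            push_cast
            ring
    have h5 : (W : ℝ) ^ 24 ≤ ((W : ℝ) / 48) ^ 48 := by
      have e : ((W : ℝ) / 48) ^ 48 = (W : ℝ) ^ 24 * ((W : ℝ) / 2304) ^ 24 := by
        field_simp
        norm_num
      rw [e]
      have h6 : (1 : ℝ) ≤ ((W : ℝ) / 2304) ^ 24 := one_le_pow₀ (by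
        rw [le_div_iff₀ (by norm_num)]
        linarith)
      nlinarith [pow_pos hW0 24]
    rw [Real.exp_neg, hx, one_div]
    exact inv_anti₀ (by positivity) (h5.trans h4)
  · rw [e5]
    nlinarith

section Real

variable (h : InstOK i0 j0 r c) {W : ℕ} (hW : WOK m n W) (hm : 0 < m) (hn : 0 < n)

include h hW hm hn

/-- The two bounds for the sum, in real numbers. -/
theorem sum_real :
    Real.exp (-phiMin r) * cellD W ^ (n * m) * sumS i0 j0 r c W
        ≤ Real.exp (3 / (W : ℝ) ^ 25) * (1 + 1 / (W : ℝ) ^ 24) * (IFy i0 j0 r c).toReal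
      ∧ (IFy i0 j0 r c).toReal ≤ Real.exp (3 / (W : ℝ) ^ 25)
            * (Real.exp (-phiMin r) * cellD W ^ (n * m) * sumS i0 j0 r c W)
          + 2 / (W : ℝ) ^ 25 * (IFy i0 j0 r c).toReal := by
  have hW0 := hW.pos
  have hW' : (0 : ℝ) < W := by exact_mod_cast hW0
  have hδ := cellD_pos hW0
  have hS := sumS_pos (i0 := i0) (j0 := j0) (r := r) (c := c) W hm hn
  have hIt := IFy_ne_top i0 j0 r c
  have hsig : 0 ≤ Real.exp (-phiMin r) * cellD W ^ (n * m) * sumS i0 j0 r c W := by positivity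
  have hab : 0 ≤ Real.exp (3 / (W : ℝ) ^ 25) * (1 + 1 / (W : ℝ) ^ 24) := by positivity
  constructor
  · have h1 := sum_upper h hW hm hn
    have h2 := ENNReal.toReal_mono (ENNReal.mul_ne_top ENNReal.ofReal_ne_top hIt) h1
    rwa [ENNReal.toReal_ofReal hsig, ENNReal.toReal_mul, ENNReal.toReal_ofReal hab] at h2
  · have h1 := sum_lower h hW
    have h2 := ENNReal.toReal_mono (ENNReal.add_ne_top.2 ⟨ENNReal.ofReal_ne_top,
      ENNReal.mul_ne_top ENNReal.ofReal_ne_top hIt⟩) h1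
    rwa [ENNReal.toReal_add ENNReal.ofReal_ne_top (ENNReal.mul_ne_top ENNReal.ofReal_ne_top hIt),
      ENNReal.toReal_ofReal (by positivity), ENNReal.toReal_mul,
      ENNReal.toReal_ofReal (by positivity)] at h2

/-- **The sum over the cubes is close to the integral.** -/
theorem sum_close :
    |detT i0 j0 r c * Real.exp (-phiMin r) * cellD W ^ (n * m)
          * ∑ z, Real.exp (-psiCell W (∑ i, r i) i0 j0 r c z)
        - (∫⁻ t, wmat t * capa r c t).toReal|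
      ≤ 20 / (W : ℝ) ^ 24 * (∫⁻ t, wmat t * capa r c t).toReal := by
  obtain ⟨h1, h2⟩ := sum_real h hW hm hn
  obtain ⟨n1, _, _, n4, n5⟩ := law_numbers hW.ge
  have hW0 := hW.pos
  have hW' : (0 : ℝ) < W := by exact_mod_cast hW0
  have hd := detT_pos i0 j0 r c
  rw [IFy_eq i0 j0 r c, ENNReal.toReal_mul, ENNReal.toReal_ofReal hd.le]
  set I := (IFy i0 j0 r c).toReal with hI
  have hI0 : 0 ≤ I := ENNReal.toReal_nonneg
  set G := Real.exp (-phiMin r) * cellD W ^ (n * m) * sumS i0 j0 r c W with hG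
  have e : detT i0 j0 r c * Real.exp (-phiMin r) * cellD W ^ (n * m)
      * ∑ z, Real.exp (-psiCell W (∑ i, r i) i0 j0 r c z) = detT i0 j0 r c * G := by
    rw [hG]
    unfold sumS
    ring
  rw [e, ← mul_sub, abs_mul, abs_of_pos hd]
  have e2 : 20 / (W : ℝ) ^ 24 * (detT i0 j0 r c * I) = detT i0 j0 r c * (20 / (W : ℝ) ^ 24 * I) := by ring
  rw [e2]
  refine mul_le_mul_of_nonneg_left ?_ hd.le
  set x : ℝ := 1 / (W : ℝ) ^ 24 with hx
  have hx0 : 0 < x := by positivity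
  have e20 : 20 / (W : ℝ) ^ 24 = 20 * x := by rw [hx]; ring
  have e2x : 2 / (W : ℝ) ^ 24 = 2 * x := by rw [hx]; ring
  rw [e20]
  rw [abs_le]
  rw [e2x] at n1
  have hy : 3 / (W : ℝ) ^ 25 + 2 / (W : ℝ) ^ 25 = 5 / (W : ℝ) ^ 25 := by ring
  have hy0 : 0 < 3 / (W : ℝ) ^ 25 := by positivity
  have hy1 : 0 < 2 / (W : ℝ) ^ 25 := by positivity
  constructor
  · -- lower bound
    have h3 : Real.exp (-(3 / (W : ℝ) ^ 25)) * I * (1 - 2 / (W : ℝ) ^ 25) ≤ G := by
      have h4 : I * (1 - 2 / (W : ℝ) ^ 25) ≤ Real.exp (3 / (W : ℝ) ^ 25) * G := by linarith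
      have h5 := mul_le_mul_of_nonneg_left h4 (Real.exp_pos (-(3 / (W : ℝ) ^ 25))).le
      have h55 : Real.exp (-(3 / (W : ℝ) ^ 25)) * (Real.exp (3 / (W : ℝ) ^ 25) * G) = G := by
        rw [← mul_assoc, ← Real.exp_add]
        simp
      rw [h55] at h5
      calc _ = Real.exp (-(3 / (W : ℝ) ^ 25)) * (I * (1 - 2 / (W : ℝ) ^ 25)) := by ring
        _ ≤ G := h5
    have h6 : 1 - 3 / (W : ℝ) ^ 25 ≤ Real.exp (-(3 / (W : ℝ) ^ 25)) := by
      linarith [Real.add_one_le_exp (-(3 / (W : ℝ) ^ 25))]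
    have h7 : (1 - 3 / (W : ℝ) ^ 25) * I * (1 - 2 / (W : ℝ) ^ 25)
        ≤ Real.exp (-(3 / (W : ℝ) ^ 25)) * I * (1 - 2 / (W : ℝ) ^ 25) := by
      have h8 : 0 ≤ 1 - 2 / (W : ℝ) ^ 25 := by linarith
      gcongr
    have h9 : I * (1 - x) ≤ (1 - 3 / (W : ℝ) ^ 25) * I * (1 - 2 / (W : ℝ) ^ 25) := by
      have h10 : 0 ≤ (3 / (W : ℝ) ^ 25) * (2 / (W : ℝ) ^ 25) * I := by positivity
      have h11 : I * (3 / (W : ℝ) ^ 25 + 2 / (W : ℝ) ^ 25) ≤ I * x := by
        rw [hy]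
        exact mul_le_mul_of_nonneg_left n4 hI0
      nlinarith
    have h12 : 0 ≤ x * I := by positivity
    nlinarith
  · nlinarith

/-- The mass of the good set, in real numbers. -/
theorem good_real :
    (1 - 2 / (W : ℝ) ^ 25) * (IFy i0 j0 r c).toReal
      ≤ (∫⁻ y in bigQ _ W ∩ domY W i0 j0 r c, Fy i0 j0 r c y).toReal := by
  have hIt := IFy_ne_top i0 j0 r c
  have hms : MeasurableSet (bigQ (Fin n × Fin m) W ∩ domY W i0 j0 r c) :=
    (measurableSet_bigQ _ W).inter (measurableSet_domY W i0 j0 r c)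
  have h1 : IFy i0 j0 r c = (∫⁻ y in bigQ _ W ∩ domY W i0 j0 r c, Fy i0 j0 r c y)
      + ∫⁻ y in (bigQ _ W ∩ domY W i0 j0 r c)ᶜ, Fy i0 j0 r c y := by
    rw [lintegral_add_compl _ hms]
    rfl
  have h2 := Fy_bad h hW
  have hA : (∫⁻ y in bigQ _ W ∩ domY W i0 j0 r c, Fy i0 j0 r c y) ≠ ⊤ := by
    intro h3
    rw [h3, top_add] at h1
    exact hIt h1
  have hB : (∫⁻ y in (bigQ _ W ∩ domY W i0 j0 r c)ᶜ, Fy i0 j0 r c y) ≠ ⊤ := by
    intro h3
    rw [h3, add_top] at h1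
    exact hIt h1
  have h3 : (IFy i0 j0 r c).toReal = (∫⁻ y in bigQ _ W ∩ domY W i0 j0 r c, Fy i0 j0 r c y).toReal
      + (∫⁻ y in (bigQ _ W ∩ domY W i0 j0 r c)ᶜ, Fy i0 j0 r c y).toReal := by
    rw [← ENNReal.toReal_add hA hB, ← h1]
  have h4 := ENNReal.toReal_mono (ENNReal.mul_ne_top ENNReal.ofReal_ne_top hIt) h2
  rw [ENNReal.toReal_mul, ENNReal.toReal_ofReal (by positivity)] at h4
  linarith

end Real

section Close

variable (i0 j0 r c) in
/-- The stationary weights of the cubes. -/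
noncomputable def piZ (W : ℕ) (z : Fin n × Fin m → Fin (cellM W)) : ℝ :=
  Real.exp (-psiCell W (∑ i, r i) i0 j0 r c z) / sumS i0 j0 r c W

/-- The constant of the common lower functional. -/
noncomputable def kapW (W : ℕ) : ℝ :=
  (Real.exp (3 / (W : ℝ) ^ 25) * Real.exp (3 / (W : ℝ) ^ 25) * (1 + 1 / (W : ℝ) ^ 24))⁻¹

variable (i0 j0 r c) in
/-- The true law, in the coordinates. -/
noncomputable def Pf (g : (Fin n × Fin m → ℝ) → ℝ≥0∞) : ℝ≥0∞ :=
  (IFy i0 j0 r c)⁻¹ * ∫⁻ y, Fy i0 j0 r c y * g y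

variable (i0 j0 r c) in
/-- The stationary law of the chain followed by a uniform point of the cube. -/
noncomputable def Vf (W : ℕ) (g : (Fin n × Fin m → ℝ) → ℝ≥0∞) : ℝ≥0∞ :=
  ∑ z, ENNReal.ofReal (piZ i0 j0 r c W z) * ∫⁻ u in Set.Icc (0 : Fin n × Fin m → ℝ) 1, g (cellPt W z u)

variable (i0 j0 r c) in
/-- The common lower functional. -/
noncomputable def Rf (W : ℕ) (g : (Fin n × Fin m → ℝ) → ℝ≥0∞) : ℝ≥0∞ :=
  ENNReal.ofReal (kapW W) * ((IFy i0 j0 r c)⁻¹ * ∫⁻ y in bigQ _ W ∩ domY W i0 j0 r c, Fy i0 j0 r c y * g y)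

theorem measurable_cellPt {ι : Type} [Fintype ι] (W : ℕ) (z : ι → Fin (cellM W)) :
    Measurable (cellPt W z) := by
  refine measurable_pi_iff.2 fun k => ?_
  unfold cellPt
  exact (measurable_const.add ((measurable_const.add (measurable_pi_apply k)).const_mul _))

theorem Pf_add (f g : (Fin n × Fin m → ℝ) → ℝ≥0∞) (hf : Measurable f) (_hg : Measurable g) :
    Pf i0 j0 r c (f + g) = Pf i0 j0 r c f + Pf i0 j0 r c g := by
  unfold Pf
  rw [← mul_add]
  congr 1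
  have e : ∀ y, Fy i0 j0 r c y * (f + g) y = Fy i0 j0 r c y * f y + Fy i0 j0 r c y * g y := fun y => by
    simp only [Pi.add_apply, mul_add]
  simp only [e]
  exact lintegral_add_left ((measurable_Fy i0 j0 r c).mul hf) _

theorem Rf_add (W : ℕ) (f g : (Fin n × Fin m → ℝ) → ℝ≥0∞) (hf : Measurable f) (_hg : Measurable g) :
    Rf i0 j0 r c W (f + g) = Rf i0 j0 r c W f + Rf i0 j0 r c W g := by
  unfold Rf
  rw [← mul_add, ← mul_add]
  congr 2
  have e : ∀ y, Fy i0 j0 r c y * (f + g) y = Fy i0 j0 r c y * f y + Fy i0 j0 r c y * g y := fun y => by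
    simp only [Pi.add_apply, mul_add]
  simp only [e]
  exact lintegral_add_left ((measurable_Fy i0 j0 r c).mul hf) _

theorem Vf_add (W : ℕ) (f g : (Fin n × Fin m → ℝ) → ℝ≥0∞) (hf : Measurable f) (_hg : Measurable g) :
    Vf i0 j0 r c W (f + g) = Vf i0 j0 r c W f + Vf i0 j0 r c W g := by
  unfold Vf
  rw [← Finset.sum_add_distrib]
  refine Finset.sum_congr rfl fun z _ => ?_
  rw [← mul_add]
  congr 1
  exact lintegral_add_left (hf.comp (measurable_cellPt W z)) _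

theorem Pf_zero : Pf i0 j0 r c 0 = 0 := by simp [Pf]

theorem Rf_zero (W : ℕ) : Rf i0 j0 r c W 0 = 0 := by simp [Rf]

theorem Vf_zero (W : ℕ) : Vf i0 j0 r c W 0 = 0 := by simp [Vf]

variable (h : InstOK i0 j0 r c) {W : ℕ} (hW : WOK m n W) (hm : 0 < m) (hn : 0 < n)

include h in
theorem Pf_one : Pf i0 j0 r c 1 = 1 := by
  unfold Pf
  simp only [Pi.one_apply, mul_one]
  exact ENNReal.inv_mul_cancel (IFy_ne_zero h) (IFy_ne_top i0 j0 r c)

theorem volume_unit_cube {ι : Type} [Fintype ι] : volume (Set.Icc (0 : ι → ℝ) 1) = 1 := by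
  rw [Real.volume_Icc_pi]
  simp

include hm hn in
theorem Vf_one : Vf i0 j0 r c W 1 = 1 := by
  have hS := sumS_pos (i0 := i0) (j0 := j0) (r := r) (c := c) W hm hn
  unfold Vf
  simp only [Pi.one_apply, lintegral_const, Measure.restrict_apply, MeasurableSet.univ, Set.univ_inter,
    volume_unit_cube, mul_one, one_mul]
  rw [← ENNReal.ofReal_sum_of_nonneg fun z _ => by
    unfold piZ
    positivity]
  have e : ∑ z, piZ i0 j0 r c W z = 1 := by
    unfold piZ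
    rw [← Finset.sum_div]
    exact div_self hS.ne'
  rw [e]
  simp

include hW in
theorem kapW_le_one : kapW W ≤ 1 := by
  unfold kapW
  have hW0 := hW.pos
  have hW' : (0 : ℝ) < W := by exact_mod_cast hW0
  have h1 : 1 ≤ Real.exp (3 / (W : ℝ) ^ 25) := Real.one_le_exp (by positivity)
  have h2 : (1 : ℝ) ≤ 1 + 1 / (W : ℝ) ^ 24 := by
    have : 0 ≤ 1 / (W : ℝ) ^ 24 := by positivity
    linarith
  have h3 : 1 ≤ Real.exp (3 / (W : ℝ) ^ 25) * Real.exp (3 / (W : ℝ) ^ 25) * (1 + 1 / (W : ℝ) ^ 24) := by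
    calc (1 : ℝ) = 1 * 1 * 1 := by norm_num
      _ ≤ _ := by gcongr
  exact inv_le_one_of_one_le₀ h3

include hW in
theorem Rf_le_Pf (g : (Fin n × Fin m → ℝ) → ℝ≥0∞) : Rf i0 j0 r c W g ≤ Pf i0 j0 r c g := by
  unfold Rf Pf
  calc _ ≤ 1 * ((IFy i0 j0 r c)⁻¹ * ∫⁻ y, Fy i0 j0 r c y * g y) := by
        gcongr
        · exact ENNReal.ofReal_le_one.2 (kapW_le_one hW)
        · exact Measure.restrict_le_self
    _ = _ := one_mul _

include h hW hm hn in
theorem Rf_le_Vf (g : (Fin n × Fin m → ℝ) → ℝ≥0∞) (hg : Measurable g) :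
    Rf i0 j0 r c W g ≤ Vf i0 j0 r c W g := by
  classical
  have hW0 := hW.pos
  have hW' : (0 : ℝ) < W := by exact_mod_cast hW0
  have hδ := cellD_pos hW0
  have hS := sumS_pos (i0 := i0) (j0 := j0) (r := r) (c := c) W hm hn
  have hcard : Fintype.card (Fin n × Fin m) = n * m := by simp
  have hF0 := IFy_ne_zero h
  have hFt := IFy_ne_top i0 j0 r c
  have hIr : 0 < (IFy i0 j0 r c).toReal := ENNReal.toReal_pos hF0 hFt
  have hIe : IFy i0 j0 r c = ENNReal.ofReal (IFy i0 j0 r c).toReal := (ENNReal.ofReal_toReal hFt).symm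
  have hIi : (IFy i0 j0 r c)⁻¹ = ENNReal.ofReal ((IFy i0 j0 r c).toReal)⁻¹ := by
    rw [ENNReal.ofReal_inv_of_pos hIr, ENNReal.ofReal_toReal hFt]
  obtain ⟨hup, _⟩ := sum_real h hW hm hn
  set IR := (IFy i0 j0 r c).toReal with hIR
  set E := Real.exp (-phiMin r) with hE
  set a := Real.exp (3 / (W : ℝ) ^ 25) with ha
  set b := 1 + 1 / (W : ℝ) ^ 24 with hb
  set V := cellD W ^ (n * m) with hV
  have hE0 : 0 < E := Real.exp_pos _
  have ha0 : 0 < a := Real.exp_pos _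
  have hb0 : 0 < b := by positivity
  have hV0 : 0 < V := by positivity
  unfold Rf Vf
  have h1 := cover_bound h hW (g := g)
  rw [← hE, ← ha] at h1
  have h2 : ∫⁻ y in bigQ _ W ∩ domY W i0 j0 r c, Fy i0 j0 r c y * g y
      ≤ ∑ z, ENNReal.ofReal (E * a * Real.exp (-psiCell W (∑ i, r i) i0 j0 r c z) * V)
          * ∫⁻ u in Set.Icc (0 : Fin n × Fin m → ℝ) 1, g (cellPt W z u) := by
    refine h1.trans (Finset.sum_le_sum fun z _ => ?_)
    rw [lintegral_smallC hW0 z hg, hcard, ← mul_assoc,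
      ← ENNReal.ofReal_mul (by positivity)]
  calc _ ≤ ENNReal.ofReal (kapW W) * ((IFy i0 j0 r c)⁻¹ * ∑ z, ENNReal.ofReal (E * a * Real.exp (-psiCell W (∑ i, r i) i0 j0 r c z) * V)
          * ∫⁻ u in Set.Icc (0 : Fin n × Fin m → ℝ) 1, g (cellPt W z u)) := by gcongr
    _ = ∑ z, (ENNReal.ofReal (kapW W) * ((IFy i0 j0 r c)⁻¹ * ENNReal.ofReal (E * a * Real.exp (-psiCell W (∑ i, r i) i0 j0 r c z) * V)))
          * ∫⁻ u in Set.Icc (0 : Fin n × Fin m → ℝ) 1, g (cellPt W z u) := by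
        rw [Finset.mul_sum, Finset.mul_sum]
        refine Finset.sum_congr rfl fun z _ => ?_
        ring
    _ ≤ _ := by
        refine Finset.sum_le_sum fun z _ => mul_le_mul_left ?_ _
        rw [hIi]
        have hk0 : 0 ≤ kapW W := by
          unfold kapW
          positivity
        rw [← ENNReal.ofReal_mul (by positivity), ← ENNReal.ofReal_mul hk0]
        refine ENNReal.ofReal_le_ofReal ?_
        unfold piZ
        set e := Real.exp (-psiCell W (∑ i, r i) i0 j0 r c z) with he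
        have he0 : 0 < e := Real.exp_pos _
        have hkap : kapW W = (a * a * b)⁻¹ := rfl
        rw [hkap]
        -- `E V S ≤ a b IR`
        have h3 : E * V * sumS i0 j0 r c W ≤ a * b * IR := hup
        rw [le_div_iff₀ hS]
        have e1 : (a * a * b)⁻¹ * (IR⁻¹ * (E * a * e * V)) * sumS i0 j0 r c W
            = e * ((E * V * sumS i0 j0 r c W) / (a * b * IR)) := by
          field_simp
        rw [e1]
        have h4 : (E * V * sumS i0 j0 r c W) / (a * b * IR) ≤ 1 := by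
          rw [div_le_one (by positivity)]
          exact h3
        nlinarith

include h hW hm hn in
theorem Rf_one : 1 ≤ Rf i0 j0 r c W 1 + ENNReal.ofReal (3 / (W : ℝ) ^ 24) := by
  have hW0 := hW.pos
  have hW' : (0 : ℝ) < W := by exact_mod_cast hW0
  have hF0 := IFy_ne_zero h
  have hFt := IFy_ne_top i0 j0 r c
  have hIr : 0 < (IFy i0 j0 r c).toReal := ENNReal.toReal_pos hF0 hFt
  have hIi : (IFy i0 j0 r c)⁻¹ = ENNReal.ofReal ((IFy i0 j0 r c).toReal)⁻¹ := by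
    rw [ENNReal.ofReal_inv_of_pos hIr, ENNReal.ofReal_toReal hFt]
  have hgood := good_real h hW hm hn
  obtain ⟨_, n2, _, _, _⟩ := law_numbers hW.ge
  have hms : MeasurableSet (bigQ (Fin n × Fin m) W ∩ domY W i0 j0 r c) :=
    (measurableSet_bigQ _ W).inter (measurableSet_domY W i0 j0 r c)
  have hGt : (∫⁻ y in bigQ _ W ∩ domY W i0 j0 r c, Fy i0 j0 r c y) ≠ ⊤ :=
    ne_top_of_le_ne_top hFt (setLIntegral_le_lintegral _ _)
  have hk0 : 0 ≤ kapW W := by
    unfold kapW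
    positivity
  have e : Rf i0 j0 r c W 1 = ENNReal.ofReal (kapW W * ((IFy i0 j0 r c).toReal⁻¹
      * (∫⁻ y in bigQ _ W ∩ domY W i0 j0 r c, Fy i0 j0 r c y).toReal)) := by
    unfold Rf
    simp only [Pi.one_apply, mul_one]
    rw [hIi, ENNReal.ofReal_mul hk0, ENNReal.ofReal_mul (by positivity), ENNReal.ofReal_toReal hGt]
  rw [e, ← ENNReal.ofReal_add (by positivity) (by positivity)]
  rw [← ENNReal.ofReal_one]
  refine ENNReal.ofReal_le_ofReal ?_
  have h1 : (1 - 2 / (W : ℝ) ^ 25) ≤ (IFy i0 j0 r c).toReal⁻¹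
      * (∫⁻ y in bigQ _ W ∩ domY W i0 j0 r c, Fy i0 j0 r c y).toReal := by
    rw [inv_mul_eq_div, le_div_iff₀ hIr]
    exact hgood
  have h2 := mul_le_mul_of_nonneg_left h1 hk0
  have h3 : 1 - 3 / (W : ℝ) ^ 24 ≤ kapW W * (1 - 2 / (W : ℝ) ^ 25) := n2
  linarith

end Close

/-- **The sampler is close to the log-concave law in total variation.** -/
theorem samp_close (h : InstOK i0 j0 r c) {W : ℕ} (hW : WOK m n W) (hm : 0 < m) (hn : 0 < n)
    {X : Type} {S : Finset X} {H : X → (Fin n → Fin m → ℝ) → ℝ≥0∞}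
    (hHm : ∀ x ∈ S, Measurable (H x)) (hH1 : ∀ t, ∑ x ∈ S, H x t ≤ 1) :
    ∑ x ∈ S, |∑ z, chainLaw W (∑ i, r i) i0 j0 r c 1 z
          * (∫⁻ u in Set.Icc (0 : Fin n × Fin m → ℝ) 1,
              H x (tMap i0 j0 r c (cellPt W z u))).toReal
        - (∫⁻ t, H x t ∂(wLaw r c)).toReal|
      ≤ 20 / (W : ℝ) ^ 24 := by
  classical
  have hW0 := hW.pos
  have hW' : (0 : ℝ) < W := by exact_mod_cast hW0
  set g : X → (Fin n × Fin m → ℝ) → ℝ≥0∞ := fun x y => H x (tMap i0 j0 r c y) with hg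
  have hgm : ∀ x ∈ S, Measurable (g x) := fun x hx =>
    (hHm x hx).comp (continuous_tMap i0 j0 r c).measurable
  have hg1 : ∀ y, ∑ x ∈ S, g x y ≤ 1 := fun y => hH1 _
  have h3 : (0 : ℝ) ≤ 3 / (W : ℝ) ^ 24 := by positivity
  have hA := family_close_aux (A := Pf i0 j0 r c) (C := Rf i0 j0 r c W) Pf_add (Rf_add W) Pf_zero
    (Rf_zero W) (fun g _ => Rf_le_Pf hW g) (Pf_one h) (Rf_one h hW hm hn) h3 hgm hg1
  have hB := family_close_aux (A := Vf i0 j0 r c W) (C := Rf i0 j0 r c W) (Vf_add W) (Rf_add W) (Vf_zero W)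
    (Rf_zero W) (fun g hg => Rf_le_Vf h hW hm hn g hg) (Vf_one hm hn) (Rf_one h hW hm hn) h3 hgm hg1
  -- the unit cube integrals
  set J : X → (Fin n × Fin m → Fin (cellM W)) → ℝ≥0∞ := fun x z =>
    ∫⁻ u in Set.Icc (0 : Fin n × Fin m → ℝ) 1, g x (cellPt W z u) with hJ
  have hJsum : ∀ z, ∑ x ∈ S, J x z ≤ 1 := by
    intro z
    have e : ∑ x ∈ S, J x z = ∫⁻ u in Set.Icc (0 : Fin n × Fin m → ℝ) 1, ∑ x ∈ S, g x (cellPt W z u) := by
      rw [lintegral_finset_sum]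
      intro x hx
      exact (hgm x hx).comp (measurable_cellPt W z)
    rw [e]
    calc _ ≤ ∫⁻ _ in Set.Icc (0 : Fin n × Fin m → ℝ) 1, 1 := lintegral_mono fun u => hg1 _
      _ = 1 := by simp [volume_unit_cube]
  have hJt : ∀ x ∈ S, ∀ z, J x z ≠ ⊤ := by
    intro x hx z
    have h1 : J x z ≤ ∑ x ∈ S, J x z := Finset.single_le_sum (f := fun x => J x z) (fun _ _ => zero_le) hx
    exact ne_top_of_le_ne_top ENNReal.one_ne_top (h1.trans (hJsum z))
  have hJr : ∀ z, ∑ x ∈ S, (J x z).toReal ≤ 1 := by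
    intro z
    rw [← ENNReal.toReal_sum fun x hx => hJt x hx z]
    have := ENNReal.toReal_mono ENNReal.one_ne_top (hJsum z)
    simpa using this
  have hV : ∀ x ∈ S, (Vf i0 j0 r c W (g x)).toReal = ∑ z, piZ i0 j0 r c W z * (J x z).toReal := by
    intro x hx
    unfold Vf
    rw [ENNReal.toReal_sum fun z _ => ENNReal.mul_ne_top ENNReal.ofReal_ne_top (hJt x hx z)]
    refine Finset.sum_congr rfl fun z _ => ?_
    have hp : 0 ≤ piZ i0 j0 r c W z := by
      unfold piZ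
      exact div_nonneg (Real.exp_pos _).le (sumS_pos W hm hn).le
    rw [ENNReal.toReal_mul, ENNReal.toReal_ofReal hp]
  have hP : ∀ x ∈ S, (∫⁻ t, H x t ∂(wLaw r c)).toReal = (Pf i0 j0 r c (g x)).toReal := by
    intro x hx
    rw [lintegral_wLaw_y h (hHm x hx)]
    rfl
  have htv := chain_tv h hW hm hn (a := 1) zero_le_one le_rfl
  simp only [neg_mul, one_mul] at htv
  have htv' : ∑ z, |chainLaw W (∑ i, r i) i0 j0 r c 1 z - piZ i0 j0 r c W z| ≤ 1 / (W : ℝ) ^ 24 :=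
    htv.trans (law_numbers hW.ge).2.2.1
  have hC : ∑ x ∈ S, |∑ z, chainLaw W (∑ i, r i) i0 j0 r c 1 z * (J x z).toReal
      - (Vf i0 j0 r c W (g x)).toReal| ≤ 1 / (W : ℝ) ^ 24 := by
    calc _ ≤ ∑ x ∈ S, ∑ z, |chainLaw W (∑ i, r i) i0 j0 r c 1 z - piZ i0 j0 r c W z| * (J x z).toReal := by
          refine Finset.sum_le_sum fun x hx => ?_
          rw [hV x hx, ← Finset.sum_sub_distrib]
          refine (Finset.abs_sum_le_sum_abs _ _).trans (Finset.sum_le_sum fun z _ => ?_)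
          rw [← sub_mul, abs_mul, abs_of_nonneg (ENNReal.toReal_nonneg : 0 ≤ (J x z).toReal)]
      _ = ∑ z, |chainLaw W (∑ i, r i) i0 j0 r c 1 z - piZ i0 j0 r c W z| * ∑ x ∈ S, (J x z).toReal := by
          rw [Finset.sum_comm]
          refine Finset.sum_congr rfl fun z _ => ?_
          rw [Finset.mul_sum]
      _ ≤ ∑ z, |chainLaw W (∑ i, r i) i0 j0 r c 1 z - piZ i0 j0 r c W z| * 1 :=
          Finset.sum_le_sum fun z _ => mul_le_mul_of_nonneg_left (hJr z) (abs_nonneg _)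
      _ ≤ _ := by simpa using htv'
  have hsum : ∑ x ∈ S, |∑ z, chainLaw W (∑ i, r i) i0 j0 r c 1 z * (J x z).toReal
        - (∫⁻ t, H x t ∂(wLaw r c)).toReal|
      ≤ ∑ x ∈ S, (|∑ z, chainLaw W (∑ i, r i) i0 j0 r c 1 z * (J x z).toReal
            - (Vf i0 j0 r c W (g x)).toReal|
          + |(Vf i0 j0 r c W (g x)).toReal - (Rf i0 j0 r c W (g x)).toReal|
          + |(Pf i0 j0 r c (g x)).toReal - (Rf i0 j0 r c W (g x)).toReal|) := by
    refine Finset.sum_le_sum fun x hx => ?_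
    rw [hP x hx]
    have h1 := abs_sub_le (∑ z, chainLaw W (∑ i, r i) i0 j0 r c 1 z * (J x z).toReal)
      (Vf i0 j0 r c W (g x)).toReal (Pf i0 j0 r c (g x)).toReal
    have h2 := abs_sub_le (Vf i0 j0 r c W (g x)).toReal (Rf i0 j0 r c W (g x)).toReal
      (Pf i0 j0 r c (g x)).toReal
    have h3 := abs_sub_comm (Rf i0 j0 r c W (g x)).toReal (Pf i0 j0 r c (g x)).toReal
    linarith
  rw [Finset.sum_add_distrib, Finset.sum_add_distrib] at hsum
  have e : (20 : ℝ) / (W : ℝ) ^ 24 = 20 * (1 / (W : ℝ) ^ 24) := by ring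
  have e3 : (3 : ℝ) / (W : ℝ) ^ 24 = 3 * (1 / (W : ℝ) ^ 24) := by ring
  rw [e3] at hA hB
  have hx : 0 < 1 / (W : ℝ) ^ 24 := by positivity
  rw [e]
  have goal_eq : ∑ x ∈ S, |∑ z, chainLaw W (∑ i, r i) i0 j0 r c 1 z
          * (∫⁻ u in Set.Icc (0 : Fin n × Fin m → ℝ) 1, H x (tMap i0 j0 r c (cellPt W z u))).toReal
        - (∫⁻ t, H x t ∂(wLaw r c)).toReal|
      = ∑ x ∈ S, |∑ z, chainLaw W (∑ i, r i) i0 j0 r c 1 z * (J x z).toReal
        - (∫⁻ t, H x t ∂(wLaw r c)).toReal| := rfl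
  rw [goal_eq]
  linarith

end Main

end Vale.Agent.Lib.P328.Samp
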