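import Mathlib

/-!
# P328, explicit algorithm: families of functions under a law with a density (part of module Q)
-/

namespace Vale.Agent.Lib.P328.Samp

open Finset MeasureTheory
open scoped ENNReal

theorem q_mulL {a b c : ℝ≥0∞} (h : b ≤ c) : a * b ≤ a * c := by
  gcongr

theorem q_mul_tsub_le_mul (a b c : ℝ≥0∞) : a * b - a * c ≤ a * (b - c) := by
  rw [tsub_le_iff_left, ← mul_add]
  exact q_mulL le_add_tsub

theorem q_sum_abs_toReal_sub_le {ι : Type} (s : Finset ι) {A B E1 E2 : ι → ℝ≥0∞}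
    (hA : ∀ x ∈ s, A x ≠ ⊤) (hB : ∀ x ∈ s, B x ≠ ⊤)
    (h1 : ∀ x ∈ s, A x ≤ B x + E1 x) (h2 : ∀ x ∈ s, B x ≤ A x + E2 x) {δ : ℝ} (hδ : 0 ≤ δ)
    (hE : ∑ x ∈ s, (E1 x + E2 x) ≤ ENNReal.ofReal δ) :
    ∑ x ∈ s, |(A x).toReal - (B x).toReal| ≤ δ := by
  have htop : ∑ x ∈ s, (E1 x + E2 x) ≠ ⊤ := ne_top_of_le_ne_top ENNReal.ofReal_ne_top hE
  have hfin : ∀ x ∈ s, E1 x + E2 x ≠ ⊤ := fun x hx => (ENNReal.sum_ne_top.1 htop) x hx
  have hE1 : ∀ x ∈ s, E1 x ≠ ⊤ := fun x hx h => hfin x hx (by rw [h, top_add])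
  have hE2 : ∀ x ∈ s, E2 x ≠ ⊤ := fun x hx h => hfin x hx (by rw [h, add_top])
  have hpt : ∀ x ∈ s, |(A x).toReal - (B x).toReal| ≤ (E1 x + E2 x).toReal := by
    intro x hx
    rw [ENNReal.toReal_add (hE1 x hx) (hE2 x hx), abs_le]
    have h3 := ENNReal.toReal_mono (ENNReal.add_ne_top.2 ⟨hB x hx, hE1 x hx⟩) (h1 x hx)
    have h4 := ENNReal.toReal_mono (ENNReal.add_ne_top.2 ⟨hA x hx, hE2 x hx⟩) (h2 x hx)
    rw [ENNReal.toReal_add (hB x hx) (hE1 x hx)] at h3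
    rw [ENNReal.toReal_add (hA x hx) (hE2 x hx)] at h4
    have h5 : 0 ≤ (E1 x).toReal := ENNReal.toReal_nonneg
    have h6 : 0 ≤ (E2 x).toReal := ENNReal.toReal_nonneg
    constructor <;> linarith
  refine (Finset.sum_le_sum hpt).trans ?_
  rw [← ENNReal.toReal_sum hfin]
  exact ENNReal.toReal_le_of_le_ofReal hδ hE

/-- Two families of functions with small distance, with respect to a law given by a density. -/
theorem q_family_close {Ω X : Type} [MeasurableSpace Ω] {ν μ : Measure Ω} {dens : Ω → ℝ≥0∞}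
    {Z : ℝ≥0∞} (hμ : ∀ g : Ω → ℝ≥0∞, ∫⁻ t, g t ∂μ = Z⁻¹ * ∫⁻ t, dens t * g t ∂ν)
    {S : Finset X} {H G : X → Ω → ℝ≥0∞} (hHm : ∀ x ∈ S, Measurable fun t => dens t * H x t)
    (hGm : ∀ x ∈ S, Measurable fun t => dens t * G x t)
    (hHf : ∀ x ∈ S, ∫⁻ t, H x t ∂μ ≠ ⊤) (hGf : ∀ x ∈ S, ∫⁻ t, G x t ∂μ ≠ ⊤)
    {δ : ℝ} (hδ : 0 ≤ δ) {f : Ω → ℝ≥0∞} (hfI : ∫⁻ t, f t ∂μ ≤ ENNReal.ofReal δ)
    (hpt : ∀ t, dens t ≠ 0 → ∑ x ∈ S, ((H x t - G x t) + (G x t - H x t)) ≤ f t) :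
    ∑ x ∈ S, |(∫⁻ t, H x t ∂μ).toReal - (∫⁻ t, G x t ∂μ).toReal| ≤ δ := by
  classical
  set e1 : X → Ω → ℝ≥0∞ := fun x t => dens t * H x t - dens t * G x t with he1def
  set e2 : X → Ω → ℝ≥0∞ := fun x t => dens t * G x t - dens t * H x t with he2def
  have he1 : ∀ x ∈ S, Measurable (e1 x) := fun x hx => (hHm x hx).sub (hGm x hx)
  have he2 : ∀ x ∈ S, Measurable (e2 x) := fun x hx => (hGm x hx).sub (hHm x hx)
  refine q_sum_abs_toReal_sub_le S hHf hGf (E1 := fun x => Z⁻¹ * ∫⁻ t, e1 x t ∂ν)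
    (E2 := fun x => Z⁻¹ * ∫⁻ t, e2 x t ∂ν) ?_ ?_ hδ ?_
  · intro x hx
    rw [hμ (H x), hμ (G x), ← mul_add, ← lintegral_add_left (hGm x hx)]
    exact q_mulL (lintegral_mono fun t => le_add_tsub)
  · intro x hx
    rw [hμ (H x), hμ (G x), ← mul_add, ← lintegral_add_left (hHm x hx)]
    exact q_mulL (lintegral_mono fun t => le_add_tsub)
  · have h1 : ∑ x ∈ S, (Z⁻¹ * ∫⁻ t, e1 x t ∂ν + Z⁻¹ * ∫⁻ t, e2 x t ∂ν)
        = Z⁻¹ * ∫⁻ t, ∑ x ∈ S, (e1 x t + e2 x t) ∂ν := by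
      rw [lintegral_finsetSum (f := fun x t => e1 x t + e2 x t) S
        (fun x hx => (he1 x hx).add (he2 x hx)), Finset.mul_sum]
      refine Finset.sum_congr rfl fun x hx => ?_
      rw [lintegral_add_left (he1 x hx), mul_add]
    rw [h1]
    have hp : ∀ t, ∑ x ∈ S, (e1 x t + e2 x t) ≤ dens t * f t := by
      intro t
      by_cases ht : dens t = 0
      · simp [he1def, he2def, ht]
      · calc ∑ x ∈ S, (e1 x t + e2 x t)
            ≤ ∑ x ∈ S, dens t * ((H x t - G x t) + (G x t - H x t)) :=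
              Finset.sum_le_sum fun x _ => by
                rw [mul_add]
                exact add_le_add (q_mul_tsub_le_mul _ _ _) (q_mul_tsub_le_mul _ _ _)
          _ = dens t * ∑ x ∈ S, ((H x t - G x t) + (G x t - H x t)) :=
              (Finset.mul_sum _ _ _).symm
          _ ≤ _ := q_mulL (hpt t ht)
    calc Z⁻¹ * ∫⁻ t, ∑ x ∈ S, (e1 x t + e2 x t) ∂ν
        ≤ Z⁻¹ * ∫⁻ t, dens t * f t ∂ν := q_mulL (lintegral_mono hp)
      _ = ∫⁻ t, f t ∂μ := (hμ _).symm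
      _ ≤ _ := hfI

end Vale.Agent.Lib.P328.Samp
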