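import Vale.Agent.Lib.P328.Samp.CapNum
import Vale.Agent.Lib.P328.Fpras.Trial

/-!
# P328, explicit algorithm: one trial with the computed capacity (part of module Q)

`trialHat` on the good set is `K * wt * min 1 coin`, with no dependence on the chosen row.
So it is measurable, its total is at most one, and on the domain of the chain it equals
`trialP * exp s`, `|s| ≤ 1 / W ^ 30`.
-/

namespace Vale.Agent.Lib.P328.Samp

open Finset MeasureTheory Vale.Agent.Lib.P328.Cap Vale.Agent.Lib.P328.Fpras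
open scoped ENNReal

variable {m n : ℕ} {P : Par} {r : Fin m → ℕ} {c0 : ℕ} {c' : Fin n → ℕ} {W Nb : ℕ}

/-- The computed minimiser. -/
noncomputable def q_bH (W Nb : ℕ) (r : Fin m → ℕ) (c0 : ℕ) (c' : Fin n → ℕ)
    (t : Fin (n + 1) → Fin m → ℝ) : Fin (n + 1) → ℝ :=
  fun j => Real.exp (betaHat W Nb r (Fin.cons c0 c') t j)

/-- The second coin of `trialHat`, before the truncation. -/
noncomputable def q_coinH (W Nb : ℕ) (r : Fin m → ℕ) (c0 : ℕ) (c' : Fin n → ℕ)
    (t : Fin (n + 1) → Fin m → ℝ) (x : Fin m → ℕ) : ℝ :=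
  uvalHat W Nb r c' t x / (2 * Real.exp (logCapHat W Nb r (Fin.cons c0 c') t)
    * wt r (rowP t (q_bH W Nb r c0 c' t)) x)

/-- Where `trialHat` does not vanish. -/
def q_goodH (W Nb : ℕ) (P : Par) (r : Fin m → ℕ) (c0 : ℕ) (c' : Fin n → ℕ) :
    Set (Fin (n + 1) → Fin m → ℝ) :=
  {t | (∀ j i, cutK W ≤ t j i) ∧ ∃ i, P.V0 m n c0 ≤ rowV r t (q_bH W Nb r c0 c' t) i}

theorem q_cutK_pos (hW : 0 < W) : 0 < cutK W := by
  unfold cutK
  have : (0 : ℝ) < W := by exact_mod_cast hW
  positivity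

theorem q_bH_pos (W Nb : ℕ) (r : Fin m → ℕ) (c0 : ℕ) (c' : Fin n → ℕ)
    (t : Fin (n + 1) → Fin m → ℝ) (j : Fin (n + 1)) : 0 < q_bH W Nb r c0 c' t j :=
  Real.exp_pos _

/-- The first coin needs no truncation. -/
theorem q_K_bw_le_one {t : Fin (n + 1) → Fin m → ℝ} {b : Fin (n + 1) → ℝ} (ht : ∀ j i, 0 < t j i)
    (hb : ∀ j, 0 < b j) {i : Fin m} (hi : P.V0 m n c0 ≤ rowV r t b i) (v : ℕ) :
    P.K m n c0 * bw (r i) (rowP t b i) v ≤ 1 := by
  have h0 := fun i => rowP_nonneg ht hb i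
  have h1 := fun i => rowP_le_one ht hb i
  unfold Par.K
  split_ifs with h
  · have h2 := bw_sqrt_le (r i) v (h0 i) (h1 i)
    have h3 : Real.sqrt (P.V0 m n c0) ≤ Real.sqrt ((r i : ℝ) * rowP t b i * (1 - rowP t b i)) :=
      Real.sqrt_le_sqrt hi
    have hbw0 : 0 ≤ bw (r i) (rowP t b i) v := bw_nonneg (h0 i) (h1 i) v
    calc _ ≤ Real.sqrt ((r i : ℝ) * rowP t b i * (1 - rowP t b i)) * bw (r i) (rowP t b i) v := by
          gcongr
      _ ≤ 1 := by
          rw [mul_comm]
          exact h2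
  · rw [one_mul]
    by_cases hv : v ≤ r i
    · have h2 : bw (r i) (rowP t b i) v ≤ ∑ w ∈ range (r i + 1), bw (r i) (rowP t b i) w :=
        Finset.single_le_sum (f := fun w => bw (r i) (rowP t b i) w)
          (fun w _ => bw_nonneg (h0 i) (h1 i) w) (Finset.mem_range.2 (by omega))
      rwa [sum_bw] at h2
    · have : bw (r i) (rowP t b i) v = 0 := by
        unfold bw
        rw [Nat.choose_eq_zero_of_lt (by omega)]
        simp
      rw [this]
      exact zero_le_one

theorem q_trialHat_good (hW : 0 < W) {t : Fin (n + 1) → Fin m → ℝ} (hcut : ∀ j i, cutK W ≤ t j i)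
    (hgood : ∃ i, P.V0 m n c0 ≤ rowV r t (q_bH W Nb r c0 c' t) i) (x : Fin m → ℕ) :
    trialHat W Nb P r c0 c' t x
      = P.K m n c0 * wt r (rowP t (q_bH W Nb r c0 c' t)) x * min 1 (q_coinH W Nb r c0 c' t x) := by
  have ht : ∀ j i, 0 < t j i := fun j i => (q_cutK_pos hW).trans_le (hcut j i)
  have hgood' : ∃ i, P.V0 m n c0 ≤ rowV r t
      (fun j => Real.exp (betaHat W Nb r (Fin.cons c0 c') t j)) i := hgood
  unfold trialHat
  rw [if_pos hcut]
  show (if h : ∃ i, P.V0 m n c0 ≤ rowV r t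
      (fun j => Real.exp (betaHat W Nb r (Fin.cons c0 c') t j)) i then _ else _) = _
  rw [dif_pos hgood']
  have hi := firstIdx_spec _ hgood'
  set i := firstIdx _ hgood' with hidef
  have h1 := q_K_bw_le_one (P := P) (r := r) (c0 := c0) ht (q_bH_pos W Nb r c0 c' t) hi (x i)
  have h2 : q_bH W Nb r c0 c' t = fun j => Real.exp (betaHat W Nb r (Fin.cons c0 c') t j) := rfl
  rw [h2] at h1
  rw [min_eq_right h1]
  have h3 := wt_factor r (rowP t (q_bH W Nb r c0 c' t)) x i
  rw [h3, h2]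
  unfold q_coinH
  rw [h2]
  ring

theorem q_trialHat_not_good {t : Fin (n + 1) → Fin m → ℝ}
    (hng : ¬ ∃ i, P.V0 m n c0 ≤ rowV r t (q_bH W Nb r c0 c' t) i) (x : Fin m → ℕ) :
    trialHat W Nb P r c0 c' t x = 0 := by
  have hng' : ¬ ∃ i, P.V0 m n c0 ≤ rowV r t
      (fun j => Real.exp (betaHat W Nb r (Fin.cons c0 c') t j)) i := hng
  unfold trialHat
  split_ifs with h
  · show (if h : ∃ i, P.V0 m n c0 ≤ rowV r t
      (fun j => Real.exp (betaHat W Nb r (Fin.cons c0 c') t j)) i then _ else _) = _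
    rw [dif_neg hng']
  · rfl

theorem q_trialHat_not_cut {t : Fin (n + 1) → Fin m → ℝ} (h : ¬ ∀ j i, cutK W ≤ t j i)
    (x : Fin m → ℕ) : trialHat W Nb P r c0 c' t x = 0 := by
  unfold trialHat
  rw [if_neg h]

theorem q_trialHat_indicator (hW : 0 < W) (t : Fin (n + 1) → Fin m → ℝ) (x : Fin m → ℕ) :
    trialHat W Nb P r c0 c' t x = (q_goodH W Nb P r c0 c').indicator (fun t =>
      P.K m n c0 * wt r (rowP t (q_bH W Nb r c0 c' t)) x * min 1 (q_coinH W Nb r c0 c' t x)) t := by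
  by_cases ht : t ∈ q_goodH W Nb P r c0 c'
  · rw [Set.indicator_of_mem ht]
    exact q_trialHat_good hW ht.1 ht.2 x
  · rw [Set.indicator_of_notMem ht]
    by_cases h : ∀ j i, cutK W ≤ t j i
    · exact q_trialHat_not_good (fun hg => ht ⟨h, hg⟩) x
    · exact q_trialHat_not_cut h x

/-! ### Measurability -/

theorem q_measurable_bH (W Nb : ℕ) (r : Fin m → ℕ) (c0 : ℕ) (c' : Fin n → ℕ) :
    Measurable (q_bH W Nb r c0 c') :=
  measurable_pi_lambda _ fun j => Real.measurable_exp.comp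
    ((measurable_pi_apply j).comp (measurable_betaHat W Nb r _))

theorem q_measurable_rowP {sol : (Fin (n + 1) → Fin m → ℝ) → Fin (n + 1) → ℝ} (hs : Measurable sol)
    (i : Fin m) : Measurable fun t : Fin (n + 1) → Fin m → ℝ => rowP t (sol t) i := by
  have h1 : ∀ j, Measurable fun t : Fin (n + 1) → Fin m → ℝ => t j i * sol t j := fun j => by
    have ha : Measurable fun t : Fin (n + 1) → Fin m → ℝ => t j i :=
      (measurable_pi_apply i).comp (measurable_pi_apply j)
    have hb : Measurable fun t : Fin (n + 1) → Fin m → ℝ => sol t j :=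
      (measurable_pi_apply j).comp hs
    exact ha.mul hb
  unfold rowP
  exact (h1 0).div (Finset.measurable_sum _ fun j _ => h1 j)

theorem q_measurable_wt {sol : (Fin (n + 1) → Fin m → ℝ) → Fin (n + 1) → ℝ} (hs : Measurable sol)
    (r x : Fin m → ℕ) : Measurable fun t : Fin (n + 1) → Fin m → ℝ => wt r (rowP t (sol t)) x := by
  unfold wt
  refine Finset.measurable_prod _ fun i _ => ?_
  unfold bw
  have h := q_measurable_rowP hs i
  exact (measurable_const.mul (h.pow_const _)).mul ((h.const_sub _).pow_const _)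

theorem q_measurable_uvalHat (W Nb : ℕ) (r : Fin m → ℕ) (c' : Fin n → ℕ) (x : Fin m → ℕ) :
    Measurable fun t : Fin (n + 1) → Fin m → ℝ => uvalHat W Nb r c' t x := by
  unfold uvalHat
  refine Measurable.mul ?_ ?_
  · refine Finset.measurable_prod _ fun i _ => ?_
    refine measurable_const.mul (Measurable.pow_const ?_ _)
    exact (measurable_pi_apply i).comp (measurable_pi_apply 0)
  · refine Real.measurable_exp.comp ((measurable_logCapHat W Nb _ c').comp ?_)
    exact measurable_pi_lambda _ fun l => measurable_pi_apply _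

theorem q_measurable_coinH (W Nb : ℕ) (r : Fin m → ℕ) (c0 : ℕ) (c' : Fin n → ℕ) (x : Fin m → ℕ) :
    Measurable fun t => q_coinH W Nb r c0 c' t x := by
  unfold q_coinH
  refine (q_measurable_uvalHat W Nb r c' x).div (Measurable.mul (Measurable.const_mul ?_ _) ?_)
  · exact Real.measurable_exp.comp (measurable_logCapHat W Nb r _)
  · exact q_measurable_wt (q_measurable_bH W Nb r c0 c') r x

theorem q_measurableSet_goodH (W Nb : ℕ) (P : Par) (r : Fin m → ℕ) (c0 : ℕ) (c' : Fin n → ℕ) :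
    MeasurableSet (q_goodH W Nb P r c0 c') := by
  have h1 : MeasurableSet {t : Fin (n + 1) → Fin m → ℝ | ∀ j i, cutK W ≤ t j i} := by
    have : {t : Fin (n + 1) → Fin m → ℝ | ∀ j i, cutK W ≤ t j i}
        = ⋂ j, ⋂ i, {t | cutK W ≤ t j i} := by
      ext t
      simp
    rw [this]
    refine MeasurableSet.iInter fun j => MeasurableSet.iInter fun i => ?_
    exact measurableSet_le measurable_const
      ((measurable_pi_apply i).comp (measurable_pi_apply j))
  have h2 : q_goodH W Nb P r c0 c'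
      = {t | ∀ j i, cutK W ≤ t j i} ∩ goodT P r c0 (q_bH W Nb r c0 c') := rfl
  rw [h2]
  exact h1.inter (measurableSet_goodT (q_measurable_bH W Nb r c0 c'))

/-- `trialHat` is measurable. -/
theorem q_measurable_trialHat (hW : 0 < W) (Nb : ℕ) (P : Par) (r : Fin m → ℕ) (c0 : ℕ)
    (c' : Fin n → ℕ) (x : Fin m → ℕ) :
    Measurable fun t => trialHat W Nb P r c0 c' t x := by
  have h : (fun t => trialHat W Nb P r c0 c' t x) = (q_goodH W Nb P r c0 c').indicator (fun t =>
      P.K m n c0 * wt r (rowP t (q_bH W Nb r c0 c' t)) x * min 1 (q_coinH W Nb r c0 c' t x)) :=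
    funext fun t => q_trialHat_indicator hW t x
  rw [h]
  refine Measurable.indicator ?_ (q_measurableSet_goodH W Nb P r c0 c')
  refine Measurable.mul (Measurable.const_mul ?_ _) (Measurable.min measurable_const ?_)
  · exact q_measurable_wt (q_measurable_bH W Nb r c0 c') r x
  · exact q_measurable_coinH W Nb r c0 c' x

/-! ### The total mass -/

/-- A trial returns something with probability at most one. -/
theorem q_H_sum_le (hW : 0 < W) (t : Fin (n + 1) → Fin m → ℝ) :
    ∑ x ∈ lev r c0, ENNReal.ofReal (trialHat W Nb P r c0 c' t x) ≤ 1 := by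
  by_cases hcut : ∀ j i, cutK W ≤ t j i
  · by_cases hgood : ∃ i, P.V0 m n c0 ≤ rowV r t (q_bH W Nb r c0 c' t) i
    · have ht : ∀ j i, 0 < t j i := fun j i => (q_cutK_pos hW).trans_le (hcut j i)
      have hb := q_bH_pos W Nb r c0 c' t
      obtain ⟨i, hi⟩ := id hgood
      have hK := K_sum_wt_le ht hb hi
      have hK0 := K_nonneg' P m n c0
      have h0 := fun i => rowP_nonneg ht hb i
      have h1 := fun i => rowP_le_one ht hb i
      have hw0 : ∀ x, 0 ≤ wt r (rowP t (q_bH W Nb r c0 c' t)) x := fun x => wt_nonneg h0 h1 x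
      calc ∑ x ∈ lev r c0, ENNReal.ofReal (trialHat W Nb P r c0 c' t x)
          ≤ ∑ x ∈ lev r c0, ENNReal.ofReal (P.K m n c0 * wt r (rowP t (q_bH W Nb r c0 c' t)) x) := by
            refine Finset.sum_le_sum fun x _ => ENNReal.ofReal_le_ofReal ?_
            rw [q_trialHat_good hW hcut hgood x]
            have h2 : min 1 (q_coinH W Nb r c0 c' t x) ≤ 1 := min_le_left _ _
            exact mul_le_of_le_one_right (mul_nonneg hK0 (hw0 x)) h2
        _ = ENNReal.ofReal (∑ x ∈ lev r c0, P.K m n c0 * wt r (rowP t (q_bH W Nb r c0 c' t)) x) :=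
            (ENNReal.ofReal_sum_of_nonneg fun x _ => mul_nonneg hK0 (hw0 x)).symm
        _ ≤ 1 := by
            rw [← Finset.mul_sum]
            exact ENNReal.ofReal_le_one.2 hK
    · simp [q_trialHat_not_good hgood]
  · simp [q_trialHat_not_cut hcut]

/-! ### The trial with an exact capacity -/

theorem q_wt_factor_aux (r : Fin m → ℕ) (p : Fin m → ℝ) (x : Fin m → ℕ) (i : Fin m) (K u : ℝ) :
    (∏ j ∈ univ.erase i, bw (r j) (p j) (x j)) * (K * bw (r i) (p i) (x i)) * u
      = K * wt r p x * u := by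
  rw [wt_factor r p x i]
  ring

theorem q_trialP_not_good {t : Fin (n + 1) → Fin m → ℝ} {b : Fin (n + 1) → ℝ}
    (hng : ¬ ∃ i, P.V0 m n c0 ≤ rowV r t b i) (x : Fin m → ℕ) :
    trialP P r c0 c' t b x = 0 := by
  unfold trialP
  rw [dif_neg hng]

/-- `trialP` does not depend on the chosen row. -/
theorem q_trialP_indicator {sol : (Fin (n + 1) → Fin m → ℝ) → Fin (n + 1) → ℝ}
    (t : Fin (n + 1) → Fin m → ℝ) (x : Fin m → ℕ) :
    trialP P r c0 c' t (sol t) x = (goodT P r c0 sol).indicator (fun t =>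
      P.K m n c0 * wt r (rowP t (sol t)) x
        * (uval r c' t x / (2 * (capa r (Fin.cons c0 c') t).toReal * wt r (rowP t (sol t)) x))) t := by
  by_cases hg : t ∈ goodT P r c0 sol
  · rw [Set.indicator_of_mem hg]
    have hg' : ∃ i, P.V0 m n c0 ≤ rowV r t (sol t) i := hg
    unfold trialP
    rw [dif_pos hg']
    rw [q_wt_factor_aux r (rowP t (sol t)) x hg'.choose]
  · rw [Set.indicator_of_notMem hg]
    exact q_trialP_not_good hg x

theorem q_measurable_trialP {sol : (Fin (n + 1) → Fin m → ℝ) → Fin (n + 1) → ℝ}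
    (hs : Measurable sol) (P : Par) (r : Fin m → ℕ) (c0 : ℕ) (c' : Fin n → ℕ) (x : Fin m → ℕ) :
    Measurable fun t => trialP P r c0 c' t (sol t) x := by
  have h : (fun t => trialP P r c0 c' t (sol t) x) = (goodT P r c0 sol).indicator (fun t =>
      P.K m n c0 * wt r (rowP t (sol t)) x
        * (uval r c' t x / (2 * (capa r (Fin.cons c0 c') t).toReal * wt r (rowP t (sol t)) x))) :=
    funext fun t => q_trialP_indicator t x
  rw [h]
  refine Measurable.indicator ?_ (measurableSet_goodT hs)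
  have hw := q_measurable_wt hs r x
  refine Measurable.mul (Measurable.const_mul hw _) ((measurable_uval r c' x).div ?_)
  exact (Measurable.const_mul (capa_measurable _ _).ennreal_toReal _).mul hw

theorem q_trialP_nonneg (hbal : ∑ i, r i = c0 + ∑ j, c' j) {t : Fin (n + 1) → Fin m → ℝ}
    {b : Fin (n + 1) → ℝ} (ht : ∀ j i, 0 < t j i) (hb : ∀ j, 0 < b j) {x : Fin m → ℕ}
    (hx : x ∈ lev r c0) : 0 ≤ trialP P r c0 c' t b x := by
  by_cases hgood : ∃ i, P.V0 m n c0 ≤ rowV r t b i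
  · rw [trialP_eq_good hbal ht hb hx hgood]
    have h1 := K_nonneg' P m n c0
    have h2 := uval_nonneg' r c' x ht
    have h3 : 0 ≤ (capa r (Fin.cons c0 c') t).toReal := ENNReal.toReal_nonneg
    positivity
  · rw [q_trialP_not_good hgood]

theorem q_trialP_sum_le (hbal : ∑ i, r i = c0 + ∑ j, c' j) {t : Fin (n + 1) → Fin m → ℝ}
    {b : Fin (n + 1) → ℝ} (ht : ∀ j i, 0 < t j i) (hb : ∀ j, 0 < b j)
    (hnear : Phi r (Fin.cons c0 c') t b ≤ 2 * (capa r (Fin.cons c0 c') t).toReal) :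
    ∑ x ∈ lev r c0, trialP P r c0 c' t b x ≤ 1 := by
  by_cases hgood : ∃ i, P.V0 m n c0 ≤ rowV r t b i
  · obtain ⟨i, hi⟩ := id hgood
    have hK := K_sum_wt_le (P := P) (r := r) (c0 := c0) ht hb hi
    have hK0 := K_nonneg' P m n c0
    have hC0 : 0 < (capa r (Fin.cons c0 c') t).toReal :=
      ENNReal.toReal_pos (capa_pos r _ (bal_cons hbal) t ht).ne' (capa_lt_top _ _ _).ne
    have h0 := fun i => rowP_nonneg ht hb i
    have h1 := fun i => rowP_le_one ht hb i
    refine le_trans ?_ hK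
    rw [Finset.mul_sum]
    refine Finset.sum_le_sum fun x hx => ?_
    rw [trialP_eq_good hbal ht hb hx hgood]
    have hw0 : 0 ≤ wt r (rowP t b) x := wt_nonneg h0 h1 x
    have hu := uval_le r c0 c' t b ht hb hx
    rw [mul_div_assoc]
    refine mul_le_mul_of_nonneg_left ?_ hK0
    rw [div_le_iff₀ (by positivity)]
    calc uval r c' t x ≤ Phi r (Fin.cons c0 c') t b * wt r (rowP t b) x := hu
      _ ≤ (2 * (capa r (Fin.cons c0 c') t).toReal) * wt r (rowP t b) x :=
        mul_le_mul_of_nonneg_right hnear hw0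
      _ = _ := by ring
  · simp [q_trialP_not_good hgood]

/-! ### The comparison -/

section Compare

variable (hW : 10 ^ 6 * (((n + 1 : ℕ) : ℝ) + 1) ^ 2 ≤ W)

include hW

theorem q_W_pos_of : 0 < W := by
  have h : (0 : ℝ) < 10 ^ 6 * (((n + 1 : ℕ) : ℝ) + 1) ^ 2 := by positivity
  exact_mod_cast h.trans_le hW

theorem q_W_ge_of : (10 : ℝ) ^ 6 ≤ W := by
  have h : (1 : ℝ) ≤ (((n + 1 : ℕ) : ℝ) + 1) ^ 2 := by
    have : (0 : ℝ) ≤ ((n + 1 : ℕ) : ℝ) := Nat.cast_nonneg _
    exact one_le_pow₀ (by linarith)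
  nlinarith

theorem q_eta_le : 1 / (W : ℝ) ^ 30 ≤ 1 / 2 := by
  have h := q_W_ge_of hW
  refine one_div_le_one_div_of_le (by norm_num) ?_
  calc (2 : ℝ) ≤ W := by linarith [show (2 : ℝ) ≤ 10 ^ 6 by norm_num]
    _ = (W : ℝ) ^ 1 := (pow_one _).symm
    _ ≤ (W : ℝ) ^ 30 := pow_le_pow_right₀ (by linarith [show (1 : ℝ) ≤ 10 ^ 6 by norm_num]) (by norm_num)

omit hW in
theorem q_exp_le_two {e : ℝ} (h0 : 0 ≤ e) (h1 : e ≤ 1 / 2) : Real.exp e ≤ 2 := by
  have h2 := Real.abs_exp_sub_one_le (x := e) (by rw [abs_of_nonneg h0]; linarith)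
  rw [abs_of_nonneg h0] at h2
  have h3 := le_abs_self (Real.exp e - 1)
  linarith

/-- The capacity at the node from the computed logarithm. -/
theorem q_Phi_bH (hbal : ∑ i, r i = c0 + ∑ j, c' j) (hNb : ∑ i, r i ≤ Nb)
    {t : Fin (n + 1) → Fin m → ℝ}
    (ht : ∀ j i, cutK W ≤ t j i ∧ t j i ≤ ((Nb : ℝ) + 1) * (W : ℝ) ^ 5) :
    Phi r (Fin.cons c0 c') t (q_bH W Nb r c0 c' t)
        = Real.exp (logCapHat W Nb r (Fin.cons c0 c') t)
      ∧ Real.log (capa r (Fin.cons c0 c') t).toReal ≤ logCapHat W Nb r (Fin.cons c0 c') t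
      ∧ logCapHat W Nb r (Fin.cons c0 c') t
        ≤ Real.log (capa r (Fin.cons c0 c') t).toReal + 1 / (W : ℝ) ^ 30 := by
  have hW0 := q_W_pos_of hW
  have htp : ∀ j i, 0 < t j i := fun j i => (q_cutK_pos hW0).trans_le (ht j i).1
  have h1 := logCapHat_bound hW (r := r) (c := Fin.cons c0 c') (bal_cons hbal) hNb ht
  exact ⟨Phi_exp r _ htp (Nat.succ_pos n) _, h1.1, h1.2⟩

/-- The computed vector is a solver on the domain. -/
theorem q_Phi_bH_le (hbal : ∑ i, r i = c0 + ∑ j, c' j) (hNb : ∑ i, r i ≤ Nb)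
    {t : Fin (n + 1) → Fin m → ℝ}
    (ht : ∀ j i, cutK W ≤ t j i ∧ t j i ≤ ((Nb : ℝ) + 1) * (W : ℝ) ^ 5) :
    Phi r (Fin.cons c0 c') t (q_bH W Nb r c0 c' t) ≤ 2 * (capa r (Fin.cons c0 c') t).toReal := by
  have hW0 := q_W_pos_of hW
  have htp : ∀ j i, 0 < t j i := fun j i => (q_cutK_pos hW0).trans_le (ht j i).1
  obtain ⟨h1, h2, h3⟩ := q_Phi_bH (c' := c') (c0 := c0) hW hbal hNb ht
  rw [h1]
  have hC0 : 0 < (capa r (Fin.cons c0 c') t).toReal :=
    ENNReal.toReal_pos (capa_pos r _ (bal_cons hbal) t htp).ne' (capa_lt_top _ _ _).ne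
  set C := (capa r (Fin.cons c0 c') t).toReal with hC
  set L := logCapHat W Nb r (Fin.cons c0 c') t with hL
  have h4 : L = Real.log C + (L - Real.log C) := by ring
  rw [h4, Real.exp_add, Real.exp_log hC0, mul_comm]
  have h5 := q_eta_le hW
  have h6 : Real.exp (L - Real.log C) ≤ 2 := q_exp_le_two (by linarith) (by linarith)
  exact mul_le_mul_of_nonneg_right h6 hC0.le

/-- On the domain, the computed trial is a small multiple of the exact trial. -/
theorem q_trialHat_close (hbal : ∑ i, r i = c0 + ∑ j, c' j) (hNb : ∑ i, r i ≤ Nb)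
    {t : Fin (n + 1) → Fin m → ℝ}
    (ht : ∀ j i, cutK W ≤ t j i ∧ t j i ≤ ((Nb : ℝ) + 1) * (W : ℝ) ^ 5) {x : Fin m → ℕ}
    (hx : x ∈ lev r c0) :
    ∃ s : ℝ, |s| ≤ 1 / (W : ℝ) ^ 30 ∧ trialHat W Nb P r c0 c' t x
      = trialP P r c0 c' t (q_bH W Nb r c0 c' t) x * Real.exp s := by
  have hW0 := q_W_pos_of hW
  have htp : ∀ j i, 0 < t j i := fun j i => (q_cutK_pos hW0).trans_le (ht j i).1
  have hcut : ∀ j i, cutK W ≤ t j i := fun j i => (ht j i).1
  have hb := q_bH_pos W Nb r c0 c' t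
  by_cases hgood : ∃ i, P.V0 m n c0 ≤ rowV r t (q_bH W Nb r c0 c' t) i
  swap
  · refine ⟨0, ?_, ?_⟩
    · simp
    · rw [q_trialHat_not_good hgood, q_trialP_not_good hgood, zero_mul]
  obtain ⟨hPhi, hL1, hL2⟩ := q_Phi_bH (c' := c') (c0 := c0) hW hbal hNb ht
  obtain ⟨hxR, hxs⟩ := mem_lev.1 hx
  -- the child
  have hsum' : ∑ i, (r i - x i) = ∑ j, c' j := by
    have h3 : ∑ i, (r i - x i) + ∑ i, x i = ∑ i, r i := by
      rw [← Finset.sum_add_distrib]
      exact Finset.sum_congr rfl fun i _ => Nat.sub_add_cancel (hxR i)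
    omega
  have hNb' : ∑ i, (r i - x i) ≤ Nb :=
    (Finset.sum_le_sum fun i _ => Nat.sub_le _ _).trans hNb
  have hW' : 10 ^ 6 * (((n : ℕ) : ℝ) + 1) ^ 2 ≤ W := by
    refine le_trans ?_ hW
    push_cast
    have : (0 : ℝ) ≤ n := Nat.cast_nonneg _
    nlinarith
  obtain ⟨hM1, hM2⟩ := logCapHat_bound hW' (r := fun i => r i - x i) (c := c') hsum' hNb'
    (t := fun l => t l.succ) (fun l i => ht l.succ i)
  have hC0 : 0 < (capa r (Fin.cons c0 c') t).toReal :=
    ENNReal.toReal_pos (capa_pos r _ (bal_cons hbal) t htp).ne' (capa_lt_top _ _ _).ne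
  have hD0 : 0 < (capa (fun i => r i - x i) c' fun l => t l.succ).toReal :=
    ENNReal.toReal_pos (capa_pos _ _ hsum' _ fun l i => htp l.succ i).ne' (capa_lt_top _ _ _).ne
  have hwt := wt_pos r c0 c' hbal t _ htp hb hx
  have hu0 := uval_nonneg' r c' x htp
  have hule := uval_le r c0 c' t _ htp hb hx
  rw [hPhi] at hule
  have hη := q_eta_le hW
  have hη0 : 0 ≤ 1 / (W : ℝ) ^ 30 := by positivity
  set C := (capa r (Fin.cons c0 c') t).toReal with hC
  set D := (capa (fun i => r i - x i) c' fun l => t l.succ).toReal with hD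
  set L := logCapHat W Nb r (Fin.cons c0 c') t with hL
  set M := logCapHat W Nb (fun i => r i - x i) c' (fun l => t l.succ) with hM
  set w := wt r (rowP t (q_bH W Nb r c0 c' t)) x with hw
  set u := uval r c' t x with hu
  set e1 := M - Real.log D with he1
  set e2 := L - Real.log C with he2
  have hexpL : Real.exp L = C * Real.exp e2 := by
    rw [he2, Real.exp_sub, Real.exp_log hC0]
    field_simp
  have hexpM : Real.exp M = D * Real.exp e1 := by
    rw [he1, Real.exp_sub, Real.exp_log hD0]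
    field_simp
  have hU : uvalHat W Nb r c' t x = u * Real.exp e1 := by
    unfold uvalHat
    rw [← hM, hexpM, hu, uval_eq]
    unfold colW
    ring
  have hcoin : q_coinH W Nb r c0 c' t x = u * Real.exp e1 / (2 * Real.exp L * w) := by
    unfold q_coinH
    rw [hU]
  have he10 : 0 ≤ e1 := by linarith
  have he11 : e1 ≤ 1 / (W : ℝ) ^ 30 := by linarith
  have he20 : 0 ≤ e2 := by linarith
  have he21 : e2 ≤ 1 / (W : ℝ) ^ 30 := by linarith
  have hcoin1 : q_coinH W Nb r c0 c' t x ≤ 1 := by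
    rw [hcoin, div_le_one (by positivity)]
    have h2 : Real.exp e1 ≤ 2 := q_exp_le_two he10 (by linarith)
    calc u * Real.exp e1 ≤ (Real.exp L * w) * 2 :=
          mul_le_mul hule h2 (Real.exp_pos _).le (by positivity)
      _ = _ := by ring
  refine ⟨e1 - e2, ?_, ?_⟩
  · rw [abs_le]
    constructor <;> linarith
  · rw [q_trialHat_good hW0 hcut hgood, min_eq_right hcoin1, hcoin,
      trialP_eq_good hbal htp hb hx hgood, ← hC, ← hu, hexpL, ← hw]
    have h1 := Real.exp_pos e1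
    have h2 := Real.exp_pos e2
    have h3 : Real.exp (e1 - e2) = Real.exp e1 / Real.exp e2 := Real.exp_sub e1 e2
    rw [h3]
    clear_value e1 e2
    field_simp

end Compare

end Vale.Agent.Lib.P328.Samp
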