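import Vale.Agent.Lib.P328.Samp.Law
import Vale.Agent.Lib.P328.Samp.QHat
import Vale.Agent.Lib.P328.Samp.QGrid
import Vale.Agent.Lib.P328.Samp.QFam
import Vale.Agent.Lib.P328.Fpras.Robust
import Vale.Agent.Lib.P328.Fpras.HFinal

/-!
# P328, explicit algorithm: the transition matrix is close to the ideal one (module Q)

`solW W`: the solver of `algWalk` used for the comparison: `b = exp (betaHat ...)` if `Phi t b ≤ 2 capa t`, else an exact solver (`exists_solver`). `IsSolver` is immediate (measurability: `measurable_betaHat`, `capa_measurable`, `measurableSet_le`).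
At a node `(r, c0, c')`, `c = cons c0 c'`, `Nb = Σ r`, `t = tMap y`, `y` in the big cube, `t ≥ cutK W`: by `logCapHat_bound`, `Phi_exp`: `Phi t b = exp logCapHat ≤ exp (1/W^30) capa`, so `solW t = b`.
For such `t`, `x ∈ lev r c0`: the child has `Σ (r - x) = Σ c'`, `≤ Nb`, its entries are in the same range; so `uvalHat = uval * exp e1`, `exp logCapHat = capa * exp e2`, `0 ≤ e1, e2 ≤ 1/W^30`.
`uval ≤ Phi t b * wt` (`uval_le`), so the second coin of `trialP` is at most `exp (1/W^30) / 2`, the truncation at one in `trialHat` is not active; the first coin is at most one (see `coin_le_one`, `K_sum_wt_le`). So `|trialHat t x - trialP t b x| ≤ (4/W^30) trialP t b x`.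
Totals: `Σ_{x ∈ lev} trialHat t x ≤ 1` and `Σ_x trialP ≤ 1`: (`K_sum_wt_le`; on the good set `trialP = K * wt * coin`, see `trialP_eq_good`).
Measurability of `t ↦ trialHat t x`: write it on the good set as `K * wt * min 1 (..)`, `min 1 (K bw) = K bw` (no dependence on the chosen row); as for `trialP` in `Fpras/Trial`.
Comparison: `samp_close` with `H x t = ofReal (trialHat t x)`, `S = kids`; `wLaw_bad`. Total: `Σ_{x ∈ kids v} |trialI x - (trialM x).toReal| ≤ 20/W^24 + 4/W^30 + 4/W^25 ≤ 25/W^24`. `walk` has the same `up`, so `Σ_w |walkQ v w - algWalk v w| ≤ 2 (1/8) 25/W^24 ≤ 1 / B^22` when `B ≤ W`.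
`walkQ` is stochastic on the nodes: `upI + Σ dnI ≤ 1/2` from `chain_hyp` (`upAt = upI`), `0 ≤ downQ`, `Σ downQ ≤ 1/8`, and `sum_walk_one`, `walk_nonneg`.
-/

namespace Vale.Agent.Lib.P328.Samp

open Finset MeasureTheory Vale.Agent.Lib.P328.Cap Vale.Agent.Lib.P328.Fpras
open scoped ENNReal

variable {m : ℕ}

/-- The solver for the comparison. -/
noncomputable def solW (W : ℕ) : Sol m := fun r c0 l t =>
  open Classical in
  let c := (Fin.cons c0 l.get : Fin (l.length + 1) → ℕ)
  let b : Fin (l.length + 1) → ℝ := fun j => Real.exp (betaHat W (∑ i, r i) r c t j)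
  if ENNReal.ofReal (Phi r c t b) ≤ 2 * capa r c t then b else (exists_solver (m := m)).choose r c0 l t

theorem q_measurable_Phi_comp {n : ℕ} (r : Fin m → ℕ) (c : Fin n → ℕ)
    {b : (Fin n → Fin m → ℝ) → Fin n → ℝ} (hb : Measurable b) :
    Measurable fun t => Phi r c t (b t) := by
  unfold Phi
  refine Measurable.div ?_ ?_
  · refine Finset.measurable_prod _ fun i _ => Measurable.pow_const ?_ _
    refine Finset.measurable_sum _ fun j _ => ?_
    have h1 : Measurable fun t : Fin n → Fin m → ℝ => t j i :=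
      (measurable_pi_apply i).comp (measurable_pi_apply j)
    have h2 : Measurable fun t : Fin n → Fin m → ℝ => b t j := (measurable_pi_apply j).comp hb
    exact h1.mul h2
  · exact Finset.measurable_prod _ fun j _ => ((measurable_pi_apply j).comp hb).pow_const _

theorem q_solW_eq_of {W : ℕ} {r : Fin m → ℕ} {c0 : ℕ} {l : List ℕ}
    {t : Fin (l.length + 1) → Fin m → ℝ}
    (h : ENNReal.ofReal (Phi r (Fin.cons c0 l.get) t (q_bH W (∑ i, r i) r c0 l.get t))
      ≤ 2 * capa r (Fin.cons c0 l.get) t) :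
    solW W r c0 l t = q_bH W (∑ i, r i) r c0 l.get t := by
  unfold solW
  exact if_pos h

theorem q_solW_eq_not {W : ℕ} {r : Fin m → ℕ} {c0 : ℕ} {l : List ℕ}
    {t : Fin (l.length + 1) → Fin m → ℝ}
    (h : ¬ ENNReal.ofReal (Phi r (Fin.cons c0 l.get) t (q_bH W (∑ i, r i) r c0 l.get t))
      ≤ 2 * capa r (Fin.cons c0 l.get) t) :
    solW W r c0 l t = (exists_solver (m := m)).choose r c0 l t := by
  unfold solW
  exact if_neg h

theorem solW_isSolver (W : ℕ) : IsSolver (solW (m := m) W) := by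
  classical
  obtain ⟨h1, h2, h3⟩ := (exists_solver (m := m)).choose_spec
  refine ⟨?_, ?_, ?_⟩
  · intro r c0 l
    have hset : MeasurableSet {t : Fin (l.length + 1) → Fin m → ℝ |
        ENNReal.ofReal (Phi r (Fin.cons c0 l.get) t (q_bH W (∑ i, r i) r c0 l.get t))
          ≤ 2 * capa r (Fin.cons c0 l.get) t} :=
      measurableSet_le (q_measurable_Phi_comp r _ (q_measurable_bH W _ r c0 l.get)).ennreal_ofReal
        ((capa_measurable r _).const_mul 2)
    have h5 : solW W r c0 l = fun t =>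
        if ENNReal.ofReal (Phi r (Fin.cons c0 l.get) t (q_bH W (∑ i, r i) r c0 l.get t))
          ≤ 2 * capa r (Fin.cons c0 l.get) t then q_bH W (∑ i, r i) r c0 l.get t
        else (exists_solver (m := m)).choose r c0 l t := by
      funext t
      split_ifs with h
      · exact q_solW_eq_of h
      · exact q_solW_eq_not h
    rw [h5]
    exact Measurable.ite hset (q_measurable_bH W (∑ i, r i) r c0 l.get) (h1 r c0 l)
  · intro r c0 l t j
    by_cases h : ENNReal.ofReal (Phi r (Fin.cons c0 l.get) t (q_bH W (∑ i, r i) r c0 l.get t))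
        ≤ 2 * capa r (Fin.cons c0 l.get) t
    · rw [q_solW_eq_of h]
      exact q_bH_pos _ _ _ _ _ _ _
    · rw [q_solW_eq_not h]
      exact h2 r c0 l t j
  · intro r c0 l t hsum ht
    by_cases h : ENNReal.ofReal (Phi r (Fin.cons c0 l.get) t (q_bH W (∑ i, r i) r c0 l.get t))
        ≤ 2 * capa r (Fin.cons c0 l.get) t
    · rw [q_solW_eq_of h]
      exact h
    · rw [q_solW_eq_not h]
      exact h3 r c0 l t hsum ht

/-! ### Walks with close moves to the children -/

theorem q_walk_close {X : Type} [DecidableEq X] {S : List X → Finset X} {D : ℕ}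
    (hS : ∀ v, D ≤ v.length → S v = ∅) (down down' : List X → X → ℝ) (up : List X → ℝ)
    {v : List X} (hv : v ∈ nodes S D) :
    ∑ w ∈ nodes S D, |walk S down up v w - walk S down' up v w|
      ≤ 2 * ∑ x ∈ S v, |down v x - down' v x| := by
  set e := ∑ x ∈ S v, |down v x - down' v x| with he
  have hdiff : ∀ w, |walk S down up v w - walk S down' up v w|
      ≤ (if w = v then e else 0) + toChild S (fun a b => |down a b - down' a b|) v w := by
    intro w
    have h1 : walk S down up v w - walk S down' up v w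
        = (if w = v then (∑ x ∈ S v, down' v x - ∑ x ∈ S v, down v x) else 0)
          + (toChild S down v w - toChild S down' v w) := by
      unfold walk
      split_ifs <;> ring
    have h2 : |toChild S down v w - toChild S down' v w|
        ≤ toChild S (fun a b => |down a b - down' a b|) v w := by
      cases w with
      | nil => simp [toChild]
      | cons x p =>
        simp only [toChild]
        split_ifs <;> simp
    have h3 : |(if w = v then (∑ x ∈ S v, down' v x - ∑ x ∈ S v, down v x) else 0)|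
        ≤ if w = v then e else 0 := by
      split_ifs
      · rw [← Finset.sum_sub_distrib]
        refine (Finset.abs_sum_le_sum_abs _ _).trans (le_of_eq ?_)
        exact Finset.sum_congr rfl fun x _ => abs_sub_comm _ _
      · simp
    rw [h1]
    exact (abs_add_le _ _).trans (add_le_add h3 h2)
  refine (Finset.sum_le_sum fun w _ => hdiff w).trans ?_
  rw [Finset.sum_add_distrib]
  have h4 := sum_ite_eq_node (S := S) (D := D) hv e (fun _ => 1)
  have h5 := sum_toChild S D hS hv (fun a b => |down a b - down' a b|) (fun _ => 1)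
  simp only [mul_one] at h4 h5
  rw [h4, h5]
  linarith

/-! ### One node -/

theorem q_ofReal_tsub_add_tsub {a b : ℝ} (ha : 0 ≤ a) (hb : 0 ≤ b) :
    (ENNReal.ofReal a - ENNReal.ofReal b) + (ENNReal.ofReal b - ENNReal.ofReal a)
      = ENNReal.ofReal |a - b| := by
  rcases le_total a b with h | h
  · rw [tsub_eq_zero_of_le (ENNReal.ofReal_le_ofReal h), zero_add, ← ENNReal.ofReal_sub _ ha,
      abs_sub_comm, abs_of_nonneg (sub_nonneg.2 h)]
  · rw [tsub_eq_zero_of_le (ENNReal.ofReal_le_ofReal h), add_zero, ← ENNReal.ofReal_sub _ hb,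
      abs_of_nonneg (sub_nonneg.2 h)]

section Node

variable {W : ℕ} {P : Par} {r : Fin m → ℕ} {c0 : ℕ} {l : List ℕ}

theorem q_instOK_node (hm : 0 < m) (hc0 : 0 < c0) (hl : ∀ y ∈ l, 0 < y)
    (hbal : ∑ i, r i = c0 + l.sum) :
    InstOK (iMax hm r) (jMax (Nat.succ_pos l.length) (Fin.cons c0 l.get : Fin (l.length + 1) → ℕ))
      r (Fin.cons c0 l.get) where
  hc := by
    intro j
    refine Fin.cases ?_ (fun k => ?_) j
    · simpa using hc0
    · simpa using hl _ (List.get_mem _ _)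
  hsum := by
    rw [bal_cons (c' := l.get) (by rw [sum_get]; exact hbal)]
  hi0 := iMax_spec hm r
  hj0 := jMax_spec _ _

theorem q_hW1_of (hm : 0 < m) (hWO : WOK m (l.length + 1) W) :
    10 ^ 6 * (((l.length + 1 : ℕ) : ℝ) + 1) ^ 2 ≤ (W : ℝ) := by
  refine le_trans ?_ hWO
  have h1 : (1 : ℝ) ≤ m := by exact_mod_cast hm
  have h2 : (0 : ℝ) ≤ ((l.length + 1 : ℕ) : ℝ) := Nat.cast_nonneg _
  have h3 : ((l.length + 1 : ℕ) : ℝ) + 1 ≤ ((l.length + 1 : ℕ) : ℝ) * m + 1 := by nlinarith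
  gcongr

/-- The second part of the comparison, for a node. -/
theorem q_node_second (hm : 0 < m) (hc0 : 0 < c0) (hl : ∀ y ∈ l, 0 < y)
    (hbal : ∑ i, r i = c0 + l.sum) (hI : Ihat r (Fin.cons c0 l.get) ≠ 0)
    (hWO : WOK m (l.length + 1) W) :
    ∑ x ∈ lev r c0,
      |(∫⁻ t, ENNReal.ofReal (trialHat W (∑ i, r i) P r c0 l.get t x)
            ∂(wLaw r (Fin.cons c0 l.get))).toReal
        - (trialM P r c0 l.get (solW W r c0 l) x).toReal|
      ≤ 2 / (W : ℝ) ^ 30 + 2 * (2 / (W : ℝ) ^ 25) := by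
  classical
  have hbal' : ∑ i, r i = c0 + ∑ j, l.get j := by
    rw [sum_get]
    exact hbal
  have hok := q_instOK_node hm hc0 hl hbal
  have hW1 := q_hW1_of hm hWO
  have hW0 : 0 < W := q_W_pos_of hW1
  have hWr : (0 : ℝ) < W := by exact_mod_cast hW0
  have hη := q_eta_le hW1
  have hs : NodeSol r c0 l.get (solW W r c0 l) := nodeSol_of (solW_isSolver W) hbal
  set cc : Fin (l.length + 1) → ℕ := Fin.cons c0 l.get with hcc
  have hμ1 : wLaw r cc Set.univ = 1 := by
    have h := lintegral_wLaw r cc (fun _ => 1)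
    simp only [lintegral_one, mul_one] at h
    rw [h, ENNReal.inv_mul_cancel (Z_ne_zero hI) (Z_ne_top r cc)]
  set H : (Fin m → ℕ) → (Fin (l.length + 1) → Fin m → ℝ) → ℝ≥0∞ :=
    fun x t => ENNReal.ofReal (trialHat W (∑ i, r i) P r c0 l.get t x) with hH
  set G : (Fin m → ℕ) → (Fin (l.length + 1) → Fin m → ℝ) → ℝ≥0∞ :=
    fun x t => ENNReal.ofReal (trialP P r c0 l.get t (solW W r c0 l t) x) with hG
  have hH1 : ∀ t, ∑ x ∈ lev r c0, H x t ≤ 1 := fun t => q_H_sum_le hW0 t
  have hHm : ∀ x, Measurable (H x) := fun x =>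
    (q_measurable_trialHat hW0 _ P r c0 l.get x).ennreal_ofReal
  have hGm : ∀ x, Measurable (G x) := fun x =>
    (q_measurable_trialP hs.meas P r c0 l.get x).ennreal_ofReal
  set Err : (Fin (l.length + 1) → Fin m → ℝ) → ℝ≥0∞ :=
    fun t => ∑ x ∈ lev r c0, ((H x t - G x t) + (G x t - H x t)) with hErr
  have hErrm : Measurable Err := Finset.measurable_sum _ fun x _ =>
    ((hHm x).sub (hGm x)).add ((hGm x).sub (hHm x))
  -- the error is at most two
  have hE2 : ∀ t, (∀ j i, 0 < t j i) → Err t ≤ 2 := by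
    intro t htp
    have hG0 : ∀ x ∈ lev r c0, 0 ≤ trialP P r c0 l.get t (solW W r c0 l t) x := fun x hx =>
      q_trialP_nonneg hbal' htp (hs.pos t) hx
    have hG1 : ∑ x ∈ lev r c0, G x t ≤ 1 := by
      rw [hG]
      simp only
      rw [← ENNReal.ofReal_sum_of_nonneg hG0]
      exact ENNReal.ofReal_le_one.2 (q_trialP_sum_le hbal' htp (hs.pos t) (Phi_le_two_capa hs htp))
    calc ∑ x ∈ lev r c0, ((H x t - G x t) + (G x t - H x t))
        ≤ ∑ x ∈ lev r c0, (H x t + G x t) :=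
          Finset.sum_le_sum fun x _ => add_le_add tsub_le_self tsub_le_self
      _ = ∑ x ∈ lev r c0, H x t + ∑ x ∈ lev r c0, G x t := Finset.sum_add_distrib
      _ ≤ 1 + 1 := add_le_add (hH1 t) hG1
      _ = 2 := one_add_one_eq_two
  -- the error on the domain
  have hEa : ∀ y : Fin (l.length + 1) × Fin m → ℝ, (∀ k, |y k| ≤ rQ W) →
      (∀ j i, cutK W ≤ tMap (iMax hm r) (jMax (Nat.succ_pos l.length) cc) r cc y j i) →
      Err (tMap (iMax hm r) (jMax (Nat.succ_pos l.length) cc) r cc y)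
        ≤ ENNReal.ofReal (2 / (W : ℝ) ^ 30) := by
    intro y hy hcut
    set t := tMap (iMax hm r) (jMax (Nat.succ_pos l.length) cc) r cc y with hty
    have htp : ∀ j i, 0 < t j i := fun j i => (q_cutK_pos hW0).trans_le (hcut j i)
    have hrange : ∀ j i, cutK W ≤ t j i ∧ t j i ≤ (((∑ i, r i : ℕ) : ℝ) + 1) * (W : ℝ) ^ 5 :=
      fun j i => ⟨hcut j i, tMap_upper hok hWO hy j i⟩
    have hPhi := q_Phi_bH_le (c' := l.get) (c0 := c0) hW1 hbal' le_rfl hrange
    have hcond : ENNReal.ofReal (Phi r cc t (q_bH W (∑ i, r i) r c0 l.get t))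
        ≤ 2 * capa r cc t := by
      refine (ENNReal.ofReal_le_ofReal hPhi).trans ?_
      have h2 : ENNReal.ofReal 2 = 2 := by simp
      rw [ENNReal.ofReal_mul (by norm_num), ENNReal.ofReal_toReal (capa_lt_top _ _ _).ne, h2]
    have hsol := q_solW_eq_of hcond
    have hb := q_bH_pos W (∑ i, r i) r c0 l.get t
    have hp0 : ∀ x ∈ lev r c0, 0 ≤ trialP P r c0 l.get t (q_bH W (∑ i, r i) r c0 l.get t) x :=
      fun x hx => q_trialP_nonneg hbal' htp hb hx
    have hsum1 : ∑ x ∈ lev r c0, trialP P r c0 l.get t (q_bH W (∑ i, r i) r c0 l.get t) x ≤ 1 :=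
      q_trialP_sum_le hbal' htp hb hPhi
    have hterm : ∀ x ∈ lev r c0, (H x t - G x t) + (G x t - H x t)
        ≤ ENNReal.ofReal (2 / (W : ℝ) ^ 30
          * trialP P r c0 l.get t (q_bH W (∑ i, r i) r c0 l.get t) x) := by
      intro x hx
      obtain ⟨s, hs1, hs2⟩ := q_trialHat_close (P := P) hW1 hbal' le_rfl hrange hx
      have hp := hp0 x hx
      simp only [hH, hG, hs2, hsol]
      set p := trialP P r c0 l.get t (q_bH W (∑ i, r i) r c0 l.get t) x with hpdef
      rw [q_ofReal_tsub_add_tsub (mul_nonneg hp (Real.exp_pos _).le) hp]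
      refine ENNReal.ofReal_le_ofReal ?_
      have h1 : p * Real.exp s - p = p * (Real.exp s - 1) := by ring
      rw [h1, abs_mul, abs_of_nonneg hp]
      have h2 := Real.abs_exp_sub_one_le (x := s) (by linarith)
      have h3 : |Real.exp s - 1| ≤ 2 / (W : ℝ) ^ 30 := by
        have : 2 / (W : ℝ) ^ 30 = 2 * (1 / (W : ℝ) ^ 30) := by ring
        rw [this]
        linarith
      calc p * |Real.exp s - 1| ≤ p * (2 / (W : ℝ) ^ 30) := mul_le_mul_of_nonneg_left h3 hp
        _ = _ := by ring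
    have hnn : (0 : ℝ) ≤ 2 / (W : ℝ) ^ 30 := by positivity
    calc ∑ x ∈ lev r c0, ((H x t - G x t) + (G x t - H x t))
        ≤ ∑ x ∈ lev r c0, ENNReal.ofReal (2 / (W : ℝ) ^ 30
          * trialP P r c0 l.get t (q_bH W (∑ i, r i) r c0 l.get t) x) := Finset.sum_le_sum hterm
      _ = ENNReal.ofReal (∑ x ∈ lev r c0, 2 / (W : ℝ) ^ 30
          * trialP P r c0 l.get t (q_bH W (∑ i, r i) r c0 l.get t) x) :=
          (ENNReal.ofReal_sum_of_nonneg fun x hx => mul_nonneg hnn (hp0 x hx)).symm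
      _ ≤ _ := by
          refine ENNReal.ofReal_le_ofReal ?_
          rw [← Finset.mul_sum]
          exact mul_le_of_le_one_right hnn hsum1
  -- the integral of the error
  have hfm : Measurable fun t => min (Err t) 2 := hErrm.min measurable_const
  have hfI : ∫⁻ t, min (Err t) 2 ∂(wLaw r cc)
      ≤ ENNReal.ofReal (2 / (W : ℝ) ^ 30 + 2 * (2 / (W : ℝ) ^ 25)) := by
    have h1 := wLaw_good_bad hok hWO hfm (a := ENNReal.ofReal (2 / (W : ℝ) ^ 30)) (b := 2)
      (fun y hy hcut => (min_le_left _ _).trans (hEa y hy hcut)) (fun t => min_le_right _ _)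
    refine h1.trans (le_of_eq ?_)
    have h2 : ENNReal.ofReal 2 = 2 := by simp
    rw [ENNReal.ofReal_add (by positivity) (by positivity), ENNReal.ofReal_mul (by norm_num), h2]
  refine q_family_close (ν := volume) (μ := wLaw r cc) (dens := fun t => wmat t * capa r cc t)
    (Z := ∫⁻ t, wmat t * capa r cc t)
    (fun g => lintegral_wLaw r cc g) (S := lev r c0) (H := H) (G := G) ?_ ?_ ?_ ?_
    (by positivity) hfI ?_
  · intro x _
    exact (measurable_wmat.mul (capa_measurable _ _)).mul (hHm x)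
  · intro x _
    exact (measurable_wmat.mul (capa_measurable _ _)).mul (hGm x)
  · intro x hx
    refine ne_top_of_le_ne_top ENNReal.one_ne_top ?_
    calc ∫⁻ t, H x t ∂(wLaw r cc) ≤ ∫⁻ _, 1 ∂(wLaw r cc) := lintegral_mono fun t =>
          (Finset.single_le_sum (f := fun x => H x t) (fun _ _ => zero_le) hx).trans (hH1 t)
      _ = 1 := by rw [lintegral_one, hμ1]
  · intro x hx
    exact ne_top_of_le_ne_top ENNReal.ofReal_ne_top
      (trialM_le hs hbal' hI (K_nonneg' P _ _ _) hx)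
  · intro t hd
    have hw : wmat t ≠ 0 := left_ne_zero_of_mul hd
    exact le_min le_rfl (hE2 t (wmat_ne_zero_pos hw))

/-- **The comparison at one node.** -/
theorem q_node_main (hm : 0 < m) (hc0 : 0 < c0) (hl : ∀ y ∈ l, 0 < y)
    (hbal : ∑ i, r i = c0 + l.sum) (hI : Ihat r (Fin.cons c0 l.get) ≠ 0)
    (hWO : WOK m (l.length + 1) W) :
    ∑ x ∈ lev r c0, |trialI W hm P r c0 l.get x
        - (trialM P r c0 l.get (solW W r c0 l) x).toReal|
      ≤ 20 / (W : ℝ) ^ 24 + (2 / (W : ℝ) ^ 30 + 2 * (2 / (W : ℝ) ^ 25)) := by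
  have hW1 := q_hW1_of hm hWO
  have hW0 : 0 < W := q_W_pos_of hW1
  have h1 := samp_close (q_instOK_node hm hc0 hl hbal) hWO hm (Nat.succ_pos _) (S := lev r c0)
    (H := fun x t => ENNReal.ofReal (trialHat W (∑ i, r i) P r c0 l.get t x))
    (fun x _ => (q_measurable_trialHat hW0 _ P r c0 l.get x).ennreal_ofReal)
    (fun t => q_H_sum_le hW0 t)
  have h2 := q_node_second (P := P) hm hc0 hl hbal hI hWO
  refine le_trans (Finset.sum_le_sum fun x _ => abs_sub_le _
    (∫⁻ t, ENNReal.ofReal (trialHat W (∑ i, r i) P r c0 l.get t x)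
      ∂(wLaw r (Fin.cons c0 l.get))).toReal _) ?_
  rw [Finset.sum_add_distrib]
  exact add_le_add h1 h2

theorem q_trialI_nonneg {n : ℕ} (W : ℕ) (hm : 0 < m) (P : Par) (r : Fin m → ℕ) (c0 : ℕ)
    (c' : Fin n → ℕ) (x : Fin m → ℕ) : 0 ≤ trialI W hm P r c0 c' x :=
  Finset.sum_nonneg fun z _ => mul_nonneg (q_chainLaw_nonneg _ _ _ _ _ _ _ z) ENNReal.toReal_nonneg

theorem q_measurable_cellPt {ι : Type} (W : ℕ) (z : ι → Fin (cellM W)) :
    Measurable (cellPt W z : (ι → ℝ) → ι → ℝ) := by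
  refine measurable_pi_lambda _ fun i => ?_
  unfold cellPt
  exact (((measurable_pi_apply i).const_add _).const_mul _).const_add _

/-- A trial returns something with probability at most one. -/
theorem q_trialI_sum_le {n : ℕ} (hW : 0 < W) (hm : 0 < m) (P : Par) (r : Fin m → ℕ) (c0 : ℕ)
    (c' : Fin n → ℕ) : ∑ x ∈ lev r c0, trialI W hm P r c0 c' x ≤ 1 := by
  set cc : Fin (n + 1) → ℕ := Fin.cons c0 c' with hcc
  set i0 := iMax hm r with hi0
  set j0 := jMax (Nat.succ_pos n) cc with hj0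
  set I : Set (Fin (n + 1) × Fin m → ℝ) := Set.Icc 0 1 with hI
  have hvol : volume I = 1 := by
    rw [hI, Real.volume_Icc_pi]
    simp
  set f : (Fin (n + 1) × Fin m → Fin (cellM W)) → (Fin (n + 1) × Fin m → ℝ) →
    (Fin (n + 1) → Fin m → ℝ) := fun z u => tMap i0 j0 r cc (cellPt W z u) with hf
  have hfm : ∀ z, Measurable (f z) := fun z =>
    (continuous_tMap i0 j0 r cc).measurable.comp (q_measurable_cellPt W z)
  have hz : ∀ z, ∑ x ∈ lev r c0, (∫⁻ u in I,
      ENNReal.ofReal (trialHat W (∑ i, r i) P r c0 c' (f z u) x)).toReal ≤ 1 := by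
    intro z
    have hle : ∑ x ∈ lev r c0, ∫⁻ u in I,
        ENNReal.ofReal (trialHat W (∑ i, r i) P r c0 c' (f z u) x) ≤ 1 := by
      rw [← lintegral_finsetSum (f := fun x u =>
          ENNReal.ofReal (trialHat W (∑ i, r i) P r c0 c' (f z u) x)) _ fun x _ =>
        (q_measurable_trialHat hW _ P r c0 c' x).ennreal_ofReal.comp (hfm z)]
      calc ∫⁻ u in I, ∑ x ∈ lev r c0,
            ENNReal.ofReal (trialHat W (∑ i, r i) P r c0 c' (f z u) x)
          ≤ ∫⁻ _ in I, 1 := lintegral_mono fun u => q_H_sum_le hW _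
        _ = 1 := by
            rw [lintegral_one, Measure.restrict_apply_univ, hvol]
    have htop := ne_top_of_le_ne_top ENNReal.one_ne_top hle
    rw [← ENNReal.toReal_sum (ENNReal.sum_ne_top.1 htop)]
    have h3 := ENNReal.toReal_mono ENNReal.one_ne_top hle
    simpa using h3
  have hlaw := q_chainLaw_sum W (∑ i, r i) i0 j0 r cc 1
  calc ∑ x ∈ lev r c0, trialI W hm P r c0 c' x
      = ∑ x ∈ lev r c0, ∑ z, chainLaw W (∑ i, r i) i0 j0 r cc 1 z
        * (∫⁻ u in I, ENNReal.ofReal (trialHat W (∑ i, r i) P r c0 c' (f z u) x)).toReal := rfl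
    _ = ∑ z, chainLaw W (∑ i, r i) i0 j0 r cc 1 z * ∑ x ∈ lev r c0,
        (∫⁻ u in I, ENNReal.ofReal (trialHat W (∑ i, r i) P r c0 c' (f z u) x)).toReal := by
        rw [Finset.sum_comm]
        refine Finset.sum_congr rfl fun z _ => ?_
        rw [Finset.mul_sum]
    _ ≤ ∑ z, chainLaw W (∑ i, r i) i0 j0 r cc 1 z * 1 :=
        Finset.sum_le_sum fun z _ =>
          mul_le_mul_of_nonneg_left (hz z) (q_chainLaw_nonneg _ _ _ _ _ _ _ z)
    _ = 1 := by
        simp only [mul_one]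
        exact hlaw

end Node

/-! ### The numbers -/

theorem q_WOK_of_B {L : ℕ} {ε : ℝ} (hε0 : 0 < ε) (hε1 : ε ≤ 1) {W : ℕ}
    (hWB : Bpar m L (rhoP m L) ε ≤ W) {k : ℕ} (hk : k ≤ L) : WOK m k W := by
  unfold WOK
  have hL : (0 : ℝ) ≤ L := Nat.cast_nonneg _
  have hm0 : (0 : ℝ) ≤ m := Nat.cast_nonneg _
  have hk0 : (0 : ℝ) ≤ k := Nat.cast_nonneg _
  have hk' : (k : ℝ) ≤ L := by exact_mod_cast hk
  set A : ℝ := ((L : ℝ) + 1) * ((m : ℝ) + 1) with hA
  have hA1 : 1 ≤ A := one_le_mul_of_one_le_of_one_le (by linarith) (by linarith)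
  have h1 : (k : ℝ) * m + 1 ≤ A := by
    have : (k : ℝ) * m ≤ L * m := mul_le_mul_of_nonneg_right hk' hm0
    rw [hA]
    nlinarith
  have hρ : A ≤ rhoP m L := by
    unfold rhoP
    have a : (m : ℝ) + 1 ≤ ((m : ℝ) + 1) ^ 16 := le_self_pow₀ (by linarith) (by norm_num)
    have b : (L : ℝ) + 1 ≤ ((L : ℝ) + 1) ^ 36 := le_self_pow₀ (by linarith) (by norm_num)
    calc A = 1 * ((m : ℝ) + 1) * ((L : ℝ) + 1) := by rw [hA]; ring
      _ ≤ _ := by
        gcongr
        norm_num
  have hB : 10 ^ 8 * A * A ≤ Bpar m L (rhoP m L) ε := by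
    unfold Bpar
    rw [le_div_iff₀ hε0]
    have h2 : 10 ^ 8 * ((L : ℝ) + 1) * ((m : ℝ) + 1) * rhoP m L = 10 ^ 8 * A * rhoP m L := by
      rw [hA]
      ring
    rw [h2]
    have h3 : A * ε ≤ rhoP m L := by nlinarith
    have h4 : (0 : ℝ) ≤ 10 ^ 8 * A := by positivity
    nlinarith [mul_le_mul_of_nonneg_left h3 h4]
  refine le_trans ?_ (hB.trans hWB)
  have h2 : ((k : ℝ) * m + 1) ^ 2 ≤ A ^ 2 := pow_le_pow_left₀ (by positivity) h1 2
  nlinarith [sq_nonneg A]

theorem q_final_num {W : ℕ} {B : ℝ} (hB : 10 ^ 8 ≤ B) (hBW : B ≤ W) :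
    2 * ((1 / 8) * (20 / (W : ℝ) ^ 24 + (2 / (W : ℝ) ^ 30 + 2 * (2 / (W : ℝ) ^ 25))))
      ≤ 1 / B ^ 22 := by
  have hW8 : (10 : ℝ) ^ 8 ≤ W := hB.trans hBW
  have hW1 : (1 : ℝ) ≤ W := by linarith [show (1 : ℝ) ≤ 10 ^ 8 by norm_num]
  have hW0 : (0 : ℝ) < W := by linarith
  have hB0 : 0 < B := by linarith [show (0 : ℝ) < 10 ^ 8 by norm_num]
  have h1 : 1 / (W : ℝ) ^ 30 ≤ 1 / (W : ℝ) ^ 24 :=
    one_div_le_one_div_of_le (by positivity) (pow_le_pow_right₀ hW1 (by norm_num))
  have h2 : 1 / (W : ℝ) ^ 25 ≤ 1 / (W : ℝ) ^ 24 :=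
    one_div_le_one_div_of_le (by positivity) (pow_le_pow_right₀ hW1 (by norm_num))
  have h3 : 7 / (W : ℝ) ^ 24 ≤ 1 / (W : ℝ) ^ 22 := by
    rw [div_le_div_iff₀ (by positivity) (by positivity)]
    have h4 : (W : ℝ) ^ 24 = (W : ℝ) ^ 22 * (W : ℝ) ^ 2 := by ring
    rw [h4]
    have h5 : (7 : ℝ) ≤ (W : ℝ) ^ 2 := by nlinarith [show (7 : ℝ) ≤ 10 ^ 8 by norm_num]
    have h6 : (0 : ℝ) ≤ (W : ℝ) ^ 22 := by positivity
    nlinarith
  have h4 : 1 / (W : ℝ) ^ 22 ≤ 1 / B ^ 22 :=
    one_div_le_one_div_of_le (by positivity) (pow_le_pow_left₀ hB0.le hBW 22)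
  refine le_trans ?_ (h3.trans h4)
  have e1 : 20 / (W : ℝ) ^ 24 = 20 * (1 / (W : ℝ) ^ 24) := by ring
  have e2 : 2 / (W : ℝ) ^ 30 = 2 * (1 / (W : ℝ) ^ 30) := by ring
  have e3 : 2 / (W : ℝ) ^ 25 = 2 * (1 / (W : ℝ) ^ 25) := by ring
  have e4 : 7 / (W : ℝ) ^ 24 = 7 * (1 / (W : ℝ) ^ 24) := by ring
  rw [e1, e2, e3, e4]
  have h0 : 0 < 1 / (W : ℝ) ^ 24 := by positivity
  nlinarith

/-! ### The walk -/

theorem q_downQ_inner {W : ℕ} {hm : 0 < m} {P : Par} {r : Fin m → ℕ} {c : List ℕ}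
    {v : List (Fin m → ℕ)} {c0 : ℕ} {l : List ℕ} (hd : c.drop v.length = c0 :: l)
    (x : Fin m → ℕ) :
    downQ W hm P r c v x = (1 / 8) * trialI W hm P (res r v) c0 l.get x := by
  unfold downQ
  rw [hd]

section

variable (hm : 0 < m) {r : Fin m → ℕ} {c : List ℕ} (hc : c.Pairwise (· ≤ ·)) (hpos : ∀ y ∈ c, 0 < y)
  (hsum : ∑ i, r i = c.sum) {ε : ℝ} (hε0 : 0 < ε) (hε1 : ε ≤ 1) {W : ℕ}
  (hWB : Bpar m c.length (rhoP m c.length) ε ≤ W)

include hc hpos hsum hε0 hε1 hWB

theorem q_W_ok : (10 : ℝ) ^ 8 ≤ W ∧ 0 < W := by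
  have h := (B_facts (m := m) (n := c.length) (rhoP_one m c.length) hε0 hε1).1
  have h2 : (10 : ℝ) ^ 8 ≤ W := h.trans hWB
  refine ⟨h2, ?_⟩
  have h3 : (0 : ℝ) < W := by linarith [show (0 : ℝ) < 10 ^ 8 by norm_num]
  exact_mod_cast h3

include hm in
theorem q_lazy_facts {v : List (Fin m → ℕ)} (hv : v ∈ nodes (kids r c) c.length) :
    0 ≤ upAt (parOf m c.length (rhoP m c.length) ε) r c v
      ∧ upAt (parOf m c.length (rhoP m c.length) ε) r c v ≤ 1 / 2 := by
  have hρ := rhoP_one m c.length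
  have hbd := fun v hv => node_bounds rhoP_one rhoP_mono_right hbound_rhoP (r := r) (c := c)
    hpos hsum (v := v) hv
  have hOK := parOK (m := m) (n := c.length) hm hρ hε0 hε1
  obtain ⟨hup, -, hq1, hdn, hlazy, -, -, -⟩ := chain_hyp (sol := solW W) (r := r) (c := c)
    (solW_isSolver W) hc hpos hsum hρ (fun v hv => (hbd v hv).1) (fun v hv => (hbd v hv).2.1)
    (fun v hv => (hbd v hv).2.2) hOK
  rw [hup]
  refine ⟨hq1 v hv, ?_⟩
  have h1 := hlazy v hv
  have h2 : 0 ≤ ∑ x ∈ kids r c v, dnI (Aat r c)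
      (rateAt (parOf m c.length (rhoP m c.length) ε) r c) v x :=
    Finset.sum_nonneg fun x hx => hdn v hv x hx
  linarith

theorem q_downQ_facts {v : List (Fin m → ℕ)} (hv : v ∈ nodes (kids r c) c.length) :
    (∀ x ∈ kids r c v, 0 ≤ downQ W hm (parOf m c.length (rhoP m c.length) ε) r c v x)
      ∧ ∑ x ∈ kids r c v, downQ W hm (parOf m c.length (rhoP m c.length) ε) r c v x ≤ 1 / 8 := by
  have hW0 := (q_W_ok hc hpos hsum hε0 hε1 hWB).2
  cases hd : c.drop v.length with
  | nil =>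
    rw [kids_nil hd]
    simp
  | cons c0 l =>
    rw [kids_inner hd]
    refine ⟨fun x _ => ?_, ?_⟩
    · rw [q_downQ_inner hd]
      have := q_trialI_nonneg W hm (parOf m c.length (rhoP m c.length) ε) (res r v) c0 l.get x
      positivity
    · rw [Finset.sum_congr rfl fun x _ => q_downQ_inner hd x, ← Finset.mul_sum]
      have := q_trialI_sum_le hW0 hm (parOf m c.length (rhoP m c.length) ε) (res r v) c0 l.get
      linarith

theorem walkQ_nonneg {v : List (Fin m → ℕ)} (hv : v ∈ nodes (kids r c) c.length)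
    (w : List (Fin m → ℕ)) :
    0 ≤ walkQ W hm (parOf m c.length (rhoP m c.length) ε) r c v w := by
  obtain ⟨h1, h2⟩ := q_lazy_facts hm hc hpos hsum hε0 hε1 hWB hv
  obtain ⟨h3, h4⟩ := q_downQ_facts hm hc hpos hsum hε0 hε1 hWB hv
  unfold walkQ
  refine walk_nonneg h3 h1 ?_ w
  linarith

omit hc hpos hsum hε0 hε1 hWB in
theorem q_walkQ_sum_aux {P : Par} {v : List (Fin m → ℕ)} (hv : v ∈ nodes (kids r c) c.length) :
    ∑ w ∈ nodes (kids r c) c.length, walkQ W hm P r c v w = 1 := by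
  unfold walkQ
  refine sum_walk_one _ _ _ _ (fun v h => kids_empty r c v h) hv ?_
  rintro rfl
  rfl

theorem walkQ_sum {v : List (Fin m → ℕ)} (hv : v ∈ nodes (kids r c) c.length) :
    ∑ w ∈ nodes (kids r c) c.length, walkQ W hm (parOf m c.length (rhoP m c.length) ε) r c v w = 1 :=
  q_walkQ_sum_aux hm hv

/-- **The real transition matrix is close to the ideal one.** -/
theorem walkQ_close {v : List (Fin m → ℕ)} (hv : v ∈ nodes (kids r c) c.length) :
    ∑ w ∈ nodes (kids r c) c.length,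
      |walkQ W hm (parOf m c.length (rhoP m c.length) ε) r c v w
        - algWalk (parOf m c.length (rhoP m c.length) ε) (solW W) r c v w|
      ≤ 1 / Bpar m c.length (rhoP m c.length) ε ^ 22 := by
  set P := parOf m c.length (rhoP m c.length) ε with hP
  have hρ := rhoP_one m c.length
  have hB8 := (B_facts (m := m) (n := c.length) hρ hε0 hε1).1
  have hB0 : 0 < Bpar m c.length (rhoP m c.length) ε := by
    linarith [show (0 : ℝ) < 10 ^ 8 by norm_num]
  have h1 := q_walk_close (S := kids r c) (D := c.length) (fun v h => kids_empty r c v h)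
    (downQ W hm P r c) (downAt P (solW W) r c) (upAt P r c) hv
  refine h1.trans ?_
  cases hd : c.drop v.length with
  | nil =>
    rw [kids_nil hd]
    simp only [Finset.sum_empty, mul_zero]
    positivity
  | cons c0 l =>
    obtain ⟨h2, h3, -, h4⟩ := inner_facts hc hpos hsum hv hd
    rw [kids_inner hd]
    have hbd := node_bounds rhoP_one rhoP_mono_right hbound_rhoP (r := r) (c := c) hpos hsum hv
    have hAv := hbd.1
    rw [Aat_inner hd] at hAv
    have hI := Ihat_ne_zero_of_Aval hAv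
    have hk : l.length + 1 ≤ c.length := by
      have h5 := congrArg List.length hd
      simp only [List.length_drop, List.length_cons] at h5
      omega
    have hWO : WOK m (l.length + 1) W := q_WOK_of_B hε0 hε1 hWB hk
    have h6 := q_node_main (P := P) hm h2 h3 h4 hI hWO
    have h7 : ∑ x ∈ lev (res r v) c0, |downQ W hm P r c v x - downAt P (solW W) r c v x|
        = (1 / 8) * ∑ x ∈ lev (res r v) c0, |trialI W hm P (res r v) c0 l.get x
          - (trialM P (res r v) c0 l.get (solW W (res r v) c0 l) x).toReal| := by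
      rw [Finset.mul_sum]
      refine Finset.sum_congr rfl fun x _ => ?_
      rw [q_downQ_inner hd, downAt_inner hd, ← mul_sub, abs_mul]
      norm_num
    rw [h7]
    refine le_trans ?_ (q_final_num hB8 hWB)
    have h8 : (0 : ℝ) ≤ 1 / 8 := by norm_num
    nlinarith [mul_le_mul_of_nonneg_left h6 h8]

end

end Vale.Agent.Lib.P328.Samp
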