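import Vale.Agent.Lib.P328.Samp.Anneal
import Vale.Agent.Lib.P328.Samp.QClose
import Vale.Agent.Lib.P328.Fpras.SortCols

/-!
# P328, explicit algorithm: the main theorem (module F)

`hbound_rhoP`, `fpras_robust` with `Q = walkQ`, `sol = solW W`, `W = masterW m k ε`, `k = (sortedCols c).length`; `annealEst_close` with `δ / 2`, for the sorted list `cl`;
for each `ω` in the good event of the annealing, `fpras_robust` with `δ / 2`. Sum over `ω`.
-/

namespace Vale.Agent.Lib.P328.Samp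

open Finset MeasureTheory Vale.Agent.Lib.P328.Cap Vale.Agent.Lib.P328.Fpras
open scoped ENNReal

variable {m n : ℕ}

/-- The master parameter of the algorithm. -/
noncomputable def masterW (m k : ℕ) (ε : ℝ) : ℕ := ⌈Bpar m k (rhoP m k) ε⌉₊

/-- The master parameter is large enough. -/
theorem masterW_facts {m k : ℕ} {ε : ℝ} (hε0 : 0 < ε) (hε1 : ε ≤ 1) :
    WOK m k (masterW m k ε) ∧ 1 / (masterW m k ε : ℝ) ≤ ε
      ∧ Bpar m k (rhoP m k) ε ≤ (masterW m k ε : ℝ) := by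
  have hB : Bpar m k (rhoP m k) ε ≤ (masterW m k ε : ℝ) := Nat.le_ceil _
  have hm0 : (0 : ℝ) ≤ m := Nat.cast_nonneg _
  have hk0 : (0 : ℝ) ≤ k := Nat.cast_nonneg _
  have hm1 : (1 : ℝ) ≤ (m : ℝ) + 1 := by linarith
  have hk1 : (1 : ℝ) ≤ (k : ℝ) + 1 := by linarith
  -- the size of `rhoP`
  have hρ : ((m : ℝ) + 1) * ((k : ℝ) + 1) ≤ rhoP m k := by
    unfold rhoP
    have h1 : (m : ℝ) + 1 ≤ ((m : ℝ) + 1) ^ 16 := le_self_pow₀ hm1 (by norm_num)
    have h2 : (k : ℝ) + 1 ≤ ((k : ℝ) + 1) ^ 36 := le_self_pow₀ hk1 (by norm_num)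
    have h3 : ((m : ℝ) + 1) * ((k : ℝ) + 1) ≤ ((m : ℝ) + 1) ^ 16 * ((k : ℝ) + 1) ^ 36 := by gcongr
    have h4 : (0 : ℝ) ≤ ((m : ℝ) + 1) ^ 16 * ((k : ℝ) + 1) ^ 36 := by positivity
    rw [mul_assoc]
    exact h3.trans (le_mul_of_one_le_left h4 (by norm_num))
  have hρ1 := rhoP_one m k
  have hB1 : 10 ^ 8 * ((k : ℝ) + 1) * ((m : ℝ) + 1) * rhoP m k ≤ Bpar m k (rhoP m k) ε := by
    unfold Bpar
    rw [le_div_iff₀ hε0]
    have h0 : (0 : ℝ) ≤ 10 ^ 8 * ((k : ℝ) + 1) * ((m : ℝ) + 1) * rhoP m k := by positivity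
    exact mul_le_of_le_one_right h0 hε1
  have hB2 : 1 / ε ≤ Bpar m k (rhoP m k) ε := by
    unfold Bpar
    have h1 : (1 : ℝ) ≤ 10 ^ 8 * ((k : ℝ) + 1) * ((m : ℝ) + 1) * rhoP m k := by
      have h2 : (1 : ℝ) ≤ 10 ^ 8 * ((k : ℝ) + 1) * ((m : ℝ) + 1) := by
        have h3 : (1 : ℝ) ≤ ((k : ℝ) + 1) * ((m : ℝ) + 1) := one_le_mul_of_one_le_of_one_le hk1 hm1
        rw [mul_assoc]
        linarith
      exact one_le_mul_of_one_le_of_one_le h2 hρ1
    exact div_le_div_of_nonneg_right h1 hε0.le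
  refine ⟨?_, ?_, hB⟩
  · show (10 : ℝ) ^ 6 * ((k : ℝ) * m + 1) ^ 2 ≤ masterW m k ε
    refine le_trans ?_ (hB1.trans hB)
    have h5 : (k : ℝ) * m + 1 ≤ ((k : ℝ) + 1) * ((m : ℝ) + 1) := by nlinarith
    have h6 : ((k : ℝ) * m + 1) ^ 2 ≤ (((k : ℝ) + 1) * ((m : ℝ) + 1)) ^ 2 := by gcongr
    have h7 : ((k : ℝ) + 1) * ((m : ℝ) + 1) * (((k : ℝ) + 1) * ((m : ℝ) + 1))
        ≤ ((k : ℝ) + 1) * ((m : ℝ) + 1) * rhoP m k := by
      refine mul_le_mul_of_nonneg_left ?_ (by positivity)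
      linarith
    set A := ((k : ℝ) + 1) * ((m : ℝ) + 1) with hA
    have h8 : 10 ^ 8 * ((k : ℝ) + 1) * ((m : ℝ) + 1) * rhoP m k = 10 ^ 8 * (A * rhoP m k) := by
      rw [hA]
      ring
    have h9 : (0 : ℝ) ≤ A * A := mul_self_nonneg _
    rw [h8]
    have h10 : A ^ 2 = A * A := sq A
    rw [h10] at h6
    linarith
  · have h1 : 1 / ε ≤ (masterW m k ε : ℝ) := hB2.trans hB
    have h2 : 0 < 1 / ε := by positivity
    have h3 : (0 : ℝ) < masterW m k ε := lt_of_lt_of_le h2 h1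
    rw [div_le_iff₀ h3]
    rw [div_le_iff₀ hε0] at h1
    linarith

/-- **The algorithm is a fully polynomial approximation scheme.** -/
theorem fpras_explicit (hm : 0 < m) (r : Fin m → ℕ) (c : Fin n → ℕ) (hsum : ∑ i, r i = ∑ j, c j)
    (hk : 0 < (sortedCols c).length) {ε δ : ℝ} (hε0 : 0 < ε) (hε1 : ε ≤ 1) (hδ0 : 0 < δ) (hδ1 : δ ≤ 1) :
    let cl := sortedCols c
    let k := cl.length
    let W := masterW m k ε
    let P := parOf m k (rhoP m k) ε
    let V := nodes (kids r cl) k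
    1 - δ ≤ ∑ ωA, annealLaw W (∑ i, r i) (iMax hm r) (jMax hk cl.get) r cl.get (annealS W (δ / 2)) ωA
      * runProb V (lawT V (walkQ W hm P r cl) (stepsOf m k (rhoP m k) ε))
          (runsOf m k (rhoP m k) ε (δ / 2)) fun ω =>
        (1 - ε) * ((tabs r c).card : ℝ)
            ≤ annealEst W (∑ i, r i) (iMax hm r) (jMax hk cl.get) r cl.get (annealS W (δ / 2)) ωA
              * (countIn (lvl (kids r cl) k) ω : ℝ) / (countIn {[]} ω : ℝ)
          ∧ annealEst W (∑ i, r i) (iMax hm r) (jMax hk cl.get) r cl.get (annealS W (δ / 2)) ωA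
              * (countIn (lvl (kids r cl) k) ω : ℝ) / (countIn {[]} ω : ℝ)
            ≤ (1 + ε) * ((tabs r c).card : ℝ) := by
  intro cl k W P V
  obtain ⟨hs1, hs2, hs3, -, hs5⟩ := sortedCols_spec r c
  have hsum' : ∑ i, r i = cl.sum := by
    rw [hsum]
    exact hs3.symm
  have hgets : ∑ j, cl.get j = cl.sum := by
    have := List.sum_ofFn (f := cl.get)
    rw [List.ofFn_get] at this
    exact this.symm
  have hinst : InstOK (iMax hm r) (jMax hk cl.get) r cl.get :=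
    ⟨fun j => hs2 _ (List.get_mem _ _), hsum'.trans hgets.symm, iMax_spec hm r, jMax_spec hk _⟩
  obtain ⟨hW1, hW2, hW3⟩ := masterW_facts (m := m) (k := k) hε0 hε1
  have hδ2 : 0 < δ / 2 := by positivity
  have hδ3 : δ / 2 ≤ 1 := by linarith
  have hA := annealEst_close hinst hW1 hm hk hW2 hε1 hδ2 hδ3
  have hQ0 := fun v hv w => walkQ_nonneg hm hs1 hs2 hsum' hε0 hε1 hW3 (v := v) hv w
  have hQ1 := fun v hv => walkQ_sum hm hs1 hs2 hsum' hε0 hε1 hW3 (v := v) hv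
  have hQ := fun v hv => walkQ_close hm hs1 hs2 hsum' hε0 hε1 hW3 (v := v) hv
  -- the second stage, for a good first stage
  set est := annealEst W (∑ i, r i) (iMax hm r) (jMax hk cl.get) r cl.get (annealS W (δ / 2)) with hest
  set pA := annealLaw W (∑ i, r i) (iMax hm r) (jMax hk cl.get) r cl.get (annealS W (δ / 2)) with hpA
  set Q := walkQ W hm P r cl with hQdef
  have hrob : ∀ ωA, |est ωA - Aval r cl.get| ≤ ε / 4 * Aval r cl.get →
      1 - δ / 2 ≤ runProb V (lawT V Q (stepsOf m k (rhoP m k) ε)) (runsOf m k (rhoP m k) ε (δ / 2)) fun ω =>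
        (1 - ε) * ((tabs r c).card : ℝ) ≤ est ωA * (countIn (lvl (kids r cl) k) ω : ℝ) / (countIn {[]} ω : ℝ)
          ∧ est ωA * (countIn (lvl (kids r cl) k) ω : ℝ) / (countIn {[]} ω : ℝ) ≤ (1 + ε) * ((tabs r c).card : ℝ) := by
    intro ωA hg
    have := fpras_robust (ρ := rhoP) rhoP_one rhoP_mono_right hbound_rhoP hm r cl hs1 hs2 hsum' hε0 hε1
      hδ2 hδ3 hg (solW_isSolver W) hQ0 hQ1 hQ
    rw [hs5] at this
    exact this
  have hp0 : ∀ ωA, 0 ≤ pA ωA := by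
    intro ωA
    refine Finset.prod_nonneg fun a _ => Finset.prod_nonneg fun s _ => ?_
    exact (chainLaw_stoch _ _ _ _ _ _ _ hm hk).1 _
  have hq0 : ∀ ωA, 0 ≤ runProb V (lawT V Q (stepsOf m k (rhoP m k) ε)) (runsOf m k (rhoP m k) ε (δ / 2)) fun ω =>
        (1 - ε) * ((tabs r c).card : ℝ) ≤ est ωA * (countIn (lvl (kids r cl) k) ω : ℝ) / (countIn {[]} ω : ℝ)
          ∧ est ωA * (countIn (lvl (kids r cl) k) ω : ℝ) / (countIn {[]} ω : ℝ) ≤ (1 + ε) * ((tabs r c).card : ℝ) := by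
    intro ωA
    unfold runProb
    refine Finset.sum_nonneg fun ω _ => mul_nonneg (Finset.prod_nonneg fun i _ => ?_) (by split_ifs <;> norm_num)
    exact lawT_nonneg hQ0 _ _
  have hδ4 : 0 ≤ 1 - δ / 2 := by linarith
  calc 1 - δ ≤ (1 - δ / 2) * (1 - δ / 2) := by nlinarith [sq_nonneg δ]
    _ ≤ (∑ ωA, pA ωA * if |est ωA - Aval r cl.get| ≤ ε / 4 * Aval r cl.get then 1 else 0) * (1 - δ / 2) :=
        mul_le_mul_of_nonneg_right hA hδ4
    _ = ∑ ωA, pA ωA * ((if |est ωA - Aval r cl.get| ≤ ε / 4 * Aval r cl.get then 1 else 0) * (1 - δ / 2)) := by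
        rw [Finset.sum_mul]
        refine Finset.sum_congr rfl fun ωA _ => ?_
        ring
    _ ≤ _ := by
        refine Finset.sum_le_sum fun ωA _ => mul_le_mul_of_nonneg_left ?_ (hp0 ωA)
        split_ifs with hg
        · rw [one_mul]
          exact hrob ωA hg
        · rw [zero_mul]
          exact hq0 ωA

end Vale.Agent.Lib.P328.Samp
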