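import Mathlib

/-!
# P328, explicit algorithm: annealing on a finite set (module A1)

The statement `anneal_generic`: the product of the averages of independent samples from laws close
to the interpolating Gibbs laws estimates the sum of `exp (-g)`.
-/

namespace Vale.Agent.Lib.P328.Samp

open Finset

section Generic

variable {Z : Type} [Fintype Z]

/-- The sum over tuples of a product law is the power of the sum. -/
private theorem sum_tuple_prod (f : Z → ℝ) (S : ℕ) :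
    ∑ v : Fin S → Z, ∏ s, f (v s) = (∑ z, f z) ^ S := by
  have h := (Finset.prod_univ_sum (fun _ : Fin S => (univ : Finset Z)) (fun _ z => f z)).symm
  rw [Fintype.piFinset_univ] at h
  rw [h, Finset.prod_const, Finset.card_univ, Fintype.card_fin]

/-- The moment generating function of a sum of independent copies. -/
private theorem mgf_tuple (l Y : Z → ℝ) (S : ℕ) (t : ℝ) :
    ∑ v : Fin S → Z, (∏ s, l (v s)) * Real.exp (t * ∑ s, Y (v s))
      = (∑ z, l z * Real.exp (t * Y z)) ^ S := by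
  rw [← sum_tuple_prod]
  refine Finset.sum_congr rfl fun v _ => ?_
  rw [Finset.mul_sum, Real.exp_sum, Finset.prod_mul_distrib]

/-- One sided tail bound for a sum of independent copies of a centred bounded variable. -/
private theorem tail_one {l Y : Z → ℝ} (hl0 : ∀ z, 0 ≤ l z) (hl1 : ∑ z, l z = 1)
    (hY0 : ∑ z, l z * Y z = 0) (hY : ∀ z, |Y z| ≤ 2) (S : ℕ) {ξ : ℝ} (hξ0 : 0 < ξ) (hξ4 : ξ ≤ 4) :
    ∑ v : Fin S → Z, (∏ s, l (v s)) * (if (S : ℝ) * ξ ≤ ∑ s, Y (v s) then (1 : ℝ) else 0)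
      ≤ Real.exp (-((S : ℝ) * ξ ^ 2 / 16)) := by
  set t : ℝ := ξ / 8 with ht
  have ht0 : 0 < t := by positivity
  have ht1 : t ≤ 1 / 2 := by rw [ht]; linarith
  -- the one step bound
  have hstep : ∑ z, l z * Real.exp (t * Y z) ≤ Real.exp (4 * t ^ 2) := by
    have hpt : ∀ z, l z * Real.exp (t * Y z) ≤ l z * (1 + t * Y z + 4 * t ^ 2) := by
      intro z
      refine mul_le_mul_of_nonneg_left ?_ (hl0 z)
      have habs : |t * Y z| ≤ 1 := by
        rw [abs_mul, abs_of_pos ht0]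
        calc t * |Y z| ≤ (1 / 2) * 2 := by
              exact mul_le_mul ht1 (hY z) (abs_nonneg _) (by norm_num)
          _ = 1 := by norm_num
      have h1 := Real.abs_exp_sub_one_sub_id_le habs
      have h2 : Real.exp (t * Y z) - 1 - t * Y z ≤ (t * Y z) ^ 2 := le_trans (le_abs_self _) h1
      have h3 : (t * Y z) ^ 2 ≤ 4 * t ^ 2 := by
        have h4 : (Y z) ^ 2 ≤ 4 := by
          have := abs_le.mp (hY z)
          nlinarith
        nlinarith [sq_nonneg t]
      linarith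
    calc ∑ z, l z * Real.exp (t * Y z) ≤ ∑ z, l z * (1 + t * Y z + 4 * t ^ 2) :=
          Finset.sum_le_sum fun z _ => hpt z
      _ = (∑ z, l z) * (1 + 4 * t ^ 2) + t * ∑ z, l z * Y z := by
          rw [Finset.sum_mul, Finset.mul_sum, ← Finset.sum_add_distrib]
          refine Finset.sum_congr rfl fun z _ => ?_
          ring
      _ = 1 + 4 * t ^ 2 := by rw [hl1, hY0]; ring
      _ ≤ Real.exp (4 * t ^ 2) := by
          have := Real.add_one_le_exp (4 * t ^ 2)
          linarith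
  have hstep0 : 0 ≤ ∑ z, l z * Real.exp (t * Y z) :=
    Finset.sum_nonneg fun z _ => mul_nonneg (hl0 z) (Real.exp_pos _).le
  -- Markov
  have hpt : ∀ v : Fin S → Z, (∏ s, l (v s)) * (if (S : ℝ) * ξ ≤ ∑ s, Y (v s) then (1 : ℝ) else 0)
      ≤ (∏ s, l (v s)) * (Real.exp (t * ∑ s, Y (v s)) * Real.exp (-(t * ((S : ℝ) * ξ)))) := by
    intro v
    refine mul_le_mul_of_nonneg_left ?_ (Finset.prod_nonneg fun s _ => hl0 _)
    split_ifs with h
    · rw [← Real.exp_add]
      apply Real.one_le_exp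
      have : t * ((S : ℝ) * ξ) ≤ t * ∑ s, Y (v s) := mul_le_mul_of_nonneg_left h ht0.le
      linarith
    · positivity
  calc ∑ v : Fin S → Z, (∏ s, l (v s)) * (if (S : ℝ) * ξ ≤ ∑ s, Y (v s) then (1 : ℝ) else 0)
      ≤ ∑ v : Fin S → Z, (∏ s, l (v s)) * (Real.exp (t * ∑ s, Y (v s))
          * Real.exp (-(t * ((S : ℝ) * ξ)))) := Finset.sum_le_sum fun v _ => hpt v
    _ = (∑ v : Fin S → Z, (∏ s, l (v s)) * Real.exp (t * ∑ s, Y (v s)))
          * Real.exp (-(t * ((S : ℝ) * ξ))) := by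
        rw [Finset.sum_mul]
        refine Finset.sum_congr rfl fun v _ => ?_
        ring
    _ = (∑ z, l z * Real.exp (t * Y z)) ^ S * Real.exp (-(t * ((S : ℝ) * ξ))) := by
        rw [mgf_tuple]
    _ ≤ Real.exp (4 * t ^ 2) ^ S * Real.exp (-(t * ((S : ℝ) * ξ))) := by
        refine mul_le_mul_of_nonneg_right ?_ (Real.exp_pos _).le
        exact pow_le_pow_left₀ hstep0 hstep S
    _ = Real.exp (-((S : ℝ) * ξ ^ 2 / 16)) := by
        rw [← Real.exp_nat_mul, ← Real.exp_add]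
        congr 1
        rw [ht]
        ring

/-- Two sided tail bound for the average. -/
private theorem tail_two {l X : Z → ℝ} (hl0 : ∀ z, 0 ≤ l z) (hl1 : ∑ z, l z = 1)
    (hX : ∀ z, 1 / 2 ≤ X z ∧ X z ≤ 2) {S : ℕ} (hS : 0 < S) {ξ : ℝ} (hξ0 : 0 < ξ) (hξ4 : ξ ≤ 4) :
    ∑ v : Fin S → Z, (∏ s, l (v s))
        * (if ξ < |(S : ℝ)⁻¹ * ∑ s, X (v s) - ∑ z, l z * X z| then (1 : ℝ) else 0)
      ≤ 2 * Real.exp (-((S : ℝ) * ξ ^ 2 / 16)) := by
  set m : ℝ := ∑ z, l z * X z with hm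
  have hm1 : 1 / 2 ≤ m := by
    calc (1 : ℝ) / 2 = ∑ z, l z * (1 / 2) := by rw [← Finset.sum_mul, hl1]; norm_num
      _ ≤ m := Finset.sum_le_sum fun z _ => mul_le_mul_of_nonneg_left (hX z).1 (hl0 z)
  have hm2 : m ≤ 2 := by
    calc m ≤ ∑ z, l z * 2 := Finset.sum_le_sum fun z _ => mul_le_mul_of_nonneg_left (hX z).2 (hl0 z)
      _ = 2 := by rw [← Finset.sum_mul, hl1]; norm_num
  have hY1 : ∀ z, |X z - m| ≤ 2 := fun z => by
    rw [abs_le]; constructor <;> linarith [(hX z).1, (hX z).2]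
  have hY2 : ∀ z, |-(X z - m)| ≤ 2 := fun z => by rw [abs_neg]; exact hY1 z
  have hc1 : ∑ z, l z * (X z - m) = 0 := by
    have : ∑ z, l z * (X z - m) = ∑ z, l z * X z - (∑ z, l z) * m := by
      rw [Finset.sum_mul, ← Finset.sum_sub_distrib]
      refine Finset.sum_congr rfl fun z _ => ?_
      ring
    rw [this, hl1, ← hm]; ring
  have hc2 : ∑ z, l z * (-(X z - m)) = 0 := by
    have : ∑ z, l z * (-(X z - m)) = -∑ z, l z * (X z - m) := by
      rw [← Finset.sum_neg_distrib]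
      refine Finset.sum_congr rfl fun z _ => ?_
      ring
    rw [this, hc1]; ring
  have h1 := tail_one hl0 hl1 hc1 hY1 S hξ0 hξ4
  have h2 := tail_one hl0 hl1 hc2 hY2 S hξ0 hξ4
  have hSpos : (0 : ℝ) < S := by exact_mod_cast hS
  have hpt : ∀ v : Fin S → Z, (∏ s, l (v s))
      * (if ξ < |(S : ℝ)⁻¹ * ∑ s, X (v s) - m| then (1 : ℝ) else 0)
      ≤ (∏ s, l (v s)) * (if (S : ℝ) * ξ ≤ ∑ s, (X (v s) - m) then (1 : ℝ) else 0)
        + (∏ s, l (v s)) * (if (S : ℝ) * ξ ≤ ∑ s, (-(X (v s) - m)) then (1 : ℝ) else 0) := by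
    intro v
    have hP : 0 ≤ ∏ s, l (v s) := Finset.prod_nonneg fun s _ => hl0 _
    rw [← mul_add]
    refine mul_le_mul_of_nonneg_left ?_ hP
    have hsum : ∑ s, (X (v s) - m) = (S : ℝ) * ((S : ℝ)⁻¹ * ∑ s, X (v s) - m) := by
      rw [Finset.sum_sub_distrib, Finset.sum_const, Finset.card_univ, Fintype.card_fin,
        nsmul_eq_mul]
      field_simp
    have hsum' : ∑ s, (-(X (v s) - m)) = -((S : ℝ) * ((S : ℝ)⁻¹ * ∑ s, X (v s) - m)) := by
      rw [Finset.sum_neg_distrib, hsum]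
    by_cases h : ξ < |(S : ℝ)⁻¹ * ∑ s, X (v s) - m|
    · rw [if_pos h]
      rcases lt_abs.mp h with h' | h'
      · have : (S : ℝ) * ξ ≤ ∑ s, (X (v s) - m) := by
          rw [hsum]; exact mul_le_mul_of_nonneg_left h'.le hSpos.le
        rw [if_pos this]
        split_ifs <;> norm_num
      · have : (S : ℝ) * ξ ≤ ∑ s, (-(X (v s) - m)) := by
          rw [hsum']
          have : (S : ℝ) * ξ ≤ (S : ℝ) * (-((S : ℝ)⁻¹ * ∑ s, X (v s) - m)) :=
            mul_le_mul_of_nonneg_left h'.le hSpos.le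
          linarith
        rw [if_pos this]
        split_ifs <;> norm_num
    · rw [if_neg h]
      split_ifs <;> norm_num
  calc _ ≤ ∑ v : Fin S → Z, ((∏ s, l (v s))
          * (if (S : ℝ) * ξ ≤ ∑ s, (X (v s) - m) then (1 : ℝ) else 0)
        + (∏ s, l (v s)) * (if (S : ℝ) * ξ ≤ ∑ s, (-(X (v s) - m)) then (1 : ℝ) else 0)) :=
        Finset.sum_le_sum fun v _ => hpt v
    _ ≤ _ := by
        rw [Finset.sum_add_distrib]
        linarith

/-- Marginal of the product law on the tuples of one level. -/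
private theorem sum_level {K S : ℕ} {L : Fin K → Z → ℝ} (hL1 : ∀ k, ∑ z, L k z = 1) (k₀ : Fin K)
    (f : (Fin S → Z) → ℝ) :
    ∑ ω : Fin K → Fin S → Z, (∏ k, ∏ s, L k (ω k s)) * f (ω k₀)
      = ∑ v : Fin S → Z, (∏ s, L k₀ (v s)) * f v := by
  classical
  set h : Fin K → (Fin S → Z) → ℝ := fun k v =>
    (∏ s, L k (v s)) * (if k = k₀ then f v else 1) with hh
  have h1 : ∀ ω : Fin K → Fin S → Z, (∏ k, ∏ s, L k (ω k s)) * f (ω k₀) = ∏ k, h k (ω k) := by
    intro ω
    simp only [hh]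
    rw [Finset.prod_mul_distrib]
    congr 1
    rw [Finset.prod_ite_eq' univ k₀ (fun k => f (ω k))]
    simp
  have h2 := (Finset.prod_univ_sum (fun _ : Fin K => (univ : Finset (Fin S → Z))) h).symm
  rw [Fintype.piFinset_univ] at h2
  simp only [h1]
  rw [h2, Finset.prod_eq_single k₀]
  · simp [hh]
  · intro k _ hk
    simp only [hh, if_neg hk, mul_one]
    rw [sum_tuple_prod, hL1, one_pow]
  · intro hk
    exact absurd (mem_univ _) hk

private theorem sum_level_one {K S : ℕ} {L : Fin K → Z → ℝ} (hL1 : ∀ k, ∑ z, L k z = 1) :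
    ∑ ω : Fin K → Fin S → Z, (∏ k, ∏ s, L k (ω k s)) = 1 := by
  have h2 := (Finset.prod_univ_sum (fun _ : Fin K => (univ : Finset (Fin S → Z)))
    (fun k v => ∏ s, L k (v s))).symm
  rw [Fintype.piFinset_univ] at h2
  rw [h2]
  refine Finset.prod_eq_one fun k _ => ?_
  rw [sum_tuple_prod, hL1, one_pow]

/-- The deterministic part: if every factor is close to one, so is the product. -/
private theorem prod_close {K : ℕ} {q : Fin K → ℝ} {x ε : ℝ} (hx0 : 0 ≤ x)
    (hq : ∀ k, |q k - 1| ≤ x) (hKx : (K : ℝ) * x ≤ ε / 2) (hε1 : ε ≤ 1) :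
    |∏ k, q k - 1| ≤ ε := by
  rcases Nat.eq_zero_or_pos K with hK | hK
  · subst hK
    have h0 : (0 : ℝ) ≤ ε / 2 := by simpa using hKx
    have : 0 ≤ ε := by linarith
    simpa using this
  have hK1 : (1 : ℝ) ≤ K := by exact_mod_cast hK
  have hx1 : x ≤ 1 / 2 := by
    have : x ≤ (K : ℝ) * x := by nlinarith
    linarith
  have hε0 : 0 ≤ ε := by
    have : 0 ≤ (K : ℝ) * x := by positivity
    linarith
  have hlo : ∀ k, 1 - x ≤ q k := fun k => by linarith [(abs_le.mp (hq k)).1]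
  have hhi : ∀ k, q k ≤ 1 + x := fun k => by linarith [(abs_le.mp (hq k)).2]
  have hup : ∏ k, q k ≤ 1 + ε := by
    calc ∏ k, q k ≤ ∏ _k : Fin K, (1 + x) :=
          Finset.prod_le_prod (fun k _ => by linarith [hlo k]) (fun k _ => hhi k)
      _ = (1 + x) ^ K := by rw [Finset.prod_const, Finset.card_univ, Fintype.card_fin]
      _ ≤ Real.exp x ^ K := by
          refine pow_le_pow_left₀ (by linarith) ?_ K
          linarith [Real.add_one_le_exp x]
      _ = Real.exp ((K : ℝ) * x) := by rw [Real.exp_nat_mul]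
      _ ≤ Real.exp (ε / 2) := Real.exp_le_exp.mpr hKx
      _ ≤ 1 + ε := by
          have h1 : Real.exp (ε / 2) ≤ 1 / (1 - ε / 2) :=
            Real.exp_bound_div_one_sub_of_interval (by linarith) (by linarith)
          refine le_trans h1 ?_
          rw [div_le_iff₀ (by linarith)]
          nlinarith
  have hdn : 1 - ε ≤ ∏ k, q k := by
    calc 1 - ε ≤ 1 + (K : ℝ) * (-x) := by linarith
      _ ≤ (1 + (-x)) ^ K := one_add_mul_le_pow (by linarith) K
      _ = ∏ _k : Fin K, (1 - x) := by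
          rw [Finset.prod_const, Finset.card_univ, Fintype.card_fin]; ring_nf
      _ ≤ ∏ k, q k := Finset.prod_le_prod (fun _ _ => by linarith) (fun k _ => hlo k)
  rw [abs_le]
  constructor <;> linarith

/-- **Annealing on a finite set.** -/
theorem anneal_generic {Z : Type} [Fintype Z] [Nonempty Z] [DecidableEq Z] {g : Z → ℝ} {G : ℝ}
    (hg : ∀ z, |g z| ≤ G) {K S : ℕ} (hK0 : 0 < K) (hK : 2 * G ≤ K) (hS : 0 < S) {L : Fin K → Z → ℝ}
    (hL0 : ∀ k z, 0 ≤ L k z) (hL1 : ∀ k, ∑ z, L k z = 1) {τ ξ ε δ : ℝ} (hτ0 : 0 ≤ τ) (hξ0 : 0 < ξ)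
    (hL : ∀ k : Fin K, ∑ z, |L k z - Real.exp (-(((k : ℕ) : ℝ) / K) * g z)
        / ∑ z', Real.exp (-(((k : ℕ) : ℝ) / K) * g z')| ≤ τ)
    (hε : (K : ℝ) * (4 * (ξ + 2 * τ)) ≤ ε / 2) (hε1 : ε ≤ 1)
    (hδ : 2 * (K : ℝ) * Real.exp (-((S : ℝ) * ξ ^ 2 / 16)) ≤ δ) :
    1 - δ ≤ ∑ ω : Fin K → Fin S → Z, (∏ k, ∏ s, L k (ω k s))
      * if |(Fintype.card Z : ℝ) * ∏ k, ((S : ℝ)⁻¹ * ∑ s, Real.exp (-(g (ω k s)) / K))
            - ∑ z, Real.exp (-(g z))| ≤ ε * ∑ z, Real.exp (-(g z)) then 1 else 0 := by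
  have hKpos : (0 : ℝ) < K := by exact_mod_cast hK0
  have hK1 : (1 : ℝ) ≤ K := by exact_mod_cast hK0
  -- sizes
  have hη0 : 0 < ξ + 2 * τ := by positivity
  have hξ4 : ξ ≤ 4 := by nlinarith
  -- the variable
  set X : Z → ℝ := fun z => Real.exp (-(g z) / K) with hXdef
  have hexp12 : Real.exp (1 / 2) ≤ 2 := by
    have h1 : Real.exp (1 / 2) ≤ 1 / (1 - 1 / 2) :=
      Real.exp_bound_div_one_sub_of_interval (by norm_num) (by norm_num)
    norm_num at h1 ⊢
    linarith
  have hX : ∀ z, 1 / 2 ≤ X z ∧ X z ≤ 2 := by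
    intro z
    have hu : |-(g z) / K| ≤ 1 / 2 := by
      rw [abs_div, abs_neg, abs_of_pos hKpos, div_le_iff₀ hKpos]
      linarith [hg z]
    have hu' := abs_le.mp hu
    constructor
    · have h1 : Real.exp (-(1 / 2)) ≤ X z := Real.exp_le_exp.mpr hu'.1
      have h2 : (1 : ℝ) / 2 ≤ Real.exp (-(1 / 2)) := by
        have h3 := inv_anti₀ (Real.exp_pos (1 / 2)) hexp12
        rw [Real.exp_neg]
        calc (1 : ℝ) / 2 = 2⁻¹ := by norm_num
          _ ≤ _ := h3
      linarith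
    · have h1 : X z ≤ Real.exp (1 / 2) := Real.exp_le_exp.mpr hu'.2
      linarith
  -- the partition functions
  set F : ℕ → ℝ := fun k => ∑ z, Real.exp (-(((k : ℕ) : ℝ) / K) * g z) with hF
  have hFpos : ∀ k, 0 < F k := fun k =>
    Finset.sum_pos (fun z _ => Real.exp_pos _) univ_nonempty
  set R : Fin K → ℝ := fun k => F ((k : ℕ) + 1) / F k with hR
  -- `R k` is an expectation
  have hRexp : ∀ k : Fin K, R k
      = ∑ z, (Real.exp (-(((k : ℕ) : ℝ) / K) * g z) / F k) * X z := by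
    intro k
    simp only [hR, hF]
    rw [Finset.sum_div]
    refine Finset.sum_congr rfl fun z _ => ?_
    rw [div_mul_eq_mul_div, hXdef]
    congr 1
    simp only
    rw [← Real.exp_add]
    congr 1
    push_cast
    field_simp
    ring
  have hπ0 : ∀ (k : Fin K) z, 0 ≤ Real.exp (-(((k : ℕ) : ℝ) / K) * g z) / F k := fun k z =>
    div_nonneg (Real.exp_pos _).le (hFpos _).le
  have hπ1 : ∀ k : Fin K, ∑ z, Real.exp (-(((k : ℕ) : ℝ) / K) * g z) / F k = 1 := by
    intro k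
    rw [← Finset.sum_div]
    exact div_self (hFpos _).ne'
  have hR1 : ∀ k, 1 / 2 ≤ R k := by
    intro k
    rw [hRexp]
    calc (1 : ℝ) / 2 = ∑ z, (Real.exp (-(((k : ℕ) : ℝ) / K) * g z) / F k) * (1 / 2) := by
          rw [← Finset.sum_mul, hπ1]; norm_num
      _ ≤ _ := Finset.sum_le_sum fun z _ => mul_le_mul_of_nonneg_left (hX z).1 (hπ0 k z)
  have hRpos : ∀ k, 0 < R k := fun k => by linarith [hR1 k]
  -- the means
  set m : Fin K → ℝ := fun k => ∑ z, L k z * X z with hm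
  have hmR : ∀ k, |m k - R k| ≤ 2 * τ := by
    intro k
    have : m k - R k = ∑ z, (L k z - Real.exp (-(((k : ℕ) : ℝ) / K) * g z) / F k) * X z := by
      rw [hRexp, ← Finset.sum_sub_distrib]
      refine Finset.sum_congr rfl fun z _ => ?_
      ring
    rw [this]
    calc |∑ z, (L k z - Real.exp (-(((k : ℕ) : ℝ) / K) * g z) / F k) * X z|
        ≤ ∑ z, |(L k z - Real.exp (-(((k : ℕ) : ℝ) / K) * g z) / F k) * X z| :=
          Finset.abs_sum_le_sum_abs _ _
      _ ≤ ∑ z, |L k z - Real.exp (-(((k : ℕ) : ℝ) / K) * g z) / F k| * 2 := by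
          refine Finset.sum_le_sum fun z _ => ?_
          rw [abs_mul]
          refine mul_le_mul_of_nonneg_left ?_ (abs_nonneg _)
          rw [abs_of_nonneg (by linarith [(hX z).1])]
          exact (hX z).2
      _ = (∑ z, |L k z - Real.exp (-(((k : ℕ) : ℝ) / K) * g z) / F k|) * 2 := by
          rw [Finset.sum_mul]
      _ ≤ τ * 2 := mul_le_mul_of_nonneg_right (hL k) (by norm_num)
      _ = 2 * τ := by ring
  -- the product of the ratios
  have hprodR : (Fintype.card Z : ℝ) * ∏ k, R k = ∑ z, Real.exp (-(g z)) := by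
    have h1 : ∏ k, R k = F K / F 0 := by
      simp only [hR]
      rw [Fin.prod_univ_eq_prod_range (fun k => F (k + 1) / F k) K]
      have hind : ∀ n : ℕ, ∏ i ∈ range n, F (i + 1) / F i = F n / F 0 := by
        intro n
        induction n with
        | zero => simp [(hFpos 0).ne']
        | succ n ih =>
          rw [Finset.prod_range_succ, ih]
          have h3 := (hFpos n).ne'
          have h4 := (hFpos 0).ne'
          field_simp
      exact hind K
    have hF0 : F 0 = (Fintype.card Z : ℝ) := by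
      simp [hF]
    have hFK : F K = ∑ z, Real.exp (-(g z)) := by
      simp only [hF]
      refine Finset.sum_congr rfl fun z _ => ?_
      rw [div_self hKpos.ne']
      congr 1
      ring
    have hc : (Fintype.card Z : ℝ) ≠ 0 := by
      rw [← hF0]; exact (hFpos 0).ne'
    rw [h1, hF0, hFK]
    field_simp
  have hT : 0 < ∑ z, Real.exp (-(g z)) := Finset.sum_pos (fun z _ => Real.exp_pos _) univ_nonempty
  -- the averages and the bad events
  set A : Fin K → (Fin S → Z) → ℝ := fun k v => (S : ℝ)⁻¹ * ∑ s, X (v s) with hA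
  set B : Fin K → (Fin S → Z) → ℝ := fun k v => if ξ < |A k v - m k| then 1 else 0 with hB
  -- the good event implies the estimate
  have hgood : ∀ ω : Fin K → Fin S → Z, (∀ k, ¬ ξ < |A k (ω k) - m k|) →
      |(Fintype.card Z : ℝ) * ∏ k, ((S : ℝ)⁻¹ * ∑ s, Real.exp (-(g (ω k s)) / K))
            - ∑ z, Real.exp (-(g z))| ≤ ε * ∑ z, Real.exp (-(g z)) := by
    intro ω hω
    have hq : ∀ k, |A k (ω k) / R k - 1| ≤ 4 * (ξ + 2 * τ) := by
      intro k
      have h1 : |A k (ω k) - R k| ≤ ξ + 2 * τ := by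
        have h2 := not_lt.mp (hω k)
        have h3 : A k (ω k) - R k = (A k (ω k) - m k) + (m k - R k) := by ring
        rw [h3]
        exact le_trans (abs_add_le _ _) (add_le_add h2 (hmR k))
      have h4 : A k (ω k) / R k - 1 = (A k (ω k) - R k) / R k := by
        field_simp [(hRpos k).ne']
      rw [h4, abs_div, abs_of_pos (hRpos k), div_le_iff₀ (hRpos k)]
      have h5 := hR1 k
      nlinarith
    have hpc := prod_close (K := K) (q := fun k => A k (ω k) / R k) (x := 4 * (ξ + 2 * τ)) (ε := ε)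
      (by positivity) hq hε hε1
    have hprod : ∏ k, A k (ω k) = (∏ k, (A k (ω k) / R k)) * ∏ k, R k := by
      rw [← Finset.prod_mul_distrib]
      refine Finset.prod_congr rfl fun k _ => ?_
      field_simp [(hRpos k).ne']
    have hmain : (Fintype.card Z : ℝ) * ∏ k, ((S : ℝ)⁻¹ * ∑ s, Real.exp (-(g (ω k s)) / K))
        - ∑ z, Real.exp (-(g z))
        = (∑ z, Real.exp (-(g z))) * (∏ k, (A k (ω k) / R k) - 1) := by
      have : ∏ k, ((S : ℝ)⁻¹ * ∑ s, Real.exp (-(g (ω k s)) / K)) = ∏ k, A k (ω k) := rfl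
      rw [this, hprod, ← hprodR]
      ring
    rw [hmain, abs_mul, abs_of_pos hT, mul_comm]
    exact mul_le_mul_of_nonneg_right hpc hT.le
  -- weights
  have hW0 : ∀ ω : Fin K → Fin S → Z, 0 ≤ ∏ k, ∏ s, L k (ω k s) := fun ω =>
    Finset.prod_nonneg fun k _ => Finset.prod_nonneg fun s _ => hL0 _ _
  -- pointwise
  have hpt : ∀ ω : Fin K → Fin S → Z, (∏ k, ∏ s, L k (ω k s)) * (1 - ∑ k, B k (ω k))
      ≤ (∏ k, ∏ s, L k (ω k s))
      * if |(Fintype.card Z : ℝ) * ∏ k, ((S : ℝ)⁻¹ * ∑ s, Real.exp (-(g (ω k s)) / K))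
            - ∑ z, Real.exp (-(g z))| ≤ ε * ∑ z, Real.exp (-(g z)) then 1 else 0 := by
    intro ω
    refine mul_le_mul_of_nonneg_left ?_ (hW0 ω)
    have hB0 : ∀ k, 0 ≤ B k (ω k) := fun k => by
      simp only [hB]; split_ifs <;> norm_num
    by_cases hall : ∀ k, ¬ ξ < |A k (ω k) - m k|
    · rw [if_pos (hgood ω hall)]
      have : 0 ≤ ∑ k, B k (ω k) := Finset.sum_nonneg fun k _ => hB0 k
      linarith
    · obtain ⟨k, hk⟩ := not_forall.mp hall
      have hk := not_not.mp hk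
      have h1 : (1 : ℝ) ≤ ∑ k, B k (ω k) := by
        calc (1 : ℝ) = B k (ω k) := by simp only [hB]; rw [if_pos hk]
          _ ≤ ∑ k, B k (ω k) := Finset.single_le_sum (fun k _ => hB0 k) (mem_univ k)
      have h2 : (0 : ℝ) ≤ if |(Fintype.card Z : ℝ) * ∏ k, ((S : ℝ)⁻¹ * ∑ s,
          Real.exp (-(g (ω k s)) / K)) - ∑ z, Real.exp (-(g z))|
          ≤ ε * ∑ z, Real.exp (-(g z)) then 1 else 0 := by
        split_ifs <;> norm_num
      linarith
  -- summing
  have hsum : ∑ ω : Fin K → Fin S → Z, (∏ k, ∏ s, L k (ω k s)) * (1 - ∑ k, B k (ω k))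
      = 1 - ∑ k, ∑ v : Fin S → Z, (∏ s, L k (v s)) * B k v := by
    have h1 : ∀ ω : Fin K → Fin S → Z, (∏ k, ∏ s, L k (ω k s)) * (1 - ∑ k, B k (ω k))
        = (∏ k, ∏ s, L k (ω k s)) - ∑ k, (∏ k, ∏ s, L k (ω k s)) * B k (ω k) := by
      intro ω
      rw [mul_sub, mul_one, Finset.mul_sum]
    simp only [h1]
    rw [Finset.sum_sub_distrib, sum_level_one hL1, Finset.sum_comm]
    congr 1
    refine Finset.sum_congr rfl fun k _ => ?_
    exact sum_level hL1 k (B k)
  have htail : ∀ k, ∑ v : Fin S → Z, (∏ s, L k (v s)) * B k v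
      ≤ 2 * Real.exp (-((S : ℝ) * ξ ^ 2 / 16)) := by
    intro k
    exact tail_two (hL0 k) (hL1 k) hX hS hξ0 hξ4
  calc 1 - δ ≤ 1 - ∑ _k : Fin K, 2 * Real.exp (-((S : ℝ) * ξ ^ 2 / 16)) := by
        rw [Finset.sum_const, Finset.card_univ, Fintype.card_fin, nsmul_eq_mul]
        linarith
    _ ≤ 1 - ∑ k, ∑ v : Fin S → Z, (∏ s, L k (v s)) * B k v := by
        have := Finset.sum_le_sum fun (k : Fin K) (_ : k ∈ univ) => htail k
        linarith
    _ = ∑ ω : Fin K → Fin S → Z, (∏ k, ∏ s, L k (ω k s)) * (1 - ∑ k, B k (ω k)) := hsum.symm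
    _ ≤ _ := Finset.sum_le_sum fun ω _ => hpt ω

end Generic

end Vale.Agent.Lib.P328.Samp
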