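import Vale.Agent.Lib.P328.Walk.Net

/-!
# From a cut inequality to a Poincare inequality on a finite network

If the flow across every cut of a finite network is at least `Φ * π A * π Aᶜ`, then
`Var f ≤ (8 / Φ ^ 2) * Dir f` for all functions `f`. No median is needed: the cut inequality in this
symmetric form passes to all functions by the coarea formula, and is applied to `f * |f|`.
-/

namespace Vale.Agent.Lib.P328.Samp

open Finset MeasureTheory Vale.Agent.Lib.P328.Walk
open scoped ENNReal

variable {V : Type*} [Fintype V] [DecidableEq V]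

/-- The coarea principle: an inequality between two symmetric weights tested on all cuts passes to
all real functions. -/
theorem coarea_le (α β : V → V → ℝ) (hα : ∀ x y, 0 ≤ α x y) (hβ : ∀ x y, 0 ≤ β x y)
    (hcut : ∀ A : Finset V, ∑ x ∈ A, ∑ y ∈ Aᶜ, β x y ≤ ∑ x ∈ A, ∑ y ∈ Aᶜ, α x y) (g : V → ℝ) :
    ∑ x, ∑ y, β x y * max (g x - g y) 0 ≤ ∑ x, ∑ y, α x y * max (g x - g y) 0 := by
  classical
  -- the value of the interval
  have hvol : ∀ a b : ℝ, volume (Set.Ico b a) = ENNReal.ofReal (max (a - b) 0) := by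
    intro a b
    rw [Real.volume_Ico]
    by_cases h : b ≤ a
    · rw [max_eq_left (by linarith)]
    · rw [max_eq_right (by linarith)]
      rw [ENNReal.ofReal_of_nonpos (by linarith), ENNReal.ofReal_zero]
  have hsum : ∀ w : V → V → ℝ, (∀ x y, 0 ≤ w x y) →
      ENNReal.ofReal (∑ x, ∑ y, w x y * max (g x - g y) 0)
        = ∫⁻ t : ℝ, ∑ x ∈ ({x | t < g x} : Finset V), ∑ y ∈ ({x | t < g x} : Finset V)ᶜ,
            ENNReal.ofReal (w x y) := by
    intro w hw
    have h1 : ∀ t : ℝ, ∑ x ∈ ({x | t < g x} : Finset V), ∑ y ∈ ({x | t < g x} : Finset V)ᶜ,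
        ENNReal.ofReal (w x y)
        = ∑ x, ∑ y, ENNReal.ofReal (w x y) * (Set.Ico (g y) (g x)).indicator 1 t := by
      intro t
      have e1 : ∀ x y, ENNReal.ofReal (w x y) * (Set.Ico (g y) (g x)).indicator 1 t
          = if (t < g x ∧ ¬ t < g y) then ENNReal.ofReal (w x y) else 0 := by
        intro x y
        by_cases h : g y ≤ t ∧ t < g x
        · rw [Set.indicator_of_mem (Set.mem_Ico.2 h)]
          simp [h.1, h.2]
        · rw [Set.indicator_of_notMem (fun h' => h (Set.mem_Ico.1 h'))]
          have : ¬ (t < g x ∧ ¬ t < g y) := by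
            rintro ⟨h2, h3⟩
            exact h ⟨not_lt.1 h3, h2⟩
          rw [if_neg this, mul_zero]
      simp_rw [e1]
      rw [← Finset.sum_filter_add_sum_filter_not (Finset.univ) (fun x => t < g x)]
      have e2 : ∑ x ∈ (Finset.univ.filter fun x => ¬ t < g x),
          ∑ y, (if (t < g x ∧ ¬ t < g y) then ENNReal.ofReal (w x y) else 0) = 0 := by
        refine Finset.sum_eq_zero fun x hx => Finset.sum_eq_zero fun y _ => ?_
        have := (Finset.mem_filter.1 hx).2
        simp [this]
      rw [e2, add_zero]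
      refine Finset.sum_congr (by ext x; simp) fun x hx => ?_
      have hx' : t < g x := by simpa using hx
      simp only [hx', true_and]
      rw [← Finset.sum_filter_add_sum_filter_not (Finset.univ) (fun y => ¬ t < g y)]
      have e3 : ∑ y ∈ (Finset.univ.filter fun y => ¬ ¬ t < g y),
          (if (¬ t < g y) then ENNReal.ofReal (w x y) else 0) = 0 := by
        refine Finset.sum_eq_zero fun y hy => ?_
        have := (Finset.mem_filter.1 hy).2
        simp [this]
      rw [e3, add_zero]
      refine Finset.sum_congr (by ext y; simp) fun y hy => ?_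
      have hy' : ¬ t < g y := by simpa using hy
      simp [hy']
    simp_rw [h1]
    have hm : ∀ x y, Measurable fun t : ℝ =>
        ENNReal.ofReal (w x y) * (Set.Ico (g y) (g x)).indicator (1 : ℝ → ℝ≥0∞) t := fun x y =>
      (measurable_one.indicator measurableSet_Ico).const_mul _
    have h6 : ∀ x, Measurable fun t : ℝ =>
        ∑ y, ENNReal.ofReal (w x y) * (Set.Ico (g y) (g x)).indicator (1 : ℝ → ℝ≥0∞) t := fun x =>
      Finset.measurable_fun_sum _ fun y _ => hm x y
    rw [lintegral_finsetSum _ (fun x _ => h6 x)]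
    rw [ENNReal.ofReal_sum_of_nonneg (fun x _ => Finset.sum_nonneg fun y _ =>
      mul_nonneg (hw x y) (le_max_right _ _))]
    refine Finset.sum_congr rfl fun x _ => ?_
    rw [ENNReal.ofReal_sum_of_nonneg (fun y _ => mul_nonneg (hw x y) (le_max_right _ _))]
    rw [lintegral_finsetSum _ (fun y _ => hm x y)]
    refine Finset.sum_congr rfl fun y _ => ?_
    have hi : Measurable ((Set.Ico (g y) (g x)).indicator (1 : ℝ → ℝ≥0∞)) :=
      measurable_one.indicator measurableSet_Ico
    rw [lintegral_const_mul _ hi]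
    rw [lintegral_indicator_one measurableSet_Ico, hvol, ENNReal.ofReal_mul (hw x y)]
  have h2 : ENNReal.ofReal (∑ x, ∑ y, β x y * max (g x - g y) 0)
      ≤ ENNReal.ofReal (∑ x, ∑ y, α x y * max (g x - g y) 0) := by
    rw [hsum β hβ, hsum α hα]
    refine lintegral_mono fun t => ?_
    set A : Finset V := ({x | t < g x} : Finset V)
    have h3 := hcut A
    have h4 : ∀ w : V → V → ℝ, (∀ x y, 0 ≤ w x y) →
        ∑ x ∈ A, ∑ y ∈ Aᶜ, ENNReal.ofReal (w x y) = ENNReal.ofReal (∑ x ∈ A, ∑ y ∈ Aᶜ, w x y) := by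
      intro w hw
      rw [ENNReal.ofReal_sum_of_nonneg (fun x _ => Finset.sum_nonneg fun y _ => hw x y)]
      refine Finset.sum_congr rfl fun x _ => ?_
      rw [ENNReal.ofReal_sum_of_nonneg (fun y _ => hw x y)]
    rw [h4 β hβ, h4 α hα]
    exact ENNReal.ofReal_le_ofReal h3
  have h5 : 0 ≤ ∑ x, ∑ y, α x y * max (g x - g y) 0 :=
    Finset.sum_nonneg fun x _ => Finset.sum_nonneg fun y _ =>
      mul_nonneg (hα x y) (le_max_right _ _)
  exact (ENNReal.ofReal_le_ofReal_iff h5).1 h2

section Poincare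

variable {cond : V → V → ℝ}

/-- The symmetric form of the coarea principle. -/
theorem coarea_abs (hsymm : ∀ v w, cond v w = cond w v) (hnn : ∀ v w, 0 ≤ cond v w)
    (hdeg : ∀ v, 0 < ndeg cond v) [Nonempty V] {Φ : ℝ} (hΦ : 0 ≤ Φ)
    (hcut : ∀ A : Finset V, Φ * ((∑ x ∈ A, npi cond x) * ∑ y ∈ Aᶜ, npi cond y)
      ≤ (∑ x ∈ A, ∑ y ∈ Aᶜ, cond x y) / nZ cond) (g : V → ℝ) :
    Φ * ∑ x, ∑ y, npi cond x * npi cond y * |g x - g y|
      ≤ (∑ x, ∑ y, cond x y * |g x - g y|) / nZ cond := by
  have hZ : 0 < nZ cond := nZ_pos hdeg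
  have hpi := fun y => npi_pos hdeg (cond := cond) y
  have h1 := coarea_le (fun x y => cond x y / nZ cond)
    (fun x y => Φ * (npi cond x * npi cond y))
    (fun x y => div_nonneg (hnn x y) hZ.le)
    (fun x y => mul_nonneg hΦ (mul_nonneg (hpi x).le (hpi y).le))
    (by
      intro A
      have h2 := hcut A
      calc ∑ x ∈ A, ∑ y ∈ Aᶜ, Φ * (npi cond x * npi cond y)
          = Φ * ((∑ x ∈ A, npi cond x) * ∑ y ∈ Aᶜ, npi cond y) := by
            rw [Finset.sum_mul_sum, Finset.mul_sum]
            refine Finset.sum_congr rfl fun x _ => ?_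
            rw [Finset.mul_sum]
        _ ≤ _ := h2
        _ = _ := by
            rw [Finset.sum_div]
            refine Finset.sum_congr rfl fun x _ => ?_
            rw [Finset.sum_div]) g
  -- the absolute value is the sum of the two positive parts
  have habs : ∀ a b : ℝ, |a - b| = max (a - b) 0 + max (b - a) 0 := by
    intro a b
    rcases le_total a b with h | h
    · rw [abs_of_nonpos (by linarith), max_eq_right (by linarith), max_eq_left (by linarith)]
      ring
    · rw [abs_of_nonneg (by linarith), max_eq_left (by linarith), max_eq_right (by linarith)]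
      ring
  have hswap : ∀ w : V → V → ℝ, (∀ x y, w x y = w y x) →
      ∑ x, ∑ y, w x y * |g x - g y| = 2 * ∑ x, ∑ y, w x y * max (g x - g y) 0 := by
    intro w hw
    have h3 : ∑ x, ∑ y, w x y * max (g y - g x) 0 = ∑ x, ∑ y, w x y * max (g x - g y) 0 := by
      rw [Finset.sum_comm]
      refine Finset.sum_congr rfl fun x _ => Finset.sum_congr rfl fun y _ => ?_
      rw [hw y x]
    simp_rw [habs, mul_add]
    simp_rw [Finset.sum_add_distrib]
    rw [h3]
    ring
  have h4 := hswap (fun x y => Φ * (npi cond x * npi cond y))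
    (fun x y => by ring)
  have h5 := hswap (fun x y => cond x y / nZ cond) (fun x y => by rw [hsymm x y])
  have e1 : Φ * ∑ x, ∑ y, npi cond x * npi cond y * |g x - g y|
      = ∑ x, ∑ y, Φ * (npi cond x * npi cond y) * |g x - g y| := by
    rw [Finset.mul_sum]
    refine Finset.sum_congr rfl fun x _ => ?_
    rw [Finset.mul_sum]
    refine Finset.sum_congr rfl fun y _ => ?_
    ring
  have e2 : (∑ x, ∑ y, cond x y * |g x - g y|) / nZ cond
      = ∑ x, ∑ y, cond x y / nZ cond * |g x - g y| := by
    rw [Finset.sum_div]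
    refine Finset.sum_congr rfl fun x _ => ?_
    rw [Finset.sum_div]
    refine Finset.sum_congr rfl fun y _ => ?_
    ring
  rw [e1, e2, h4, h5]
  linarith

/-- The variance by pairs. -/
theorem nVar_pairs [Nonempty V] (hdeg : ∀ v, 0 < ndeg cond v) (f : V → ℝ) :
    ∑ x, ∑ y, npi cond x * npi cond y * (f x - f y) ^ 2 = 2 * nVar cond f := by
  have hs : ∑ v, npi cond v = 1 := npi_sum hdeg
  unfold nVar
  have e : ∀ x y, npi cond x * npi cond y * (f x - f y) ^ 2
      = npi cond y * (npi cond x * f x ^ 2) + npi cond x * (npi cond y * f y ^ 2)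
        - 2 * (npi cond x * f x) * (npi cond y * f y) := by
    intro x y
    ring
  simp_rw [e, Finset.sum_sub_distrib, Finset.sum_add_distrib]
  have h1 : ∑ x, ∑ y, npi cond y * (npi cond x * f x ^ 2) = ∑ x, npi cond x * f x ^ 2 := by
    refine Finset.sum_congr rfl fun x _ => ?_
    rw [← Finset.sum_mul, hs, one_mul]
  have h2 : ∑ x, ∑ y, npi cond x * (npi cond y * f y ^ 2) = ∑ x, npi cond x * f x ^ 2 := by
    rw [Finset.sum_comm]
    exact h1
  have h3 : ∑ x, ∑ y, 2 * (npi cond x * f x) * (npi cond y * f y)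
      = 2 * (∑ x, npi cond x * f x) ^ 2 := by
    rw [sq, Finset.sum_mul_sum, Finset.mul_sum]
    refine Finset.sum_congr rfl fun x _ => ?_
    rw [Finset.mul_sum]
    refine Finset.sum_congr rfl fun y _ => ?_
    ring
  rw [h1, h2, h3]
  ring

/-- **Cheeger's inequality in symmetric form.** -/
theorem poincare_of_cut (hsymm : ∀ v w, cond v w = cond w v) (hnn : ∀ v w, 0 ≤ cond v w)
    (hdeg : ∀ v, 0 < ndeg cond v) [Nonempty V] {Φ : ℝ} (hΦ : 0 < Φ)
    (hcut : ∀ A : Finset V, Φ * ((∑ x ∈ A, npi cond x) * ∑ y ∈ Aᶜ, npi cond y)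
      ≤ (∑ x ∈ A, ∑ y ∈ Aᶜ, cond x y) / nZ cond) (f : V → ℝ) :
    nVar cond f ≤ 8 / Φ ^ 2 * nDir cond f := by
  have hZ : 0 < nZ cond := nZ_pos hdeg
  have hpi := fun y => npi_pos hdeg (cond := cond) y
  have hs : ∑ v, npi cond v = 1 := npi_sum hdeg
  -- center the function
  set μ : ℝ := ∑ v, npi cond v * f v with hμ
  set u : V → ℝ := fun v => f v - μ with hu
  have hu0 : ∑ v, npi cond v * u v = 0 := by
    simp only [hu, mul_sub, Finset.sum_sub_distrib]
    rw [← Finset.sum_mul, hs, one_mul]
    simp [hμ]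
  have hvar : nVar cond f = nVar cond u := by
    have h1 := nVar_pairs hdeg f
    have h2 := nVar_pairs hdeg u
    have h3 : ∑ x, ∑ y, npi cond x * npi cond y * (u x - u y) ^ 2
        = ∑ x, ∑ y, npi cond x * npi cond y * (f x - f y) ^ 2 := by
      refine Finset.sum_congr rfl fun x _ => Finset.sum_congr rfl fun y _ => ?_
      simp only [hu]
      ring
    linarith
  have hdir : nDir cond f = nDir cond u := by
    unfold nDir
    congr 1
    refine Finset.sum_congr rfl fun x _ => Finset.sum_congr rfl fun y _ => ?_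
    simp only [hu]
    ring
  rw [hvar, hdir]
  set E : ℝ := ∑ v, npi cond v * u v ^ 2 with hE
  have hEv : nVar cond u = E := by
    unfold nVar
    rw [hu0]
    ring
  have hE0 : 0 ≤ E := Finset.sum_nonneg fun v _ => mul_nonneg (hpi v).le (sq_nonneg _)
  set D : ℝ := nDir cond u with hD
  have hD0 : 0 ≤ D := by
    rw [hD]
    unfold nDir
    exact div_nonneg (Finset.sum_nonneg fun x _ => Finset.sum_nonneg fun y _ =>
      mul_nonneg (hnn x y) (sq_nonneg _)) (by positivity)
  set g : V → ℝ := fun v => u v * |u v| with hg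
  have h1 := coarea_abs hsymm hnn hdeg hΦ.le hcut g
  -- pointwise bounds for `g`
  have hg1 : ∀ a b : ℝ, abs (a * abs a - b * abs b) ≤ |a - b| * (|a| + |b|) := by
    intro a b
    rcases le_total 0 a with ha | ha <;> rcases le_total 0 b with hb | hb
    · rw [abs_of_nonneg ha, abs_of_nonneg hb]
      have : a * a - b * b = (a - b) * (a + b) := by ring
      rw [this, abs_mul, abs_of_nonneg (add_nonneg ha hb)]
    · rw [abs_of_nonneg ha, abs_of_nonpos hb, abs_of_nonneg (by nlinarith [mul_nonneg ha ha, mul_nonneg (neg_nonneg.2 hb) (neg_nonneg.2 hb)]), abs_of_nonneg (by linarith)]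
      nlinarith [mul_nonneg ha (neg_nonneg.2 hb)]
    · rw [abs_of_nonpos ha, abs_of_nonneg hb, abs_of_nonpos (by nlinarith [mul_nonneg (neg_nonneg.2 ha) (neg_nonneg.2 ha), mul_nonneg hb hb]), abs_of_nonpos (by linarith)]
      nlinarith [mul_nonneg (neg_nonneg.2 ha) hb]
    · rw [abs_of_nonpos ha, abs_of_nonpos hb]
      have : a * -a - b * -b = (a - b) * (-a + -b) := by ring
      rw [this, abs_mul, abs_of_nonneg (show 0 ≤ -a + -b by linarith)]
  have hg2 : ∀ a b : ℝ, (a - b) ^ 2 / 2 ≤ abs (a * abs a - b * abs b) := by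
    intro a b
    rcases le_total 0 a with ha | ha <;> rcases le_total 0 b with hb | hb
    · rw [abs_of_nonneg ha, abs_of_nonneg hb]
      have : a * a - b * b = (a - b) * (a + b) := by ring
      rw [this, abs_mul, abs_of_nonneg (add_nonneg ha hb)]
      have h3 : |a - b| ≤ a + b := by
        rw [abs_le]
        constructor <;> linarith
      have h4 := sq_abs (a - b)
      nlinarith [abs_nonneg (a - b)]
    · rw [abs_of_nonneg ha, abs_of_nonpos hb]
      have : a * a - b * -b = a ^ 2 + b ^ 2 := by ring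
      rw [this, abs_of_nonneg (by positivity)]
      nlinarith [sq_nonneg (a + b)]
    · rw [abs_of_nonpos ha, abs_of_nonneg hb]
      have : a * -a - b * b = -(a ^ 2 + b ^ 2) := by ring
      rw [this, abs_neg, abs_of_nonneg (by positivity)]
      nlinarith [sq_nonneg (a + b)]
    · rw [abs_of_nonpos ha, abs_of_nonpos hb]
      have : a * -a - b * -b = (a - b) * (-a + -b) := by ring
      rw [this, abs_mul, abs_of_nonneg (show 0 ≤ -a + -b by linarith)]
      have h3 : |a - b| ≤ -a + -b := by
        rw [abs_le]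
        constructor <;> linarith
      have h4 := sq_abs (a - b)
      nlinarith [abs_nonneg (a - b)]
  -- the left side
  have hL : E ≤ ∑ x, ∑ y, npi cond x * npi cond y * |g x - g y| := by
    have h2 := nVar_pairs hdeg u
    rw [hEv] at h2
    have h3 : ∑ x, ∑ y, npi cond x * npi cond y * ((u x - u y) ^ 2 / 2)
        ≤ ∑ x, ∑ y, npi cond x * npi cond y * |g x - g y| := by
      refine Finset.sum_le_sum fun x _ => Finset.sum_le_sum fun y _ => ?_
      exact mul_le_mul_of_nonneg_left (hg2 _ _) (mul_nonneg (hpi x).le (hpi y).le)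
    have h4 : ∑ x, ∑ y, npi cond x * npi cond y * ((u x - u y) ^ 2 / 2) = E := by
      have : ∀ x y, npi cond x * npi cond y * ((u x - u y) ^ 2 / 2)
          = (npi cond x * npi cond y * (u x - u y) ^ 2) / 2 := fun x y => by ring
      simp_rw [this]
      simp_rw [← Finset.sum_div]
      rw [h2]
      ring
    linarith
  -- the right side, by Cauchy-Schwarz
  have hR : (∑ x, ∑ y, cond x y * |g x - g y|) ^ 2 ≤ (2 * nZ cond * D) * (4 * nZ cond * E) := by
    have h2 : ∑ x, ∑ y, cond x y * |g x - g y|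
        ≤ ∑ p : V × V, (Real.sqrt (cond p.1 p.2) * |u p.1 - u p.2|)
            * (Real.sqrt (cond p.1 p.2) * (|u p.1| + |u p.2|)) := by
      rw [Fintype.sum_prod_type]
      refine Finset.sum_le_sum fun x _ => Finset.sum_le_sum fun y _ => ?_
      have h3 := hg1 (u x) (u y)
      have h4 := Real.mul_self_sqrt (hnn x y)
      calc cond x y * |g x - g y| ≤ cond x y * (|u x - u y| * (|u x| + |u y|)) :=
            mul_le_mul_of_nonneg_left h3 (hnn x y)
        _ = (Real.sqrt (cond x y) * Real.sqrt (cond x y)) * (|u x - u y| * (|u x| + |u y|)) := by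
            rw [h4]
        _ = _ := by
            ring
    have h3 := Finset.sum_mul_sq_le_sq_mul_sq (Finset.univ : Finset (V × V))
      (fun p => Real.sqrt (cond p.1 p.2) * |u p.1 - u p.2|)
      (fun p => Real.sqrt (cond p.1 p.2) * (|u p.1| + |u p.2|))
    have h4 : ∑ p : V × V, (Real.sqrt (cond p.1 p.2) * |u p.1 - u p.2|) ^ 2 = 2 * nZ cond * D := by
      rw [Fintype.sum_prod_type, hD]
      unfold nDir
      have : ∀ x y, (Real.sqrt (cond x y) * |u x - u y|) ^ 2 = cond x y * (u x - u y) ^ 2 := by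
        intro x y
        rw [mul_pow, Real.sq_sqrt (hnn x y), sq_abs]
      simp only [this]
      field_simp
    have h5 : ∑ p : V × V, (Real.sqrt (cond p.1 p.2) * (|u p.1| + |u p.2|)) ^ 2
        ≤ 4 * nZ cond * E := by
      rw [Fintype.sum_prod_type]
      have e1 : ∀ x y, (Real.sqrt (cond x y) * (|u x| + |u y|)) ^ 2
          ≤ 2 * (cond x y * u x ^ 2) + 2 * (cond x y * u y ^ 2) := by
        intro x y
        rw [mul_pow, Real.sq_sqrt (hnn x y)]
        have h6 := hnn x y
        have h7 : (|u x| + |u y|) ^ 2 ≤ 2 * u x ^ 2 + 2 * u y ^ 2 := by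
          have := sq_abs (u x)
          have := sq_abs (u y)
          nlinarith [sq_nonneg (|u x| - |u y|)]
        nlinarith
      have e2 : ∑ x, ∑ y, cond x y * u x ^ 2 = nZ cond * E := by
        rw [hE, Finset.mul_sum]
        refine Finset.sum_congr rfl fun x _ => ?_
        rw [← Finset.sum_mul]
        have : ndeg cond x = nZ cond * npi cond x := by
          unfold npi
          field_simp
        change ndeg cond x * u x ^ 2 = _
        rw [this]
        ring
      have e3 : ∑ x, ∑ y, cond x y * u y ^ 2 = nZ cond * E := by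
        rw [Finset.sum_comm, ← e2]
        refine Finset.sum_congr rfl fun x _ => Finset.sum_congr rfl fun y _ => ?_
        rw [hsymm]
      calc _ ≤ ∑ x, ∑ y, (2 * (cond x y * u x ^ 2) + 2 * (cond x y * u y ^ 2)) :=
            Finset.sum_le_sum fun x _ => Finset.sum_le_sum fun y _ => e1 x y
        _ = 2 * ∑ x, ∑ y, cond x y * u x ^ 2 + 2 * ∑ x, ∑ y, cond x y * u y ^ 2 := by
            simp_rw [Finset.sum_add_distrib, Finset.mul_sum]
        _ = _ := by
            rw [e2, e3]
            ring
    have h6 : 0 ≤ ∑ x, ∑ y, cond x y * |g x - g y| :=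
      Finset.sum_nonneg fun x _ => Finset.sum_nonneg fun y _ =>
        mul_nonneg (hnn x y) (abs_nonneg _)
    calc (∑ x, ∑ y, cond x y * |g x - g y|) ^ 2
        ≤ (∑ p : V × V, (Real.sqrt (cond p.1 p.2) * |u p.1 - u p.2|)
            * (Real.sqrt (cond p.1 p.2) * (|u p.1| + |u p.2|))) ^ 2 :=
          pow_le_pow_left₀ h6 h2 2
      _ ≤ _ := h3
      _ ≤ _ := by
          rw [h4]
          exact mul_le_mul_of_nonneg_left h5 (by positivity)
  -- conclusion
  have h2 : Φ * E ≤ (∑ x, ∑ y, cond x y * |g x - g y|) / nZ cond :=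
    (mul_le_mul_of_nonneg_left hL hΦ.le).trans h1
  have h3 : (Φ * E) ^ 2 ≤ 8 * D * E := by
    have h4 : (Φ * E) ^ 2 ≤ ((∑ x, ∑ y, cond x y * |g x - g y|) / nZ cond) ^ 2 :=
      pow_le_pow_left₀ (by positivity) h2 2
    refine h4.trans ?_
    rw [div_pow, div_le_iff₀ (by positivity)]
    refine hR.trans (le_of_eq ?_)
    ring
  rw [hEv]
  by_cases hE1 : E = 0
  · rw [hE1]
    positivity
  have hE2 : 0 < E := lt_of_le_of_ne hE0 (Ne.symm hE1)
  rw [div_mul_eq_mul_div, le_div_iff₀ (by positivity)]
  have : E * (Φ ^ 2 * E) ≤ E * (8 * D) := by nlinarith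
  nlinarith [le_of_mul_le_mul_left this hE2]

end Poincare

end Vale.Agent.Lib.P328.Samp
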