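import Vale.Agent.Lib.P328.Fpras.Defs

/-!
# P328: an explicit randomized algorithm, definitions

Real number model: arithmetic, square root, exponential, logarithm, comparisons, uniform real draws
and binomial draws are the primitive steps.

* `ellBest`: the central cut ellipsoid method, used for the capacity (`betaHat`, `logCapHat`).
* `tMap`: explicit linear coordinates `y ↦ t` on the space of matrices.
* `psiHat`: a regularised version of `Σ t - log capa t` in these coordinates.
* `gridP`: a Metropolis chain on the cubes of a grid, which samples from `exp (-a * psiHat)`.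
* `trialHat`, `trialI`, `downQ`, `walkQ`: one step of the walk on the tree of partial tables.
* `annealEst`: the estimate of the root value by annealing.
-/

namespace Vale.Agent.Lib.P328.Samp

open Finset MeasureTheory Vale.Agent.Lib.P328.Cap Vale.Agent.Lib.P328.Fpras
open scoped ENNReal

variable {m n : ℕ}

/-! ### The ellipsoid method -/

/-- The ellipsoid `{a + W v : v ⬝ᵥ v ≤ 1}`. -/
structure Ell (n : ℕ) where
  /-- the centre -/
  a : Fin n → ℝ
  /-- the factor -/
  W : Matrix (Fin n) (Fin n) ℝ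

/-- The ellipsoid containing the half of `S` on the side of the centre where `g ⬝ᵥ (x - a) ≤ 0`. -/
noncomputable def Ell.cut (S : Ell n) (g : Fin n → ℝ) : Ell n :=
  if S.W.transpose.mulVec g = 0 then S else
    let h := S.W.transpose.mulVec g
    let u := (Real.sqrt (h ⬝ᵥ h))⁻¹ • h
    let d : ℝ := (n : ℝ) + 1
    let s1 : ℝ := d / Real.sqrt (d ^ 2 - 1)
    let s2 : ℝ := d / (d + 1)
    { a := S.a - (d + 1)⁻¹ • S.W.mulVec u
      W := S.W * (s1 • (1 : Matrix (Fin n) (Fin n) ℝ) + (s2 - s1) • Matrix.vecMulVec u u) }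

/-- The ellipsoids of the method, from the ball of radius `R0` around zero, with gradient `gr`. -/
noncomputable def ellSeq (gr : (Fin n → ℝ) → Fin n → ℝ) (R0 : ℝ) : ℕ → Ell n
  | 0 => ⟨0, R0 • (1 : Matrix (Fin n) (Fin n) ℝ)⟩
  | k + 1 => (ellSeq gr R0 k).cut (gr (ellSeq gr R0 k).a)

/-- The best of the first `k + 1` centres for the function `f`. -/
noncomputable def ellBest (f : (Fin n → ℝ) → ℝ) (gr : (Fin n → ℝ) → Fin n → ℝ) (R0 : ℝ) :
    ℕ → Fin n → ℝ
  | 0 => 0
  | k + 1 =>
    if f (ellSeq gr R0 (k + 1)).a < f (ellBest f gr R0 k) then (ellSeq gr R0 (k + 1)).a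
    else ellBest f gr R0 k

/-! ### The capacity -/

/-- The logarithm of `Phi r c t (exp β)`. -/
noncomputable def capG (r : Fin m → ℕ) (c : Fin n → ℕ) (t : Fin n → Fin m → ℝ) (β : Fin n → ℝ) : ℝ :=
  ∑ i, (r i : ℝ) * Real.log (∑ j, t j i * Real.exp (β j)) - ∑ j, (c j : ℝ) * β j

/-- The gradient of `capG` in `β`. -/
noncomputable def capGrad (r : Fin m → ℕ) (c : Fin n → ℕ) (t : Fin n → Fin m → ℝ) (β : Fin n → ℝ)
    (j : Fin n) : ℝ :=
  ∑ i, (r i : ℝ) * (t j i * Real.exp (β j) / ∑ l, t l i * Real.exp (β l)) - (c j : ℝ)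

/-- The radius of the first ball of the ellipsoid method, `Nb` is a bound for the total. -/
noncomputable def ellRad (n W Nb : ℕ) : ℝ := ((n : ℝ) + 1) * (2 * Real.log ((Nb : ℝ) + 2) + W + 1)

/-- The number of steps of the ellipsoid method. -/
noncomputable def ellIters (W Nb : ℕ) : ℕ := ⌈(W : ℝ) ^ 2 * (Real.log ((Nb : ℝ) + 2) + W)⌉₊

/-- The point found by the ellipsoid method. -/
noncomputable def betaHat (W Nb : ℕ) (r : Fin m → ℕ) (c : Fin n → ℕ) (t : Fin n → Fin m → ℝ) :
    Fin n → ℝ :=
  ellBest (capG r c t) (capGrad r c t) (ellRad n W Nb) (ellIters W Nb)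

/-- The computed value of the logarithm of the capacity. -/
noncomputable def logCapHat (W Nb : ℕ) (r : Fin m → ℕ) (c : Fin n → ℕ) (t : Fin n → Fin m → ℝ) : ℝ :=
  capG r c t (betaHat W Nb r c t)

/-- The smallest value of `Σ t - log capa t`. -/
noncomputable def phiMin (r : Fin m → ℕ) : ℝ := ∑ i, ((r i : ℝ) - (r i : ℝ) * Real.log (r i))

/-- The computed value of `Σ t - log capa t - phiMin r`. -/
noncomputable def phiHat (W Nb : ℕ) (r : Fin m → ℕ) (c : Fin n → ℕ) (t : Fin n → Fin m → ℝ) : ℝ :=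
  ∑ j, ∑ i, t j i - logCapHat W Nb r c t - phiMin r

/-! ### The coordinates -/

/-- The first index with a given property. -/
noncomputable def firstIdx {k : ℕ} (p : Fin k → Prop) (h : ∃ i, p i) : Fin k :=
  open Classical in
  (univ.filter p).min' (by
    obtain ⟨i, hi⟩ := h
    exact ⟨i, by simp [hi]⟩)

theorem firstIdx_spec {k : ℕ} (p : Fin k → Prop) (h : ∃ i, p i) : p (firstIdx p h) := by
  classical
  have := Finset.min'_mem (univ.filter p) (by
    obtain ⟨i, hi⟩ := h
    exact ⟨i, by simp [hi]⟩)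
  exact (Finset.mem_filter.1 this).2

/-- There is a largest entry. -/
theorem exists_largest {k : ℕ} (hk : 0 < k) (r : Fin k → ℕ) : ∃ i, ∀ i', r i' ≤ r i := by
  obtain ⟨i, -, hi⟩ := Finset.exists_max_image univ r ⟨⟨0, hk⟩, mem_univ _⟩
  exact ⟨i, fun i' => hi i' (mem_univ _)⟩

/-- The first row with the largest sum. -/
noncomputable def iMax (hm : 0 < m) (r : Fin m → ℕ) : Fin m :=
  firstIdx (fun i => ∀ i', r i' ≤ r i) (exists_largest hm r)

/-- The first column with the largest sum. -/
noncomputable def jMax (hn : 0 < n) (c : Fin n → ℕ) : Fin n :=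
  firstIdx (fun j => ∀ j', c j' ≤ c j) (exists_largest hn c)

theorem iMax_spec (hm : 0 < m) (r : Fin m → ℕ) (i : Fin m) : r i ≤ r (iMax hm r) :=
  firstIdx_spec (fun i => ∀ i', r i' ≤ r i) (exists_largest hm r) i

theorem jMax_spec (hn : 0 < n) (c : Fin n → ℕ) (j : Fin n) : c j ≤ c (jMax hn c) :=
  firstIdx_spec (fun j => ∀ j', c j' ≤ c j) (exists_largest hn c) j

/-- A table with real entries with margins `r, c` and with the entry `min (r i') (c j')` at `(j', i')`. -/
noncomputable def cornerTab (r : Fin m → ℕ) (c : Fin n → ℕ) (j' : Fin n) (i' : Fin m) (j : Fin n)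
    (i : Fin m) : ℝ :=
  let u : ℝ := min (r i' : ℝ) (c j')
  (if j = j' ∧ i = i' then u else 0)
    + ((r i : ℝ) - if i = i' then u else 0) * ((c j : ℝ) - if j = j' then u else 0)
      / ((∑ l, (r l : ℝ)) - u)

/-- The centre: the average of the tables `cornerTab`. -/
noncomputable def centreTab (r : Fin m → ℕ) (c : Fin n → ℕ) (j : Fin n) (i : Fin m) : ℝ :=
  (∑ j', ∑ i', cornerTab r c j' i' j i) / ((n : ℝ) * m)

/-- The scale of the coordinates which are row sums and column sums. -/
noncomputable def scS (m n x : ℕ) : ℝ := (1 + Real.sqrt x) / (16 * ((n : ℝ) * m) ^ 2)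

/-- The scale of the free coordinates. -/
noncomputable def scF (r : Fin m → ℕ) (c : Fin n → ℕ) (j : Fin n) (i : Fin m) : ℝ :=
  (min (r i : ℝ) (c j) + 1) / (2 * ((n : ℝ) * m) ^ 2)

/-- The entries of the matrix in terms of the free coordinates. -/
noncomputable def tFree (r : Fin m → ℕ) (c : Fin n → ℕ) (y : Fin n × Fin m → ℝ) (j : Fin n)
    (i : Fin m) : ℝ :=
  centreTab r c j i + 1 + scF r c j i * y (j, i)

/-- The entries of the row `i0`, outside the column `j0`. -/
noncomputable def tCol (i0 : Fin m) (r : Fin m → ℕ) (c : Fin n → ℕ) (y : Fin n × Fin m → ℝ)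
    (j : Fin n) : ℝ :=
  (c j : ℝ) + m + scS m n (c j) * y (j, i0) - ∑ i' ∈ univ.erase i0, tFree r c y j i'

/-- The matrix with coordinates `y`: `y (j, i)` is a free entry if `j ≠ j0` and `i ≠ i0`,
`y (j, i0)` is the sum of the column `j` for `j ≠ j0`, and `y (j0, i)` is the sum of the row `i`,
each shifted and scaled. -/
noncomputable def tMap (i0 : Fin m) (j0 : Fin n) (r : Fin m → ℕ) (c : Fin n → ℕ)
    (y : Fin n × Fin m → ℝ) : Fin n → Fin m → ℝ := fun j i =>
  if j = j0 then
    if i = i0 then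
      (r i0 : ℝ) + n + scS m n (r i0) * y (j0, i0) - ∑ j' ∈ univ.erase j0, tCol i0 r c y j'
    else
      (r i : ℝ) + n + scS m n (r i) * y (j0, i) - ∑ j' ∈ univ.erase j0, tFree r c y j' i
  else
    if i = i0 then tCol i0 r c y j else tFree r c y j i

/-- The volume factor of `tMap`. -/
noncomputable def detT (i0 : Fin m) (j0 : Fin n) (r : Fin m → ℕ) (c : Fin n → ℕ) : ℝ :=
  (∏ j ∈ univ.erase j0, ∏ i ∈ univ.erase i0, scF r c j i)
    * (∏ j ∈ univ.erase j0, scS m n (c j)) * ∏ i, scS m n (r i)

/-! ### The regularised potential -/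

/-- The matrices with an entry below this bound are rejected. -/
noncomputable def cutK (W : ℕ) : ℝ := 1 / (W : ℝ) ^ 26

/-- The value at the point `y / s`, with `s = 1 + k / W ^ 53`, in the minimum that defines `psiHat`. -/
noncomputable def psiVal (W Nb : ℕ) (i0 : Fin m) (j0 : Fin n) (r : Fin m → ℕ) (c : Fin n → ℕ)
    (y : Fin n × Fin m → ℝ) (k : ℕ) : ℝ :=
  open Classical in
  let s : ℝ := 1 + (k : ℝ) / (W : ℝ) ^ 53
  let t := tMap i0 j0 r c (s⁻¹ • y)
  if ∀ j i, cutK W ≤ t j i then s * phiHat W Nb r c t + (W : ℝ) ^ 27 * (s - 1) else (W : ℝ) ^ 32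

/-- The computed regularised potential at `y`. -/
noncomputable def psiHat (W Nb : ℕ) (i0 : Fin m) (j0 : Fin n) (r : Fin m → ℕ) (c : Fin n → ℕ)
    (y : Fin n × Fin m → ℝ) : ℝ :=
  (range (8 * W ^ 57 + 1)).inf' ⟨0, by simp⟩ (psiVal W Nb i0 j0 r c y)

/-! ### The grid and the chain -/

section Grid

variable {ι : Type} [Fintype ι] [DecidableEq ι]

/-- The probability of a move in one coordinate. -/
noncomputable def propStep (p : ℝ) {M : ℕ} (a b : Fin M) : ℝ :=
  if a = b then 1 - 2 * p else if (a : ℕ) + 1 = b ∨ (b : ℕ) + 1 = a then p else 0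

/-- The proposal: each coordinate moves independently. -/
noncomputable def prop (p : ℝ) {M : ℕ} (z z' : ι → Fin M) : ℝ := ∏ i, propStep p (z i) (z' i)

/-- The Metropolis chain with weights `w`: stay with probability one half, else propose `z'` by `prop`
and accept with probability `min 1 (w z' / w z)`. -/
noncomputable def gridP (p : ℝ) {M : ℕ} (w : (ι → Fin M) → ℝ) :
    Matrix (ι → Fin M) (ι → Fin M) ℝ := fun z z' =>
  if z = z' then 1 - ∑ z'' ∈ univ.erase z, (1 / 2) * prop p z z'' * min 1 (w z'' / w z)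
  else (1 / 2) * prop p z z' * min 1 (w z' / w z)

end Grid

/-- The number of cubes along each axis. -/
def cellM (W : ℕ) : ℕ := 4 * W ^ 56 + 1

/-- The half side of the big cube. -/
noncomputable def rQ (W : ℕ) : ℝ := 2 * (W : ℝ) ^ 4

/-- The side of a small cube. -/
noncomputable def cellD (W : ℕ) : ℝ := 2 * rQ W / (cellM W : ℝ)

/-- The point `u` of the unit cube, placed in the small cube `z`. -/
noncomputable def cellPt {ι : Type} (W : ℕ) (z : ι → Fin (cellM W)) (u : ι → ℝ) (i : ι) : ℝ :=
  -rQ W + cellD W * ((z i : ℝ) + u i)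

/-- The cube where the chain starts. -/
def zStart (ι : Type) (W : ℕ) : ι → Fin (cellM W) := fun _ => ⟨0, Nat.succ_pos _⟩

/-- The number of steps of the chain. -/
def chainT (W : ℕ) : ℕ := W ^ 150

/-- The value of `psiHat` at the centre of a cube. -/
noncomputable def psiCell (W Nb : ℕ) (i0 : Fin m) (j0 : Fin n) (r : Fin m → ℕ) (c : Fin n → ℕ)
    (z : Fin n × Fin m → Fin (cellM W)) : ℝ :=
  psiHat W Nb i0 j0 r c (cellPt W z fun _ => 1 / 2)

/-- The law after `chainT W` steps of the chain with weights `exp (-a * psiCell)`. -/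
noncomputable def chainLaw (W Nb : ℕ) (i0 : Fin m) (j0 : Fin n) (r : Fin m → ℕ) (c : Fin n → ℕ)
    (a : ℝ) (z : Fin n × Fin m → Fin (cellM W)) : ℝ :=
  (gridP (1 / (4 * ((n : ℝ) * m))) (fun z' => Real.exp (-a * psiCell W Nb i0 j0 r c z'))
    ^ chainT W) (zStart _ W) z

/-! ### One step of the walk on the tree -/

/-- The computed version of `uval`. -/
noncomputable def uvalHat (W Nb : ℕ) (r : Fin m → ℕ) (c' : Fin n → ℕ) (t : Fin (n + 1) → Fin m → ℝ)
    (x : Fin m → ℕ) : ℝ :=
  (∏ i, ((r i).choose (x i) : ℝ) * t 0 i ^ x i)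
    * Real.exp (logCapHat W Nb (fun i => r i - x i) c' fun l => t l.succ)

open Classical in
/-- The probability, given the matrix `t`, that a trial returns the first column `x`: if `t` has an
entry below `cutK W` the trial fails. Else compute `b` by the ellipsoid method. If a row `i` with
variance at least `V0` exists: all other rows are drawn from their binomial laws, `x i` is what the
column sum leaves, and two coins are tossed, with probabilities `K * bw (r i) (rowP t b i) (x i)` and
`uvalHat / (2 * exp logCapHat * wt)`, both truncated at one. Otherwise the trial fails. The row `i` is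
the first one with variance at least `V0`. -/
noncomputable def trialHat (W Nb : ℕ) (P : Par) (r : Fin m → ℕ) (c0 : ℕ) (c' : Fin n → ℕ)
    (t : Fin (n + 1) → Fin m → ℝ) (x : Fin m → ℕ) : ℝ :=
  if ∀ j i, cutK W ≤ t j i then
    let c := (Fin.cons c0 c' : Fin (n + 1) → ℕ)
    let b : Fin (n + 1) → ℝ := fun j => Real.exp (betaHat W Nb r c t j)
    if h : ∃ i, P.V0 m n c0 ≤ rowV r t b i then
      (∏ j ∈ univ.erase (firstIdx _ h), bw (r j) (rowP t b j) (x j))
        * min 1 (P.K m n c0 * bw (r (firstIdx _ h)) (rowP t b (firstIdx _ h)) (x (firstIdx _ h)))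
        * min 1 (uvalHat W Nb r c' t x
            / (2 * Real.exp (logCapHat W Nb r c t) * wt r (rowP t b) x))
    else 0
  else 0

/-- The probability that a trial at the node returns `x`: the chain runs for `chainT W` steps, a point
`u` of the unit cube is drawn uniformly, and the trial is carried out for the matrix at the point
`u` of the cube `z` where the chain stopped. -/
noncomputable def trialI (W : ℕ) (hm : 0 < m) (P : Par) (r : Fin m → ℕ) (c0 : ℕ) (c' : Fin n → ℕ)
    (x : Fin m → ℕ) : ℝ :=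
  let c := (Fin.cons c0 c' : Fin (n + 1) → ℕ)
  let i0 := iMax hm r
  let j0 := jMax (Nat.succ_pos n) c
  let Nb := ∑ i, r i
  ∑ z, chainLaw W Nb i0 j0 r c 1 z
    * (∫⁻ u in Set.Icc (0 : Fin (n + 1) × Fin m → ℝ) 1,
        ENNReal.ofReal (trialHat W Nb P r c0 c' (tMap i0 j0 r c (cellPt W z u)) x)).toReal

/-- The probability of moving to the child `x :: v`. -/
noncomputable def downQ (W : ℕ) (hm : 0 < m) (P : Par) (r : Fin m → ℕ) (c : List ℕ)
    (v : List (Fin m → ℕ)) (x : Fin m → ℕ) : ℝ :=
  match c.drop v.length with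
  | [] => 0
  | c0 :: l => (1 / 8) * trialI W hm P (res r v) c0 l.get x

/-- The transition matrix of the algorithm. -/
noncomputable def walkQ (W : ℕ) (hm : 0 < m) (P : Par) (r : Fin m → ℕ) (c : List ℕ) :
    List (Fin m → ℕ) → List (Fin m → ℕ) → ℝ :=
  walk (kids r c) (downQ W hm P r c) (upAt P r c)

/-! ### The estimate at the root -/

/-- The number of levels of the annealing. -/
def annealK (W : ℕ) : ℕ := W ^ 34

/-- The number of samples at each level. -/
noncomputable def annealS (W : ℕ) (δ : ℝ) : ℕ := ⌈(W : ℝ) ^ 74 * (Real.log (4 / δ) + W)⌉₊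

/-- The sample space of the annealing. -/
abbrev Anneal (n m W K S : ℕ) : Type := Fin K → Fin S → (Fin n × Fin m → Fin (cellM W))

/-- The law of the samples: independent runs of the chain, at the level `k / annealK W` for the `k`-th
group. -/
noncomputable def annealLaw (W Nb : ℕ) (i0 : Fin m) (j0 : Fin n) (r : Fin m → ℕ) (c : Fin n → ℕ)
    (S : ℕ) (ω : Anneal n m W (annealK W) S) : ℝ :=
  ∏ k : Fin (annealK W), ∏ s, chainLaw W Nb i0 j0 r c (((k : ℕ) : ℝ) / (annealK W : ℝ)) (ω k s)

/-- The estimate of the sum of `exp (-psiCell)` over all cubes. -/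
noncomputable def annealSum (W Nb : ℕ) (i0 : Fin m) (j0 : Fin n) (r : Fin m → ℕ) (c : Fin n → ℕ)
    (S : ℕ) (ω : Anneal n m W (annealK W) S) : ℝ :=
  (cellM W : ℝ) ^ (n * m) * ∏ k, ((S : ℝ)⁻¹ * ∑ s,
    Real.exp (-(psiCell W Nb i0 j0 r c (ω k s)) / (annealK W : ℝ)))

/-- The estimate of `Aval r c`. -/
noncomputable def annealEst (W Nb : ℕ) (i0 : Fin m) (j0 : Fin n) (r : Fin m → ℕ) (c : Fin n → ℕ)
    (S : ℕ) (ω : Anneal n m W (annealK W) S) : ℝ :=
  betaC c * Real.exp (-phiMin r) * detT i0 j0 r c * cellD W ^ (n * m)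
    * annealSum W Nb i0 j0 r c S ω / (∏ i, (Nat.factorial (r i) : ℝ))

end Vale.Agent.Lib.P328.Samp
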