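import Vale.Agent.Lib.P328.Samp.Defs

/-!
# P328, explicit algorithm: the central cut ellipsoid method (module E1)

Paper proof. Write `E(S) = {S.a + S.W v : v ⬝ᵥ v ≤ 1}`.
(1) Containment. `h = Wᵀ g ≠ 0`, `u = h / |h|`, `d = n + 1`, `s1 = d / sqrt (d^2 - 1)`, `s2 = d / (d + 1)`,
`A = s1 • 1 + (s2 - s1) • u uᵀ`. If `x = a + W v`, `|v| ≤ 1`, `g ⬝ᵥ (x - a) ≤ 0`, i.e. `ξ := u ⬝ᵥ v ∈ [-1, 0]`:
put `v' = (v - ξ u) / s1 + (ξ + 1 / (d + 1)) u / s2`. Then `a' + W' v' = x` and `|v'|² ≤ 1`.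
(2) Volume. `det A = s1 ^ (n - 1) * s2 ≤ exp (-1 / (2 (n + 2)))`.
(3) `volume E(S) ≤ |det W| * 2 ^ n`.
(4) Suppose `v < f (ellBest k)` for `k = I`: then all cuts are proper and keep the cube `G`, against `hI`.
-/

namespace Vale.Agent.Lib.P328.Samp

open Finset MeasureTheory
open scoped Matrix

variable {n : ℕ}

/-- Membership in the ellipsoid. -/
def Ell.Mem (S : Ell n) (x : Fin n → ℝ) : Prop :=
  ∃ v : Fin n → ℝ, v ⬝ᵥ v ≤ 1 ∧ x = S.a + S.W.mulVec v

private lemma dot_W (W : Matrix (Fin n) (Fin n) ℝ) (g v : Fin n → ℝ) :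
    g ⬝ᵥ W.mulVec v = W.transpose.mulVec g ⬝ᵥ v := by
  rw [Matrix.mulVec_transpose, Matrix.dotProduct_mulVec]

private lemma s1_facts (hd : (2 : ℝ) ≤ (n : ℝ) + 1) :
    let d : ℝ := (n : ℝ) + 1
    let s1 : ℝ := d / Real.sqrt (d ^ 2 - 1)
    0 < s1 ∧ s1 ^ 2 * (d ^ 2 - 1) = d ^ 2 := by
  intro d s1
  have hd' : (2 : ℝ) ≤ d := hd
  have h1 : 0 < d ^ 2 - 1 := by nlinarith
  have h2 : 0 < Real.sqrt (d ^ 2 - 1) := Real.sqrt_pos.mpr h1
  have h3 : Real.sqrt (d ^ 2 - 1) ^ 2 = d ^ 2 - 1 := Real.sq_sqrt h1.le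
  refine ⟨div_pos (by linarith) h2, ?_⟩
  change (d / Real.sqrt (d ^ 2 - 1)) ^ 2 * (d ^ 2 - 1) = d ^ 2
  rw [div_pow, h3]
  field_simp

private lemma cut_alg {u v : Fin n → ℝ} (huu : u ⬝ᵥ u = 1) (hv : v ⬝ᵥ v ≤ 1) (hξ0 : u ⬝ᵥ v ≤ 0)
    {d s1 s2 : ℝ} (hd : 2 ≤ d) (hs1 : 0 < s1) (hs1sq : s1 ^ 2 * (d ^ 2 - 1) = d ^ 2)
    (hs2d : s2 * (d + 1) = d) :
    ∃ v' : Fin n → ℝ, v' ⬝ᵥ v' ≤ 1 ∧
      (s1 • (1 : Matrix (Fin n) (Fin n) ℝ) + (s2 - s1) • Matrix.vecMulVec u u).mulVec v'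
        = v + (d + 1)⁻¹ • u := by
  have hdpos : 0 < d := by linarith
  have hd1 : 0 < d + 1 := by linarith
  have hs2 : 0 < s2 := by
    have : 0 < s2 * (d + 1) := by rw [hs2d]; exact hdpos
    exact (pos_iff_pos_of_mul_pos this).mpr hd1
  obtain ⟨ξ, hξ⟩ : ∃ ξ, ξ = u ⬝ᵥ v := ⟨_, rfl⟩
  rw [← hξ] at hξ0
  obtain ⟨w, hw⟩ : ∃ w, w = v - ξ • u := ⟨_, rfl⟩
  have hwu : w ⬝ᵥ u = 0 := by
    rw [hw, sub_dotProduct, smul_dotProduct, huu, smul_eq_mul, mul_one, dotProduct_comm v u, ← hξ]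
    ring
  have hww : w ⬝ᵥ w = v ⬝ᵥ v - ξ ^ 2 := by
    have h1 : w ⬝ᵥ w = w ⬝ᵥ v - ξ * (w ⬝ᵥ u) := by
      calc w ⬝ᵥ w = w ⬝ᵥ (v - ξ • u) := by rw [← hw]
        _ = w ⬝ᵥ v - ξ * (w ⬝ᵥ u) := by rw [dotProduct_sub, dotProduct_smul, smul_eq_mul]
    rw [h1, hwu, hw, sub_dotProduct, smul_dotProduct, smul_eq_mul, ← hξ]
    ring
  have hww0 : 0 ≤ w ⬝ᵥ w := by
    have : 0 ≤ ∑ i, w i * w i := Finset.sum_nonneg fun i _ => mul_self_nonneg _
    exact this
  have hξ1 : ξ ^ 2 ≤ 1 := by nlinarith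
  have hξ1' : -1 ≤ ξ := by nlinarith
  obtain ⟨c, hc⟩ : ∃ c, c = s2⁻¹ * (ξ + (d + 1)⁻¹) := ⟨_, rfl⟩
  refine ⟨s1⁻¹ • w + c • u, ?_, ?_⟩
  · have hv'v' : (s1⁻¹ • w + c • u) ⬝ᵥ (s1⁻¹ • w + c • u)
        = (s1⁻¹) ^ 2 * (v ⬝ᵥ v - ξ ^ 2) + c ^ 2 := by
      simp only [add_dotProduct, dotProduct_add, smul_dotProduct, dotProduct_smul, smul_eq_mul, huu,
        hwu, dotProduct_comm u w, hww]
      ring
    rw [hv'v']
    have hs1ne : s1 ≠ 0 := hs1.ne'
    have hs2ne : s2 ≠ 0 := hs2.ne'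
    have hd1ne : d + 1 ≠ 0 := hd1.ne'
    have hs1inv : (s1⁻¹) ^ 2 * d ^ 2 = d ^ 2 - 1 := by
      calc (s1⁻¹) ^ 2 * d ^ 2 = (s1⁻¹) ^ 2 * (s1 ^ 2 * (d ^ 2 - 1)) := by rw [hs1sq]
        _ = d ^ 2 - 1 := by field_simp
    have hcd : c * d = (d + 1) * ξ + 1 := by
      have h1 : c * s2 = ξ + (d + 1)⁻¹ := by
        rw [hc]; field_simp
      have h2 : c * d = c * s2 * (d + 1) := by
        rw [mul_assoc, hs2d]
      rw [h2, h1]
      field_simp
    have hd2pos : 0 < d ^ 2 := by positivity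
    have hs1inv0 : 0 ≤ (s1⁻¹) ^ 2 := by positivity
    have key : ((s1⁻¹) ^ 2 * (v ⬝ᵥ v - ξ ^ 2) + c ^ 2) * d ^ 2 ≤ 1 * d ^ 2 := by
      have h1 : (s1⁻¹) ^ 2 * (v ⬝ᵥ v - ξ ^ 2) ≤ (s1⁻¹) ^ 2 * (1 - ξ ^ 2) :=
        mul_le_mul_of_nonneg_left (by linarith) hs1inv0
      have h2 : ((s1⁻¹) ^ 2 * (v ⬝ᵥ v - ξ ^ 2)) * d ^ 2 ≤ ((s1⁻¹) ^ 2 * (1 - ξ ^ 2)) * d ^ 2 :=
        mul_le_mul_of_nonneg_right h1 hd2pos.le
      have h3 : ((s1⁻¹) ^ 2 * (1 - ξ ^ 2)) * d ^ 2 = (d ^ 2 - 1) * (1 - ξ ^ 2) := by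
        rw [← hs1inv]; ring
      have h4 : c ^ 2 * d ^ 2 = ((d + 1) * ξ + 1) ^ 2 := by
        rw [← hcd]; ring
      have h5 : ξ * (ξ + 1) ≤ 0 := mul_nonpos_of_nonpos_of_nonneg hξ0 (by linarith)
      have h6 : (d ^ 2 - 1) * (1 - ξ ^ 2) + ((d + 1) * ξ + 1) ^ 2
          = d ^ 2 + 2 * (d + 1) * (ξ * (ξ + 1)) := by ring
      have h7 : 2 * (d + 1) * (ξ * (ξ + 1)) ≤ 0 :=
        mul_nonpos_of_nonneg_of_nonpos (by linarith) h5
      calc ((s1⁻¹) ^ 2 * (v ⬝ᵥ v - ξ ^ 2) + c ^ 2) * d ^ 2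
          = ((s1⁻¹) ^ 2 * (v ⬝ᵥ v - ξ ^ 2)) * d ^ 2 + c ^ 2 * d ^ 2 := by ring
        _ ≤ (d ^ 2 - 1) * (1 - ξ ^ 2) + ((d + 1) * ξ + 1) ^ 2 := by rw [h4, ← h3]; linarith
        _ ≤ 1 * d ^ 2 := by rw [h6]; linarith
    exact le_of_mul_le_mul_right key hd2pos
  · have huv' : u ⬝ᵥ (s1⁻¹ • w + c • u) = c := by
      rw [dotProduct_add, dotProduct_smul, dotProduct_smul, dotProduct_comm u w, hwu, huu]
      simp
    rw [Matrix.add_mulVec, Matrix.smul_mulVec, Matrix.smul_mulVec, Matrix.one_mulVec,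
      Matrix.vecMulVec_mulVec, huv']
    have hs1ne : s1 ≠ 0 := hs1.ne'
    have hs2ne : s2 ≠ 0 := hs2.ne'
    ext i
    simp only [Pi.add_apply, Pi.smul_apply, smul_eq_mul, hw, Pi.sub_apply, hc,
      MulOpposite.smul_eq_mul_unop, MulOpposite.unop_op]
    field_simp
    ring

/-- The cut keeps the points of the half ellipsoid. -/
theorem Ell.mem_cut {S : Ell n} {g x : Fin n → ℝ} (hW : S.W.transpose.mulVec g ≠ 0)
    (hx : S.Mem x) (hg : g ⬝ᵥ (x - S.a) ≤ 0) : (S.cut g).Mem x := by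
  obtain ⟨v, hv, rfl⟩ := hx
  have hn : 1 ≤ n := by
    rcases Nat.eq_zero_or_pos n with h0 | h0
    · subst h0
      exact absurd (funext fun i => i.elim0) hW
    · exact h0
  have hn' : (1 : ℝ) ≤ (n : ℝ) := by exact_mod_cast hn
  have hd2 : (2 : ℝ) ≤ (n : ℝ) + 1 := by linarith
  obtain ⟨hs1, hs1sq⟩ := s1_facts hd2
  have hhh : 0 < S.W.transpose.mulVec g ⬝ᵥ S.W.transpose.mulVec g := by
    obtain ⟨i, hi⟩ : ∃ i, S.W.transpose.mulVec g i ≠ 0 := by
      by_contra hc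
      push Not at hc
      exact hW (funext hc)
    have h0 := mul_self_pos.mpr hi
    calc 0 < S.W.transpose.mulVec g i * S.W.transpose.mulVec g i := h0
      _ ≤ ∑ j, S.W.transpose.mulVec g j * S.W.transpose.mulVec g j :=
        Finset.single_le_sum (f := fun j => S.W.transpose.mulVec g j * S.W.transpose.mulVec g j)
          (fun j _ => mul_self_nonneg _) (mem_univ i)
  have hNpos := Real.sqrt_pos.mpr hhh
  have hNsq := Real.mul_self_sqrt hhh.le
  have huu : ((Real.sqrt (S.W.transpose.mulVec g ⬝ᵥ S.W.transpose.mulVec g))⁻¹ •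
      S.W.transpose.mulVec g) ⬝ᵥ ((Real.sqrt (S.W.transpose.mulVec g ⬝ᵥ S.W.transpose.mulVec g))⁻¹ •
      S.W.transpose.mulVec g) = 1 := by
    rw [smul_dotProduct, dotProduct_smul]
    simp only [smul_eq_mul]
    rw [← mul_assoc, ← mul_inv, hNsq, inv_mul_cancel₀ hhh.ne']
  have hξ0 : ((Real.sqrt (S.W.transpose.mulVec g ⬝ᵥ S.W.transpose.mulVec g))⁻¹ •
      S.W.transpose.mulVec g) ⬝ᵥ v ≤ 0 := by
    have h1 : g ⬝ᵥ (S.a + S.W.mulVec v - S.a) = S.W.transpose.mulVec g ⬝ᵥ v := by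
      rw [add_sub_cancel_left, dot_W]
    rw [h1] at hg
    rw [smul_dotProduct, smul_eq_mul]
    exact mul_nonpos_of_nonneg_of_nonpos (inv_pos.mpr hNpos).le hg
  have hs2d : ((n : ℝ) + 1) / ((n : ℝ) + 1 + 1) * ((n : ℝ) + 1 + 1) = (n : ℝ) + 1 := by
    have : (n : ℝ) + 1 + 1 ≠ 0 := by linarith
    field_simp
  obtain ⟨v', hv', hA⟩ := cut_alg huu hv hξ0 hd2 hs1 hs1sq hs2d
  refine ⟨v', hv', ?_⟩
  unfold Ell.cut
  rw [if_neg hW]
  simp only
  rw [← Matrix.mulVec_mulVec, hA, Matrix.mulVec_add]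
  simp only [Matrix.mulVec_smul]
  abel

private lemma det_alg {u : Fin n → ℝ} (hn : 1 ≤ n) (huu : u ⬝ᵥ u = 1) {s1 s2 : ℝ} (hs1 : s1 ≠ 0) :
    (s1 • (1 : Matrix (Fin n) (Fin n) ℝ) + (s2 - s1) • Matrix.vecMulVec u u).det
      = s1 ^ (n - 1) * s2 := by
  have hAeq : s1 • (1 : Matrix (Fin n) (Fin n) ℝ) + (s2 - s1) • Matrix.vecMulVec u u
      = s1 • ((1 : Matrix (Fin n) (Fin n) ℝ)
          + Matrix.replicateCol Unit (((s2 - s1) / s1) • u) * Matrix.replicateRow Unit u) := by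
    rw [← Matrix.vecMulVec_eq, Matrix.smul_vecMulVec, smul_add, smul_smul]
    congr 2
    field_simp
  rw [hAeq, Matrix.det_smul, Matrix.det_one_add_replicateCol_mul_replicateRow, Fintype.card_fin,
    dotProduct_smul, huu]
  simp only [smul_eq_mul, mul_one]
  have h1 : 1 + (s2 - s1) / s1 = s2 / s1 := by field_simp; ring
  rw [h1]
  obtain ⟨k, rfl⟩ : ∃ k, n = k + 1 := ⟨n - 1, by omega⟩
  simp only [Nat.add_sub_cancel]
  rw [pow_succ]
  field_simp

private lemma num_bound {d s1 s2 : ℝ} {n : ℕ} (hn : 1 ≤ n) (hd : d = (n : ℝ) + 1) (hd2 : 2 ≤ d)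
    (hs1 : 0 < s1) (hs1sq : s1 ^ 2 * (d ^ 2 - 1) = d ^ 2) (hs2 : 0 < s2) (hs2d : s2 * (d + 1) = d) :
    s1 ^ (n - 1) * s2 ≤ Real.exp (-1 / (2 * ((n : ℝ) + 2))) := by
  have hd1 : d + 1 ≠ 0 := by linarith
  have hs2le : s2 ≤ Real.exp (-1 / (d + 1)) := by
    have h1 : s2 = -1 / (d + 1) + 1 := by
      have : s2 = d / (d + 1) := by field_simp; exact hs2d
      rw [this]; field_simp; ring
    rw [h1]
    exact Real.add_one_le_exp _
  have hdm : 0 < d ^ 2 - 1 := by nlinarith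
  have hs1sqle : s1 ^ 2 ≤ Real.exp (1 / (d ^ 2 - 1)) := by
    have h1 : s1 ^ 2 = 1 / (d ^ 2 - 1) + 1 := by
      field_simp
      linarith
    rw [h1]
    exact Real.add_one_le_exp _
  have hpow : (s1 ^ (n - 1)) ^ 2 ≤ Real.exp (1 / (d + 1)) := by
    calc (s1 ^ (n - 1)) ^ 2 = (s1 ^ 2) ^ (n - 1) := by ring
      _ ≤ (Real.exp (1 / (d ^ 2 - 1))) ^ (n - 1) :=
        pow_le_pow_left₀ (by positivity) hs1sqle _
      _ = Real.exp (((n - 1 : ℕ) : ℝ) * (1 / (d ^ 2 - 1))) := by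
        rw [Real.exp_nat_mul]
      _ ≤ Real.exp (1 / (d + 1)) := by
        apply Real.exp_le_exp.mpr
        have h1 : ((n - 1 : ℕ) : ℝ) = d - 2 := by
          rw [Nat.cast_sub hn, hd]; push_cast; ring
        rw [h1]
        have h2 : d ^ 2 - 1 = (d - 1) * (d + 1) := by ring
        rw [h2]
        have h3 : 0 < d - 1 := by linarith
        have h4 : 0 < d + 1 := by linarith
        rw [mul_one_div, div_le_div_iff₀ (mul_pos h3 h4) h4]
        nlinarith
  have hpow2 : s1 ^ (n - 1) ≤ Real.exp (1 / (2 * (d + 1))) := by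
    have h1 : (s1 ^ (n - 1)) ^ 2 ≤ (Real.exp (1 / (2 * (d + 1)))) ^ 2 := by
      rw [← Real.exp_nat_mul]
      calc (s1 ^ (n - 1)) ^ 2 ≤ Real.exp (1 / (d + 1)) := hpow
        _ = Real.exp (((2 : ℕ) : ℝ) * (1 / (2 * (d + 1)))) := by
          congr 1
          push_cast
          field_simp
    exact (abs_le_of_sq_le_sq' h1 (Real.exp_pos _).le).2
  have hfin : Real.exp (1 / (2 * (d + 1))) * Real.exp (-1 / (d + 1))
      = Real.exp (-1 / (2 * ((n : ℝ) + 2))) := by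
    rw [← Real.exp_add]
    congr 1
    have h1 : (n : ℝ) + 2 = d + 1 := by rw [hd]; ring
    rw [h1]
    field_simp
    ring
  rw [← hfin]
  exact mul_le_mul hpow2 hs2le hs2.le (Real.exp_pos _).le

/-- The factor of the determinant at one cut. -/
theorem Ell.det_cut {S : Ell n} {g : Fin n → ℝ} (hW : S.W.transpose.mulVec g ≠ 0) :
    |(S.cut g).W.det| ≤ |S.W.det| * Real.exp (-1 / (2 * ((n : ℝ) + 2))) := by
  have hn : 1 ≤ n := by
    rcases Nat.eq_zero_or_pos n with h0 | h0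
    · subst h0
      exact absurd (funext fun i => i.elim0) hW
    · exact h0
  have hn' : (1 : ℝ) ≤ (n : ℝ) := by exact_mod_cast hn
  have hd2 : (2 : ℝ) ≤ (n : ℝ) + 1 := by linarith
  obtain ⟨hs1, hs1sq⟩ := s1_facts hd2
  have hhh : 0 < S.W.transpose.mulVec g ⬝ᵥ S.W.transpose.mulVec g := by
    obtain ⟨i, hi⟩ : ∃ i, S.W.transpose.mulVec g i ≠ 0 := by
      by_contra hc
      push Not at hc
      exact hW (funext hc)
    have h0 := mul_self_pos.mpr hi
    calc 0 < S.W.transpose.mulVec g i * S.W.transpose.mulVec g i := h0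
      _ ≤ ∑ j, S.W.transpose.mulVec g j * S.W.transpose.mulVec g j :=
        Finset.single_le_sum (f := fun j => S.W.transpose.mulVec g j * S.W.transpose.mulVec g j)
          (fun j _ => mul_self_nonneg _) (mem_univ i)
  have hNpos := Real.sqrt_pos.mpr hhh
  have hNsq := Real.mul_self_sqrt hhh.le
  have huu : ((Real.sqrt (S.W.transpose.mulVec g ⬝ᵥ S.W.transpose.mulVec g))⁻¹ •
      S.W.transpose.mulVec g) ⬝ᵥ ((Real.sqrt (S.W.transpose.mulVec g ⬝ᵥ S.W.transpose.mulVec g))⁻¹ •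
      S.W.transpose.mulVec g) = 1 := by
    rw [smul_dotProduct, dotProduct_smul]
    simp only [smul_eq_mul]
    rw [← mul_assoc, ← mul_inv, hNsq, inv_mul_cancel₀ hhh.ne']
  have hd1 : (0 : ℝ) < (n : ℝ) + 1 + 1 := by linarith
  have hs2d : ((n : ℝ) + 1) / ((n : ℝ) + 1 + 1) * ((n : ℝ) + 1 + 1) = (n : ℝ) + 1 := by
    field_simp
  have hs2 : (0 : ℝ) < ((n : ℝ) + 1) / ((n : ℝ) + 1 + 1) := div_pos (by linarith) hd1
  unfold Ell.cut
  rw [if_neg hW]
  simp only
  rw [Matrix.det_mul, abs_mul, det_alg hn huu hs1.ne']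
  refine mul_le_mul_of_nonneg_left ?_ (abs_nonneg _)
  rw [abs_of_nonneg (by positivity)]
  exact num_bound hn rfl hd2 hs1 hs1sq hs2 hs2d

/-- Volume bound: a cube of side `θ` in the ellipsoid. -/
theorem Ell.cube_volume {S : Ell n} {x0 : Fin n → ℝ} {θ : ℝ} (hθ : 0 < θ)
    (hG : ∀ x : Fin n → ℝ, (∀ i, x0 i ≤ x i ∧ x i ≤ x0 i + θ) → S.Mem x) :
    θ ^ n ≤ |S.W.det| * 2 ^ n := by
  set C : Set (Fin n → ℝ) := Set.Icc (fun _ => (-1 : ℝ)) (fun _ => (1 : ℝ)) with hC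
  set G : Set (Fin n → ℝ) := Set.Icc (fun i => x0 i - S.a i) (fun i => x0 i - S.a i + θ) with hGdef
  have hsub : G ⊆ (Matrix.toLin' S.W) '' C := by
    intro y hy
    have hy1 : ∀ i, x0 i - S.a i ≤ y i := fun i => hy.1 i
    have hy2 : ∀ i, y i ≤ x0 i - S.a i + θ := fun i => hy.2 i
    obtain ⟨v, hv, hxv⟩ := hG (y + S.a) (fun i => by
      constructor
      · simp only [Pi.add_apply]; linarith [hy1 i]
      · simp only [Pi.add_apply]; linarith [hy2 i])
    refine ⟨v, ?_, ?_⟩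
    · have hvi : ∀ i, v i * v i ≤ 1 := fun i =>
        calc v i * v i ≤ ∑ j, v j * v j :=
              Finset.single_le_sum (f := fun j => v j * v j) (fun j _ => mul_self_nonneg _)
                (mem_univ i)
          _ ≤ 1 := hv
      constructor
      · intro i; change (-1 : ℝ) ≤ v i; nlinarith [hvi i]
      · intro i; change v i ≤ (1 : ℝ); nlinarith [hvi i]
    · rw [Matrix.toLin'_apply]
      have : y + S.a = S.a + S.W.mulVec v := hxv
      have h2 : S.W.mulVec v = y := by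
        have h3 := congrArg (fun z => z - S.a) this
        simpa [add_comm, add_sub_cancel_left] using h3.symm
      exact h2
  have hvolG : volume G = ENNReal.ofReal (θ ^ n) := by
    rw [hGdef, Real.volume_Icc_pi]
    have : ∀ i : Fin n, ENNReal.ofReal (x0 i - S.a i + θ - (x0 i - S.a i))
        = ENNReal.ofReal θ := by
      intro i; congr 1; ring
    simp only [this, Finset.prod_const, Finset.card_univ, Fintype.card_fin]
    rw [ENNReal.ofReal_pow hθ.le]
  have hvolC : volume C = ENNReal.ofReal (2 ^ n) := by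
    rw [hC, Real.volume_Icc_pi]
    have h2 : (1 : ℝ) - (-1) = 2 := by norm_num
    simp only [h2, Finset.prod_const, Finset.card_univ, Fintype.card_fin]
    rw [ENNReal.ofReal_pow (by norm_num)]
  have hle : volume G ≤ volume ((Matrix.toLin' S.W) '' C) := measure_mono hsub
  rw [Measure.addHaar_image_linearMap, LinearMap.det_toLin', hvolG, hvolC,
    ← ENNReal.ofReal_mul (abs_nonneg _)] at hle
  exact (ENNReal.ofReal_le_ofReal_iff (by positivity)).mp hle

/-- The value at the best centre is below the values at all earlier centres. -/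
theorem ellBest_le_seq (f : (Fin n → ℝ) → ℝ) (gr : (Fin n → ℝ) → Fin n → ℝ) (R0 : ℝ) :
    ∀ (k j : ℕ), j ≤ k → f (ellBest f gr R0 k) ≤ f (ellSeq gr R0 j).a := by
  intro k
  induction k with
  | zero =>
    intro j hj
    obtain rfl : j = 0 := by omega
    exact le_of_eq (by simp [ellBest, ellSeq])
  | succ k ih =>
    intro j hj
    rw [ellBest]
    split_ifs with hlt
    · rcases Nat.lt_or_ge j (k + 1) with hjk | hjk
      · exact hlt.le.trans (ih j (by omega))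
      · obtain rfl : j = k + 1 := by omega
        exact le_rfl
    · rcases Nat.lt_or_ge j (k + 1) with hjk | hjk
      · exact ih j (by omega)
      · obtain rfl : j = k + 1 := by omega
        exact not_lt.mp hlt

/-- **The ellipsoid method.** -/
theorem ellBest_le {f : (Fin n → ℝ) → ℝ} {gr : (Fin n → ℝ) → Fin n → ℝ}
    (hsub : ∀ x y, f x + gr x ⬝ᵥ (y - x) ≤ f y) {R0 θ v : ℝ} {x0 : Fin n → ℝ} (hR0 : 0 < R0)
    (hθ : 0 < θ)
    (hgood : ∀ x : Fin n → ℝ, (∀ i, x0 i ≤ x i ∧ x i ≤ x0 i + θ) → f x ≤ v ∧ x ⬝ᵥ x ≤ R0 ^ 2)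
    {I : ℕ} (hI : (2 * R0 / θ) ^ n * Real.exp (-(I : ℝ) / (2 * ((n : ℝ) + 2))) < 1) :
    f (ellBest f gr R0 I) ≤ v := by
  by_contra hcon
  push Not at hcon
  have hlt : ∀ k, k ≤ I → v < f (ellSeq gr R0 k).a := fun k hk =>
    hcon.trans_le (ellBest_le_seq f gr R0 I k hk)
  have hx0 : ∀ i, x0 i ≤ x0 i ∧ x0 i ≤ x0 i + θ := fun i => ⟨le_rfl, by linarith⟩
  -- the invariant
  have hinv : ∀ k, k ≤ I →
      (∀ x : Fin n → ℝ, (∀ i, x0 i ≤ x i ∧ x i ≤ x0 i + θ) → (ellSeq gr R0 k).Mem x) ∧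
      |(ellSeq gr R0 k).W.det| ≤ R0 ^ n * Real.exp (-(k : ℝ) / (2 * ((n : ℝ) + 2))) := by
    intro k
    induction k with
    | zero =>
      intro _
      constructor
      · intro x hx
        refine ⟨R0⁻¹ • x, ?_, ?_⟩
        · rw [smul_dotProduct, dotProduct_smul]
          simp only [smul_eq_mul]
          have h1 := (hgood x hx).2
          have h2 : R0⁻¹ * (R0⁻¹ * (x ⬝ᵥ x)) = (x ⬝ᵥ x) / R0 ^ 2 := by
            field_simp
          rw [h2, div_le_one (by positivity)]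
          exact h1
        · simp only [ellSeq]
          rw [Matrix.smul_mulVec, Matrix.one_mulVec, smul_smul, mul_inv_cancel₀ hR0.ne']
          simp
      · simp only [ellSeq, Matrix.det_smul, Matrix.det_one, Fintype.card_fin, mul_one]
        simp only [Nat.cast_zero, neg_zero, zero_div, Real.exp_zero, mul_one]
        rw [abs_of_pos (pow_pos hR0 n)]
    | succ k ih =>
      intro hk
      obtain ⟨h1, h2⟩ := ih (by omega)
      have hltk := hlt k (by omega)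
      set S := ellSeq gr R0 k with hS
      set g := gr S.a with hg
      have hdot : ∀ x : Fin n → ℝ, (∀ i, x0 i ≤ x i ∧ x i ≤ x0 i + θ) → g ⬝ᵥ (x - S.a) < 0 := by
        intro x hx
        have h3 := hsub S.a x
        have h4 := (hgood x hx).1
        have h5 : g ⬝ᵥ (x - S.a) ≤ f x - f S.a := by linarith
        linarith
      have hW : S.W.transpose.mulVec g ≠ 0 := by
        intro h0
        obtain ⟨w, _, hw⟩ := h1 x0 hx0
        have h3 := hdot x0 hx0
        have h4 : g ⬝ᵥ (x0 - S.a) = S.W.transpose.mulVec g ⬝ᵥ w := by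
          rw [hw, add_sub_cancel_left, dot_W]
        rw [h4, h0, zero_dotProduct] at h3
        exact lt_irrefl _ h3
      have hseq : ellSeq gr R0 (k + 1) = S.cut g := rfl
      rw [hseq]
      constructor
      · intro x hx
        exact Ell.mem_cut hW (h1 x hx) (hdot x hx).le
      · refine (Ell.det_cut hW).trans ?_
        have hE : Real.exp (-((k + 1 : ℕ) : ℝ) / (2 * ((n : ℝ) + 2)))
            = Real.exp (-(k : ℝ) / (2 * ((n : ℝ) + 2))) * Real.exp (-1 / (2 * ((n : ℝ) + 2))) := by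
          rw [← Real.exp_add]
          congr 1
          push_cast
          ring
        rw [hE, ← mul_assoc]
        exact mul_le_mul_of_nonneg_right h2 (Real.exp_pos _).le
  obtain ⟨h1, h2⟩ := hinv I le_rfl
  have h3 := Ell.cube_volume hθ h1
  have h4 : θ ^ n ≤ R0 ^ n * Real.exp (-(I : ℝ) / (2 * ((n : ℝ) + 2))) * 2 ^ n :=
    h3.trans (mul_le_mul_of_nonneg_right h2 (by positivity))
  have h5 : (2 * R0 / θ) ^ n * Real.exp (-(I : ℝ) / (2 * ((n : ℝ) + 2))) * θ ^ n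
      = R0 ^ n * Real.exp (-(I : ℝ) / (2 * ((n : ℝ) + 2))) * 2 ^ n := by
    rw [div_pow, mul_pow]
    field_simp
  have h6 : 0 < θ ^ n := pow_pos hθ n
  have h7 := mul_lt_mul_of_pos_right hI h6
  rw [h5, one_mul] at h7
  exact absurd h4 (not_le.mpr h7)

section Meas

variable {T : Type*} [MeasurableSpace T]

private lemma measurable_cut {S : T → Ell n} {g : T → Fin n → ℝ}
    (ha : ∀ i, Measurable fun t => (S t).a i)
    (hW : ∀ i j, Measurable fun t => (S t).W i j)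
    (hg : ∀ i, Measurable fun t => g t i) :
    (∀ i, Measurable fun t => ((S t).cut (g t)).a i) ∧
    (∀ i j, Measurable fun t => ((S t).cut (g t)).W i j) := by
  set h : T → Fin n → ℝ := fun t => (S t).W.transpose.mulVec (g t) with hh
  have hhm : ∀ j, Measurable fun t => h t j := by
    intro j
    simp only [hh, Matrix.mulVec, dotProduct, Matrix.transpose_apply]
    exact Finset.measurable_sum _ fun i _ => (hW i j).mul (hg i)
  have hset : MeasurableSet {t | h t = 0} := by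
    have : {t | h t = 0} = ⋂ j, {t | h t j = 0} := by
      ext t
      simp [funext_iff]
    rw [this]
    exact MeasurableSet.iInter fun j => hhm j (measurableSet_singleton 0)
  set N : T → ℝ := fun t => Real.sqrt (h t ⬝ᵥ h t) with hN
  have hNm : Measurable N := by
    simp only [hN, dotProduct]
    exact (Finset.measurable_sum _ fun j _ => (hhm j).mul (hhm j)).sqrt
  set u : T → Fin n → ℝ := fun t => (N t)⁻¹ • h t with hu
  have hum : ∀ j, Measurable fun t => u t j := by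
    intro j
    simp only [hu, Pi.smul_apply, smul_eq_mul]
    exact hNm.inv.mul (hhm j)
  set d : ℝ := (n : ℝ) + 1 with hd
  set s1 : ℝ := d / Real.sqrt (d ^ 2 - 1) with hs1
  set s2 : ℝ := d / (d + 1) with hs2
  have ea : ∀ t i, ((S t).cut (g t)).a i = if h t = 0 then (S t).a i else
      (S t).a i - (d + 1)⁻¹ * ∑ j, (S t).W i j * u t j := by
    intro t i
    unfold Ell.cut
    by_cases h0 : h t = 0
    · rw [if_pos h0, if_pos h0]
    · rw [if_neg h0, if_neg h0]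
      simp only [Pi.sub_apply, Pi.smul_apply, smul_eq_mul, Matrix.mulVec, dotProduct]
      rfl
  have eW : ∀ t i j, ((S t).cut (g t)).W i j = if h t = 0 then (S t).W i j else
      ∑ l, (S t).W i l * (s1 * (if l = j then 1 else 0) + (s2 - s1) * (u t l * u t j)) := by
    intro t i j
    unfold Ell.cut
    by_cases h0 : h t = 0
    · rw [if_pos h0, if_pos h0]
    · rw [if_neg h0, if_neg h0]
      simp only [Matrix.mul_apply, Matrix.add_apply, Matrix.smul_apply, Matrix.one_apply,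
        Matrix.vecMulVec_apply, smul_eq_mul]
      rfl
  constructor
  · intro i
    simp only [ea]
    refine Measurable.ite hset (ha i) ((ha i).sub ?_)
    exact measurable_const.mul (Finset.measurable_sum _ fun j _ => (hW i j).mul (hum j))
  · intro i j
    simp only [eW]
    refine Measurable.ite hset (hW i j) ?_
    refine Finset.measurable_sum _ fun l _ => (hW i l).mul ?_
    exact measurable_const.add (measurable_const.mul ((hum l).mul (hum j)))

private lemma measurable_ellSeq {gr : T → (Fin n → ℝ) → Fin n → ℝ}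
    (hg : Measurable fun p : T × (Fin n → ℝ) => gr p.1 p.2) (R0 : ℝ) (k : ℕ) :
    (∀ i, Measurable fun t => (ellSeq (gr t) R0 k).a i) ∧
    (∀ i j, Measurable fun t => (ellSeq (gr t) R0 k).W i j) := by
  induction k with
  | zero =>
    constructor
    · intro i; simp [ellSeq]
    · intro i j; simp only [ellSeq]; exact measurable_const
  | succ k ih =>
    have ham : Measurable fun t => (ellSeq (gr t) R0 k).a := measurable_pi_iff.mpr ih.1
    have hgm : ∀ i, Measurable fun t => gr t (ellSeq (gr t) R0 k).a i := by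
      intro i
      have : Measurable fun t => (t, (ellSeq (gr t) R0 k).a) := measurable_id.prodMk ham
      exact (measurable_pi_apply i).comp (hg.comp this)
    exact measurable_cut ih.1 ih.2 hgm

/-- The output of the method depends measurably on a parameter. -/
theorem measurable_ellBest {f : T → (Fin n → ℝ) → ℝ}
    {gr : T → (Fin n → ℝ) → Fin n → ℝ}
    (hf : Measurable fun p : T × (Fin n → ℝ) => f p.1 p.2)
    (hg : Measurable fun p : T × (Fin n → ℝ) => gr p.1 p.2) (R0 : ℝ) (k : ℕ) :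
    Measurable fun t => ellBest (f t) (gr t) R0 k := by
  induction k with
  | zero =>
    simp only [ellBest]
    exact measurable_const
  | succ k ih =>
    have ham : Measurable fun t => (ellSeq (gr t) R0 (k + 1)).a :=
      measurable_pi_iff.mpr (measurable_ellSeq hg R0 (k + 1)).1
    simp only [ellBest]
    refine Measurable.ite ?_ ham ih
    exact measurableSet_lt (hf.comp (measurable_id.prodMk ham)) (hf.comp (measurable_id.prodMk ih))

end Meas

end Vale.Agent.Lib.P328.Samp
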