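import Vale.Agent.Lib.P328.Samp.Defs
import Vale.Agent.Lib.P328.Samp.Cheeger
import Vale.Agent.Lib.P245.PLT

/-!
# P328, explicit algorithm: the grid chain mixes (module G1)

Setting: `ι` finite, `D = card ι ≥ 1`, `M ≥ 1`, states `z : ι → Fin M`, `Ψ : ℝ^ι → ℝ` convex continuous, `w > 0` with
`|log (w z) + Ψ x| ≤ 1/8` on the closed unit cube of `z`. `p = κ = 1/(4D)`, `λ = κ / M`.

`gridCond p w z z' = prop p z z' * min (w z) (w z')` for `z ≠ z'`, with self-loop `w z - Σ_{z'' ≠ z}`; `Σ_{z''} prop z z'' ≤ 1` so the loop is `≥ 0`, `ndeg = w`, and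
`gridP p w = lazyWalk (gridCond p w)` (`gridP_eq`).

`grid_conductance`. `f = exp (-Ψ)`, half open cubes `C z = ∏ [z_i, z_i + 1)` partition `Q = [0, M)^ι`. `S` with `π S ≤ 1/2`; `A = ∪_{z∈S} C z`; `A_λ = ∪_{z∈S} ∏ [(1-λ) z_i, (1-λ)(z_i + 1) + λ M)`, a measurable subset of `Q`
containing `(1-λ) A + λ Q`. Prekopa-Leindler (`pl_pi`, transported to `ι` by `Fintype.equivFin`, `volume_measurePreserving_piCongrLeft`) for `1_A f, 1_Q f, 1_{A_λ} f` and convexity of `Ψ`:
`I_λ ≥ I_A^{1-λ} I_Q^λ = I_A μ^{-λ}`, `μ = I_A / I_Q`. `A ⊆ A_λ`, so `shell := ∫_{A_λ \ A} f ≥ I_A (μ^{-λ} - 1) ≥ I_A λ log (1/μ)`. Now `∫_{C z} f ∈ [e^{-1/8}, e^{1/8}] w z`, `w S ≤ w Sᶜ`, so `μ ≤ 1 / (1 + e^{-1/4}) ≤ 3/5`, `log (1/μ) ≥ 1/2`.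
If `x ∈ A_λ \ A`, then `x ∈ C z'`, `z' ∉ S`, and `x` is in the box of some `z ∈ S`, so `x_i ∈ [z_i - κ, z_i + 1 + κ)`, so `z'_i - z_i ∈ {-1,0,1}`, and where `z'_i = z_i + 1`: `x_i < z'_i + κ`, where `z'_i = z_i - 1`: `x_i ≥ z'_i + 1 - κ`.
This corner region `R (z', z)` of `C z'` has volume `κ ^ d`, `d = #{i : z_i ≠ z'_i}`, and `prop z' z = p^d (1-2p)^(D-d) ≥ κ^d / 2`, `(1 - 1/(2D))^D ≥ 1/2`. So `shell ≤ Σ_{z'∉S} Σ_{z∈S} e^{1/8} w z' * 2 prop z' z`.
For such adjacent cubes `x` in both closed cubes exists (`Ψ` is close to both `log w`), so `min (w z) (w z') ≥ e^{-1/4} w z'`: `shell ≤ 2 e^{3/8} Σ_{z∈S, z'∉S} gridCond z z'`.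
With `I_A ≥ e^{-1/8} w S`: `Σ_{z∈S,z'∉S} gridCond z z' ≥ w S * λ / (4 e^{1/2})`; divide by `nZ = Σ w`: the constant is `1 / (16 e^{1/2} D M) ≥ 1 / (32 D M)`.

`grid_tv`: `poincare_of_cut` (`π(A) π(Aᶜ) ≤ min`, the flow is symmetric) with `Φ = 1 / (32 D M)` and `Walk.tv_le_of_poincare` with `C = 8 / Φ² = 8192 D² M²`.
-/

namespace Vale.Agent.Lib.P328.Samp

open Finset MeasureTheory Vale.Agent.Lib.P328.Walk
open scoped ENNReal

variable {ι : Type} [Fintype ι] [DecidableEq ι] {M : ℕ}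

/-- The symmetric weights of the chain. -/
noncomputable def gridCond (p : ℝ) (w : (ι → Fin M) → ℝ) (z z' : ι → Fin M) : ℝ :=
  if z = z' then w z - ∑ z'' ∈ univ.erase z, prop p z z'' * min (w z) (w z'')
  else prop p z z' * min (w z) (w z')

/-- The closed unit cube of a state. -/
def unitCell (z : ι → Fin M) : Set (ι → ℝ) := {x | ∀ i, ((z i : ℕ) : ℝ) ≤ x i ∧ x i ≤ ((z i : ℕ) : ℝ) + 1}

theorem propStep_symm (p : ℝ) {M : ℕ} (a b : Fin M) : propStep p a b = propStep p b a := by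
  unfold propStep
  by_cases h : a = b
  · rw [if_pos h, if_pos h.symm]
  · rw [if_neg h, if_neg (Ne.symm h)]
    refine if_congr or_comm rfl rfl

theorem prop_symm (p : ℝ) (z z' : ι → Fin M) : prop p z z' = prop p z' z := by
  unfold prop
  exact Finset.prod_congr rfl fun i _ => propStep_symm p _ _

theorem propStep_nonneg {p : ℝ} (hp : 0 ≤ p) (hp1 : p ≤ 1 / 2) {M : ℕ} (a b : Fin M) :
    0 ≤ propStep p a b := by
  unfold propStep
  split_ifs <;> linarith

theorem prop_nonneg {p : ℝ} (hp : 0 ≤ p) (hp1 : p ≤ 1 / 2) (z z' : ι → Fin M) : 0 ≤ prop p z z' :=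
  Finset.prod_nonneg fun i _ => propStep_nonneg hp hp1 _ _

theorem sum_propStep_le {p : ℝ} (hp : 0 ≤ p) {M : ℕ} (a : Fin M) :
    ∑ b, propStep p a b ≤ 1 := by
  classical
  have h1 : ∀ b : Fin M, propStep p a b ≤ (if a = b then 1 - 2 * p else 0)
      + (if (a : ℕ) + 1 = b then p else 0) + (if (b : ℕ) + 1 = a then p else 0) := by
    intro b
    unfold propStep
    by_cases h : a = b
    · subst h
      simp
    · rw [if_neg h, if_neg h, zero_add]
      by_cases h2 : (a : ℕ) + 1 = b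
      · simp only [h2, true_or, if_true]
        split_ifs <;> linarith
      · by_cases h3 : (b : ℕ) + 1 = a
        · simp [h2, h3]
        · simp [h2, h3]
  have h2 : ∀ (P : Fin M → Prop) [DecidablePred P], (∀ b b', P b → P b' → b = b') →
      ∑ b, (if P b then p else 0) ≤ p := by
    intro P _ hP
    rw [← Finset.sum_filter, Finset.sum_const, nsmul_eq_mul]
    have h3 : ((Finset.univ.filter P).card : ℝ) ≤ 1 := by
      have : (Finset.univ.filter P).card ≤ 1 := by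
        rw [Finset.card_le_one]
        intro x hx y hy
        exact hP x y (Finset.mem_filter.1 hx).2 (Finset.mem_filter.1 hy).2
      exact_mod_cast this
    nlinarith
  have h3 : ∑ b, (if a = b then 1 - 2 * p else 0) = 1 - 2 * p := by
    rw [Finset.sum_ite_eq]
    simp
  calc ∑ b, propStep p a b
      ≤ ∑ b, ((if a = b then 1 - 2 * p else 0) + (if (a : ℕ) + 1 = b then p else 0)
          + (if (b : ℕ) + 1 = a then p else 0)) := Finset.sum_le_sum fun b _ => h1 b
    _ = (1 - 2 * p) + ∑ b : Fin M, (if (a : ℕ) + 1 = b then p else 0)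
          + ∑ b : Fin M, (if (b : ℕ) + 1 = a then p else 0) := by
        rw [Finset.sum_add_distrib, Finset.sum_add_distrib, h3]
    _ ≤ (1 - 2 * p) + p + p := by
        refine add_le_add (add_le_add le_rfl (h2 _ ?_)) (h2 _ ?_)
        · intro b b' h h'
          exact Fin.ext (by omega)
        · intro b b' h h'
          exact Fin.ext (by omega)
    _ = 1 := by ring

theorem sum_prop_le {p : ℝ} (hp : 0 ≤ p) (hp1 : p ≤ 1 / 2) (z : ι → Fin M) :
    ∑ z', prop p z z' ≤ 1 := by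
  unfold prop
  have h := Finset.prod_univ_sum (fun _ : ι => (Finset.univ : Finset (Fin M)))
    (fun i b => propStep p (z i) b)
  rw [Fintype.piFinset_univ] at h
  rw [← h]
  exact Finset.prod_le_one (fun i _ => Finset.sum_nonneg fun b _ => propStep_nonneg hp hp1 _ _)
    fun i _ => sum_propStep_le hp _

theorem gridCond_symm (p : ℝ) (w : (ι → Fin M) → ℝ) (z z' : ι → Fin M) :
    gridCond p w z z' = gridCond p w z' z := by
  unfold gridCond
  by_cases h : z = z'
  · subst h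
    rfl
  · rw [if_neg h, if_neg (Ne.symm h), prop_symm, min_comm]

theorem gridCond_nonneg {p : ℝ} (hp : 0 ≤ p) (hp1 : p ≤ 1 / 2) {w : (ι → Fin M) → ℝ} (hw : ∀ z, 0 < w z)
    (z z' : ι → Fin M) : 0 ≤ gridCond p w z z' := by
  unfold gridCond
  split_ifs with h
  · have h1 : ∑ z'' ∈ univ.erase z, prop p z z'' * min (w z) (w z'')
        ≤ ∑ z'' ∈ univ.erase z, prop p z z'' * w z :=
      Finset.sum_le_sum fun z'' _ =>
        mul_le_mul_of_nonneg_left (min_le_left _ _) (prop_nonneg hp hp1 _ _)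
    have h2 : ∑ z'' ∈ univ.erase z, prop p z z'' ≤ ∑ z'', prop p z z'' :=
      Finset.sum_le_sum_of_subset_of_nonneg (Finset.erase_subset _ _)
        fun z'' _ _ => prop_nonneg hp hp1 _ _
    have h3 := sum_prop_le hp hp1 z
    rw [← Finset.sum_mul] at h1
    have h4 := hw z
    nlinarith
  · exact mul_nonneg (prop_nonneg hp hp1 _ _) (le_min (hw z).le (hw z').le)

theorem ndeg_gridCond (p : ℝ) (w : (ι → Fin M) → ℝ) (z : ι → Fin M) :
    ndeg (gridCond p w) z = w z := by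
  unfold ndeg
  rw [← Finset.add_sum_erase _ _ (Finset.mem_univ z)]
  have h1 : gridCond p w z z = w z - ∑ z'' ∈ univ.erase z, prop p z z'' * min (w z) (w z'') := by
    unfold gridCond
    rw [if_pos rfl]
  have h2 : ∑ z' ∈ univ.erase z, gridCond p w z z'
      = ∑ z'' ∈ univ.erase z, prop p z z'' * min (w z) (w z'') := by
    refine Finset.sum_congr rfl fun z' hz' => ?_
    unfold gridCond
    rw [if_neg (Finset.ne_of_mem_erase hz').symm]
  rw [h1, h2]
  ring

theorem gridP_eq (p : ℝ) {w : (ι → Fin M) → ℝ} (hw : ∀ z, 0 < w z) :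
    gridP p w = lazyWalk (gridCond p w) := by
  funext z z'
  unfold gridP lazyWalk
  rw [ndeg_gridCond]
  have hz := hw z
  have hmin : ∀ z'' : ι → Fin M, min 1 (w z'' / w z) = min (w z) (w z'') / w z := by
    intro z''
    have e : min (w z) (w z'') / w z = min (w z / w z) (w z'' / w z) :=
      (min_div_div_right hz.le _ _).symm
    rw [e, div_self hz.ne']
  by_cases h : z = z'
  · subst h
    simp only [if_true]
    unfold gridCond
    rw [if_pos rfl]
    simp_rw [hmin]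
    rw [sub_div]
    have e : ∑ z'' ∈ univ.erase z, prop p z z'' * min (w z) (w z'') / (2 * w z)
        = ∑ z'' ∈ univ.erase z, (1 / 2) * prop p z z'' * (min (w z) (w z'') / w z) := by
      refine Finset.sum_congr rfl fun z'' _ => ?_
      field_simp
    rw [← Finset.sum_div, Finset.sum_div] at *
    rw [e]
    field_simp
    ring
  · rw [if_neg h, if_neg h, zero_add]
    unfold gridCond
    rw [if_neg h, hmin]
    field_simp

section PL

/-- Prekopa-Leindler on functions of a finite index type. -/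
theorem pl_iota {t : ℝ} (ht0 : 0 < t) (ht1 : t < 1) {f g h : (ι → ℝ) → ℝ≥0∞}
    (hf : Measurable f) (hg : Measurable g) (hh : Measurable h)
    (H : ∀ x y, f x ^ (1 - t) * g y ^ t ≤ h ((1 - t) • x + t • y)) :
    (∫⁻ x, f x) ^ (1 - t) * (∫⁻ x, g x) ^ t ≤ ∫⁻ x, h x := by
  set e := Fintype.equivFin ι with he
  set φ := MeasurableEquiv.piCongrLeft (fun _ : Fin (Fintype.card ι) => ℝ) e with hφ
  have hmp : MeasurePreserving φ := volume_measurePreserving_piCongrLeft _ e
  have hint : ∀ u : (ι → ℝ) → ℝ≥0∞, Measurable u → ∫⁻ x, u x = ∫⁻ x, u (φ.symm x) := by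
    intro u hu
    have h1 := hmp.lintegral_comp (f := fun x => u (φ.symm x)) (hu.comp φ.symm.measurable)
    simp only [MeasurableEquiv.symm_apply_apply] at h1
    exact h1
  rw [hint f hf, hint g hg, hint h hh]
  refine Vale.Agent.Lib.P245.pl_pi ht0 ht1 (hf.comp φ.symm.measurable) (hg.comp φ.symm.measurable)
    (hh.comp φ.symm.measurable) fun x y => ?_
  have e1 : φ.symm ((1 - t) • x + t • y) = (1 - t) • φ.symm x + t • φ.symm y := by
    funext i
    simp [hφ, MeasurableEquiv.piCongrLeft, Equiv.piCongrLeft, Equiv.piCongrLeft']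
  rw [e1]
  exact H _ _

end PL

section Sets

/-- The half open cube of a state. -/
def cellC (z : ι → Fin M) : Set (ι → ℝ) :=
  Set.pi Set.univ fun i => Set.Ico (((z i : ℕ) : ℝ)) (((z i : ℕ) : ℝ) + 1)

/-- The big cube. -/
def cubeQ (ι : Type) [Fintype ι] (M : ℕ) : Set (ι → ℝ) :=
  Set.pi Set.univ fun _ => Set.Ico (0 : ℝ) (M : ℝ)

/-- The union of the cubes of a set of states. -/
def setA (S : Finset (ι → Fin M)) : Set (ι → ℝ) := ⋃ z ∈ S, cellC z

/-- A cube enlarged towards the big cube. -/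
noncomputable def boxL (lam : ℝ) (z : ι → Fin M) : Set (ι → ℝ) :=
  Set.pi Set.univ fun i =>
    Set.Ico ((1 - lam) * ((z i : ℕ) : ℝ)) ((1 - lam) * (((z i : ℕ) : ℝ) + 1) + lam * (M : ℝ))

/-- The union of the enlarged cubes. -/
noncomputable def setAL (lam : ℝ) (S : Finset (ι → Fin M)) : Set (ι → ℝ) := ⋃ z ∈ S, boxL lam z

/-- The part of the cube of `z'` which is close to the cube of `z`. -/
noncomputable def cornerR (κ : ℝ) (z' z : ι → Fin M) : Set (ι → ℝ) :=
  Set.pi Set.univ fun i =>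
    Set.Ico (max ((z' i : ℕ) : ℝ) (((z i : ℕ) : ℝ) - κ))
      (min (((z' i : ℕ) : ℝ) + 1) (((z i : ℕ) : ℝ) + 1 + κ))

theorem measurableSet_cellC (z : ι → Fin M) : MeasurableSet (cellC z) :=
  MeasurableSet.univ_pi fun _ => measurableSet_Ico

theorem measurableSet_cubeQ : MeasurableSet (cubeQ ι M) :=
  MeasurableSet.univ_pi fun _ => measurableSet_Ico

theorem measurableSet_setA (S : Finset (ι → Fin M)) : MeasurableSet (setA S) :=
  Finset.measurableSet_biUnion _ fun z _ => measurableSet_cellC z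

theorem measurableSet_setAL (lam : ℝ) (S : Finset (ι → Fin M)) : MeasurableSet (setAL lam S) :=
  Finset.measurableSet_biUnion _ fun _ _ => MeasurableSet.univ_pi fun _ => measurableSet_Ico

theorem measurableSet_cornerR (κ : ℝ) (z' z : ι → Fin M) : MeasurableSet (cornerR κ z' z) :=
  MeasurableSet.univ_pi fun _ => measurableSet_Ico

theorem volume_cellC (z : ι → Fin M) : volume (cellC z) = 1 := by
  unfold cellC
  rw [Real.volume_pi_Ico]
  simp

theorem cellC_subset (z : ι → Fin M) : cellC z ⊆ cubeQ ι M := by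
  intro x hx i _
  have h1 := hx i (Set.mem_univ i)
  simp only [Set.mem_Ico] at h1 ⊢
  have h2 : ((z i : ℕ) : ℝ) + 1 ≤ M := by
    have := (z i).2
    exact_mod_cast this
  have h3 : (0 : ℝ) ≤ ((z i : ℕ) : ℝ) := Nat.cast_nonneg _
  constructor <;> linarith [h1.1, h1.2]

theorem cellC_index {z : ι → Fin M} {x : ι → ℝ} (hx : x ∈ cellC z) (i : ι) :
    ⌊x i⌋₊ = (z i : ℕ) := by
  have h1 := hx i (Set.mem_univ i)
  simp only [Set.mem_Ico] at h1
  rw [Nat.floor_eq_iff ((Nat.cast_nonneg _).trans h1.1)]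
  exact h1

theorem cellC_disjoint {z z' : ι → Fin M} (h : z ≠ z') : Disjoint (cellC z) (cellC z') := by
  rw [Set.disjoint_left]
  intro x hx hx'
  apply h
  funext i
  exact Fin.ext ((cellC_index hx i).symm.trans (cellC_index hx' i))

theorem exists_cellC {x : ι → ℝ} (hx : x ∈ cubeQ ι M) : ∃ z : ι → Fin M, x ∈ cellC z := by
  have h1 := fun i => hx i (Set.mem_univ i)
  simp only [Set.mem_Ico] at h1
  refine ⟨fun i => ⟨⌊x i⌋₊, ?_⟩, ?_⟩
  · exact (Nat.floor_lt (h1 i).1).2 (h1 i).2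
  · intro i _
    simp only [Set.mem_Ico]
    exact ⟨Nat.floor_le (h1 i).1, Nat.lt_floor_add_one _⟩

theorem cellC_subset_unit (z : ι → Fin M) : cellC z ⊆ unitCell z := by
  intro x hx i
  have h1 := hx i (Set.mem_univ i)
  simp only [Set.mem_Ico] at h1
  exact ⟨h1.1, h1.2.le⟩

/-- The cube is the union of all the cubes of the states. -/
theorem setA_univ : setA (Finset.univ : Finset (ι → Fin M)) = cubeQ ι M := by
  ext x
  simp only [setA, Finset.mem_univ, Set.iUnion_true, Set.mem_iUnion]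
  exact ⟨fun ⟨z, hz⟩ => cellC_subset z hz, fun hx => exists_cellC hx⟩

/-- The point `(1 - lam) a + lam q` is in the enlarged set. -/
theorem mix_mem_setAL {lam : ℝ} (h0 : 0 ≤ lam) (h1 : lam ≤ 1) {S : Finset (ι → Fin M)}
    {a q : ι → ℝ} (ha : a ∈ setA S) (hq : q ∈ cubeQ ι M) : (1 - lam) • a + lam • q ∈ setAL lam S := by
  simp only [setA, Set.mem_iUnion] at ha
  obtain ⟨z, hz, haz⟩ := ha
  simp only [setAL, Set.mem_iUnion]
  refine ⟨z, hz, fun i _ => ?_⟩
  have h2 := haz i (Set.mem_univ i)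
  have h3 := hq i (Set.mem_univ i)
  simp only [Set.mem_Ico] at h2 h3 ⊢
  simp only [Pi.add_apply, Pi.smul_apply, smul_eq_mul]
  have h4 : 0 ≤ 1 - lam := by linarith
  constructor
  · have h5 := mul_le_mul_of_nonneg_left h2.1 h4
    have h6 := mul_nonneg h0 h3.1
    linarith
  · by_cases h7 : lam = 1
    · subst h7
      simp only [sub_self, zero_mul, one_mul, zero_add]
      exact h3.2
    · have h8 : 0 < 1 - lam := lt_of_le_of_ne h4 (fun e => h7 (by linarith))
      have h9 := mul_lt_mul_of_pos_left h2.2 h8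
      have h10 := mul_le_mul_of_nonneg_left h3.2.le h0
      linarith

theorem setA_subset_setAL {lam : ℝ} (h0 : 0 ≤ lam) (h1 : lam ≤ 1) (S : Finset (ι → Fin M)) :
    setA S ⊆ setAL lam S := by
  intro x hx
  simp only [setA, Set.mem_iUnion] at hx
  obtain ⟨z, hz, hxz⟩ := hx
  simp only [setAL, Set.mem_iUnion]
  refine ⟨z, hz, fun i _ => ?_⟩
  have h2 := hxz i (Set.mem_univ i)
  simp only [Set.mem_Ico] at h2 ⊢
  have h3 : ((z i : ℕ) : ℝ) + 1 ≤ M := by
    have := (z i).2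
    exact_mod_cast this
  have h4 : (0 : ℝ) ≤ ((z i : ℕ) : ℝ) := Nat.cast_nonneg _
  constructor
  · nlinarith [h2.1]
  · nlinarith [h2.2]

theorem boxL_subset_cube {lam : ℝ} (h0 : 0 ≤ lam) (h1 : lam ≤ 1) (z : ι → Fin M) :
    boxL lam z ⊆ cubeQ ι M := by
  intro x hx i _
  have h2 := hx i (Set.mem_univ i)
  simp only [Set.mem_Ico] at h2 ⊢
  have h3 : ((z i : ℕ) : ℝ) + 1 ≤ M := by
    have := (z i).2
    exact_mod_cast this
  have h4 : (0 : ℝ) ≤ ((z i : ℕ) : ℝ) := Nat.cast_nonneg _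
  have h5 : 0 ≤ 1 - lam := by linarith
  constructor
  · exact le_trans (mul_nonneg h5 h4) h2.1
  · refine lt_of_lt_of_le h2.2 ?_
    nlinarith

/-- The shell is covered by the corner regions. -/
theorem shell_subset {lam κ : ℝ} (h0 : 0 ≤ lam) (h1 : lam ≤ 1) (hκ : lam * (M : ℝ) = κ)
    (S : Finset (ι → Fin M)) :
    setAL lam S \ setA S ⊆ ⋃ z' ∈ Sᶜ, ⋃ z ∈ S, cornerR κ z' z := by
  rintro x ⟨hx1, hx2⟩
  simp only [setAL, Set.mem_iUnion] at hx1
  obtain ⟨z, hz, hxz⟩ := hx1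
  obtain ⟨z', hz'⟩ := exists_cellC (boxL_subset_cube h0 h1 z hxz)
  have hz'S : z' ∉ S := by
    intro h
    apply hx2
    simp only [setA, Set.mem_iUnion]
    exact ⟨z', h, hz'⟩
  simp only [Set.mem_iUnion]
  refine ⟨z', Finset.mem_compl.2 hz'S, z, hz, fun i _ => ?_⟩
  have h2 := hxz i (Set.mem_univ i)
  have h3 := hz' i (Set.mem_univ i)
  simp only [Set.mem_Ico] at h2 h3 ⊢
  have h4 : ((z i : ℕ) : ℝ) + 1 ≤ M := by
    have := (z i).2
    exact_mod_cast this
  have h5 : (0 : ℝ) ≤ ((z i : ℕ) : ℝ) := Nat.cast_nonneg _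
  have h6 : lam * ((z i : ℕ) : ℝ) ≤ lam * (M : ℝ) := by
    exact mul_le_mul_of_nonneg_left (by linarith) h0
  have h7 : lam * (((z i : ℕ) : ℝ) + 1) ≥ 0 := by positivity
  constructor
  · rw [max_le_iff]
    refine ⟨h3.1, ?_⟩
    nlinarith [h2.1]
  · rw [lt_min_iff]
    refine ⟨h3.2, ?_⟩
    nlinarith [h2.2]

/-- The length of a coordinate of a corner region. -/
theorem corner_len {p κ : ℝ} (hκ0 : 0 ≤ κ) (hκ1 : κ ≤ 1 / 4) (hp : p = κ) (a b : Fin M) :
    max (min (((a : ℕ) : ℝ) + 1) (((b : ℕ) : ℝ) + 1 + κ) - max ((a : ℕ) : ℝ) (((b : ℕ) : ℝ) - κ)) 0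
        * (1 - 2 * p)
      ≤ propStep p a b := by
  subst hp
  have hA : (0 : ℝ) ≤ ((a : ℕ) : ℝ) := Nat.cast_nonneg _
  have hB : (0 : ℝ) ≤ ((b : ℕ) : ℝ) := Nat.cast_nonneg _
  have h12 : 0 ≤ 1 - 2 * p := by linarith
  unfold propStep
  by_cases h : a = b
  · subst h
    rw [if_pos rfl]
    have h1 : min (((a : ℕ) : ℝ) + 1) (((a : ℕ) : ℝ) + 1 + p) = ((a : ℕ) : ℝ) + 1 :=
      min_eq_left (by linarith)
    have h2 : max ((a : ℕ) : ℝ) (((a : ℕ) : ℝ) - p) = ((a : ℕ) : ℝ) := max_eq_left (by linarith)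
    rw [h1, h2]
    have h3 : max (((a : ℕ) : ℝ) + 1 - ((a : ℕ) : ℝ)) 0 = 1 := by
      rw [add_sub_cancel_left]
      exact max_eq_left (by norm_num)
    rw [h3, one_mul]
  · rw [if_neg h]
    by_cases h2 : (a : ℕ) + 1 = b ∨ (b : ℕ) + 1 = a
    · rw [if_pos h2]
      rcases h2 with h2 | h2
      · have h3 : ((b : ℕ) : ℝ) = ((a : ℕ) : ℝ) + 1 := by exact_mod_cast h2.symm
        rw [h3]
        have h4 : min (((a : ℕ) : ℝ) + 1) (((a : ℕ) : ℝ) + 1 + 1 + p) = ((a : ℕ) : ℝ) + 1 :=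
          min_eq_left (by linarith)
        have h5 : max ((a : ℕ) : ℝ) (((a : ℕ) : ℝ) + 1 - p) = ((a : ℕ) : ℝ) + 1 - p :=
          max_eq_right (by linarith)
        rw [h4, h5]
        have h6 : max (((a : ℕ) : ℝ) + 1 - (((a : ℕ) : ℝ) + 1 - p)) 0 = p := by
          have : ((a : ℕ) : ℝ) + 1 - (((a : ℕ) : ℝ) + 1 - p) = p := by ring
          rw [this]
          exact max_eq_left hκ0
        rw [h6]
        nlinarith
      · have h3 : ((a : ℕ) : ℝ) = ((b : ℕ) : ℝ) + 1 := by exact_mod_cast h2.symm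
        rw [h3]
        have h4 : min (((b : ℕ) : ℝ) + 1 + 1) (((b : ℕ) : ℝ) + 1 + p) = ((b : ℕ) : ℝ) + 1 + p :=
          min_eq_right (by linarith)
        have h5 : max (((b : ℕ) : ℝ) + 1) (((b : ℕ) : ℝ) - p) = ((b : ℕ) : ℝ) + 1 :=
          max_eq_left (by linarith)
        rw [h4, h5]
        have h6 : max (((b : ℕ) : ℝ) + 1 + p - (((b : ℕ) : ℝ) + 1)) 0 = p := by
          have : ((b : ℕ) : ℝ) + 1 + p - (((b : ℕ) : ℝ) + 1) = p := by ring
          rw [this]
          exact max_eq_left hκ0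
        rw [h6]
        nlinarith
    · rw [if_neg h2]
      push Not at h2
      -- the indices differ by at least two
      have hne : (a : ℕ) ≠ b := fun e => h (Fin.ext e)
      have h3 : min (((a : ℕ) : ℝ) + 1) (((b : ℕ) : ℝ) + 1 + p)
          - max ((a : ℕ) : ℝ) (((b : ℕ) : ℝ) - p) ≤ 0 := by
        rcases Nat.lt_or_ge (a : ℕ) (b : ℕ) with hlt | hge
        · have h4 : (a : ℕ) + 2 ≤ b := by
            have := h2.1
            omega
          have h5 : ((a : ℕ) : ℝ) + 2 ≤ ((b : ℕ) : ℝ) := by exact_mod_cast h4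
          have h6 := min_le_left (((a : ℕ) : ℝ) + 1) (((b : ℕ) : ℝ) + 1 + p)
          have h7 := le_max_right ((a : ℕ) : ℝ) (((b : ℕ) : ℝ) - p)
          linarith
        · have h4 : (b : ℕ) + 2 ≤ a := by
            have := h2.2
            omega
          have h5 : ((b : ℕ) : ℝ) + 2 ≤ ((a : ℕ) : ℝ) := by exact_mod_cast h4
          have h6 := min_le_right (((a : ℕ) : ℝ) + 1) (((b : ℕ) : ℝ) + 1 + p)
          have h7 := le_max_left ((a : ℕ) : ℝ) (((b : ℕ) : ℝ) - p)
          linarith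
      rw [max_eq_right h3, zero_mul]

end Sets

section Conductance

variable {Ψ : (ι → ℝ) → ℝ} {w : (ι → Fin M) → ℝ}

/-- The density. -/
noncomputable def fΨ (Ψ : (ι → ℝ) → ℝ) (x : ι → ℝ) : ℝ≥0∞ := ENNReal.ofReal (Real.exp (-Ψ x))

theorem measurable_fΨ (hcont : Continuous Ψ) : Measurable (fΨ Ψ) :=
  ENNReal.measurable_ofReal.comp (Real.continuous_exp.comp hcont.neg).measurable

theorem fΨ_bounds (hw : ∀ z, 0 < w z)
    (hclose : ∀ z, ∀ x ∈ unitCell z, |Real.log (w z) + Ψ x| ≤ 1 / 8) {z : ι → Fin M} {x : ι → ℝ}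
    (hx : x ∈ unitCell z) :
    Real.exp (-(1 / 8)) * w z ≤ Real.exp (-Ψ x) ∧ Real.exp (-Ψ x) ≤ Real.exp (1 / 8) * w z := by
  have h1 := abs_le.1 (hclose z x hx)
  have h2 : w z = Real.exp (Real.log (w z)) := (Real.exp_log (hw z)).symm
  constructor
  · rw [h2, ← Real.exp_add]
    exact Real.exp_le_exp.2 (by linarith [h1.2])
  · rw [h2, ← Real.exp_add]
    exact Real.exp_le_exp.2 (by linarith [h1.1])

/-- The mass of one cube. -/
theorem mass_cell (hw : ∀ z, 0 < w z)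
    (hclose : ∀ z, ∀ x ∈ unitCell z, |Real.log (w z) + Ψ x| ≤ 1 / 8) (z : ι → Fin M) :
    ENNReal.ofReal (Real.exp (-(1 / 8)) * w z) ≤ ∫⁻ x in cellC z, fΨ Ψ x
      ∧ ∫⁻ x in cellC z, fΨ Ψ x ≤ ENNReal.ofReal (Real.exp (1 / 8) * w z) := by
  have hm := measurableSet_cellC z
  constructor
  · calc ENNReal.ofReal (Real.exp (-(1 / 8)) * w z)
        = ∫⁻ _x in cellC z, ENNReal.ofReal (Real.exp (-(1 / 8)) * w z) := by
          rw [setLIntegral_const, volume_cellC, mul_one]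
      _ ≤ _ := setLIntegral_mono' hm fun x hx =>
          ENNReal.ofReal_le_ofReal (fΨ_bounds hw hclose (cellC_subset_unit z hx)).1
  · calc _ ≤ ∫⁻ _x in cellC z, ENNReal.ofReal (Real.exp (1 / 8) * w z) :=
          setLIntegral_mono' hm fun x hx =>
            ENNReal.ofReal_le_ofReal (fΨ_bounds hw hclose (cellC_subset_unit z hx)).2
      _ = _ := by
          rw [setLIntegral_const, volume_cellC, mul_one]

theorem mass_setA_eq (S : Finset (ι → Fin M)) :
    ∫⁻ x in setA S, fΨ Ψ x = ∑ z ∈ S, ∫⁻ x in cellC z, fΨ Ψ x := by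
  unfold setA
  exact lintegral_biUnion_finset (fun g _ g' _ h => cellC_disjoint h)
    (fun g _ => measurableSet_cellC g) _

theorem mass_setA_ge (hw : ∀ z, 0 < w z)
    (hclose : ∀ z, ∀ x ∈ unitCell z, |Real.log (w z) + Ψ x| ≤ 1 / 8) (S : Finset (ι → Fin M)) :
    ENNReal.ofReal (Real.exp (-(1 / 8)) * ∑ z ∈ S, w z) ≤ ∫⁻ x in setA S, fΨ Ψ x := by
  rw [mass_setA_eq, Finset.mul_sum,
    ENNReal.ofReal_sum_of_nonneg fun z _ => mul_nonneg (Real.exp_pos _).le (hw z).le]
  exact Finset.sum_le_sum fun z _ => (mass_cell hw hclose z).1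

theorem mass_setA_le (hw : ∀ z, 0 < w z)
    (hclose : ∀ z, ∀ x ∈ unitCell z, |Real.log (w z) + Ψ x| ≤ 1 / 8) (S : Finset (ι → Fin M)) :
    ∫⁻ x in setA S, fΨ Ψ x ≤ ENNReal.ofReal (Real.exp (1 / 8) * ∑ z ∈ S, w z) := by
  rw [mass_setA_eq, Finset.mul_sum,
    ENNReal.ofReal_sum_of_nonneg fun z _ => mul_nonneg (Real.exp_pos _).le (hw z).le]
  exact Finset.sum_le_sum fun z _ => (mass_cell hw hclose z).2

/-- Prekopa-Leindler for the enlarged set. -/
theorem pl_shell (hconv : ConvexOn ℝ Set.univ Ψ) (hcont : Continuous Ψ) {lam : ℝ} (h0 : 0 < lam)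
    (h1 : lam < 1) (S : Finset (ι → Fin M)) :
    (∫⁻ x in setA S, fΨ Ψ x) ^ (1 - lam) * (∫⁻ x in cubeQ ι M, fΨ Ψ x) ^ lam
      ≤ ∫⁻ x in setAL lam S, fΨ Ψ x := by
  have hm := measurable_fΨ hcont
  have e1 := fun U (hU : MeasurableSet U) => (lintegral_indicator (μ := volume) hU (fΨ Ψ)).symm
  rw [e1 _ (measurableSet_setA S), e1 _ measurableSet_cubeQ, e1 _ (measurableSet_setAL lam S)]
  refine pl_iota h0 h1 (hm.indicator (measurableSet_setA S)) (hm.indicator measurableSet_cubeQ)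
    (hm.indicator (measurableSet_setAL lam S)) fun x y => ?_
  by_cases hx : x ∈ setA S
  swap
  · rw [Set.indicator_of_notMem hx, ENNReal.zero_rpow_of_pos (by linarith), zero_mul]
    simp
  by_cases hy : y ∈ cubeQ ι M
  swap
  · rw [Set.indicator_of_notMem hy, ENNReal.zero_rpow_of_pos h0, mul_zero]
    simp
  have hz := mix_mem_setAL h0.le h1.le hx hy
  rw [Set.indicator_of_mem hx, Set.indicator_of_mem hy, Set.indicator_of_mem hz]
  unfold fΨ
  rw [ENNReal.ofReal_rpow_of_pos (Real.exp_pos _), ENNReal.ofReal_rpow_of_pos (Real.exp_pos _),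
    ← ENNReal.ofReal_mul (by positivity)]
  refine ENNReal.ofReal_le_ofReal ?_
  rw [← Real.exp_mul, ← Real.exp_mul, ← Real.exp_add]
  refine Real.exp_le_exp.2 ?_
  have h2 := hconv.2 (Set.mem_univ x) (Set.mem_univ y) (by linarith : 0 ≤ 1 - lam) h0.le (by ring)
  simp only [smul_eq_mul] at h2
  linarith

/-- The mass of a corner region. -/
theorem mass_corner {p : ℝ} (hp0 : 0 ≤ p) (hp1 : p ≤ 1 / 4) (h2p : 1 / 2 ≤ (1 - 2 * p) ^ Fintype.card ι)
    (hw : ∀ z, 0 < w z) (hclose : ∀ z, ∀ x ∈ unitCell z, |Real.log (w z) + Ψ x| ≤ 1 / 8)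
    (z' z : ι → Fin M) :
    ∫⁻ x in cornerR p z' z, fΨ Ψ x
      ≤ ENNReal.ofReal (2 * Real.exp (3 / 8) * (prop p z' z * min (w z') (w z))) := by
  classical
  have h12 : 0 < 1 - 2 * p := by linarith
  set L : ι → ℝ := fun i => max (min (((z' i : ℕ) : ℝ) + 1) (((z i : ℕ) : ℝ) + 1 + p)
          - max ((z' i : ℕ) : ℝ) (((z i : ℕ) : ℝ) - p)) 0 with hL
  have hL0 : ∀ i, 0 ≤ L i := fun i => le_max_right _ _
  -- the volume
  have hvol : volume (cornerR p z' z) = ENNReal.ofReal (∏ i, L i) := by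
    unfold cornerR
    rw [Real.volume_pi_Ico, ENNReal.ofReal_prod_of_nonneg fun i _ => hL0 i]
    refine Finset.prod_congr rfl fun i _ => ?_
    simp only [hL]
    rw [ENNReal.ofReal_max, ENNReal.ofReal_zero]
    simp
  have hprod : ∏ i, L i ≤ 2 * prop p z' z := by
    have h1 : (∏ i, L i) * (1 - 2 * p) ^ Fintype.card ι ≤ prop p z' z := by
      unfold prop
      rw [← Finset.card_univ, ← Finset.prod_const, ← Finset.prod_mul_distrib]
      refine Finset.prod_le_prod (fun i _ => mul_nonneg (hL0 i) h12.le) fun i _ => ?_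
      exact corner_len hp0 hp1 rfl (z' i) (z i)
    have h2 : 0 ≤ ∏ i, L i := Finset.prod_nonneg fun i _ => hL0 i
    nlinarith
  -- the weights
  have hweight : w z' * prop p z' z ≤ Real.exp (1 / 4) * (prop p z' z * min (w z') (w z)) := by
    have hp00 : 0 ≤ prop p z' z := prop_nonneg hp0 (by linarith) _ _
    by_cases h0 : prop p z' z = 0
    · rw [h0]
      simp
    -- the two cubes meet
    have hadj : ∀ i, (z' i = z i) ∨ ((z' i : ℕ) + 1 = z i) ∨ ((z i : ℕ) + 1 = z' i) := by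
      intro i
      have h3 : propStep p (z' i) (z i) ≠ 0 := by
        intro h4
        apply h0
        exact Finset.prod_eq_zero (Finset.mem_univ i) h4
      unfold propStep at h3
      by_cases h4 : z' i = z i
      · exact Or.inl h4
      · rw [if_neg h4] at h3
        by_cases h5 : (z' i : ℕ) + 1 = z i ∨ (z i : ℕ) + 1 = z' i
        · exact Or.inr h5
        · rw [if_neg h5] at h3
          exact absurd rfl h3
    set x : ι → ℝ := fun i => max ((z' i : ℕ) : ℝ) ((z i : ℕ) : ℝ) with hx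
    have hx1 : x ∈ unitCell z' := by
      intro i
      refine ⟨le_max_left _ _, ?_⟩
      rw [hx]
      refine max_le (by linarith) ?_
      rcases hadj i with h | h | h
      · rw [h]
        linarith
      · have : ((z i : ℕ) : ℝ) = ((z' i : ℕ) : ℝ) + 1 := by exact_mod_cast h.symm
        linarith
      · have : ((z' i : ℕ) : ℝ) = ((z i : ℕ) : ℝ) + 1 := by exact_mod_cast h.symm
        linarith
    have hx2 : x ∈ unitCell z := by
      intro i
      refine ⟨le_max_right _ _, ?_⟩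
      rw [hx]
      refine max_le ?_ (by linarith)
      rcases hadj i with h | h | h
      · rw [h]
        linarith
      · have : ((z i : ℕ) : ℝ) = ((z' i : ℕ) : ℝ) + 1 := by exact_mod_cast h.symm
        linarith
      · have : ((z' i : ℕ) : ℝ) = ((z i : ℕ) : ℝ) + 1 := by exact_mod_cast h.symm
        linarith
    have h5 := abs_le.1 (hclose z' x hx1)
    have h6 := abs_le.1 (hclose z x hx2)
    have h7 : w z' ≤ Real.exp (1 / 4) * w z := by
      have e1 : w z' = Real.exp (Real.log (w z')) := (Real.exp_log (hw z')).symm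
      have e2 : w z = Real.exp (Real.log (w z)) := (Real.exp_log (hw z)).symm
      rw [e1, e2, ← Real.exp_add]
      exact Real.exp_le_exp.2 (by linarith [h5.1, h5.2, h6.1, h6.2])
    have h8 : w z' ≤ Real.exp (1 / 4) * w z' := by
      have := Real.add_one_le_exp (1 / 4 : ℝ)
      have := hw z'
      nlinarith
    have h9 : w z' ≤ Real.exp (1 / 4) * min (w z') (w z) := by
      rcases min_choice (w z') (w z) with h | h <;> rw [h] <;> assumption
    calc w z' * prop p z' z ≤ Real.exp (1 / 4) * min (w z') (w z) * prop p z' z :=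
          mul_le_mul_of_nonneg_right h9 hp00
      _ = _ := by ring
  have hsub : cornerR p z' z ⊆ cellC z' := by
    intro x hx i _
    have h1 := hx i (Set.mem_univ i)
    simp only [Set.mem_Ico] at h1 ⊢
    exact ⟨(le_max_left _ _).trans h1.1, lt_of_lt_of_le h1.2 (min_le_left _ _)⟩
  have hwz := hw z'
  have hp00 : 0 ≤ prop p z' z := prop_nonneg hp0 (by linarith) _ _
  calc ∫⁻ x in cornerR p z' z, fΨ Ψ x
      ≤ ∫⁻ _x in cornerR p z' z, ENNReal.ofReal (Real.exp (1 / 8) * w z') :=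
        setLIntegral_mono' (measurableSet_cornerR _ _ _) fun x hx =>
          ENNReal.ofReal_le_ofReal (fΨ_bounds hw hclose (cellC_subset_unit z' (hsub hx))).2
    _ = ENNReal.ofReal (Real.exp (1 / 8) * w z' * ∏ i, L i) := by
        rw [setLIntegral_const, hvol, ← ENNReal.ofReal_mul (by positivity)]
    _ ≤ _ := by
        refine ENNReal.ofReal_le_ofReal ?_
        have he : Real.exp (3 / 8) = Real.exp (1 / 8) * Real.exp (1 / 4) := by
          rw [← Real.exp_add]
          norm_num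
        calc Real.exp (1 / 8) * w z' * ∏ i, L i
            ≤ Real.exp (1 / 8) * w z' * (2 * prop p z' z) :=
              mul_le_mul_of_nonneg_left hprod (by positivity)
          _ = 2 * Real.exp (1 / 8) * (w z' * prop p z' z) := by ring
          _ ≤ 2 * Real.exp (1 / 8) * (Real.exp (1 / 4) * (prop p z' z * min (w z') (w z))) :=
              mul_le_mul_of_nonneg_left hweight (by positivity)
          _ = _ := by
              rw [he]
              ring

theorem nZ_gridCond (p : ℝ) (w : (ι → Fin M) → ℝ) : nZ (gridCond p w) = ∑ z, w z := by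
  unfold nZ
  simp_rw [ndeg_gridCond]

theorem npi_gridCond (p : ℝ) (w : (ι → Fin M) → ℝ) (z : ι → Fin M) :
    npi (gridCond p w) z = w z / ∑ z', w z' := by
  unfold npi
  rw [ndeg_gridCond, nZ_gridCond]

/-- The real inequality of the shell. -/
theorem shell_numeric {iA iQ iL iS lam : ℝ} (hA0 : 0 ≤ iA) (hS0 : 0 ≤ iS) (hQ : 5 / 3 * iA ≤ iQ)
    (hl0 : 0 < lam) (hl1 : lam < 1) (hPL : iA ^ (1 - lam) * iQ ^ lam ≤ iL) (hL : iL ≤ iA + iS) :
    iA * lam / 2 ≤ iS := by
  by_cases h0 : iA = 0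
  · rw [h0]
    simpa using hS0
  have hA1 : 0 < iA := lt_of_le_of_ne hA0 (Ne.symm h0)
  have h1 : iA ^ (1 - lam) * (5 / 3 * iA) ^ lam ≤ iA ^ (1 - lam) * iQ ^ lam :=
    mul_le_mul_of_nonneg_left (Real.rpow_le_rpow (by positivity) hQ hl0.le) (by positivity)
  have h2 : iA ^ (1 - lam) * (5 / 3 * iA) ^ lam = iA * (5 / 3 : ℝ) ^ lam := by
    rw [Real.mul_rpow (by norm_num) hA0]
    have : iA ^ (1 - lam) * iA ^ lam = iA := by
      rw [← Real.rpow_add hA1]
      simp
    calc _ = (iA ^ (1 - lam) * iA ^ lam) * (5 / 3 : ℝ) ^ lam := by ring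
      _ = _ := by rw [this]
  have h3 : (1 : ℝ) / 2 ≤ Real.log (5 / 3) := by
    rw [Real.le_log_iff_exp_le (by norm_num)]
    have h4 := Real.exp_one_lt_d9
    have h5 : Real.exp (1 / 2) * Real.exp (1 / 2) = Real.exp 1 := by
      rw [← Real.exp_add]
      norm_num
    have h6 := Real.exp_pos (1 / 2 : ℝ)
    nlinarith
  have h7 : 1 + lam / 2 ≤ (5 / 3 : ℝ) ^ lam := by
    rw [Real.rpow_def_of_pos (by norm_num)]
    have h8 := Real.add_one_le_exp (Real.log (5 / 3) * lam)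
    nlinarith
  have h9 : iA * (1 + lam / 2) ≤ iA * (5 / 3 : ℝ) ^ lam := mul_le_mul_of_nonneg_left h7 hA0
  rw [← h2] at h9
  nlinarith

/-- The numbers of the conductance. -/
theorem cond_numeric {wS wT iA iB iQ iL iS Flow lam : ℝ} (hwS0 : 0 ≤ wS) (hwST : wS ≤ wT)
    (hiA0 : 0 ≤ iA) (hiS0 : 0 ≤ iS) (hlam0 : 0 < lam) (hlam1 : lam < 1) (hQr : iQ = iA + iB)
    (hLr : iL = iA + iS) (hA1r : Real.exp (-(1 / 8)) * wS ≤ iA) (hA2r : iA ≤ Real.exp (1 / 8) * wS)
    (hB1r : Real.exp (-(1 / 8)) * wT ≤ iB) (hSr : iS ≤ 2 * Real.exp (3 / 8) * Flow)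
    (hPLr : iA ^ (1 - lam) * iQ ^ lam ≤ iL) : wS * lam ≤ 8 * Flow := by
  have hFlow0 : 0 ≤ Flow := by
    by_contra h
    push Not at h
    have h3 : 2 * Real.exp (3 / 8) * Flow < 0 := mul_neg_of_pos_of_neg (by positivity) h
    linarith
  -- the numbers
  have hQ53 : 5 / 3 * iA ≤ iQ := by
    have h1 : Real.exp (-(1 / 8)) * wS ≤ iB := by
      refine le_trans ?_ hB1r
      exact mul_le_mul_of_nonneg_left hwST (Real.exp_pos _).le
    have h2 : 2 / 3 * iA ≤ iB := by
      refine le_trans ?_ h1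
      have h3 : iA ≤ Real.exp (1 / 8) * wS := hA2r
      have h4 : (2 : ℝ) / 3 * Real.exp (1 / 8) ≤ Real.exp (-(1 / 8)) := by
        -- `exp (1 / 4) ≤ 3 / 2`
        have h5 : Real.exp (-(1 / 8)) * Real.exp (1 / 4) = Real.exp (1 / 8) := by
          rw [← Real.exp_add]
          norm_num
        have h6 : Real.exp (1 / 4) ≤ 3 / 2 := by
          have h7 : Real.exp (1 / 4) ^ 4 = Real.exp 1 := by
            rw [← Real.exp_nat_mul]
            norm_num
          have h8 := Real.exp_one_lt_d9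
          by_contra h9
          push Not at h9
          have h10 : (3 / 2 : ℝ) ^ 4 < Real.exp (1 / 4) ^ 4 :=
            pow_lt_pow_left₀ h9 (by norm_num) (by norm_num)
          rw [h7] at h10
          norm_num at h10
          linarith
        have h11 := Real.exp_pos (-(1 / 8) : ℝ)
        nlinarith
      calc 2 / 3 * iA ≤ 2 / 3 * (Real.exp (1 / 8) * wS) := by gcongr
        _ = (2 / 3 * Real.exp (1 / 8)) * wS := by ring
        _ ≤ _ := mul_le_mul_of_nonneg_right h4 hwS0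
    rw [hQr]
    linarith
  have hmain := shell_numeric hiA0 hiS0 hQ53 hlam0 hlam1 hPLr (le_of_eq hLr)
  have hexp : Real.exp (1 / 2) ≤ 2 := by
    have h1 := Real.exp_one_lt_d9
    have h5 : Real.exp (1 / 2) * Real.exp (1 / 2) = Real.exp 1 := by
      rw [← Real.exp_add]
      norm_num
    have h6 := Real.exp_pos (1 / 2 : ℝ)
    nlinarith
  have h1 : Real.exp (-(1 / 8)) * wS * lam / 2 ≤ 2 * Real.exp (3 / 8) * Flow := by
    have h2 : Real.exp (-(1 / 8)) * wS * lam / 2 ≤ iA * lam / 2 := by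
      have := mul_le_mul_of_nonneg_right hA1r hlam0.le
      linarith
    linarith
  have h2 : wS * lam ≤ 8 * Flow := by
    have h3 : wS * lam = Real.exp (1 / 8) * (2 * (Real.exp (-(1 / 8)) * wS * lam / 2)) := by
      have : Real.exp (1 / 8) * Real.exp (-(1 / 8)) = 1 := by
        rw [← Real.exp_add]
        simp
      calc wS * lam = (Real.exp (1 / 8) * Real.exp (-(1 / 8))) * (wS * lam) := by
            rw [this, one_mul]
        _ = _ := by ring
    have h4 : Real.exp (1 / 8) * Real.exp (3 / 8) = Real.exp (1 / 2) := by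
      rw [← Real.exp_add]
      norm_num
    rw [h3]
    calc Real.exp (1 / 8) * (2 * (Real.exp (-(1 / 8)) * wS * lam / 2))
        ≤ Real.exp (1 / 8) * (2 * (2 * Real.exp (3 / 8) * Flow)) := by gcongr
      _ = 4 * (Real.exp (1 / 8) * Real.exp (3 / 8)) * Flow := by ring
      _ = 4 * Real.exp (1 / 2) * Flow := by rw [h4]
      _ ≤ 4 * 2 * Flow := by gcongr
      _ = _ := by ring
  exact h2

/-- **The conductance of the grid chain.** -/
theorem grid_conductance [Nonempty ι] (hM : 0 < M) {Ψ : (ι → ℝ) → ℝ} (hconv : ConvexOn ℝ Set.univ Ψ)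
    (hcont : Continuous Ψ) {w : (ι → Fin M) → ℝ} (hw : ∀ z, 0 < w z)
    (hclose : ∀ z, ∀ x ∈ unitCell z, |Real.log (w z) + Ψ x| ≤ 1 / 8) (S : Finset (ι → Fin M))
    (hS : ∑ z ∈ S, npi (gridCond (1 / (4 * (Fintype.card ι : ℝ))) w) z ≤ 1 / 2) :
    1 / (32 * (Fintype.card ι : ℝ) * M) * ∑ z ∈ S, npi (gridCond (1 / (4 * (Fintype.card ι : ℝ))) w) z
      ≤ (∑ z ∈ S, ∑ z' ∈ Sᶜ, gridCond (1 / (4 * (Fintype.card ι : ℝ))) w z z')
        / nZ (gridCond (1 / (4 * (Fintype.card ι : ℝ))) w) := by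
  classical
  have hD0 : 0 < Fintype.card ι := Fintype.card_pos
  set D : ℝ := (Fintype.card ι : ℝ) with hD
  have hD1 : (1 : ℝ) ≤ D := by
    rw [hD]
    exact_mod_cast hD0
  have hM1 : (1 : ℝ) ≤ M := by exact_mod_cast hM
  haveI : Nonempty (Fin M) := ⟨⟨0, hM⟩⟩
  set p : ℝ := 1 / (4 * D) with hp
  have hp0 : 0 < p := by positivity
  have hp1 : p ≤ 1 / 4 := by
    rw [hp]
    apply one_div_le_one_div_of_le <;> linarith
  have h2p : 1 / 2 ≤ (1 - 2 * p) ^ Fintype.card ι := by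
    have h1 := one_add_mul_le_pow (a := -(2 * p)) (by linarith) (Fintype.card ι)
    have h2 : (1 : ℝ) + ((Fintype.card ι : ℕ) : ℝ) * -(2 * p) = 1 / 2 := by
      rw [← hD, hp]
      field_simp
      ring
    rw [h2] at h1
    have e : (1 : ℝ) + -(2 * p) = 1 - 2 * p := by ring
    rwa [e] at h1
  set lam : ℝ := p / M with hlam
  have hlam0 : 0 < lam := by positivity
  have hlam1 : lam < 1 := by
    rw [hlam, div_lt_one (by linarith)]
    linarith
  have hlamM : lam * (M : ℝ) = p := by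
    rw [hlam]
    field_simp
  set Flow : ℝ := ∑ z ∈ S, ∑ z' ∈ Sᶜ, gridCond p w z z' with hFlow
  have hFlow2 : Flow = ∑ z' ∈ Sᶜ, ∑ z ∈ S, prop p z' z * min (w z') (w z) := by
    rw [hFlow, Finset.sum_comm]
    refine Finset.sum_congr rfl fun z' hz' => Finset.sum_congr rfl fun z hz => ?_
    unfold gridCond
    have hne : z ≠ z' := by
      rintro rfl
      exact (Finset.mem_compl.1 hz') hz
    rw [if_neg hne, prop_symm, min_comm]
  have hFlow0 : 0 ≤ Flow := by
    rw [hFlow2]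
    exact Finset.sum_nonneg fun z' _ => Finset.sum_nonneg fun z _ =>
      mul_nonneg (prop_nonneg hp0.le (by linarith) _ _) (le_min (hw _).le (hw _).le)
  set Wt : ℝ := ∑ z, w z with hWt
  have hWt0 : 0 < Wt := Finset.sum_pos (fun z _ => hw z) Finset.univ_nonempty
  set wS : ℝ := ∑ z ∈ S, w z with hwS
  set wT : ℝ := ∑ z ∈ Sᶜ, w z with hwT
  have hwS0 : 0 ≤ wS := Finset.sum_nonneg fun z _ => (hw z).le
  have hwT0 : 0 ≤ wT := Finset.sum_nonneg fun z _ => (hw z).le
  have hWsum : wS + wT = Wt := Finset.sum_add_sum_compl S w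
  have hpi : ∑ z ∈ S, npi (gridCond p w) z = wS / Wt := by
    rw [hwS, Finset.sum_div]
    exact Finset.sum_congr rfl fun z _ => npi_gridCond p w z
  rw [hpi] at hS
  have hwST : wS ≤ wT := by
    rw [div_le_iff₀ hWt0] at hS
    linarith
  -- the masses
  have hA1 := mass_setA_ge (Ψ := Ψ) hw hclose S
  have hA2 := mass_setA_le (Ψ := Ψ) hw hclose S
  have hB1 := mass_setA_ge (Ψ := Ψ) hw hclose Sᶜ
  have hQeq : ∫⁻ x in cubeQ ι M, fΨ Ψ x = (∫⁻ x in setA S, fΨ Ψ x) + ∫⁻ x in setA Sᶜ, fΨ Ψ x := by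
    rw [← setA_univ, mass_setA_eq, mass_setA_eq, mass_setA_eq, Finset.sum_add_sum_compl]
  have hQle : ∫⁻ x in cubeQ ι M, fΨ Ψ x ≤ ENNReal.ofReal (Real.exp (1 / 8) * Wt) := by
    rw [← setA_univ]
    exact mass_setA_le hw hclose _
  have hQt : ∫⁻ x in cubeQ ι M, fΨ Ψ x ≠ ⊤ := ne_top_of_le_ne_top ENNReal.ofReal_ne_top hQle
  have hfinQ : ∀ U : Set (ι → ℝ), U ⊆ cubeQ ι M → ∫⁻ x in U, fΨ Ψ x ≠ ⊤ := fun U hU =>
    ne_top_of_le_ne_top hQt (lintegral_mono_set hU)
  have hAQ : setA S ⊆ cubeQ ι M := by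
    intro x hx
    simp only [setA, Set.mem_iUnion] at hx
    obtain ⟨z, _, hxz⟩ := hx
    exact cellC_subset z hxz
  have hBQ : setA Sᶜ ⊆ cubeQ ι M := by
    intro x hx
    simp only [setA, Set.mem_iUnion] at hx
    obtain ⟨z, _, hxz⟩ := hx
    exact cellC_subset z hxz
  have hLQ : setAL lam S ⊆ cubeQ ι M := by
    intro x hx
    simp only [setAL, Set.mem_iUnion] at hx
    obtain ⟨z, _, hxz⟩ := hx
    exact boxL_subset_cube hlam0.le hlam1.le z hxz
  -- the shell
  have hshell : ∫⁻ x in setAL lam S \ setA S, fΨ Ψ x ≤ ENNReal.ofReal (2 * Real.exp (3 / 8) * Flow) := by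
    set ν := volume.withDensity (fΨ Ψ) with hν
    have hνU : ∀ U : Set (ι → ℝ), MeasurableSet U → ν U = ∫⁻ z in U, fΨ Ψ z :=
      fun U hU => withDensity_apply _ hU
    rw [← hνU _ ((measurableSet_setAL lam S).diff (measurableSet_setA S))]
    have hc : 0 ≤ 2 * Real.exp (3 / 8) := by positivity
    calc ν (setAL lam S \ setA S)
        ≤ ν (⋃ z' ∈ Sᶜ, ⋃ z ∈ S, cornerR p z' z) := measure_mono (shell_subset hlam0.le hlam1.le hlamM S)
      _ ≤ ∑ z' ∈ Sᶜ, ν (⋃ z ∈ S, cornerR p z' z) := measure_biUnion_finset_le _ _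
      _ ≤ ∑ z' ∈ Sᶜ, ∑ z ∈ S, ν (cornerR p z' z) :=
          Finset.sum_le_sum fun z' _ => measure_biUnion_finset_le _ _
      _ ≤ ∑ z' ∈ Sᶜ, ∑ z ∈ S, ENNReal.ofReal (2 * Real.exp (3 / 8) * (prop p z' z * min (w z') (w z))) := by
          refine Finset.sum_le_sum fun z' _ => Finset.sum_le_sum fun z _ => ?_
          rw [hνU _ (measurableSet_cornerR _ _ _)]
          exact mass_corner hp0.le hp1 h2p hw hclose z' z
      _ = _ := by
          rw [hFlow2, Finset.mul_sum, ENNReal.ofReal_sum_of_nonneg]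
          · refine Finset.sum_congr rfl fun z' _ => ?_
            rw [Finset.mul_sum, ENNReal.ofReal_sum_of_nonneg]
            exact fun z _ => mul_nonneg hc
              (mul_nonneg (prop_nonneg hp0.le (by linarith) _ _) (le_min (hw _).le (hw _).le))
          · intro z' _
            exact mul_nonneg hc (Finset.sum_nonneg fun z _ =>
              mul_nonneg (prop_nonneg hp0.le (by linarith) _ _) (le_min (hw _).le (hw _).le))
  have hsplit : ∫⁻ x in setAL lam S, fΨ Ψ x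
      = (∫⁻ x in setA S, fΨ Ψ x) + ∫⁻ x in setAL lam S \ setA S, fΨ Ψ x := by
    have h1 := lintegral_inter_add_sdiff (μ := volume) (fΨ Ψ) (setAL lam S) (measurableSet_setA S)
    rw [Set.inter_eq_right.2 (setA_subset_setAL hlam0.le hlam1.le S)] at h1
    exact h1.symm
  have hPL := pl_shell (S := S) hconv hcont hlam0 hlam1
  -- to real numbers
  set iA := (∫⁻ x in setA S, fΨ Ψ x).toReal with hiA
  set iB := (∫⁻ x in setA Sᶜ, fΨ Ψ x).toReal with hiB
  set iQ := (∫⁻ x in cubeQ ι M, fΨ Ψ x).toReal with hiQ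
  set iL := (∫⁻ x in setAL lam S, fΨ Ψ x).toReal with hiL
  set iS := (∫⁻ x in setAL lam S \ setA S, fΨ Ψ x).toReal with hiS
  have hiA0 : 0 ≤ iA := ENNReal.toReal_nonneg
  have hiB0 : 0 ≤ iB := ENNReal.toReal_nonneg
  have hiS0 : 0 ≤ iS := ENNReal.toReal_nonneg
  have hQr : iQ = iA + iB := by
    rw [hiQ, hQeq, ENNReal.toReal_add (hfinQ _ hAQ) (hfinQ _ hBQ)]
  have hLr : iL = iA + iS := by
    rw [hiL, hsplit, ENNReal.toReal_add (hfinQ _ hAQ)
      (hfinQ _ (Set.sdiff_subset.trans hLQ))]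
  have hA1r : Real.exp (-(1 / 8)) * wS ≤ iA := by
    have := ENNReal.toReal_mono (hfinQ _ hAQ) hA1
    rwa [ENNReal.toReal_ofReal (by positivity)] at this
  have hA2r : iA ≤ Real.exp (1 / 8) * wS := by
    have := ENNReal.toReal_mono ENNReal.ofReal_ne_top hA2
    rwa [ENNReal.toReal_ofReal (by positivity)] at this
  have hB1r : Real.exp (-(1 / 8)) * wT ≤ iB := by
    have := ENNReal.toReal_mono (hfinQ _ hBQ) hB1
    rwa [ENNReal.toReal_ofReal (by positivity)] at this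
  have hSr : iS ≤ 2 * Real.exp (3 / 8) * Flow := by
    have := ENNReal.toReal_mono ENNReal.ofReal_ne_top hshell
    rwa [ENNReal.toReal_ofReal (by positivity)] at this
  have hPLr : iA ^ (1 - lam) * iQ ^ lam ≤ iL := by
    have := ENNReal.toReal_mono (hfinQ _ hLQ) hPL
    rwa [ENNReal.toReal_mul, ← ENNReal.toReal_rpow, ← ENNReal.toReal_rpow] at this
  have h2 := cond_numeric hwS0 hwST hiA0 hiS0 hlam0 hlam1 hQr hLr hA1r hA2r hB1r hSr hPLr
  rw [hpi, nZ_gridCond, ← hWt, div_mul_eq_mul_div, one_mul]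
  rw [div_div, div_le_div_iff₀ (by positivity) hWt0]
  -- `lam = 1 / (4 * D * M)`
  have hlam2 : lam = 1 / (4 * D * M) := by
    rw [hlam, hp]
    field_simp
  rw [hlam2] at h2
  have h3 : wS ≤ 8 * Flow * (4 * D * M) := by
    rw [mul_one_div, div_le_iff₀ (by positivity)] at h2
    exact h2
  have hDM : 0 < D * M := by positivity
  calc wS * Wt ≤ (8 * Flow * (4 * D * M)) * Wt := mul_le_mul_of_nonneg_right h3 hWt0.le
    _ = Flow * (Wt * (32 * D * M)) := by ring
    _ ≤ _ := by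
      apply le_of_eq
      ring

/-- **The grid chain mixes.** -/
theorem grid_tv [Nonempty ι] (hM : 0 < M) {Ψ : (ι → ℝ) → ℝ} (hconv : ConvexOn ℝ Set.univ Ψ)
    (hcont : Continuous Ψ) {w : (ι → Fin M) → ℝ} (hw : ∀ z, 0 < w z)
    (hclose : ∀ z, ∀ x ∈ unitCell z, |Real.log (w z) + Ψ x| ≤ 1 / 8) (z0 : ι → Fin M) (T : ℕ) :
    ∑ z, |(gridP (1 / (4 * (Fintype.card ι : ℝ))) w ^ T) z0 z - w z / ∑ z', w z'|
      ≤ Real.sqrt ((1 - 1 / (16384 * (Fintype.card ι : ℝ) ^ 2 * (M : ℝ) ^ 2)) ^ T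
          * ((∑ z', w z') / w z0)) := by
  classical
  have hD0 : 0 < Fintype.card ι := Fintype.card_pos
  set D : ℝ := (Fintype.card ι : ℝ) with hD
  have hD1 : (1 : ℝ) ≤ D := by
    rw [hD]
    exact_mod_cast hD0
  have hM1 : (1 : ℝ) ≤ M := by exact_mod_cast hM
  haveI : Nonempty (Fin M) := ⟨⟨0, hM⟩⟩
  set p : ℝ := 1 / (4 * D) with hp
  have hp0 : 0 < p := by positivity
  have hp1 : p ≤ 1 / 2 := by
    rw [hp, div_le_div_iff₀ (by positivity) (by norm_num)]
    linarith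
  have hsymm := gridCond_symm p w
  have hnn := gridCond_nonneg hp0.le hp1 hw
  have hdeg : ∀ v, 0 < ndeg (gridCond p w) v := fun v => by
    rw [ndeg_gridCond]
    exact hw v
  have hnpis : ∑ v, npi (gridCond p w) v = 1 := npi_sum hdeg
  set Φ : ℝ := 1 / (32 * D * M) with hΦ
  have hΦ0 : 0 < Φ := by positivity
  have hflow_swap : ∀ A : Finset (ι → Fin M),
      ∑ x ∈ Aᶜ, ∑ y ∈ Aᶜᶜ, gridCond p w x y = ∑ x ∈ A, ∑ y ∈ Aᶜ, gridCond p w x y := by
    intro A
    rw [compl_compl, Finset.sum_comm]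
    exact Finset.sum_congr rfl fun x _ => Finset.sum_congr rfl fun y _ => hsymm _ _
  have hflow0 : ∀ A : Finset (ι → Fin M), 0 ≤ ∑ x ∈ A, ∑ y ∈ Aᶜ, gridCond p w x y := fun A =>
    Finset.sum_nonneg fun x _ => Finset.sum_nonneg fun y _ => hnn x y
  have hpi0 := fun y => npi_pos hdeg (cond := gridCond p w) y
  have hcut : ∀ A : Finset (ι → Fin M),
      Φ * ((∑ x ∈ A, npi (gridCond p w) x) * ∑ y ∈ Aᶜ, npi (gridCond p w) y)
        ≤ (∑ x ∈ A, ∑ y ∈ Aᶜ, gridCond p w x y) / nZ (gridCond p w) := by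
    intro A
    have hsum : (∑ x ∈ A, npi (gridCond p w) x) + ∑ y ∈ Aᶜ, npi (gridCond p w) y = 1 := by
      rw [Finset.sum_add_sum_compl, hnpis]
    have hA0 : 0 ≤ ∑ x ∈ A, npi (gridCond p w) x := Finset.sum_nonneg fun x _ => (hpi0 x).le
    have hB0 : 0 ≤ ∑ y ∈ Aᶜ, npi (gridCond p w) y := Finset.sum_nonneg fun x _ => (hpi0 x).le
    rcases le_total (∑ x ∈ A, npi (gridCond p w) x) (1 / 2) with h | h
    · have h1 := grid_conductance hM hconv hcont hw hclose A h
      refine le_trans ?_ h1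
      have h2 : (∑ y ∈ Aᶜ, npi (gridCond p w) y) ≤ 1 := by linarith
      calc Φ * ((∑ x ∈ A, npi (gridCond p w) x) * ∑ y ∈ Aᶜ, npi (gridCond p w) y)
          ≤ Φ * ((∑ x ∈ A, npi (gridCond p w) x) * 1) := by gcongr
        _ = _ := by rw [mul_one]
    · have h' : ∑ y ∈ Aᶜ, npi (gridCond p w) y ≤ 1 / 2 := by linarith
      have h1 := grid_conductance hM hconv hcont hw hclose Aᶜ h'
      rw [hflow_swap A] at h1
      refine le_trans ?_ h1
      have h2 : (∑ x ∈ A, npi (gridCond p w) x) ≤ 1 := by linarith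
      calc Φ * ((∑ x ∈ A, npi (gridCond p w) x) * ∑ y ∈ Aᶜ, npi (gridCond p w) y)
          ≤ Φ * (1 * ∑ y ∈ Aᶜ, npi (gridCond p w) y) := by gcongr
        _ = _ := by rw [one_mul]
  have hP := poincare_of_cut hsymm hnn hdeg hΦ0 hcut
  have hC : 1 / 2 ≤ 8 / Φ ^ 2 := by
    have h1 : Φ ≤ 1 := by
      rw [hΦ, div_le_one (by positivity)]
      nlinarith
    have h2 : Φ ^ 2 ≤ 1 := by nlinarith
    rw [le_div_iff₀ (by positivity)]
    nlinarith
  have h1 := tv_le_of_poincare hsymm hnn hdeg hC hP z0 T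
  rw [← gridP_eq p hw] at h1
  have e1 : 1 / (2 * (8 / Φ ^ 2)) = 1 / (16384 * D ^ 2 * (M : ℝ) ^ 2) := by
    rw [hΦ]
    field_simp
    norm_num
  have e2 : npi (gridCond p w) z0 = w z0 / ∑ z', w z' := npi_gridCond p w z0
  have e3 : ∀ z, npi (gridCond p w) z = w z / ∑ z', w z' := npi_gridCond p w
  simp_rw [e3] at h1
  rw [e1] at h1
  have e4 : (1 - 1 / (16384 * D ^ 2 * (M : ℝ) ^ 2)) ^ T / (w z0 / ∑ z', w z')
      = (1 - 1 / (16384 * D ^ 2 * (M : ℝ) ^ 2)) ^ T * ((∑ z', w z') / w z0) := by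
    rw [div_div_eq_mul_div, mul_div_assoc]
  rw [e4] at h1
  linarith

end Conductance

end Vale.Agent.Lib.P328.Samp
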