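import Vale.Agent.Lib.P245.PLT

/-!
# A cut inequality from Prekopa-Leindler

Let `ρ` be a density on `ℝ ^ D`, `S` and `T` measurable sets and `0 < s ≤ 1`. If for all `x`, `y`
with midpoint `z`, `ρ x ^ (1/2) * ρ y ^ (1/2)` times `exp (s / 2)` (for `x ∈ S`, `y ∉ S`), `exp (-s/2)`
(for `x ∉ S`, `y ∈ S`), `1` otherwise is at most `ρ z` times `exp (s / 2)` (for `z ∈ T`), `1` otherwise,
then `a * b * s ≤ 3 * τ` where `a`, `b`, `τ` are the normalized masses of `S`, `Sᶜ`, `T`.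
-/

namespace Vale.Agent.Lib.P328.Samp

open MeasureTheory Set
open scoped ENNReal

variable {D : ℕ}

/-- The elementary inequality of the cut. -/
theorem cut_numeric {a b τ s : ℝ} (ha : 0 ≤ a) (hb : 0 ≤ b) (hab : a + b = 1) (hτ0 : 0 ≤ τ)
    (hτ1 : τ ≤ 1) (hs0 : 0 < s) (hs1 : s ≤ 1)
    (H : (b + a * Real.exp s) * (b + a * Real.exp (-s))
      ≤ (1 + (Real.exp (s / 2) - 1) * τ) ^ 2) : a * b * s ≤ 3 * τ := by
  have h1 : Real.exp s + Real.exp (-s) ≥ 2 + s ^ 2 := by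
    have h2 : s / 2 ≤ Real.sinh (s / 2) := Real.self_le_sinh_iff.2 (by linarith)
    have h3 : Real.sinh (s / 2) = (Real.exp (s / 2) - Real.exp (-(s / 2))) / 2 := Real.sinh_eq _
    rw [h3] at h2
    have h5 : Real.exp (s / 2) * Real.exp (s / 2) = Real.exp s := by
      rw [← Real.exp_add]
      congr 1
      ring
    have h6 : Real.exp (-(s / 2)) * Real.exp (-(s / 2)) = Real.exp (-s) := by
      rw [← Real.exp_add]
      congr 1
      ring
    have h7 : Real.exp (s / 2) * Real.exp (-(s / 2)) = 1 := by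
      rw [← Real.exp_add]
      simp
    have h8 : s ≤ Real.exp (s / 2) - Real.exp (-(s / 2)) := by linarith
    nlinarith
  have h4 : Real.exp s * Real.exp (-s) = 1 := by
    rw [← Real.exp_add]
    simp
  have hL : (b + a * Real.exp s) * (b + a * Real.exp (-s))
      = 1 + a * b * (Real.exp s + Real.exp (-s) - 2) := by
    have : b = 1 - a := by linarith
    subst this
    have e : (1 - a + a * Real.exp s) * (1 - a + a * Real.exp (-s))
        = (1 - a) ^ 2 + a * (1 - a) * (Real.exp s + Real.exp (-s)) + a ^ 2 * (Real.exp s * Real.exp (-s)) := by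
      ring
    rw [e, h4]
    ring
  set κ : ℝ := Real.exp (s / 2) - 1 with hκ
  have hκ0 : 0 ≤ κ := by
    have := Real.add_one_le_exp (s / 2)
    linarith
  have hκs : κ ≤ s := by
    -- exp y ≤ 1 + 2 y for 0 ≤ y ≤ 1 / 2
    have h5 : Real.exp (s / 2) ≤ 1 + s := by
      have h6 : Real.exp (s / 2) ≤ 1 / (1 - s / 2) := by
        have h7 : (1 - s / 2) * Real.exp (s / 2) ≤ 1 := by
          have h8 := Real.add_one_le_exp (-(s / 2))
          have h9 : Real.exp (s / 2) * Real.exp (-(s / 2)) = 1 := by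
            rw [← Real.exp_add]
            simp
          have h10 := Real.exp_pos (s / 2)
          nlinarith
        rw [le_div_iff₀ (by linarith)]
        linarith
      refine h6.trans ?_
      rw [div_le_iff₀ (by linarith)]
      nlinarith
    linarith
  have hκ1 : κ ≤ 1 := hκs.trans hs1
  have hR : (1 + κ * τ) ^ 2 ≤ 1 + 3 * κ * τ := by
    have h5 : κ * τ ≤ 1 := by nlinarith
    have h6 : 0 ≤ κ * τ := mul_nonneg hκ0 hτ0
    nlinarith
  have h7 : a * b * s ^ 2 ≤ 3 * κ * τ := by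
    have h8 : a * b * s ^ 2 ≤ a * b * (Real.exp s + Real.exp (-s) - 2) :=
      mul_le_mul_of_nonneg_left (by linarith) (mul_nonneg ha hb)
    nlinarith
  have h9 : a * b * s ^ 2 ≤ 3 * s * τ := by
    have : 3 * κ * τ ≤ 3 * s * τ := by nlinarith
    linarith
  have h10 : s * (a * b * s) ≤ s * (3 * τ) := by nlinarith
  exact le_of_mul_le_mul_left h10 hs0

/-- The exponential weights are measurable. -/
theorem meas_weight {S : Set (Fin D → ℝ)} (hS : MeasurableSet S) (u v : ℝ≥0∞) :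
    Measurable fun x : Fin D → ℝ => S.indicator (fun _ => u) x + Sᶜ.indicator (fun _ => v) x :=
  (measurable_const.indicator hS).add (measurable_const.indicator hS.compl)

/-- Integral of a two valued multiple of `ρ`. -/
theorem lintegral_two_valued {ρ : (Fin D → ℝ) → ℝ≥0∞} (hρ : Measurable ρ)
    {S : Set (Fin D → ℝ)} (hS : MeasurableSet S) (u v : ℝ≥0∞) :
    ∫⁻ x, ρ x * (S.indicator (fun _ => u) x + Sᶜ.indicator (fun _ => v) x)
      = u * (∫⁻ x in S, ρ x) + v * ∫⁻ x in Sᶜ, ρ x := by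
  have h1 : ∀ x, ρ x * (S.indicator (fun _ => u) x + Sᶜ.indicator (fun _ => v) x)
      = S.indicator (fun x => u * ρ x) x + Sᶜ.indicator (fun x => v * ρ x) x := by
    intro x
    by_cases hx : x ∈ S
    · simp [hx, mul_comm]
    · simp [hx, mul_comm]
  simp_rw [h1]
  rw [lintegral_add_left ((hρ.const_mul u).indicator hS),
    lintegral_indicator hS, lintegral_indicator hS.compl,
    lintegral_const_mul _ hρ, lintegral_const_mul _ hρ]

/-- **The cut inequality.** -/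
theorem pl_cut {ρ : (Fin D → ℝ) → ℝ≥0∞} (hρ : Measurable ρ) {S T : Set (Fin D → ℝ)}
    (hS : MeasurableSet S) (hT : MeasurableSet T) {s : ℝ} (hs0 : 0 < s) (hs1 : s ≤ 1)
    (hZ0 : ∫⁻ x, ρ x ≠ 0) (hZt : ∫⁻ x, ρ x ≠ ⊤)
    (H : ∀ x y, (ρ x * (S.indicator (fun _ => ENNReal.ofReal (Real.exp s)) x
          + Sᶜ.indicator (fun _ => 1) x)) ^ (1 / 2 : ℝ)
        * (ρ y * (S.indicator (fun _ => ENNReal.ofReal (Real.exp (-s))) y
          + Sᶜ.indicator (fun _ => 1) y)) ^ (1 / 2 : ℝ)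
      ≤ ρ ((1 / 2 : ℝ) • x + (1 / 2 : ℝ) • y)
        * (T.indicator (fun _ => ENNReal.ofReal (Real.exp (s / 2))) ((1 / 2 : ℝ) • x + (1 / 2 : ℝ) • y)
          + Tᶜ.indicator (fun _ => 1) ((1 / 2 : ℝ) • x + (1 / 2 : ℝ) • y))) :
    ((∫⁻ x in S, ρ x) / ∫⁻ x, ρ x).toReal * ((∫⁻ x in Sᶜ, ρ x) / ∫⁻ x, ρ x).toReal * s
      ≤ 3 * ((∫⁻ x in T, ρ x) / ∫⁻ x, ρ x).toReal := by
  set Z := ∫⁻ x, ρ x with hZ
  have hP := Vale.Agent.Lib.P245.pl_pi (n := D) (t := 1 / 2) (by norm_num) (by norm_num)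
    (f := fun x => ρ x * (S.indicator (fun _ => ENNReal.ofReal (Real.exp s)) x
      + Sᶜ.indicator (fun _ => 1) x))
    (g := fun x => ρ x * (S.indicator (fun _ => ENNReal.ofReal (Real.exp (-s))) x
      + Sᶜ.indicator (fun _ => 1) x))
    (h := fun x => ρ x * (T.indicator (fun _ => ENNReal.ofReal (Real.exp (s / 2))) x
      + Tᶜ.indicator (fun _ => 1) x))
    (hρ.mul (meas_weight hS _ _)) (hρ.mul (meas_weight hS _ _)) (hρ.mul (meas_weight hT _ _))
    (by
      intro x y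
      have e : (1 : ℝ) - 1 / 2 = 1 / 2 := by norm_num
      rw [e]
      exact H x y)
  have e : (1 : ℝ) - 1 / 2 = 1 / 2 := by norm_num
  rw [e, lintegral_two_valued hρ hS, lintegral_two_valued hρ hS, lintegral_two_valued hρ hT] at hP
  -- masses
  have hsplit : ∀ U : Set (Fin D → ℝ), MeasurableSet U → (∫⁻ x in U, ρ x) + ∫⁻ x in Uᶜ, ρ x = Z :=
    fun U hU => lintegral_add_compl ρ hU
  have hfin : ∀ U : Set (Fin D → ℝ), ∫⁻ x in U, ρ x ≠ ⊤ := fun U =>
    ne_top_of_le_ne_top hZt (setLIntegral_le_lintegral U ρ)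
  set A := (∫⁻ x in S, ρ x).toReal with hA
  set B := (∫⁻ x in Sᶜ, ρ x).toReal with hB
  set W := (∫⁻ x in T, ρ x).toReal with hW
  set Wc := (∫⁻ x in Tᶜ, ρ x).toReal with hWc
  set Zr := Z.toReal with hZr
  have hZr0 : 0 < Zr := ENNReal.toReal_pos hZ0 hZt
  have hAB : A + B = Zr := by
    rw [hA, hB, hZr, ← ENNReal.toReal_add (hfin S) (hfin _), hsplit S hS]
  have hWW : W + Wc = Zr := by
    rw [hW, hWc, hZr, ← ENNReal.toReal_add (hfin T) (hfin _), hsplit T hT]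
  have hA0 : 0 ≤ A := ENNReal.toReal_nonneg
  have hB0 : 0 ≤ B := ENNReal.toReal_nonneg
  have hW0 : 0 ≤ W := ENNReal.toReal_nonneg
  have hWc0 : 0 ≤ Wc := ENNReal.toReal_nonneg
  -- convert P-L to real numbers
  have hreal : (Real.exp s * A + B) * (Real.exp (-s) * A + B)
      ≤ (Real.exp (s / 2) * W + Wc) ^ 2 := by
    have hne1 : ENNReal.ofReal (Real.exp s) * (∫⁻ x in S, ρ x) + 1 * ∫⁻ x in Sᶜ, ρ x ≠ ⊤ :=
      ENNReal.add_ne_top.2 ⟨ENNReal.mul_ne_top ENNReal.ofReal_ne_top (hfin S),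
        ENNReal.mul_ne_top ENNReal.one_ne_top (hfin _)⟩
    have hne2 : ENNReal.ofReal (Real.exp (-s)) * (∫⁻ x in S, ρ x) + 1 * ∫⁻ x in Sᶜ, ρ x ≠ ⊤ :=
      ENNReal.add_ne_top.2 ⟨ENNReal.mul_ne_top ENNReal.ofReal_ne_top (hfin S),
        ENNReal.mul_ne_top ENNReal.one_ne_top (hfin _)⟩
    have hne3 : ENNReal.ofReal (Real.exp (s / 2)) * (∫⁻ x in T, ρ x) + 1 * (∫⁻ x in Tᶜ, ρ x) ≠ ⊤ :=
      ENNReal.add_ne_top.2 ⟨ENNReal.mul_ne_top ENNReal.ofReal_ne_top (hfin T),
        ENNReal.mul_ne_top ENNReal.one_ne_top (hfin _)⟩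
    have h1 := ENNReal.toReal_mono hne3 hP
    rw [ENNReal.toReal_mul, ← ENNReal.toReal_rpow, ← ENNReal.toReal_rpow] at h1
    have e1 : (ENNReal.ofReal (Real.exp s) * (∫⁻ x in S, ρ x) + 1 * ∫⁻ x in Sᶜ, ρ x).toReal
        = Real.exp s * A + B := by
      rw [ENNReal.toReal_add (ENNReal.mul_ne_top ENNReal.ofReal_ne_top (hfin S))
        (ENNReal.mul_ne_top ENNReal.one_ne_top (hfin _)), ENNReal.toReal_mul, ENNReal.toReal_mul,
        ENNReal.toReal_ofReal (Real.exp_pos _).le]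
      simp [hA, hB]
    have e2 : (ENNReal.ofReal (Real.exp (-s)) * (∫⁻ x in S, ρ x) + 1 * ∫⁻ x in Sᶜ, ρ x).toReal
        = Real.exp (-s) * A + B := by
      rw [ENNReal.toReal_add (ENNReal.mul_ne_top ENNReal.ofReal_ne_top (hfin S))
        (ENNReal.mul_ne_top ENNReal.one_ne_top (hfin _)), ENNReal.toReal_mul, ENNReal.toReal_mul,
        ENNReal.toReal_ofReal (Real.exp_pos _).le]
      simp [hA, hB]
    have e3 : (ENNReal.ofReal (Real.exp (s / 2)) * (∫⁻ x in T, ρ x) + 1 * ∫⁻ x in Tᶜ, ρ x).toReal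
        = Real.exp (s / 2) * W + Wc := by
      rw [ENNReal.toReal_add (ENNReal.mul_ne_top ENNReal.ofReal_ne_top (hfin T))
        (ENNReal.mul_ne_top ENNReal.one_ne_top (hfin _)), ENNReal.toReal_mul, ENNReal.toReal_mul,
        ENNReal.toReal_ofReal (Real.exp_pos _).le]
      simp [hW, hWc]
    rw [e1, e2, e3] at h1
    have hp1 : 0 ≤ Real.exp s * A + B := by positivity
    have hp2 : 0 ≤ Real.exp (-s) * A + B := by positivity
    have h2 : ((Real.exp s * A + B) ^ (1 / 2 : ℝ) * (Real.exp (-s) * A + B) ^ (1 / 2 : ℝ)) ^ 2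
        = (Real.exp s * A + B) * (Real.exp (-s) * A + B) := by
      rw [mul_pow, ← Real.rpow_natCast, ← Real.rpow_natCast, ← Real.rpow_mul hp1, ← Real.rpow_mul hp2]
      norm_num
    rw [← h2]
    exact pow_le_pow_left₀ (by positivity) h1 2
  -- normalize
  have hdiv : ∀ U : Set (Fin D → ℝ), ((∫⁻ x in U, ρ x) / Z).toReal = (∫⁻ x in U, ρ x).toReal / Zr := by
    intro U
    rw [ENNReal.toReal_div]
  rw [hdiv S, hdiv _, hdiv T]
  have hZ2 : 0 < Zr ^ 2 := by positivity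
  have hW1 : W / Zr ≤ 1 := by
    rw [div_le_one hZr0]
    linarith
  refine cut_numeric (div_nonneg hA0 hZr0.le) (div_nonneg hB0 hZr0.le) ?_ (div_nonneg hW0 hZr0.le) hW1 hs0 hs1 ?_
  · rw [← add_div, hAB, div_self hZr0.ne']
  · have e4 : (B / Zr + A / Zr * Real.exp s) * (B / Zr + A / Zr * Real.exp (-s))
        = (Real.exp s * A + B) * (Real.exp (-s) * A + B) / Zr ^ 2 := by
      field_simp
      ring
    have e5 : (1 + (Real.exp (s / 2) - 1) * (W / Zr)) ^ 2 = (Real.exp (s / 2) * W + Wc) ^ 2 / Zr ^ 2 := by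
      have : Wc = Zr - W := by linarith
      rw [this]
      field_simp
      ring
    rw [e4, e5]
    exact div_le_div_of_nonneg_right hreal hZ2.le

end Vale.Agent.Lib.P328.Samp
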