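import Vale.Agent.Lib.P328.Samp.Cheeger
import Vale.Agent.Lib.P328.Samp.PLCut

/-!
# The grid Metropolis chain for a log-concave Lipschitz density

The states are the points of the grid `{0, ..., M - 1} ^ D`, seen as the centres of the unit cells of
the cube `[0, M) ^ D`. The target weight of a state `g` is `exp (- ψ (g + 1 / 2))`, where `ψ` is convex
and 1-Lipschitz for the sup norm on the cube. A step picks one of the `2 * D` neighbours and accepts
with the Metropolis rule. We prove the cut inequality with `Φ = 1 / (30000 * D ^ 3 * M ^ 2)`, by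
Prekopa-Leindler for the density with an added small quadratic term.
-/

namespace Vale.Agent.Lib.P328.Samp.NN

open Finset MeasureTheory Vale.Agent.Lib.P328.Walk
open scoped ENNReal

variable {D M : ℕ}

/-- The states of the grid. -/
abbrev Grid (D M : ℕ) := Fin D → Fin M

/-- The centre of a cell. -/
noncomputable def gpos (g : Grid D M) : Fin D → ℝ := fun k => ((g k : ℕ) : ℝ) + 1 / 2

/-- A cell. -/
def gcell (g : Grid D M) : Set (Fin D → ℝ) :=
  Set.pi Set.univ fun k => Set.Ico (((g k : ℕ) : ℝ)) (((g k : ℕ) : ℝ) + 1)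

/-- The cube. -/
def gcube (D M : ℕ) : Set (Fin D → ℝ) := Set.pi Set.univ fun _ => Set.Ico (0 : ℝ) (M : ℝ)

/-- The target weight. -/
noncomputable def gw (ψ : (Fin D → ℝ) → ℝ) (g : Grid D M) : ℝ := Real.exp (-ψ (gpos g))

/-- `g'` is the neighbour of `g` upwards in the direction `k`. -/
def gup (g : Grid D M) (k : Fin D) (g' : Grid D M) : Prop :=
  ((g' k : ℕ) = (g k : ℕ) + 1) ∧ ∀ l, l ≠ k → g' l = g l

instance (g : Grid D M) (k : Fin D) (g' : Grid D M) : Decidable (gup g k g') := by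
  unfold gup
  infer_instance

/-- The weight of the edge between two different states. -/
noncomputable def edgeW (ψ : (Fin D → ℝ) → ℝ) (g g' : Grid D M) : ℝ :=
  ∑ k, (if gup g k g' ∨ gup g' k g then min (gw ψ g) (gw ψ g') / (2 * (D : ℝ)) else 0)

/-- The network of the Metropolis chain: the weight of `g` is completed by a loop. -/
noncomputable def gcond (ψ : (Fin D → ℝ) → ℝ) (g g' : Grid D M) : ℝ :=
  if g = g' then gw ψ g - ∑ g'', edgeW ψ g g'' else edgeW ψ g g'

section Basics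

theorem gw_pos (ψ : (Fin D → ℝ) → ℝ) (g : Grid D M) : 0 < gw ψ g := Real.exp_pos _

theorem edgeW_nonneg (ψ : (Fin D → ℝ) → ℝ) (g g' : Grid D M) : 0 ≤ edgeW ψ g g' := by
  unfold edgeW
  refine Finset.sum_nonneg fun k _ => ?_
  split_ifs
  · have := gw_pos ψ g
    have := gw_pos ψ g'
    positivity
  · exact le_rfl

theorem edgeW_symm (ψ : (Fin D → ℝ) → ℝ) (g g' : Grid D M) : edgeW ψ g g' = edgeW ψ g' g := by
  unfold edgeW
  refine Finset.sum_congr rfl fun k _ => ?_
  refine if_congr or_comm ?_ rfl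
  rw [min_comm]

theorem gup_unique {g g' g'' : Grid D M} {k : Fin D} (h1 : gup g k g') (h2 : gup g k g'') :
    g' = g'' := by
  funext l
  by_cases hl : l = k
  · subst hl
    exact Fin.ext (h1.1.trans h2.1.symm)
  · rw [h1.2 l hl, h2.2 l hl]

theorem gup_unique' {g g' g'' : Grid D M} {k : Fin D} (h1 : gup g' k g) (h2 : gup g'' k g) :
    g' = g'' := by
  funext l
  by_cases hl : l = k
  · subst hl
    refine Fin.ext ?_
    have := h1.1
    have := h2.1
    omega
  · rw [← h1.2 l hl, ← h2.2 l hl]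

theorem gup_irrefl (g : Grid D M) (k : Fin D) : ¬ gup g k g := by
  rintro ⟨h, _⟩
  omega

theorem edgeW_self (ψ : (Fin D → ℝ) → ℝ) (g : Grid D M) : edgeW ψ g g = 0 := by
  unfold edgeW
  refine Finset.sum_eq_zero fun k _ => ?_
  rw [if_neg]
  simp [gup_irrefl]

/-- The total weight of the edges at a state is at most its weight. -/
theorem sum_edgeW_le (hD : 0 < D) (ψ : (Fin D → ℝ) → ℝ) (g : Grid D M) :
    ∑ g'', edgeW ψ g g'' ≤ gw ψ g := by
  have hD' : (0 : ℝ) < D := by exact_mod_cast hD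
  have hg := gw_pos ψ g
  unfold edgeW
  rw [Finset.sum_comm]
  have h1 : ∀ k : Fin D, ∑ g'', (if gup g k g'' ∨ gup g'' k g
      then min (gw ψ g) (gw ψ g'') / (2 * (D : ℝ)) else 0) ≤ gw ψ g / (D : ℝ) := by
    intro k
    have h2 : ∀ g'' : Grid D M, (if gup g k g'' ∨ gup g'' k g
        then min (gw ψ g) (gw ψ g'') / (2 * (D : ℝ)) else 0)
        ≤ (if gup g k g'' then gw ψ g / (2 * (D : ℝ)) else 0)
          + (if gup g'' k g then gw ψ g / (2 * (D : ℝ)) else 0) := by
      intro g''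
      have h3 : min (gw ψ g) (gw ψ g'') / (2 * (D : ℝ)) ≤ gw ψ g / (2 * (D : ℝ)) := by
        gcongr
        exact min_le_left _ _
      have h4 : 0 ≤ gw ψ g / (2 * (D : ℝ)) := by positivity
      by_cases h5 : gup g k g'' <;> by_cases h6 : gup g'' k g <;> simp only [h5, h6, or_self, or_true, true_or, if_true, if_false]
      · linarith
      · linarith
      · linarith
      · linarith
    have h7 : ∀ (P : Grid D M → Prop) [DecidablePred P], (∀ a b, P a → P b → a = b) →
        ∑ g'', (if P g'' then gw ψ g / (2 * (D : ℝ)) else 0) ≤ gw ψ g / (2 * (D : ℝ)) := by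
      intro P _ hP
      rw [← Finset.sum_filter, Finset.sum_const, nsmul_eq_mul]
      have h8 : ((Finset.univ.filter P).card : ℝ) ≤ 1 := by
        have : (Finset.univ.filter P).card ≤ 1 := by
          rw [Finset.card_le_one]
          intro a ha b hb
          exact hP a b (Finset.mem_filter.1 ha).2 (Finset.mem_filter.1 hb).2
        exact_mod_cast this
      have h9 : 0 ≤ gw ψ g / (2 * (D : ℝ)) := by positivity
      nlinarith
    calc _ ≤ ∑ g'', ((if gup g k g'' then gw ψ g / (2 * (D : ℝ)) else 0)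
          + (if gup g'' k g then gw ψ g / (2 * (D : ℝ)) else 0)) :=
          Finset.sum_le_sum fun g'' _ => h2 g''
      _ ≤ gw ψ g / (2 * (D : ℝ)) + gw ψ g / (2 * (D : ℝ)) := by
          rw [Finset.sum_add_distrib]
          exact add_le_add (h7 _ fun a b h1 h2 => gup_unique h1 h2)
            (h7 _ fun a b h1 h2 => gup_unique' h1 h2)
      _ = _ := by
          field_simp
          ring
  calc _ ≤ ∑ _k : Fin D, gw ψ g / (D : ℝ) := Finset.sum_le_sum fun k _ => h1 k
    _ = _ := by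
      rw [Finset.sum_const, Finset.card_univ, Fintype.card_fin, nsmul_eq_mul]
      field_simp

theorem gcond_symm (ψ : (Fin D → ℝ) → ℝ) (g g' : Grid D M) : gcond ψ g g' = gcond ψ g' g := by
  unfold gcond
  by_cases h : g = g'
  · subst h
    rfl
  · rw [if_neg h, if_neg (Ne.symm h), edgeW_symm]

theorem gcond_nonneg (hD : 0 < D) (ψ : (Fin D → ℝ) → ℝ) (g g' : Grid D M) : 0 ≤ gcond ψ g g' := by
  unfold gcond
  split_ifs with h
  · have := sum_edgeW_le hD ψ g
    linarith
  · exact edgeW_nonneg _ _ _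

/-- The degree of a state in the network is its target weight. -/
theorem ndeg_gcond (ψ : (Fin D → ℝ) → ℝ) (g : Grid D M) : ndeg (gcond ψ) g = gw ψ g := by
  unfold ndeg gcond
  have h : ∀ g' : Grid D M, (if g = g' then gw ψ g - ∑ g'', edgeW ψ g g'' else edgeW ψ g g')
      = (if g = g' then gw ψ g - ∑ g'', edgeW ψ g g'' else 0) + edgeW ψ g g' := by
    intro g'
    by_cases h : g = g'
    · subst h
      simp [edgeW_self]
    · simp [h]
  simp_rw [h]
  rw [Finset.sum_add_distrib, Finset.sum_ite_eq]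
  simp

theorem nZ_gcond (ψ : (Fin D → ℝ) → ℝ) :
    nZ (gcond ψ : Grid D M → Grid D M → ℝ) = ∑ g : Grid D M, gw ψ g := by
  unfold nZ
  simp_rw [ndeg_gcond]

theorem npi_gcond (ψ : (Fin D → ℝ) → ℝ) (g : Grid D M) :
    npi (gcond ψ) g = gw ψ g / ∑ g' : Grid D M, gw ψ g' := by
  unfold npi
  rw [ndeg_gcond, nZ_gcond]

end Basics

section Geometry

theorem gpos_mem_cell (g : Grid D M) : gpos g ∈ gcell g := by
  intro k _
  simp only [gpos, Set.mem_Ico]
  constructor <;> linarith

theorem gcell_subset (g : Grid D M) : gcell g ⊆ gcube D M := by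
  intro x hx k _
  have h1 := hx k (Set.mem_univ k)
  simp only [Set.mem_Ico] at h1 ⊢
  have h2 : ((g k : ℕ) : ℝ) + 1 ≤ M := by
    have := (g k).2
    exact_mod_cast this
  have h3 : (0 : ℝ) ≤ ((g k : ℕ) : ℝ) := Nat.cast_nonneg _
  constructor <;> linarith [h1.1, h1.2]

theorem gpos_mem (g : Grid D M) : gpos g ∈ gcube D M := gcell_subset g (gpos_mem_cell g)

theorem measurableSet_gcell (g : Grid D M) : MeasurableSet (gcell g) :=
  MeasurableSet.univ_pi fun _ => measurableSet_Ico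

theorem measurableSet_gcube : MeasurableSet (gcube D M) :=
  MeasurableSet.univ_pi fun _ => measurableSet_Ico

theorem volume_gcell (g : Grid D M) : volume (gcell g) = 1 := by
  unfold gcell
  rw [Real.volume_pi_Ico]
  simp

/-- A cell determines the indices. -/
theorem gcell_index {g : Grid D M} {x : Fin D → ℝ} (hx : x ∈ gcell g) (k : Fin D) :
    ⌊x k⌋₊ = (g k : ℕ) := by
  have h1 := hx k (Set.mem_univ k)
  simp only [Set.mem_Ico] at h1
  rw [Nat.floor_eq_iff ((Nat.cast_nonneg _).trans h1.1)]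
  exact h1

theorem gcell_disjoint {g g' : Grid D M} (h : g ≠ g') : Disjoint (gcell g) (gcell g') := by
  rw [Set.disjoint_left]
  intro x hx hx'
  apply h
  funext k
  exact Fin.ext ((gcell_index hx k).symm.trans (gcell_index hx' k))

/-- The cube is the union of the cells. -/
theorem exists_gcell {x : Fin D → ℝ} (hx : x ∈ gcube D M) : ∃ g : Grid D M, x ∈ gcell g := by
  have h1 := fun k => hx k (Set.mem_univ k)
  simp only [Set.mem_Ico] at h1
  refine ⟨fun k => ⟨⌊x k⌋₊, ?_⟩, ?_⟩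
  · exact (Nat.floor_lt (h1 k).1).2 (h1 k).2
  · intro k _
    simp only [Set.mem_Ico]
    exact ⟨Nat.floor_le (h1 k).1, Nat.lt_floor_add_one _⟩

/-- The points of a cell are close to its centre. -/
theorem abs_sub_gpos_le {g : Grid D M} {x : Fin D → ℝ} (hx : x ∈ gcell g) (k : Fin D) :
    |x k - gpos g k| ≤ 1 / 2 := by
  have h1 := hx k (Set.mem_univ k)
  simp only [Set.mem_Ico] at h1
  simp only [gpos]
  rw [abs_le]
  constructor <;> linarith [h1.1, h1.2]

theorem norm_sub_gpos_le {g : Grid D M} {x : Fin D → ℝ} (hx : x ∈ gcell g) :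
    ‖x - gpos g‖ ≤ 1 / 2 := by
  rw [pi_norm_le_iff_of_nonneg (by norm_num)]
  intro k
  rw [Pi.sub_apply, Real.norm_eq_abs]
  exact abs_sub_gpos_le hx k

theorem norm_gpos_up_le {g g' : Grid D M} {k : Fin D} (h : gup g k g') : ‖gpos g - gpos g'‖ ≤ 1 := by
  rw [pi_norm_le_iff_of_nonneg (by norm_num)]
  intro l
  rw [Pi.sub_apply, Real.norm_eq_abs]
  simp only [gpos]
  by_cases hl : l = k
  · subst hl
    have : ((g' l : ℕ) : ℝ) = ((g l : ℕ) : ℝ) + 1 := by exact_mod_cast h.1
    rw [this]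
    norm_num [abs_le]
  · rw [h.2 l hl]
    norm_num

/-- The box around a facet. -/
noncomputable def gbox (r : ℝ) (g : Grid D M) (k : Fin D) : Set (Fin D → ℝ) :=
  Set.Icc (fun l => if l = k then ((g k : ℕ) : ℝ) + 1 - r else ((g l : ℕ) : ℝ) - r)
    (fun l => if l = k then ((g k : ℕ) : ℝ) + 1 + r else ((g l : ℕ) : ℝ) + 1 + r)

theorem volume_gbox {r : ℝ} (hr : 0 ≤ r) (g : Grid D M) (k : Fin D) :
    volume (gbox r g k) = ENNReal.ofReal (2 * r * (1 + 2 * r) ^ (D - 1)) := by
  unfold gbox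
  rw [Real.volume_Icc_pi]
  rw [← ENNReal.ofReal_prod_of_nonneg]
  · congr 1
    rw [← Finset.mul_prod_erase Finset.univ _ (Finset.mem_univ k)]
    simp only [if_true]
    have h1 : ∏ x ∈ Finset.univ.erase k, ((if x = k then ((g k : ℕ) : ℝ) + 1 + r else ((g x : ℕ) : ℝ) + 1 + r)
        - if x = k then ((g k : ℕ) : ℝ) + 1 - r else ((g x : ℕ) : ℝ) - r) = (1 + 2 * r) ^ (D - 1) := by
      rw [Finset.prod_congr rfl (g := fun _ => 1 + 2 * r)]
      · rw [Finset.prod_const, Finset.card_erase_of_mem (Finset.mem_univ k), Finset.card_univ,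
          Fintype.card_fin]
      · intro x hx
        rw [if_neg (Finset.ne_of_mem_erase hx), if_neg (Finset.ne_of_mem_erase hx)]
        ring
    rw [h1]
    ring
  · intro l _
    split_ifs <;> linarith

theorem measurableSet_gbox (r : ℝ) (g : Grid D M) (k : Fin D) : MeasurableSet (gbox r g k) :=
  measurableSet_Icc

/-- A point of a box is close to the centre of the lower cell. -/
theorem norm_sub_gpos_box {r : ℝ} (hr1 : r ≤ 1 / 2) {g : Grid D M} {k : Fin D} {z : Fin D → ℝ}
    (hz : z ∈ gbox r g k) : ‖z - gpos g‖ ≤ 1 := by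
  rw [pi_norm_le_iff_of_nonneg (by norm_num)]
  intro l
  rw [Pi.sub_apply, Real.norm_eq_abs]
  have h1 := hz.1 l
  have h2 := hz.2 l
  simp only [gpos]
  by_cases hl : l = k
  · subst hl
    simp only [if_true] at h1 h2
    rw [abs_le]
    constructor <;> linarith
  · simp only [if_neg hl] at h1 h2
    rw [abs_le]
    constructor <;> linarith

/-- The union of the boxes at the boundary of a set of states. -/
noncomputable def gfront (r : ℝ) (A : Finset (Grid D M)) : Set (Fin D → ℝ) :=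
  ⋃ x ∈ A, ⋃ y ∈ Aᶜ, ⋃ k : Fin D,
    if gup x k y then gbox r x k else if gup y k x then gbox r y k else ∅

theorem measurableSet_gfront (r : ℝ) (A : Finset (Grid D M)) : MeasurableSet (gfront r A) := by
  unfold gfront
  refine Finset.measurableSet_biUnion _ fun x _ => Finset.measurableSet_biUnion _ fun y _ =>
    MeasurableSet.iUnion fun k => ?_
  split_ifs
  · exact measurableSet_gbox _ _ _
  · exact measurableSet_gbox _ _ _
  · exact MeasurableSet.empty

/-- **The midpoint of two close points on the two sides of `A` lies in the front.** -/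
theorem midpoint_mem_gfront {r : ℝ} (hr0 : 0 < r) (hr1 : 2 * r ≤ 1) (A : Finset (Grid D M))
    {g1 g2 : Grid D M} (h1 : g1 ∈ A) (h2 : g2 ∉ A) {x y : Fin D → ℝ} (hx : x ∈ gcell g1)
    (hy : y ∈ gcell g2) (hxy : ∀ k, |x k - y k| < 2 * r) :
    (1 / 2 : ℝ) • x + (1 / 2 : ℝ) • y ∈ gfront r A := by
  classical
  set z := (1 / 2 : ℝ) • x + (1 / 2 : ℝ) • y with hz
  have hzk : ∀ k, z k = (x k + y k) / 2 := by
    intro k
    simp only [hz, Pi.add_apply, Pi.smul_apply, smul_eq_mul]
    ring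
  -- the hybrid states
  set hyb : ℕ → Grid D M := fun j l => if (l : ℕ) < j then g2 l else g1 l with hhyb
  have h0 : hyb 0 = g1 := by
    funext l
    simp [hhyb]
  have hDD : hyb D = g2 := by
    funext l
    simp [hhyb, l.2]
  -- a step from `A` to the complement
  have hstep : ∃ j, j < D ∧ hyb j ∈ A ∧ hyb (j + 1) ∉ A := by
    by_contra hcon
    push Not at hcon
    have : ∀ j, j ≤ D → hyb j ∈ A := by
      intro j
      induction j with
      | zero =>
        intro _
        rw [h0]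
        exact h1
      | succ j ih =>
        intro hj
        exact hcon j (by omega) (ih (by omega))
    exact h2 (hDD ▸ this D le_rfl)
  obtain ⟨j, hjD, hj1, hj2⟩ := hstep
  set k : Fin D := ⟨j, hjD⟩ with hk
  set u := hyb j with hu
  set v := hyb (j + 1) with hv
  have huk : u k = g1 k := by simp [hu, hhyb, hk]
  have hvk : v k = g2 k := by simp [hv, hhyb, hk]
  have huv : ∀ l, l ≠ k → v l = u l := by
    intro l hl
    simp only [hv, hu, hhyb]
    have h3 : (l : ℕ) ≠ j := fun e => hl (Fin.ext e)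
    by_cases h4 : (l : ℕ) < j
    · rw [if_pos h4, if_pos (by omega)]
    · rw [if_neg h4, if_neg (by omega)]
  have hne : g1 k ≠ g2 k := by
    intro e
    apply hj2
    have : v = u := by
      funext l
      by_cases hl : l = k
      · subst hl
        rw [huk, hvk, e]
      · exact huv l hl
    rw [this]
    exact hj1
  -- the indices are adjacent
  have hxk := hx k (Set.mem_univ k)
  have hyk := hy k (Set.mem_univ k)
  simp only [Set.mem_Ico] at hxk hyk
  have hxyk := abs_lt.1 (hxy k)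
  -- each coordinate of `u` is that of `g1` or `g2`
  have hul : ∀ l, ((u l = g1 l) ∨ (u l = g2 l)) := by
    intro l
    simp only [hu, hhyb]
    by_cases h4 : (l : ℕ) < j
    · right
      rw [if_pos h4]
    · left
      rw [if_neg h4]
  have hzl : ∀ l, ((u l : ℕ) : ℝ) - r ≤ z l ∧ z l ≤ ((u l : ℕ) : ℝ) + 1 + r := by
    intro l
    have hxl := hx l (Set.mem_univ l)
    have hyl := hy l (Set.mem_univ l)
    simp only [Set.mem_Ico] at hxl hyl
    have h5 := abs_lt.1 (hxy l)
    rw [hzk]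
    rcases hul l with h6 | h6 <;> rw [h6] <;> constructor <;> linarith [hxl.1, hxl.2, hyl.1, hyl.2, h5.1, h5.2]
  have hmem : ∀ (a : Grid D M), a ∈ A → ∀ (b : Grid D M), b ∉ A → ∀ (c : Grid D M),
      (if gup a k b then gbox r a k else if gup b k a then gbox r b k else ∅) = gbox r c k →
      z ∈ gbox r c k → z ∈ gfront r A := by
    intro a ha b hb c hc hzc
    unfold gfront
    simp only [Set.mem_iUnion]
    exact ⟨a, ha, b, Finset.mem_compl.2 hb, k, by rw [hc]; exact hzc⟩
  rcases Nat.lt_or_ge (g1 k : ℕ) (g2 k : ℕ) with hlt | hge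
  · -- upwards: `g2 k = g1 k + 1`
    have h6 : (g2 k : ℕ) = (g1 k : ℕ) + 1 := by
      by_contra h7
      have h8 : (g1 k : ℕ) + 2 ≤ (g2 k : ℕ) := by omega
      have h9 : ((g1 k : ℕ) : ℝ) + 2 ≤ ((g2 k : ℕ) : ℝ) := by exact_mod_cast h8
      linarith [hxk.2, hyk.1, hxyk.1, hxyk.2]
    have h7 : gup u k v := by
      refine ⟨?_, fun l hl => huv l hl⟩
      rw [huk, hvk]
      exact h6
    refine hmem u hj1 v hj2 u (by rw [if_pos h7]) ?_
    have h8 : ((g2 k : ℕ) : ℝ) = ((g1 k : ℕ) : ℝ) + 1 := by exact_mod_cast h6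
    constructor
    · intro l
      by_cases hl : l = k
      · subst hl
        simp only [if_true]
        rw [hzk, huk]
        linarith [hxk.1, hxk.2, hyk.1, hyk.2, hxyk.1, hxyk.2]
      · simp only [if_neg hl]
        exact (hzl l).1
    · intro l
      by_cases hl : l = k
      · subst hl
        simp only [if_true]
        rw [hzk, huk]
        linarith [hxk.1, hxk.2, hyk.1, hyk.2, hxyk.1, hxyk.2]
      · simp only [if_neg hl]
        exact (hzl l).2
  · -- downwards: `g1 k = g2 k + 1`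
    have hlt : (g2 k : ℕ) < (g1 k : ℕ) := by
      refine lt_of_le_of_ne hge fun e => hne (Fin.ext e.symm)
    have h6 : (g1 k : ℕ) = (g2 k : ℕ) + 1 := by
      by_contra h7
      have h8 : (g2 k : ℕ) + 2 ≤ (g1 k : ℕ) := by omega
      have h9 : ((g2 k : ℕ) : ℝ) + 2 ≤ ((g1 k : ℕ) : ℝ) := by exact_mod_cast h8
      linarith [hyk.2, hxk.1, hxyk.1, hxyk.2]
    have h7 : gup v k u := by
      refine ⟨?_, fun l hl => (huv l hl).symm⟩
      rw [huk, hvk]
      exact h6
    have h10 : ¬ gup u k v := by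
      rintro ⟨h11, _⟩
      rw [huk, hvk] at h11
      omega
    refine hmem u hj1 v hj2 v (by rw [if_neg h10, if_pos h7]) ?_
    have h8 : ((g1 k : ℕ) : ℝ) = ((g2 k : ℕ) : ℝ) + 1 := by exact_mod_cast h6
    constructor
    · intro l
      by_cases hl : l = k
      · subst hl
        simp only [if_true]
        rw [hzk, hvk]
        linarith [hxk.1, hxk.2, hyk.1, hyk.2, hxyk.1, hxyk.2]
      · simp only [if_neg hl]
        rw [huv l hl]
        exact (hzl l).1
    · intro l
      by_cases hl : l = k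
      · subst hl
        simp only [if_true]
        rw [hzk, hvk]
        linarith [hxk.1, hxk.2, hyk.1, hyk.2, hxyk.1, hxyk.2]
      · simp only [if_neg hl]
        rw [huv l hl]
        exact (hzl l).2

end Geometry

section Analysis

/-- The conditions on the potential. -/
structure GridPsi (D M : ℕ) (ψ : (Fin D → ℝ) → ℝ) : Prop where
  meas : Measurable ψ
  conv : ∀ x ∈ gcube D M, ∀ y ∈ gcube D M,
    ψ ((1 / 2 : ℝ) • x + (1 / 2 : ℝ) • y) ≤ (ψ x + ψ y) / 2
  lip : ∀ x ∈ gcube D M, ∀ y ∈ gcube D M, |ψ x - ψ y| ≤ ‖x - y‖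

/-- The quadratic term. -/
noncomputable def gq (D M : ℕ) (x : Fin D → ℝ) : ℝ :=
  (1 / ((D : ℝ) * (M : ℝ) ^ 2)) / 2 * ∑ k, x k ^ 2

/-- The density with the quadratic term. -/
noncomputable def grho (D M : ℕ) (ψ : (Fin D → ℝ) → ℝ) : (Fin D → ℝ) → ℝ≥0∞ :=
  (gcube D M).indicator fun x => ENNReal.ofReal (Real.exp (-ψ x - gq D M x))

theorem measurable_grho {ψ : (Fin D → ℝ) → ℝ} (hψ : GridPsi D M ψ) : Measurable (grho D M ψ) := by
  refine Measurable.indicator ?_ measurableSet_gcube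
  refine ENNReal.measurable_ofReal.comp (Real.measurable_exp.comp ?_)
  refine (hψ.meas.neg).sub ?_
  unfold gq
  exact measurable_const.mul (Finset.measurable_fun_sum _ fun k _ => (measurable_pi_apply k).pow_const 2)

theorem gq_nonneg (x : Fin D → ℝ) : 0 ≤ gq D M x := by
  unfold gq
  have : 0 ≤ ∑ k, x k ^ 2 := Finset.sum_nonneg fun k _ => sq_nonneg _
  positivity

theorem gq_le (hD : 0 < D) (hM : 0 < M) {x : Fin D → ℝ} (hx : x ∈ gcube D M) : gq D M x ≤ 1 / 2 := by
  unfold gq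
  have hD' : (0 : ℝ) < D := by exact_mod_cast hD
  have hM' : (0 : ℝ) < M := by exact_mod_cast hM
  have h1 : ∑ k, x k ^ 2 ≤ (D : ℝ) * (M : ℝ) ^ 2 := by
    have h2 : ∀ k ∈ (Finset.univ : Finset (Fin D)), x k ^ 2 ≤ (M : ℝ) ^ 2 := by
      intro k _
      have h3 := hx k (Set.mem_univ k)
      simp only [Set.mem_Ico] at h3
      exact pow_le_pow_left₀ h3.1 h3.2.le 2
    have h4 := Finset.sum_le_card_nsmul _ _ _ h2
    simpa using h4
  have h5 : (1 / ((D : ℝ) * (M : ℝ) ^ 2)) / 2 * ∑ k, x k ^ 2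
      ≤ (1 / ((D : ℝ) * (M : ℝ) ^ 2)) / 2 * ((D : ℝ) * (M : ℝ) ^ 2) :=
    mul_le_mul_of_nonneg_left h1 (by positivity)
  refine h5.trans (le_of_eq ?_)
  field_simp

/-- The midpoint identity of the quadratic term. -/
theorem gq_mid (x y : Fin D → ℝ) :
    gq D M ((1 / 2 : ℝ) • x + (1 / 2 : ℝ) • y)
      = (gq D M x + gq D M y) / 2
        - (1 / ((D : ℝ) * (M : ℝ) ^ 2)) / 8 * ∑ k, (x k - y k) ^ 2 := by
  unfold gq
  rw [← mul_add, mul_div_assoc, ← Finset.sum_add_distrib]
  simp only [Pi.add_apply, Pi.smul_apply, smul_eq_mul]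
  have e : ∑ k, ((1 / 2 : ℝ) * x k + (1 / 2 : ℝ) * y k) ^ 2
      = ∑ k, (x k ^ 2 + y k ^ 2) / 2 - (1 / 4) * ∑ k, (x k - y k) ^ 2 := by
    rw [Finset.mul_sum, ← Finset.sum_sub_distrib]
    refine Finset.sum_congr rfl fun k _ => ?_
    ring
  rw [e]
  have e2 : ∑ k, (x k ^ 2 + y k ^ 2) / 2 = (∑ k, (x k ^ 2 + y k ^ 2)) / 2 := by
    rw [Finset.sum_div]
  rw [e2]
  ring

theorem mid_mem_gcube {x y : Fin D → ℝ} (hx : x ∈ gcube D M) (hy : y ∈ gcube D M) :
    (1 / 2 : ℝ) • x + (1 / 2 : ℝ) • y ∈ gcube D M := by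
  intro k _
  have h1 := hx k (Set.mem_univ k)
  have h2 := hy k (Set.mem_univ k)
  simp only [Set.mem_Ico] at h1 h2 ⊢
  simp only [Pi.add_apply, Pi.smul_apply, smul_eq_mul]
  constructor <;> linarith [h1.1, h1.2, h2.1, h2.2]

/-- The union of the cells of a set of states. -/
def gset (A : Finset (Grid D M)) : Set (Fin D → ℝ) := ⋃ g ∈ A, gcell g

theorem measurableSet_gset (A : Finset (Grid D M)) : MeasurableSet (gset A) :=
  Finset.measurableSet_biUnion _ fun g _ => measurableSet_gcell g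

theorem ind_two (S : Set (Fin D → ℝ)) (a : ℝ) (x : Fin D → ℝ) [Decidable (x ∈ S)] :
    S.indicator (fun _ => ENNReal.ofReal (Real.exp a)) x + Sᶜ.indicator (fun _ => (1 : ℝ≥0∞)) x
      = ENNReal.ofReal (Real.exp (if x ∈ S then a else 0)) := by
  by_cases h : x ∈ S
  · simp [h]
  · simp [h]

/-- **The hypothesis of Prekopa-Leindler.** -/
theorem grid_pl_hyp (hD : 0 < D) (hM : 0 < M) {ψ : (Fin D → ℝ) → ℝ} (hψ : GridPsi D M ψ)
    {r : ℝ} (hr0 : 0 < r) (hr1 : 2 * r ≤ 1) (A : Finset (Grid D M)) (x y : Fin D → ℝ) :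
    (grho D M ψ x * ((gset A).indicator
        (fun _ => ENNReal.ofReal (Real.exp ((1 / ((D : ℝ) * (M : ℝ) ^ 2)) * r ^ 2))) x
          + (gset A)ᶜ.indicator (fun _ => 1) x)) ^ (1 / 2 : ℝ)
      * (grho D M ψ y * ((gset A).indicator
        (fun _ => ENNReal.ofReal (Real.exp (-((1 / ((D : ℝ) * (M : ℝ) ^ 2)) * r ^ 2)))) y
          + (gset A)ᶜ.indicator (fun _ => 1) y)) ^ (1 / 2 : ℝ)
      ≤ grho D M ψ ((1 / 2 : ℝ) • x + (1 / 2 : ℝ) • y)
        * ((gfront r A).indicator
            (fun _ => ENNReal.ofReal (Real.exp ((1 / ((D : ℝ) * (M : ℝ) ^ 2)) * r ^ 2 / 2)))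
              ((1 / 2 : ℝ) • x + (1 / 2 : ℝ) • y)
          + (gfront r A)ᶜ.indicator (fun _ => 1) ((1 / 2 : ℝ) • x + (1 / 2 : ℝ) • y)) := by
  classical
  set lam : ℝ := 1 / ((D : ℝ) * (M : ℝ) ^ 2) with hlam
  have hD' : (0 : ℝ) < D := by exact_mod_cast hD
  have hM' : (0 : ℝ) < M := by exact_mod_cast hM
  have hlam0 : 0 < lam := by positivity
  set z := (1 / 2 : ℝ) • x + (1 / 2 : ℝ) • y with hz
  have hp : (1 / 2 : ℝ) ≠ 0 := by norm_num
  by_cases hx : x ∈ gcube D M
  swap
  · have : grho D M ψ x = 0 := by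
      unfold grho
      exact Set.indicator_of_notMem hx _
    rw [this, zero_mul, ENNReal.zero_rpow_of_pos (by norm_num), zero_mul]
    simp
  by_cases hy : y ∈ gcube D M
  swap
  · have : grho D M ψ y = 0 := by
      unfold grho
      exact Set.indicator_of_notMem hy _
    rw [this, zero_mul, ENNReal.zero_rpow_of_pos (by norm_num), mul_zero]
    simp
  have hzQ : z ∈ gcube D M := mid_mem_gcube hx hy
  have e1 : grho D M ψ x = ENNReal.ofReal (Real.exp (-ψ x - gq D M x)) := by
    unfold grho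
    exact Set.indicator_of_mem hx _
  have e2 : grho D M ψ y = ENNReal.ofReal (Real.exp (-ψ y - gq D M y)) := by
    unfold grho
    exact Set.indicator_of_mem hy _
  have e3 : grho D M ψ z = ENNReal.ofReal (Real.exp (-ψ z - gq D M z)) := by
    unfold grho
    exact Set.indicator_of_mem hzQ _
  rw [e1, e2, e3, ind_two, ind_two, ind_two]
  rw [← ENNReal.ofReal_mul (Real.exp_pos _).le, ← ENNReal.ofReal_mul (Real.exp_pos _).le,
    ← ENNReal.ofReal_mul (Real.exp_pos _).le, ← Real.exp_add, ← Real.exp_add, ← Real.exp_add]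
  rw [ENNReal.ofReal_rpow_of_pos (Real.exp_pos _), ENNReal.ofReal_rpow_of_pos (Real.exp_pos _),
    ← ENNReal.ofReal_mul (by positivity)]
  refine ENNReal.ofReal_le_ofReal ?_
  rw [← Real.exp_mul, ← Real.exp_mul, ← Real.exp_add]
  refine Real.exp_le_exp.2 ?_
  have h1 := hψ.conv x hx y hy
  have h2 := gq_mid (M := M) x y
  rw [← hz] at h1 h2
  set Sd : ℝ := ∑ k, (x k - y k) ^ 2 with hSd
  have hSd0 : 0 ≤ Sd := Finset.sum_nonneg fun k _ => sq_nonneg _
  -- the key inequality
  have hkey : (if x ∈ gset A then lam * r ^ 2 else 0) / 2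
      + (if y ∈ gset A then -(lam * r ^ 2) else 0) / 2
      ≤ lam / 8 * Sd + (if z ∈ gfront r A then lam * r ^ 2 / 2 else 0) := by
    have h3 : 0 ≤ lam / 8 * Sd := by positivity
    have h4 : 0 ≤ lam * r ^ 2 := by positivity
    have h5 : 0 ≤ (if z ∈ gfront r A then lam * r ^ 2 / 2 else 0) := by
      split_ifs <;> linarith
    by_cases hxS : x ∈ gset A
    · by_cases hyS : y ∈ gset A
      · rw [if_pos hxS, if_pos hyS]
        linarith
      · rw [if_pos hxS, if_neg hyS]
        by_cases hclose : ∀ k, |x k - y k| < 2 * r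
        · obtain ⟨g1, hg1, hxg⟩ : ∃ g1 ∈ A, x ∈ gcell g1 := by
            simpa [gset] using hxS
          obtain ⟨g2, hyg⟩ := exists_gcell hy
          have hg2 : g2 ∉ A := by
            intro h
            apply hyS
            simp only [gset, Set.mem_iUnion]
            exact ⟨g2, h, hyg⟩
          have h6 := midpoint_mem_gfront hr0 hr1 A hg1 hg2 hxg hyg hclose
          rw [← hz] at h6
          rw [if_pos h6]
          linarith
        · push Not at hclose
          obtain ⟨k, hk⟩ := hclose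
          have h6 : (2 * r) ^ 2 ≤ Sd := by
            have h7 : (x k - y k) ^ 2 ≤ Sd :=
              Finset.single_le_sum (f := fun k => (x k - y k) ^ 2)
                (fun k _ => sq_nonneg _) (Finset.mem_univ k)
            have h8 : (2 * r) ^ 2 ≤ (x k - y k) ^ 2 := by
              rw [← sq_abs (x k - y k)]
              exact pow_le_pow_left₀ (by linarith) hk 2
            linarith
          have h7 : lam / 8 * (2 * r) ^ 2 ≤ lam / 8 * Sd :=
            mul_le_mul_of_nonneg_left h6 (by positivity)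
          have h8 : lam / 8 * (2 * r) ^ 2 = lam * r ^ 2 / 2 := by ring
          linarith
    · rw [if_neg hxS]
      have h6 : (if y ∈ gset A then -(lam * r ^ 2) else 0) ≤ 0 := by
        split_ifs <;> linarith
      linarith
  have hsplit1 : (if x ∈ gset A then lam * r ^ 2 else 0) = (if x ∈ gset A then lam * r ^ 2 else 0) := rfl
  have hgoal : (-ψ x - gq D M x + if x ∈ gset A then lam * r ^ 2 else 0) * (1 / 2)
      + (-ψ y - gq D M y + if y ∈ gset A then -(lam * r ^ 2) else 0) * (1 / 2)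
      ≤ -ψ z - gq D M z + if z ∈ gfront r A then lam * r ^ 2 / 2 else 0 := by
    have hlam8 : (1 / ((D : ℝ) * (M : ℝ) ^ 2)) / 8 = lam / 8 := rfl
    rw [hlam8] at h2
    rw [h2]
    linarith
  exact hgoal

/-- The bounds of the density on a cell. -/
theorem grho_cell_bounds (hD : 0 < D) (hM : 0 < M) {ψ : (Fin D → ℝ) → ℝ} (hψ : GridPsi D M ψ)
    {g : Grid D M} {x : Fin D → ℝ} (hx : x ∈ gcell g) :
    ENNReal.ofReal (Real.exp (-1) * gw ψ g) ≤ grho D M ψ x
      ∧ grho D M ψ x ≤ ENNReal.ofReal (Real.exp (1 / 2) * gw ψ g) := by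
  have hxQ := gcell_subset g hx
  have e1 : grho D M ψ x = ENNReal.ofReal (Real.exp (-ψ x - gq D M x)) := by
    unfold grho
    exact Set.indicator_of_mem hxQ _
  have h1 := abs_le.1 ((hψ.lip x hxQ _ (gpos_mem g)).trans (norm_sub_gpos_le hx))
  have h2 := gq_nonneg (M := M) x
  have h3 := gq_le hD hM hxQ
  rw [e1]
  unfold gw
  rw [← Real.exp_add, ← Real.exp_add]
  constructor
  · refine ENNReal.ofReal_le_ofReal (Real.exp_le_exp.2 ?_)
    linarith [h1.1, h1.2]
  · refine ENNReal.ofReal_le_ofReal (Real.exp_le_exp.2 ?_)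
    linarith [h1.1, h1.2]

/-- The mass of a cell. -/
theorem mass_cell_bounds (hD : 0 < D) (hM : 0 < M) {ψ : (Fin D → ℝ) → ℝ} (hψ : GridPsi D M ψ)
    (g : Grid D M) :
    ENNReal.ofReal (Real.exp (-1) * gw ψ g) ≤ ∫⁻ x in gcell g, grho D M ψ x
      ∧ ∫⁻ x in gcell g, grho D M ψ x ≤ ENNReal.ofReal (Real.exp (1 / 2) * gw ψ g) := by
  have hm := measurableSet_gcell g
  constructor
  · calc ENNReal.ofReal (Real.exp (-1) * gw ψ g)
        = ∫⁻ _x in gcell g, ENNReal.ofReal (Real.exp (-1) * gw ψ g) := by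
          rw [setLIntegral_const, volume_gcell, mul_one]
      _ ≤ _ := setLIntegral_mono' hm fun x hx => (grho_cell_bounds hD hM hψ hx).1
  · calc _ ≤ ∫⁻ _x in gcell g, ENNReal.ofReal (Real.exp (1 / 2) * gw ψ g) :=
          setLIntegral_mono' hm fun x hx => (grho_cell_bounds hD hM hψ hx).2
      _ = _ := by
          rw [setLIntegral_const, volume_gcell, mul_one]

/-- The mass of a union of cells. -/
theorem mass_gset (ψ : (Fin D → ℝ) → ℝ) (hψ : GridPsi D M ψ) (A : Finset (Grid D M)) :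
    ∫⁻ x in gset A, grho D M ψ x = ∑ g ∈ A, ∫⁻ x in gcell g, grho D M ψ x := by
  unfold gset
  exact lintegral_biUnion_finset (fun g _ g' _ h => gcell_disjoint h)
    (fun g _ => measurableSet_gcell g) _

theorem ofReal_sum_mass (A : Finset (Grid D M)) (c : ℝ) (hc : 0 ≤ c) (ψ : (Fin D → ℝ) → ℝ) :
    ∑ g ∈ A, ENNReal.ofReal (c * gw ψ g) = ENNReal.ofReal (c * ∑ g ∈ A, gw ψ g) := by
  rw [Finset.mul_sum, ENNReal.ofReal_sum_of_nonneg]
  exact fun g _ => mul_nonneg hc (gw_pos ψ g).le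

/-- The lower bound of the mass of a union of cells. -/
theorem mass_gset_ge (hD : 0 < D) (hM : 0 < M) {ψ : (Fin D → ℝ) → ℝ} (hψ : GridPsi D M ψ)
    (A : Finset (Grid D M)) :
    ENNReal.ofReal (Real.exp (-1) * ∑ g ∈ A, gw ψ g) ≤ ∫⁻ x in gset A, grho D M ψ x := by
  rw [mass_gset ψ hψ, ← ofReal_sum_mass _ _ (Real.exp_pos _).le]
  exact Finset.sum_le_sum fun g _ => (mass_cell_bounds hD hM hψ g).1

theorem mass_gset_le (hD : 0 < D) (hM : 0 < M) {ψ : (Fin D → ℝ) → ℝ} (hψ : GridPsi D M ψ)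
    (A : Finset (Grid D M)) :
    ∫⁻ x in gset A, grho D M ψ x ≤ ENNReal.ofReal (Real.exp (1 / 2) * ∑ g ∈ A, gw ψ g) := by
  rw [mass_gset ψ hψ, ← ofReal_sum_mass _ _ (Real.exp_pos _).le]
  exact Finset.sum_le_sum fun g _ => (mass_cell_bounds hD hM hψ g).2

/-- The cube is the union of all the cells, so the total mass is the mass of this union. -/
theorem lintegral_grho (ψ : (Fin D → ℝ) → ℝ) :
    ∫⁻ x, grho D M ψ x = ∫⁻ x in gset (Finset.univ : Finset (Grid D M)), grho D M ψ x := by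
  have h1 : gset (Finset.univ : Finset (Grid D M)) = gcube D M := by
    ext x
    simp only [gset, Finset.mem_univ, Set.iUnion_true, Set.mem_iUnion]
    constructor
    · rintro ⟨g, hg⟩
      exact gcell_subset g hg
    · intro hx
      exact exists_gcell hx
  rw [h1]
  have h2 : ∫⁻ x in gcube D M, grho D M ψ x
      = ∫⁻ x in gcube D M, ENNReal.ofReal (Real.exp (-ψ x - gq D M x)) := by
    refine setLIntegral_congr_fun measurableSet_gcube fun x hx => ?_
    unfold grho
    exact Set.indicator_of_mem hx _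
  rw [h2]
  unfold grho
  rw [lintegral_indicator measurableSet_gcube]

/-- The complement of the union of cells of `A` contains the cells outside `A`. -/
theorem gset_compl_subset (A : Finset (Grid D M)) : gset Aᶜ ⊆ (gset A)ᶜ := by
  intro x hx hx'
  simp only [gset, Set.mem_iUnion] at hx hx'
  obtain ⟨g, hg, hxg⟩ := hx
  obtain ⟨g', hg', hxg'⟩ := hx'
  have hne : g ≠ g' := by
    rintro rfl
    exact (Finset.mem_compl.1 hg) hg'
  exact Set.disjoint_left.1 (gcell_disjoint hne) hxg hxg'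

/-- The density on a box is bounded by the value at the centre of the lower cell. -/
theorem grho_box_le {ψ : (Fin D → ℝ) → ℝ} (hψ : GridPsi D M ψ) {r : ℝ} (hr1 : r ≤ 1 / 2)
    {g : Grid D M} {k : Fin D} {z : Fin D → ℝ} (hz : z ∈ gbox r g k) :
    grho D M ψ z ≤ ENNReal.ofReal (Real.exp 1 * gw ψ g) := by
  by_cases hQ : z ∈ gcube D M
  · have e1 : grho D M ψ z = ENNReal.ofReal (Real.exp (-ψ z - gq D M z)) := by
      unfold grho
      exact Set.indicator_of_mem hQ _
    rw [e1]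
    have h1 := abs_le.1 ((hψ.lip z hQ _ (gpos_mem g)).trans (norm_sub_gpos_box hr1 hz))
    have h2 := gq_nonneg (M := M) z
    unfold gw
    rw [← Real.exp_add]
    refine ENNReal.ofReal_le_ofReal (Real.exp_le_exp.2 ?_)
    linarith [h1.1, h1.2]
  · have e1 : grho D M ψ z = 0 := by
      unfold grho
      exact Set.indicator_of_notMem hQ _
    rw [e1]
    simp

/-- The mass of a box. -/
theorem mass_box_le {ψ : (Fin D → ℝ) → ℝ} (hψ : GridPsi D M ψ) {r : ℝ} (hr0 : 0 ≤ r)
    (hr1 : r ≤ 1 / 2) (g : Grid D M) (k : Fin D) :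
    ∫⁻ z in gbox r g k, grho D M ψ z
      ≤ ENNReal.ofReal (Real.exp 1 * gw ψ g * (2 * r * (1 + 2 * r) ^ (D - 1))) := by
  have hw := gw_pos ψ g
  calc _ ≤ ∫⁻ _z in gbox r g k, ENNReal.ofReal (Real.exp 1 * gw ψ g) :=
        setLIntegral_mono' (measurableSet_gbox _ _ _) fun z hz => grho_box_le hψ hr1 hz
    _ = _ := by
        rw [setLIntegral_const, volume_gbox hr0, ← ENNReal.ofReal_mul (by positivity)]

/-- Adjacent states have comparable weights. -/
theorem gw_up_le {ψ : (Fin D → ℝ) → ℝ} (hψ : GridPsi D M ψ) {g g' : Grid D M} {k : Fin D}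
    (h : gup g k g') :
    gw ψ g ≤ Real.exp 1 * gw ψ g' ∧ gw ψ g' ≤ Real.exp 1 * gw ψ g := by
  have h1 := abs_le.1 ((hψ.lip _ (gpos_mem g) _ (gpos_mem g')).trans (norm_gpos_up_le h))
  unfold gw
  rw [← Real.exp_add, ← Real.exp_add]
  constructor
  · exact Real.exp_le_exp.2 (by linarith [h1.1, h1.2])
  · exact Real.exp_le_exp.2 (by linarith [h1.1, h1.2])

/-- The flow across the cut. -/
noncomputable def gflow (ψ : (Fin D → ℝ) → ℝ) (A : Finset (Grid D M)) : ℝ :=
  ∑ x ∈ A, ∑ y ∈ Aᶜ, edgeW ψ x y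

/-- The mass of the front is bounded by the flow. -/
theorem mass_front_le (hD : 0 < D) {ψ : (Fin D → ℝ) → ℝ} (hψ : GridPsi D M ψ) {r : ℝ}
    (hr0 : 0 ≤ r) (hr1 : r ≤ 1 / 2) (hrD : ((1 : ℝ) + 2 * r) ^ (D - 1) ≤ Real.exp 1)
    (A : Finset (Grid D M)) :
    ∫⁻ z in gfront r A, grho D M ψ z
      ≤ ENNReal.ofReal (4 * r * (D : ℝ) * Real.exp 3 * gflow ψ A) := by
  classical
  have hD' : (0 : ℝ) < D := by exact_mod_cast hD
  set ν := volume.withDensity (grho D M ψ) with hν
  have hνU : ∀ U : Set (Fin D → ℝ), MeasurableSet U → ν U = ∫⁻ z in U, grho D M ψ z :=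
    fun U hU => withDensity_apply _ hU
  rw [← hνU _ (measurableSet_gfront r A)]
  have hpiece : ∀ x y : Grid D M, ∀ k : Fin D,
      ν (if gup x k y then gbox r x k else if gup y k x then gbox r y k else ∅)
        ≤ ENNReal.ofReal (4 * r * (D : ℝ) * Real.exp 3 *
            (if gup x k y ∨ gup y k x then min (gw ψ x) (gw ψ y) / (2 * (D : ℝ)) else 0)) := by
    intro x y k
    have hr3 : 0 ≤ 2 * r * ((1 : ℝ) + 2 * r) ^ (D - 1) := by positivity
    have hbox : ∀ (a b : Grid D M), gup a k b ∨ gup b k a →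
        ν (gbox r a k) ≤ ENNReal.ofReal (4 * r * (D : ℝ) * Real.exp 3 *
          (min (gw ψ a) (gw ψ b) / (2 * (D : ℝ)))) := by
      intro a b hab
      rw [hνU _ (measurableSet_gbox _ _ _)]
      refine (mass_box_le hψ hr0 hr1 a k).trans (ENNReal.ofReal_le_ofReal ?_)
      have hm : gw ψ a ≤ Real.exp 1 * min (gw ψ a) (gw ψ b) := by
        have h1 : gw ψ a ≤ Real.exp 1 * gw ψ b := by
          rcases hab with h | h
          · exact (gw_up_le hψ h).1
          · exact (gw_up_le hψ h).2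
        have h2 : gw ψ a ≤ Real.exp 1 * gw ψ a := by
          have := Real.add_one_le_exp (1 : ℝ)
          have := gw_pos ψ a
          nlinarith
        rcases min_choice (gw ψ a) (gw ψ b) with h | h <;> rw [h] <;> assumption
      have he : Real.exp 3 = Real.exp 1 * Real.exp 1 * Real.exp 1 := by
        rw [← Real.exp_add, ← Real.exp_add]
        norm_num
      have hmin : 0 ≤ min (gw ψ a) (gw ψ b) := le_min (gw_pos ψ a).le (gw_pos ψ b).le
      have he1 := Real.exp_pos 1
      calc Real.exp 1 * gw ψ a * (2 * r * (1 + 2 * r) ^ (D - 1))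
          ≤ Real.exp 1 * (Real.exp 1 * min (gw ψ a) (gw ψ b)) * (2 * r * Real.exp 1) := by
            gcongr
        _ = _ := by
            rw [he]
            field_simp
            ring
    by_cases h1 : gup x k y
    · rw [if_pos h1, if_pos (Or.inl h1)]
      exact hbox x y (Or.inl h1)
    · by_cases h2 : gup y k x
      · rw [if_neg h1, if_pos h2, if_pos (Or.inr h2), min_comm]
        exact hbox y x (Or.inl h2)
      · rw [if_neg h1, if_neg h2, if_neg (by simp [h1, h2])]
        simp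
  have hnn : 0 ≤ 4 * r * (D : ℝ) * Real.exp 3 := by positivity
  have hsum1 : ∀ x y : Grid D M, ν (⋃ k : Fin D,
      if gup x k y then gbox r x k else if gup y k x then gbox r y k else ∅)
        ≤ ENNReal.ofReal (4 * r * (D : ℝ) * Real.exp 3 * edgeW ψ x y) := by
    intro x y
    refine (measure_iUnion_fintype_le _ _).trans ?_
    refine (Finset.sum_le_sum fun k _ => hpiece x y k).trans (le_of_eq ?_)
    rw [← ENNReal.ofReal_sum_of_nonneg]
    · unfold edgeW
      rw [Finset.mul_sum]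
    · intro k _
      refine mul_nonneg hnn ?_
      split_ifs
      · have := gw_pos ψ x
        have := gw_pos ψ y
        positivity
      · exact le_rfl
  unfold gfront
  refine (measure_biUnion_finset_le _ _).trans ?_
  refine (Finset.sum_le_sum fun x _ => measure_biUnion_finset_le _ _).trans ?_
  refine (Finset.sum_le_sum fun x _ => Finset.sum_le_sum fun y _ => hsum1 x y).trans (le_of_eq ?_)
  unfold gflow
  rw [Finset.mul_sum, ENNReal.ofReal_sum_of_nonneg]
  · refine Finset.sum_congr rfl fun x _ => ?_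
    rw [Finset.mul_sum, ENNReal.ofReal_sum_of_nonneg]
    exact fun y _ => mul_nonneg hnn (edgeW_nonneg _ _ _)
  · intro x _
    exact mul_nonneg hnn (Finset.sum_nonneg fun y _ => edgeW_nonneg _ _ _)

/-- **The cut inequality for the grid Metropolis chain.** -/
theorem grid_cut (hD : 0 < D) (hM : 0 < M) {ψ : (Fin D → ℝ) → ℝ} (hψ : GridPsi D M ψ)
    (A : Finset (Grid D M)) :
    1 / (30000 * (D : ℝ) ^ 3 * (M : ℝ) ^ 2)
        * ((∑ x ∈ A, npi (gcond ψ) x) * ∑ y ∈ Aᶜ, npi (gcond ψ) y)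
      ≤ (∑ x ∈ A, ∑ y ∈ Aᶜ, gcond ψ x y) / nZ (gcond ψ : Grid D M → Grid D M → ℝ) := by
  classical
  have hD' : (0 : ℝ) < D := by exact_mod_cast hD
  have hD1 : (1 : ℝ) ≤ D := by exact_mod_cast hD
  have hM' : (0 : ℝ) < M := by exact_mod_cast hM
  have hM1 : (1 : ℝ) ≤ M := by exact_mod_cast hM
  haveI : Nonempty (Fin M) := ⟨⟨0, hM⟩⟩
  set W : ℝ := ∑ g : Grid D M, gw ψ g with hW
  have hW0 : 0 < W := Finset.sum_pos (fun g _ => gw_pos ψ g) Finset.univ_nonempty
  set r : ℝ := 1 / (2 * (D : ℝ)) with hr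
  have hr0 : 0 < r := by positivity
  have hr1 : r ≤ 1 / 2 := by
    rw [hr]
    apply one_div_le_one_div_of_le <;> linarith
  set lam : ℝ := 1 / ((D : ℝ) * (M : ℝ) ^ 2) with hlam
  have hlam0 : 0 < lam := by positivity
  set s : ℝ := lam * r ^ 2 with hs
  have hs0 : 0 < s := by positivity
  have hs1 : s ≤ 1 := by
    have h1 : lam ≤ 1 := by
      rw [hlam, div_le_one (by positivity)]
      nlinarith [one_le_pow₀ (n := 2) hM1]
    have h2 : r ^ 2 ≤ 1 := by nlinarith
    rw [hs]
    nlinarith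
  have hrD : ((1 : ℝ) + 2 * r) ^ (D - 1) ≤ Real.exp 1 := by
    have h1 : (1 : ℝ) + 2 * r ≤ Real.exp (1 / (D : ℝ)) := by
      have := Real.add_one_le_exp (1 / (D : ℝ))
      have e : 2 * r = 1 / (D : ℝ) := by
        rw [hr]
        field_simp
      linarith
    have h2 : ((1 : ℝ) + 2 * r) ^ (D - 1) ≤ Real.exp (1 / (D : ℝ)) ^ (D - 1) :=
      pow_le_pow_left₀ (by linarith) h1 _
    refine h2.trans ?_
    rw [← Real.exp_nat_mul]
    refine Real.exp_le_exp.2 ?_
    have h3 : ((D - 1 : ℕ) : ℝ) ≤ D := by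
      exact_mod_cast Nat.sub_le _ _
    rw [mul_one_div, div_le_one hD']
    exact h3
  set F : ℝ := gflow ψ A with hF
  have hF0 : 0 ≤ F := Finset.sum_nonneg fun x _ => Finset.sum_nonneg fun y _ => edgeW_nonneg _ _ _
  -- the masses
  have hZ1 := mass_gset_ge hD hM hψ (Finset.univ : Finset (Grid D M))
  have hZ2 := mass_gset_le hD hM hψ (Finset.univ : Finset (Grid D M))
  rw [← lintegral_grho] at hZ1 hZ2
  have hZ0 : ∫⁻ x, grho D M ψ x ≠ 0 := by
    intro h
    rw [h] at hZ1
    have : 0 < Real.exp (-1) * W := by positivity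
    have h3 := ENNReal.ofReal_pos.2 this
    exact absurd hZ1 (not_le.2 h3)
  have hZt : ∫⁻ x, grho D M ψ x ≠ ⊤ := ne_top_of_le_ne_top ENNReal.ofReal_ne_top hZ2
  have hpl := pl_cut (measurable_grho hψ) (measurableSet_gset A) (measurableSet_gfront r A) hs0 hs1
    hZ0 hZt (grid_pl_hyp hD hM hψ hr0 (by linarith) A)
  set Z := ∫⁻ x, grho D M ψ x with hZ
  set XA := (∫⁻ x in gset A, grho D M ψ x).toReal with hXA
  set XB := (∫⁻ x in (gset A)ᶜ, grho D M ψ x).toReal with hXB
  set XT := (∫⁻ x in gfront r A, grho D M ψ x).toReal with hXT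
  set Zr := Z.toReal with hZr
  have hZr1 : Real.exp (-1) * W ≤ Zr := by
    have := ENNReal.toReal_mono hZt hZ1
    rwa [ENNReal.toReal_ofReal (by positivity)] at this
  have hZr2 : Zr ≤ Real.exp (1 / 2) * W := by
    have := ENNReal.toReal_mono ENNReal.ofReal_ne_top hZ2
    rwa [ENNReal.toReal_ofReal (by positivity)] at this
  have hZr0 : 0 < Zr := lt_of_lt_of_le (by positivity) hZr1
  have hfin : ∀ U : Set (Fin D → ℝ), ∫⁻ x in U, grho D M ψ x ≠ ⊤ := fun U =>
    ne_top_of_le_ne_top hZt (setLIntegral_le_lintegral U _)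
  have hXA1 : Real.exp (-1) * ∑ g ∈ A, gw ψ g ≤ XA := by
    have := ENNReal.toReal_mono (hfin _) (mass_gset_ge hD hM hψ A)
    rwa [ENNReal.toReal_ofReal (by
      have := Finset.sum_nonneg (s := A) fun g _ => (gw_pos ψ g).le
      positivity)] at this
  have hXB1 : Real.exp (-1) * ∑ g ∈ Aᶜ, gw ψ g ≤ XB := by
    have h1 := (mass_gset_ge hD hM hψ Aᶜ).trans (lintegral_mono_set (gset_compl_subset A))
    have := ENNReal.toReal_mono (hfin _) h1
    rwa [ENNReal.toReal_ofReal (by
      have := Finset.sum_nonneg (s := Aᶜ) fun g _ => (gw_pos ψ g).le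
      positivity)] at this
  have hXT1 : XT ≤ 4 * r * (D : ℝ) * Real.exp 3 * F := by
    have h1 := mass_front_le hD hψ hr0.le hr1 hrD A
    have := ENNReal.toReal_mono ENNReal.ofReal_ne_top h1
    rwa [ENNReal.toReal_ofReal (by positivity)] at this
  simp only [ENNReal.toReal_div] at hpl
  rw [← hXA, ← hXB, ← hXT, ← hZr] at hpl
  -- the weights
  set PA : ℝ := ∑ g ∈ A, gw ψ g with hPA
  set PB : ℝ := ∑ g ∈ Aᶜ, gw ψ g with hPB
  have hPA0 : 0 ≤ PA := Finset.sum_nonneg fun g _ => (gw_pos ψ g).le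
  have hPB0 : 0 ≤ PB := Finset.sum_nonneg fun g _ => (gw_pos ψ g).le
  have hpiA : ∑ x ∈ A, npi (gcond ψ) x = PA / W := by
    rw [hPA, Finset.sum_div]
    exact Finset.sum_congr rfl fun x _ => npi_gcond ψ x
  have hpiB : ∑ x ∈ Aᶜ, npi (gcond ψ) x = PB / W := by
    rw [hPB, Finset.sum_div]
    exact Finset.sum_congr rfl fun x _ => npi_gcond ψ x
  have hflow : ∑ x ∈ A, ∑ y ∈ Aᶜ, gcond ψ x y = F := by
    rw [hF]
    unfold gflow
    refine Finset.sum_congr rfl fun x hx => Finset.sum_congr rfl fun y hy => ?_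
    unfold gcond
    rw [if_neg]
    rintro rfl
    exact (Finset.mem_compl.1 hy) hx
  rw [hpiA, hpiB, hflow, nZ_gcond, ← hW]
  -- combine
  have he1 : Real.exp (1 / 2) * Real.exp 1 = Real.exp (3 / 2) := by
    rw [← Real.exp_add]
    norm_num
  have hneg : Real.exp (-1) = 1 / Real.exp 1 := by
    rw [Real.exp_neg, one_div]
  have ha : (PA / W) / Real.exp (3 / 2) ≤ XA / Zr := by
    rw [div_div, div_le_div_iff₀ (by positivity) hZr0]
    have h1 : PA / Real.exp 1 ≤ XA := by
      rw [← mul_one_div, mul_comm, ← hneg]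
      exact hXA1
    have h2 : PA * Zr ≤ XA * Real.exp 1 * (Real.exp (1 / 2) * W) := by
      have h3 : PA ≤ XA * Real.exp 1 := by
        rwa [div_le_iff₀ (Real.exp_pos _)] at h1
      exact mul_le_mul h3 hZr2 hZr0.le (by
        have : 0 ≤ XA := by
          refine le_trans ?_ hXA1
          positivity
        positivity)
    calc PA * Zr ≤ XA * Real.exp 1 * (Real.exp (1 / 2) * W) := h2
      _ = XA * (W * (Real.exp (1 / 2) * Real.exp 1)) := by ring
      _ = _ := by rw [he1]
  have hb : (PB / W) / Real.exp (3 / 2) ≤ XB / Zr := by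
    rw [div_div, div_le_div_iff₀ (by positivity) hZr0]
    have h1 : PB / Real.exp 1 ≤ XB := by
      rw [← mul_one_div, mul_comm, ← hneg]
      exact hXB1
    have h2 : PB * Zr ≤ XB * Real.exp 1 * (Real.exp (1 / 2) * W) := by
      have h3 : PB ≤ XB * Real.exp 1 := by
        rwa [div_le_iff₀ (Real.exp_pos _)] at h1
      exact mul_le_mul h3 hZr2 hZr0.le (by
        have : 0 ≤ XB := by
          refine le_trans ?_ hXB1
          positivity
        positivity)
    calc PB * Zr ≤ XB * Real.exp 1 * (Real.exp (1 / 2) * W) := h2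
      _ = XB * (W * (Real.exp (1 / 2) * Real.exp 1)) := by ring
      _ = _ := by rw [he1]
  have ht : XT / Zr ≤ 4 * r * (D : ℝ) * Real.exp 4 * (F / W) := by
    have hXT0 : 4 * r * (D : ℝ) * Real.exp 3 * F ≥ 0 := by positivity
    rw [div_le_iff₀ hZr0]
    have he4 : Real.exp 4 = Real.exp 3 * Real.exp 1 := by
      rw [← Real.exp_add]
      norm_num
    have h1 : W ≤ Real.exp 1 * Zr := by
      have h2 : Real.exp 1 * (Real.exp (-1) * W) ≤ Real.exp 1 * Zr :=
        mul_le_mul_of_nonneg_left hZr1 (Real.exp_pos _).le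
      have h3 : Real.exp 1 * (Real.exp (-1) * W) = W := by
        rw [hneg]
        field_simp
      linarith
    have h4 : F ≤ F / W * (Real.exp 1 * Zr) := by
      have h5 : F = F / W * W := by field_simp
      have h6 : 0 ≤ F / W := by positivity
      calc F = F / W * W := h5
        _ ≤ _ := mul_le_mul_of_nonneg_left h1 h6
    calc XT ≤ 4 * r * (D : ℝ) * Real.exp 3 * F := hXT1
      _ ≤ 4 * r * (D : ℝ) * Real.exp 3 * (F / W * (Real.exp 1 * Zr)) :=
          mul_le_mul_of_nonneg_left h4 (by positivity)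
      _ = _ := by
          rw [he4]
          ring
  have hXA0 : 0 ≤ PA / W := by positivity
  have hXB0 : 0 ≤ PB / W := by positivity
  set πA := PA / W with hπA
  set πB := PB / W with hπB
  set f := F / W with hf
  have hf0 : 0 ≤ f := by positivity
  have hE := Real.exp_pos (3 / 2 : ℝ)
  have h1 : (πA / Real.exp (3 / 2)) * (πB / Real.exp (3 / 2)) * s ≤ (XA / Zr) * (XB / Zr) * s := by
    have h0a : 0 ≤ πA / Real.exp (3 / 2) := by positivity
    have h0b : 0 ≤ πB / Real.exp (3 / 2) := by positivity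
    exact mul_le_mul_of_nonneg_right (mul_le_mul ha hb h0b (h0a.trans ha)) hs0.le
  have h2 : (πA / Real.exp (3 / 2)) * (πB / Real.exp (3 / 2)) * s ≤ 3 * (4 * r * (D : ℝ) * Real.exp 4 * f) :=
    h1.trans (hpl.trans (mul_le_mul_of_nonneg_left ht (by norm_num)))
  -- clear the exponentials
  have he7 : Real.exp 7 = Real.exp (3 / 2) * Real.exp (3 / 2) * Real.exp 4 := by
    rw [← Real.exp_add, ← Real.exp_add]
    norm_num
  have h3 : πA * πB * s ≤ 12 * r * (D : ℝ) * Real.exp 7 * f := by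
    have h4 : (πA / Real.exp (3 / 2)) * (πB / Real.exp (3 / 2)) * s
        = πA * πB * s / (Real.exp (3 / 2) * Real.exp (3 / 2)) := by
      field_simp
    rw [h4, div_le_iff₀ (by positivity)] at h2
    calc πA * πB * s ≤ _ := h2
      _ = _ := by
          rw [he7]
          ring
  have he71 : Real.exp 7 ≤ 1250 := by
    have h5 : Real.exp 7 = Real.exp 1 ^ 7 := by
      rw [← Real.exp_nat_mul]
      norm_num
    rw [h5]
    have h6 := Real.exp_one_lt_d9
    have h7 : Real.exp 1 ^ 7 ≤ (2.7182818286 : ℝ) ^ 7 :=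
      pow_le_pow_left₀ (Real.exp_pos _).le h6.le 7
    refine h7.trans ?_
    norm_num
  have h4 : πA * πB * s ≤ 12 * r * (D : ℝ) * 1250 * f :=
    h3.trans (by gcongr)
  -- the numbers
  have e1 : s = 1 / ((D : ℝ) * (M : ℝ) ^ 2) * (1 / (2 * (D : ℝ))) ^ 2 := rfl
  have e2 : 12 * r * (D : ℝ) * 1250 = 7500 := by
    rw [hr]
    field_simp
    ring
  rw [e2, e1] at h4
  have hpp : 0 ≤ πA * πB := by positivity
  rw [div_mul_eq_mul_div, one_mul, div_le_iff₀ (by positivity)]
  have h5 : πA * πB * (1 / ((D : ℝ) * (M : ℝ) ^ 2) * (1 / (2 * (D : ℝ))) ^ 2)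
      = πA * πB / (4 * (D : ℝ) ^ 3 * (M : ℝ) ^ 2) := by
    field_simp
    ring
  rw [h5, div_le_iff₀ (by positivity)] at h4
  calc πA * πB ≤ 7500 * f * (4 * (D : ℝ) ^ 3 * (M : ℝ) ^ 2) := h4
    _ = _ := by ring

/-- **The Poincare inequality for the grid Metropolis chain.** -/
theorem grid_poincare (hD : 0 < D) (hM : 0 < M) {ψ : (Fin D → ℝ) → ℝ} (hψ : GridPsi D M ψ)
    (f : Grid D M → ℝ) :
    nVar (gcond ψ) f ≤ 8 * (30000 * (D : ℝ) ^ 3 * (M : ℝ) ^ 2) ^ 2 * nDir (gcond ψ) f := by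
  haveI : Nonempty (Fin M) := ⟨⟨0, hM⟩⟩
  have hD' : (0 : ℝ) < D := by exact_mod_cast hD
  have hM' : (0 : ℝ) < M := by exact_mod_cast hM
  have hdeg : ∀ v : Grid D M, 0 < ndeg (gcond ψ) v := fun v => by
    rw [ndeg_gcond]
    exact gw_pos ψ v
  have h := poincare_of_cut (cond := gcond ψ) (gcond_symm ψ) (gcond_nonneg hD ψ) hdeg
    (Φ := 1 / (30000 * (D : ℝ) ^ 3 * (M : ℝ) ^ 2)) (by positivity) (grid_cut hD hM hψ) f
  have e : 8 / (1 / (30000 * (D : ℝ) ^ 3 * (M : ℝ) ^ 2)) ^ 2
      = 8 * (30000 * (D : ℝ) ^ 3 * (M : ℝ) ^ 2) ^ 2 := by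
    field_simp
  rwa [e] at h

/-- **The mixing of the grid Metropolis chain.** -/
theorem grid_tv (hD : 0 < D) (hM : 0 < M) {ψ : (Fin D → ℝ) → ℝ} (hψ : GridPsi D M ψ)
    (x : Grid D M) (t : ℕ) :
    (1 / 2 : ℝ) * ∑ y, |(lazyWalk (gcond ψ) ^ t) x y - npi (gcond ψ) y|
      ≤ (1 / 2 : ℝ) * Real.sqrt ((1 - 1 / (2 * (8 * (30000 * (D : ℝ) ^ 3 * (M : ℝ) ^ 2) ^ 2))) ^ t
          / npi (gcond ψ) x) := by
  haveI : Nonempty (Fin M) := ⟨⟨0, hM⟩⟩
  have hD1 : (1 : ℝ) ≤ D := by exact_mod_cast hD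
  have hM1 : (1 : ℝ) ≤ M := by exact_mod_cast hM
  have hdeg : ∀ v : Grid D M, 0 < ndeg (gcond ψ) v := fun v => by
    rw [ndeg_gcond]
    exact gw_pos ψ v
  refine tv_le_of_poincare (cond := gcond ψ) (gcond_symm ψ) (gcond_nonneg hD ψ) hdeg ?_
    (grid_poincare hD hM hψ) x t
  have h1 : (1 : ℝ) ≤ (D : ℝ) ^ 3 := one_le_pow₀ hD1
  have h2 : (1 : ℝ) ≤ (M : ℝ) ^ 2 := one_le_pow₀ hM1
  have h3 : (1 : ℝ) ≤ 30000 * (D : ℝ) ^ 3 * (M : ℝ) ^ 2 := by nlinarith
  nlinarith [sq_nonneg (30000 * (D : ℝ) ^ 3 * (M : ℝ) ^ 2 - 1)]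

end Analysis

end Vale.Agent.Lib.P328.Samp.NN
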