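import Vale.Agent.Lib.P328.Samp.Defs
import Vale.Agent.Lib.P328.Fpras.Solver
import Vale.Agent.Lib.P328.Cap.Sym
import Vale.Agent.Lib.P328.CapS.Trans

/-!
# P328, explicit algorithm: the potential (module K1)

`phiT r c t = Σ t - log capa t - phiMin r`, `hkl a x = x - a - a log (x / a)` (the entropy distance; `hkl 0 x = x`).

`phiT_test`: for `a, b > 0`. `capa ≤ Phi b = ∏ L_i ^ r_i / ∏ b_j ^ c_j`, `L_i = Σ_j t_ji b_j`, and the tangent line
of the logarithm give
`log capa ≤ Σ_i r_i log r_i - N + Σ_i a_i L_i - Σ r_i log a_i - Σ c_j log b_j`; this is the claim with `N = Σ r`.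
`phiT_row`: take `b = 1`, `a_k = 1` for `k ≠ i`, `a_i = r_i / s_i`, `s_i = Σ_j t_ji`; if `r_i = 0` let `a_i → 0`
(for every `a > 0`: `(1 - a) s_i ≤ phiT`). `phiT_col`: `a = 1`, `b_k = 1` for `k ≠ j`, `b_j = c_j / q_j`.
`phiT_nonneg`: `a = b = 1`.
`hkl_bound`: `(x - a)² ≤ 2 max(a, x) hkl a x`. Then `d = |x - a|` has
`d² ≤ 2 U (a + d)`, so `d ≤ 2 U + sqrt (2 a U)`.
`phiT_le_kl`: (weak duality) tangent line of the logarithm in each row: `log Phi b ≥ Σ r_i log r_i + Σ A_ji log (t_ji / A_ji)`
for every `b`; hence the same for `log capa` (and `capa > 0`).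
`phiT_convex`: `Cap.capa_logconc` says `capa` is log-concave; `capa_pos` in `Fpras/Solver`.
-/

namespace Vale.Agent.Lib.P328.Samp

open Finset MeasureTheory Vale.Agent.Lib.P328.Cap Vale.Agent.Lib.P328.Fpras
open scoped ENNReal

variable {m n : ℕ}

/-- The normalised potential. -/
noncomputable def phiT (r : Fin m → ℕ) (c : Fin n → ℕ) (t : Fin n → Fin m → ℝ) : ℝ :=
  ∑ j, ∑ i, t j i - Real.log (capa r c t).toReal - phiMin r

/-- The entropy distance of `x` from `a`. -/
noncomputable def hkl (a x : ℝ) : ℝ := x - a - a * Real.log (x / a)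

section Aux

variable {r : Fin m → ℕ} {c : Fin n → ℕ}

/-- A row with a positive sum has a positive linear form. -/
theorem L_pos (hsum : ∑ i, r i = ∑ j, c j) {t : Fin n → Fin m → ℝ} (ht : ∀ j i, 0 < t j i)
    {b : Fin n → ℝ} (hb : ∀ j, 0 < b j) {i : Fin m} (hr : 0 < r i) : 0 < ∑ j, t j i * b j := by
  have hn : (univ : Finset (Fin n)).Nonempty := by
    by_contra hne
    rw [Finset.not_nonempty_iff_eq_empty] at hne
    have h0 : ∑ j, c j = 0 := by rw [hne]; simp
    rw [h0] at hsum
    have h1 := (Finset.sum_eq_zero_iff.1 hsum) i (mem_univ i)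
    omega
  exact Finset.sum_pos (fun j _ => mul_pos (ht j i) (hb j)) hn

theorem L_nonneg {t : Fin n → Fin m → ℝ} (ht : ∀ j i, 0 < t j i)
    {b : Fin n → ℝ} (hb : ∀ j, 0 < b j) (i : Fin m) : 0 ≤ ∑ j, t j i * b j :=
  Finset.sum_nonneg fun j _ => (mul_pos (ht j i) (hb j)).le

/-- `Phi` as an exponential. -/
theorem Phi_eq_exp (hsum : ∑ i, r i = ∑ j, c j) {t : Fin n → Fin m → ℝ} (ht : ∀ j i, 0 < t j i)
    {b : Fin n → ℝ} (hb : ∀ j, 0 < b j) :
    (∏ i, (∑ j, t j i * b j) ^ r i) / ∏ j, b j ^ c j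
      = Real.exp (∑ i, (r i : ℝ) * Real.log (∑ j, t j i * b j) - ∑ j, (c j : ℝ) * Real.log (b j)) := by
  rw [Real.exp_sub, Real.exp_sum, Real.exp_sum]
  congr 1
  · refine Finset.prod_congr rfl fun i _ => ?_
    rcases Nat.eq_zero_or_pos (r i) with h | h
    · simp [h]
    · rw [Real.exp_nat_mul, Real.exp_log (L_pos hsum ht hb h)]
  · refine Finset.prod_congr rfl fun j _ => ?_
    rw [Real.exp_nat_mul, Real.exp_log (hb j)]

/-- The upper bound of the logarithm of the capacity by the value at `b`. -/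
theorem log_capa_le (hsum : ∑ i, r i = ∑ j, c j) {t : Fin n → Fin m → ℝ} (ht : ∀ j i, 0 < t j i)
    {b : Fin n → ℝ} (hb : ∀ j, 0 < b j) :
    Real.log (capa r c t).toReal
      ≤ ∑ i, (r i : ℝ) * Real.log (∑ j, t j i * b j) - ∑ j, (c j : ℝ) * Real.log (b j) := by
  have hpos := capa_pos r c hsum t ht
  have htop := capa_lt_top r c t
  have h0 : 0 < (capa r c t).toReal := ENNReal.toReal_pos hpos.ne' htop.ne
  have h1 : capa r c t ≤ ENNReal.ofReal ((∏ i, (∑ j, t j i * b j) ^ r i) / ∏ j, b j ^ c j) := by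
    unfold capa
    exact iInf_le (fun b : {b : Fin n → ℝ // ∀ j, 0 < b j} =>
      ENNReal.ofReal ((∏ i, (∑ j, t j i * b.1 j) ^ r i) / ∏ j, b.1 j ^ c j)) ⟨b, hb⟩
  rw [Phi_eq_exp hsum ht hb] at h1
  have h2 : (capa r c t).toReal ≤ Real.exp (∑ i, (r i : ℝ) * Real.log (∑ j, t j i * b j)
      - ∑ j, (c j : ℝ) * Real.log (b j)) := by
    have := ENNReal.toReal_mono ENNReal.ofReal_ne_top h1
    rwa [ENNReal.toReal_ofReal (Real.exp_pos _).le] at this
  have h3 := Real.log_le_log h0 h2
  rwa [Real.log_exp] at h3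

/-- The tangent line bound for one row. -/
theorem row_tangent (R : ℕ) {L a : ℝ} (hL0 : 0 ≤ L) (hL : 0 < R → 0 < L) (ha : 0 < a) :
    (R : ℝ) * Real.log L ≤ (R : ℝ) * Real.log R - R + a * L - R * Real.log a := by
  rcases Nat.eq_zero_or_pos R with h | h
  · subst h
    simpa using mul_nonneg ha.le hL0
  · have hR : (0 : ℝ) < R := by exact_mod_cast h
    have hL' := hL h
    have h1 := Real.log_le_sub_one_of_pos (show 0 < a * L / R by positivity)
    rw [Real.log_div (by positivity) hR.ne', Real.log_mul ha.ne' hL'.ne'] at h1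
    have h2 := mul_le_mul_of_nonneg_left h1 hR.le
    have h3 : (R : ℝ) * (a * L / R - 1) = a * L - R := by field_simp
    rw [h3] at h2
    nlinarith

end Aux

theorem phiT_test {r : Fin m → ℕ} {c : Fin n → ℕ} (hsum : ∑ i, r i = ∑ j, c j)
    {t : Fin n → Fin m → ℝ} (ht : ∀ j i, 0 < t j i) {a : Fin m → ℝ} (ha : ∀ i, 0 < a i)
    {b : Fin n → ℝ} (hb : ∀ j, 0 < b j) :
    ∑ j, ∑ i, (1 - a i * b j) * t j i + ∑ i, (r i : ℝ) * Real.log (a i)
      + ∑ j, (c j : ℝ) * Real.log (b j) ≤ phiT r c t := by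
  have h1 := log_capa_le hsum ht hb
  have h2 : ∑ i, (r i : ℝ) * Real.log (∑ j, t j i * b j)
      ≤ ∑ i, ((r i : ℝ) * Real.log (r i) - r i + a i * (∑ j, t j i * b j)
          - r i * Real.log (a i)) :=
    Finset.sum_le_sum fun i _ =>
      row_tangent (r i) (L_nonneg ht hb i) (fun h => L_pos hsum ht hb h) (ha i)
  have h3 : ∑ j, ∑ i, (1 - a i * b j) * t j i
      = ∑ j, ∑ i, t j i - ∑ i, a i * (∑ j, t j i * b j) := by
    simp only [Finset.mul_sum]
    rw [Finset.sum_comm (s := univ) (t := univ) (f := fun i j => a i * (t j i * b j)),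
      ← Finset.sum_sub_distrib]
    refine Finset.sum_congr rfl fun j _ => ?_
    rw [← Finset.sum_sub_distrib]
    refine Finset.sum_congr rfl fun i _ => ?_
    ring
  have h4 : ∑ i, ((r i : ℝ) * Real.log (r i) - r i + a i * (∑ j, t j i * b j)
          - r i * Real.log (a i))
      = ∑ i, (r i : ℝ) * Real.log (r i) - ∑ i, (r i : ℝ) + ∑ i, a i * (∑ j, t j i * b j)
          - ∑ i, (r i : ℝ) * Real.log (a i) := by
    rw [Finset.sum_sub_distrib, Finset.sum_add_distrib, Finset.sum_sub_distrib]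
  have h5 : phiMin r = ∑ i, (r i : ℝ) - ∑ i, (r i : ℝ) * Real.log (r i) := by
    unfold phiMin
    rw [Finset.sum_sub_distrib]
  unfold phiT
  rw [h3, h5]
  rw [h4] at h2
  linarith

theorem phiT_nonneg {r : Fin m → ℕ} {c : Fin n → ℕ} (hsum : ∑ i, r i = ∑ j, c j)
    {t : Fin n → Fin m → ℝ} (ht : ∀ j i, 0 < t j i) : 0 ≤ phiT r c t := by
  have h := phiT_test hsum ht (a := fun _ => 1) (fun _ => one_pos) (b := fun _ => 1)
    (fun _ => one_pos)
  simpa using h

/-- The test with a single row changed. -/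
theorem phiT_row_aux {r : Fin m → ℕ} {c : Fin n → ℕ} (hsum : ∑ i, r i = ∑ j, c j)
    {t : Fin n → Fin m → ℝ} (ht : ∀ j i, 0 < t j i) (i : Fin m) {α : ℝ} (hα : 0 < α) :
    (1 - α) * ∑ j, t j i + (r i : ℝ) * Real.log α ≤ phiT r c t := by
  have h := phiT_test hsum ht (a := fun k => if k = i then α else 1)
    (fun k => by by_cases hk : k = i <;> simp [hk, hα]) (b := fun _ => 1) (fun _ => one_pos)
  have e1 : ∑ j, ∑ k, (1 - (if k = i then α else 1) * (1 : ℝ)) * t j k = (1 - α) * ∑ j, t j i := by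
    rw [Finset.mul_sum]
    refine Finset.sum_congr rfl fun j _ => ?_
    rw [Finset.sum_eq_single i]
    · simp
    · intro k _ hk
      simp [hk]
    · simp
  have e2 : ∑ k, (r k : ℝ) * Real.log (if k = i then α else 1) = (r i : ℝ) * Real.log α := by
    rw [Finset.sum_eq_single i]
    · simp
    · intro k _ hk
      simp [hk]
    · simp
  rw [e1, e2] at h
  simpa using h

/-- The test with a single column changed. -/
theorem phiT_col_aux {r : Fin m → ℕ} {c : Fin n → ℕ} (hsum : ∑ i, r i = ∑ j, c j)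
    {t : Fin n → Fin m → ℝ} (ht : ∀ j i, 0 < t j i) (j : Fin n) {α : ℝ} (hα : 0 < α) :
    (1 - α) * ∑ i, t j i + (c j : ℝ) * Real.log α ≤ phiT r c t := by
  have h := phiT_test hsum ht (a := fun _ => 1) (fun _ => one_pos)
    (b := fun k => if k = j then α else 1)
    (fun k => by by_cases hk : k = j <;> simp [hk, hα])
  have e1 : ∑ k, ∑ i, (1 - (1 : ℝ) * (if k = j then α else 1)) * t k i = (1 - α) * ∑ i, t j i := by
    rw [Finset.sum_eq_single j]
    · simp [Finset.mul_sum]
    · intro k _ hk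
      simp [hk]
    · simp
  have e2 : ∑ k, (c k : ℝ) * Real.log (if k = j then α else 1) = (c j : ℝ) * Real.log α := by
    rw [Finset.sum_eq_single j]
    · simp
    · intro k _ hk
      simp [hk]
    · simp
  rw [e1, e2] at h
  simpa using h

/-- The common step of `phiT_row` and `phiT_col`. -/
theorem hkl_le_of_test {R : ℕ} {s U : ℝ} (hs : 0 < s)
    (h : ∀ α : ℝ, 0 < α → (1 - α) * s + (R : ℝ) * Real.log α ≤ U) : hkl R s ≤ U := by
  rcases Nat.eq_zero_or_pos R with h0 | h0
  · subst h0
    have h1 : hkl ((0 : ℕ) : ℝ) s = s := by simp [hkl]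
    rw [h1]
    refine le_of_forall_pos_le_add fun ε hε => ?_
    have h2 := h (ε / s) (by positivity)
    have h3 : (1 - ε / s) * s = s - ε := by field_simp
    simp only [Nat.cast_zero, zero_mul, add_zero] at h2
    rw [h3] at h2
    linarith
  · have hR : (0 : ℝ) < R := by exact_mod_cast h0
    have h2 := h (R / s) (by positivity)
    have h3 : (1 - (R : ℝ) / s) * s = s - R := by field_simp
    rw [h3] at h2
    unfold hkl
    have h4 : Real.log (s / R) = -Real.log (R / s) := by
      rw [← Real.log_inv, inv_div]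
    rw [h4]
    linarith

theorem phiT_row {r : Fin m → ℕ} {c : Fin n → ℕ} (hsum : ∑ i, r i = ∑ j, c j)
    {t : Fin n → Fin m → ℝ} (ht : ∀ j i, 0 < t j i) (hn : 0 < n) (i : Fin m) :
    hkl (r i) (∑ j, t j i) ≤ phiT r c t := by
  have hs : 0 < ∑ j, t j i :=
    Finset.sum_pos (fun j _ => ht j i) ⟨⟨0, hn⟩, mem_univ _⟩
  exact hkl_le_of_test hs fun α hα => phiT_row_aux hsum ht i hα

theorem phiT_col {r : Fin m → ℕ} {c : Fin n → ℕ} (hsum : ∑ i, r i = ∑ j, c j)
    {t : Fin n → Fin m → ℝ} (ht : ∀ j i, 0 < t j i) (hm : 0 < m) (j : Fin n) :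
    hkl (c j) (∑ i, t j i) ≤ phiT r c t := by
  have hs : 0 < ∑ i, t j i :=
    Finset.sum_pos (fun i _ => ht j i) ⟨⟨0, hm⟩, mem_univ _⟩
  exact hkl_le_of_test hs fun α hα => phiT_col_aux hsum ht j hα

/-- `sinh x ≥ x` for the logarithm. -/
theorem log_le_half_sub {z : ℝ} (hz : 1 ≤ z) : Real.log z ≤ (z - z⁻¹) / 2 := by
  have hz0 : 0 < z := by linarith
  have h1 : 0 ≤ Real.log z := Real.log_nonneg hz
  have h2 := Real.self_le_sinh_iff.2 h1
  rw [Real.sinh_eq, Real.exp_neg, Real.exp_log hz0] at h2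
  exact h2

/-- A lower bound for `z - 1 - log z` on `(0, 1]`. -/
theorem sq_le_sub_log {z : ℝ} (hz0 : 0 < z) (hz : z ≤ 1) :
    (z - 1) ^ 2 / 2 ≤ z - 1 - Real.log z := by
  set g : ℝ → ℝ := fun x => x - 1 - Real.log x - (x - 1) ^ 2 / 2 with hg
  have hderiv : ∀ x ∈ Set.Ioo (0 : ℝ) 1, HasDerivAt g (1 - x⁻¹ - (x - 1)) x := by
    intro x hx
    have hx0 : x ≠ 0 := hx.1.ne'
    have h1 : HasDerivAt (fun x : ℝ => x - 1) 1 x := (hasDerivAt_id x).sub_const 1
    have h2 := Real.hasDerivAt_log hx0
    have h3 : HasDerivAt (fun x : ℝ => (x - 1) ^ 2 / 2) (x - 1) x := by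
      have h := (((hasDerivAt_id' x).sub_const 1).fun_pow 2).div_const 2
      have e : ((2 : ℕ) : ℝ) * (x - 1) ^ (2 - 1) * 1 / 2 = x - 1 := by
        norm_num
      rw [e] at h
      exact h
    exact (h1.fun_sub h2).fun_sub h3
  have hanti : AntitoneOn g (Set.Ioc 0 1) := by
    refine antitoneOn_of_deriv_nonpos (convex_Ioc 0 1) ?_ ?_ ?_
    · refine ContinuousOn.sub (ContinuousOn.sub (by fun_prop) ?_) (by fun_prop)
      exact Real.continuousOn_log.mono fun x hx => (ne_of_gt hx.1)
    · intro x hx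
      rw [interior_Ioc] at hx
      exact (hderiv x hx).differentiableAt.differentiableWithinAt
    · intro x hx
      rw [interior_Ioc] at hx
      rw [(hderiv x hx).deriv]
      have hx0 := hx.1
      have h5 : 1 - x⁻¹ - (x - 1) = -((x - 1) ^ 2 / x) := by
        field_simp
        ring
      rw [h5]
      have : 0 ≤ (x - 1) ^ 2 / x := by positivity
      linarith
  have h := hanti ⟨hz0, hz⟩ ⟨one_pos, le_rfl⟩ hz
  simp only [hg, sub_self, Real.log_one] at h
  norm_num at h
  linarith

/-- The quadratic lower bound for the entropy distance. -/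
theorem hkl_sq_le {a x : ℝ} (ha : 0 < a) (hx : 0 < x) :
    (x - a) ^ 2 ≤ 2 * max a x * hkl a x := by
  have hz : 0 < x / a := by positivity
  have hk : hkl a x = a * (x / a - 1 - Real.log (x / a)) := by
    unfold hkl
    field_simp
  rcases le_total a x with h | h
  · rw [max_eq_right h]
    have hz1 : 1 ≤ x / a := by rwa [one_le_div ha]
    have h1 := log_le_half_sub hz1
    rw [hk]
    have h2 : (x / a - 1) ^ 2 / (2 * (x / a)) ≤ x / a - 1 - Real.log (x / a) := by
      have h3 : (x / a - 1) ^ 2 / (2 * (x / a)) = x / a - 1 - (x / a - (x / a)⁻¹) / 2 := by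
        field_simp
        ring
      rw [h3]
      linarith
    have h4 : (x - a) ^ 2 = 2 * x * (a * ((x / a - 1) ^ 2 / (2 * (x / a)))) := by
      field_simp
    rw [h4]
    exact mul_le_mul_of_nonneg_left (mul_le_mul_of_nonneg_left h2 ha.le) (by positivity)
  · rw [max_eq_left h]
    have hz1 : x / a ≤ 1 := by rwa [div_le_one ha]
    have h1 := sq_le_sub_log hz hz1
    rw [hk]
    have h4 : (x - a) ^ 2 = 2 * a * (a * ((x / a - 1) ^ 2 / 2)) := by
      field_simp
    rw [h4]
    exact mul_le_mul_of_nonneg_left (mul_le_mul_of_nonneg_left h1 ha.le) (by positivity)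

theorem hkl_bound {a x U : ℝ} (ha : 0 ≤ a) (hx : 0 < x) (hU : 0 ≤ U) (h : hkl a x ≤ U) :
    |x - a| ≤ 2 * U + Real.sqrt (2 * a * U) := by
  rcases ha.eq_or_lt with h0 | h0
  · subst h0
    have h1 : hkl 0 x = x := by simp [hkl]
    rw [h1] at h
    have h2 : |x - 0| = x := by simp [abs_of_pos hx]
    rw [h2]
    have := Real.sqrt_nonneg (2 * 0 * U)
    linarith
  · set d := |x - a| with hd
    have hd0 : 0 ≤ d := abs_nonneg _
    have h1 := hkl_sq_le h0 hx
    have hmax : max a x ≤ a + d := by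
      refine max_le (by linarith) ?_
      have := le_abs_self (x - a)
      linarith
    have hk0 : 0 ≤ hkl a x := by
      have h2 : 0 ≤ (x - a) ^ 2 := sq_nonneg _
      by_contra hneg
      push Not at hneg
      have h3 : 0 < max a x := lt_of_lt_of_le h0 (le_max_left _ _)
      have h4 : 2 * max a x * hkl a x < 0 :=
        mul_neg_of_pos_of_neg (by positivity) hneg
      linarith
    have h2 : d ^ 2 ≤ 2 * (a + d) * U := by
      rw [hd, sq_abs]
      calc (x - a) ^ 2 ≤ 2 * max a x * hkl a x := h1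
        _ ≤ 2 * (a + |x - a|) * U := by
          have hmp : 0 ≤ max a x := le_trans h0.le (le_max_left _ _)
          exact mul_le_mul (mul_le_mul_of_nonneg_left hmax (by norm_num)) h (hk0)
            (by positivity)
    set s := Real.sqrt (2 * a * U) with hs
    have hs0 : 0 ≤ s := Real.sqrt_nonneg _
    have hs2 : s ^ 2 = 2 * a * U := Real.sq_sqrt (by positivity)
    by_contra hlt
    push Not at hlt
    have h3 : 0 < d := by linarith
    have h4 : d * s < d * (d - 2 * U) := mul_lt_mul_of_pos_left (by linarith) h3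
    have h5 : s * s ≤ d * s := mul_le_mul_of_nonneg_right (by linarith) hs0
    nlinarith

/-- `0 ≤ v`: the distance is at most `v`. -/
theorem hkl_le_of_nonneg {a v : ℝ} (ha : 0 ≤ a) (hv : 0 < v) : hkl a (a + v) ≤ v := by
  rcases ha.eq_or_lt with h0 | h0
  · subst h0
    simp [hkl]
  · unfold hkl
    have h1 : 1 ≤ (a + v) / a := by
      rw [one_le_div h0]
      linarith
    have h2 := Real.log_nonneg h1
    have h3 := mul_nonneg ha h2
    linarith

/-- `- a / 2 ≤ v`: the distance is at most `v ^ 2 / a`. -/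
theorem hkl_le_sq {a v : ℝ} (ha : 0 < a) (hv : -(a / 2) ≤ v) : hkl a (a + v) ≤ v ^ 2 / a := by
  set w := v / a with hw
  have hw1 : -(1 / 2) ≤ w := by
    rw [hw, le_div_iff₀ ha]
    linarith
  have hz : (a + v) / a = 1 + w := by
    rw [hw]
    field_simp
  have hz0 : 0 < 1 + w := by linarith
  have key : w - Real.log (1 + w) ≤ w ^ 2 := by
    rcases le_total 0 w with h0 | h0
    · have h1 := Real.one_sub_inv_le_log_of_pos hz0
      have h2 : (1 + w)⁻¹ * (1 + w) = 1 := inv_mul_cancel₀ hz0.ne'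
      have h3 : w - (1 - (1 + w)⁻¹) ≤ w ^ 2 := by
        have h4 : w - (1 - (1 + w)⁻¹) = w ^ 2 * (1 + w)⁻¹ := by
          field_simp
          ring
        rw [h4]
        have h5 : (1 + w)⁻¹ ≤ 1 := inv_le_one_of_one_le₀ (by linarith)
        have h6 : 0 ≤ w ^ 2 := sq_nonneg _
        nlinarith
      linarith
    · have h1 : 1 ≤ (1 + w)⁻¹ := (one_le_inv₀ hz0).2 (by linarith)
      have h2 := log_le_half_sub h1
      rw [Real.log_inv, inv_inv] at h2
      have h3 : ((1 + w)⁻¹ - (1 + w)) / 2 ≤ w ^ 2 - w := by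
        have h4 : w ^ 2 - w - ((1 + w)⁻¹ - (1 + w)) / 2 = w ^ 2 * (1 + 2 * w) / (2 * (1 + w)) := by
          field_simp
          ring
        have h5 : 0 ≤ w ^ 2 * (1 + 2 * w) / (2 * (1 + w)) := by
          apply div_nonneg
          · apply mul_nonneg (sq_nonneg _)
            linarith
          · linarith
        linarith
      linarith
  unfold hkl
  rw [hz]
  have e : a + v - a - a * Real.log (1 + w) = a * (w - Real.log (1 + w)) := by
    rw [hw]
    field_simp
    ring
  rw [e]
  have e2 : v ^ 2 / a = a * w ^ 2 := by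
    rw [hw]
    field_simp
  rw [e2]
  exact mul_le_mul_of_nonneg_left key ha.le

/-- The tangent line in the weak duality, for one row. -/
theorem row_dual {J : Type*} [Fintype J] {A p : J → ℝ} {R : ℝ}
    (hA : ∀ j, 0 ≤ A j) (hsum : ∑ j, A j = R) (hp : ∀ j, 0 < p j) :
    ∑ j, A j * (Real.log (p j) - Real.log (A j)) + R * Real.log R ≤ R * Real.log (∑ j, p j) := by
  rcases (show 0 ≤ R from hsum ▸ Finset.sum_nonneg fun j _ => hA j).eq_or_lt with h0 | h0
  · have hz : ∀ j, A j = 0 := by
      intro j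
      rw [← h0] at hsum
      exact (Finset.sum_eq_zero_iff_of_nonneg fun j _ => hA j).1 hsum j (mem_univ j)
    simp [hz, ← h0]
  · have hne : (univ : Finset J).Nonempty := by
      by_contra hne
      rw [Finset.not_nonempty_iff_eq_empty] at hne
      rw [hne] at hsum
      simp at hsum
      linarith
    set L := ∑ j, p j with hL
    have hL0 : 0 < L := Finset.sum_pos (fun j _ => hp j) hne
    have hterm : ∀ j, A j * (Real.log (p j) - Real.log (A j) + Real.log R - Real.log L)
        ≤ p j * R / L - A j := by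
      intro j
      rcases (hA j).eq_or_lt with h1 | h1
      · rw [← h1]
        have := hp j
        simp only [zero_mul, sub_zero]
        positivity
      · have h2 := Real.log_le_sub_one_of_pos (show 0 < p j * R / (A j * L) by
          have := hp j
          positivity)
        rw [Real.log_div (by have := hp j; positivity) (by positivity),
          Real.log_mul (hp j).ne' h0.ne', Real.log_mul h1.ne' hL0.ne'] at h2
        have h3 := mul_le_mul_of_nonneg_left h2 h1.le
        have h4 : A j * (p j * R / (A j * L) - 1) = p j * R / L - A j := by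
          field_simp
        rw [h4] at h3
        calc A j * (Real.log (p j) - Real.log (A j) + Real.log R - Real.log L)
            = A j * (Real.log (p j) + Real.log R - (Real.log (A j) + Real.log L)) := by ring
          _ ≤ _ := h3
    have h5 : ∑ j, A j * (Real.log (p j) - Real.log (A j) + Real.log R - Real.log L)
        ≤ ∑ j, (p j * R / L - A j) := Finset.sum_le_sum fun j _ => hterm j
    have h6 : ∑ j, (p j * R / L - A j) = 0 := by
      rw [Finset.sum_sub_distrib, hsum, ← Finset.sum_div, ← Finset.sum_mul, ← hL]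
      field_simp
      ring
    have h7 : ∑ j, A j * (Real.log (p j) - Real.log (A j) + Real.log R - Real.log L)
        = ∑ j, A j * (Real.log (p j) - Real.log (A j))
          + R * Real.log R - R * Real.log L := by
      rw [← hsum, Finset.sum_mul, Finset.sum_mul, ← Finset.sum_add_distrib,
        ← Finset.sum_sub_distrib]
      refine Finset.sum_congr rfl fun j _ => ?_
      ring
    rw [h6, h7] at h5
    linarith

/-- Weak duality. -/
theorem phiT_le_kl {r : Fin m → ℕ} {c : Fin n → ℕ} (hsum : ∑ i, r i = ∑ j, c j)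
    {t : Fin n → Fin m → ℝ} (ht : ∀ j i, 0 < t j i) {A : Fin n → Fin m → ℝ}
    (hA0 : ∀ j i, 0 ≤ A j i) (hAc : ∀ j, ∑ i, A j i = c j) (hAr : ∀ i, ∑ j, A j i = r i) :
    phiT r c t ≤ ∑ j, ∑ i, hkl (A j i) (t j i) := by
  set κ : ℝ := ∑ i, (r i : ℝ) * Real.log (r i)
    + ∑ j, ∑ i, A j i * (Real.log (t j i) - Real.log (A j i)) with hκ
  -- the lower bound of the capacity
  have hlow : ENNReal.ofReal (Real.exp κ) ≤ capa r c t := by
    unfold capa
    refine le_iInf fun b => ?_
    obtain ⟨b, hb⟩ := b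
    refine ENNReal.ofReal_le_ofReal ?_
    simp only
    rw [Phi_eq_exp hsum ht hb]
    refine Real.exp_le_exp.2 ?_
    have h1 : ∀ i, ∑ j, A j i * (Real.log (t j i * b j) - Real.log (A j i))
        + (r i : ℝ) * Real.log (r i) ≤ (r i : ℝ) * Real.log (∑ j, t j i * b j) := fun i =>
      row_dual (fun j => hA0 j i) (hAr i) fun j => mul_pos (ht j i) (hb j)
    have h2 := Finset.sum_le_sum fun i (_ : i ∈ (univ : Finset (Fin m))) => h1 i
    rw [Finset.sum_add_distrib] at h2
    have h3 : ∑ i, ∑ j, A j i * (Real.log (t j i * b j) - Real.log (A j i))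
        = ∑ j, ∑ i, A j i * (Real.log (t j i) - Real.log (A j i))
          + ∑ j, (c j : ℝ) * Real.log (b j) := by
      rw [Finset.sum_comm, ← Finset.sum_add_distrib]
      refine Finset.sum_congr rfl fun j _ => ?_
      rw [← hAc j, Finset.sum_mul, ← Finset.sum_add_distrib]
      refine Finset.sum_congr rfl fun i _ => ?_
      rw [Real.log_mul (ht j i).ne' (hb j).ne']
      ring
    rw [h3] at h2
    rw [hκ]
    linarith
  have htop := capa_lt_top r c t
  have h4 : κ ≤ Real.log (capa r c t).toReal := by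
    have h5 := ENNReal.toReal_mono htop.ne hlow
    rw [ENNReal.toReal_ofReal (Real.exp_pos _).le] at h5
    have h6 := Real.log_le_log (Real.exp_pos _) h5
    rwa [Real.log_exp] at h6
  -- the entropy distance
  have h7 : ∀ j i, hkl (A j i) (t j i)
      = t j i - A j i - A j i * (Real.log (t j i) - Real.log (A j i)) := by
    intro j i
    unfold hkl
    rcases (hA0 j i).eq_or_lt with h0 | h0
    · rw [← h0]
      simp
    · rw [Real.log_div (ht j i).ne' h0.ne']
  have h8 : ∑ j, ∑ i, hkl (A j i) (t j i)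
      = ∑ j, ∑ i, t j i - ∑ i, (r i : ℝ)
        - ∑ j, ∑ i, A j i * (Real.log (t j i) - Real.log (A j i)) := by
    have h9 : ∑ i, (r i : ℝ) = ∑ j, ∑ i, A j i := by
      rw [Finset.sum_comm]
      exact Finset.sum_congr rfl fun i _ => (hAr i).symm
    rw [h9, ← Finset.sum_sub_distrib, ← Finset.sum_sub_distrib]
    refine Finset.sum_congr rfl fun j _ => ?_
    rw [← Finset.sum_sub_distrib, ← Finset.sum_sub_distrib]
    exact Finset.sum_congr rfl fun i _ => h7 j i
  have h10 : phiMin r = ∑ i, (r i : ℝ) - ∑ i, (r i : ℝ) * Real.log (r i) := by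
    unfold phiMin
    rw [Finset.sum_sub_distrib]
  unfold phiT
  rw [h8, h10]
  rw [hκ] at h4
  linarith

theorem phiT_convex {r : Fin m → ℕ} {c : Fin n → ℕ} (hsum : ∑ i, r i = ∑ j, c j) :
    ConvexOn ℝ {t : Fin n → Fin m → ℝ | ∀ j i, 0 < t j i} (phiT r c) := by
  refine ⟨?_, ?_⟩
  · intro t ht t' ht' a b ha hb hab j i
    have h1 := ht j i
    have h2 := ht' j i
    simp only [Pi.add_apply, Pi.smul_apply, smul_eq_mul]
    rcases ha.eq_or_lt with h0 | h0
    · have hb1 : b = 1 := by linarith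
      rw [← h0, hb1]
      simpa using h2
    · have : 0 < a * t j i := mul_pos h0 h1
      have : 0 ≤ b * t' j i := mul_nonneg hb h2.le
      linarith
  · intro t ht t' ht' a b ha hb hab
    simp only [Set.mem_ofPred_eq] at ht ht'
    have hb' : 1 - a = b := by linarith
    have ha1 : a ≤ 1 := by linarith
    have h1 := capa_logconc r c t t' ht ht' a ha ha1
    rw [hb'] at h1
    have hmix : (fun j i => a * t j i + b * t' j i) = a • t + b • t' := by
      funext j i
      simp
    rw [hmix] at h1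
    have hp1 := capa_pos r c hsum t ht
    have hp2 := capa_pos r c hsum t' ht'
    have ht1 := capa_lt_top r c t
    have ht2 := capa_lt_top r c t'
    have ht3 := capa_lt_top r c (a • t + b • t')
    have hx : 0 < (capa r c t).toReal := ENNReal.toReal_pos hp1.ne' ht1.ne
    have hy : 0 < (capa r c t').toReal := ENNReal.toReal_pos hp2.ne' ht2.ne
    have h2 := ENNReal.toReal_mono ht3.ne h1
    rw [ENNReal.toReal_mul, ← ENNReal.toReal_rpow, ← ENNReal.toReal_rpow] at h2
    have hpos : 0 < (capa r c t).toReal ^ a * (capa r c t').toReal ^ b := by positivity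
    have h3 := Real.log_le_log hpos h2
    rw [Real.log_mul (by positivity) (by positivity), Real.log_rpow hx, Real.log_rpow hy] at h3
    have h4 : phiMin r = a * phiMin r + b * phiMin r := by
      rw [← add_mul, hab, one_mul]
    have h5 : ∑ j, ∑ i, (a • t + b • t') j i
        = a * ∑ j, ∑ i, t j i + b * ∑ j, ∑ i, t' j i := by
      simp only [Finset.mul_sum, ← Finset.sum_add_distrib]
      refine Finset.sum_congr rfl fun j _ => Finset.sum_congr rfl fun i _ => ?_
      simp
    simp only [smul_eq_mul]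
    unfold phiT
    rw [h5]
    nlinarith

/-- The density in terms of the potential. -/
theorem wmat_capa_eq {r : Fin m → ℕ} {c : Fin n → ℕ} (hsum : ∑ i, r i = ∑ j, c j)
    {t : Fin n → Fin m → ℝ} (ht : ∀ j i, 0 < t j i) :
    wmat t * capa r c t = ENNReal.ofReal (Real.exp (-phiMin r) * Real.exp (-phiT r c t)) := by
  have hp := capa_pos r c hsum t ht
  have htop := capa_lt_top r c t
  have hx : 0 < (capa r c t).toReal := ENNReal.toReal_pos hp.ne' htop.ne
  have h1 : wmat t = ENNReal.ofReal (Real.exp (-∑ j, ∑ i, t j i)) := by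
    unfold wmat wcol
    rw [← Finset.sum_neg_distrib, Real.exp_sum, ENNReal.ofReal_prod_of_nonneg
      fun j _ => (Real.exp_pos _).le]
    refine Finset.prod_congr rfl fun j _ => ?_
    rw [← Finset.sum_neg_distrib, Real.exp_sum, ENNReal.ofReal_prod_of_nonneg
      fun i _ => (Real.exp_pos _).le]
    refine Finset.prod_congr rfl fun i _ => ?_
    unfold expDens
    rw [if_pos (ht j i)]
  have h2 : capa r c t = ENNReal.ofReal (capa r c t).toReal :=
    (ENNReal.ofReal_toReal htop.ne).symm
  have h3 : Real.exp (-phiMin r) * Real.exp (-phiT r c t)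
      = Real.exp (-∑ j, ∑ i, t j i) * (capa r c t).toReal := by
    rw [← Real.exp_add]
    have h4 : -phiMin r + -phiT r c t = -∑ j, ∑ i, t j i + Real.log (capa r c t).toReal := by
      unfold phiT
      ring
    rw [h4, Real.exp_add, Real.exp_log hx]
  rw [h3, h1, ENNReal.ofReal_mul (Real.exp_pos _).le, ENNReal.ofReal_toReal htop.ne]

end Vale.Agent.Lib.P328.Samp
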