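import Vale.Agent.Lib.P328.Samp.Defs

/-!
# P328, explicit algorithm: the coordinates, algebra and volume (modules K2a, K2d)

Facts on `centreTab` (nonnegative, margins `(r, c)`, lower bound), `tMap` is affine with an explicit linear part,
row and column sums of `tMap`, and the change of variables `tMap_volume`.
-/

namespace Vale.Agent.Lib.P328.Samp

open Finset MeasureTheory Vale.Agent.Lib.P328.Cap Vale.Agent.Lib.P328.Fpras
open scoped ENNReal

variable {m n : ℕ}

section Corner

variable {r : Fin m → ℕ} {c : Fin n → ℕ}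

private lemma corner_u_le_r (j' : Fin n) (i' : Fin m) :
    min (r i' : ℝ) (c j') ≤ r i' := min_le_left _ _

private lemma corner_u_le_c (j' : Fin n) (i' : Fin m) :
    min (r i' : ℝ) (c j') ≤ c j' := min_le_right _ _

private lemma corner_u_nonneg (j' : Fin n) (i' : Fin m) :
    0 ≤ min (r i' : ℝ) (c j') := le_min (Nat.cast_nonneg _) (Nat.cast_nonneg _)

private lemma r_le_sum (i : Fin m) : (r i : ℝ) ≤ ∑ l, (r l : ℝ) :=
  Finset.single_le_sum (f := fun l => (r l : ℝ)) (fun _ _ => Nat.cast_nonneg _) (mem_univ i)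

private lemma c_le_sum (j : Fin n) : (c j : ℝ) ≤ ∑ l, (c l : ℝ) :=
  Finset.single_le_sum (f := fun l => (c l : ℝ)) (fun _ _ => Nat.cast_nonneg _) (mem_univ j)

private lemma sum_r_eq_c (hsum : ∑ i, r i = ∑ j, c j) : ∑ i, (r i : ℝ) = ∑ j, (c j : ℝ) := by
  exact_mod_cast hsum

private lemma rest_r_nonneg (j' : Fin n) (i' : Fin m) (i : Fin m) :
    0 ≤ (r i : ℝ) - (if i = i' then min (r i' : ℝ) (c j') else 0) := by
  split_ifs with h
  · subst h; linarith [corner_u_le_r (r := r) (c := c) j' i]
  · simp

private lemma rest_c_nonneg (j' : Fin n) (i' : Fin m) (j : Fin n) :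
    0 ≤ (c j : ℝ) - (if j = j' then min (r i' : ℝ) (c j') else 0) := by
  split_ifs with h
  · subst h; linarith [corner_u_le_c (r := r) (c := c) j i']
  · simp

theorem cornerTab_nonneg (j' : Fin n) (i' : Fin m) (j : Fin n) (i : Fin m) :
    0 ≤ cornerTab r c j' i' j i := by
  unfold cornerTab
  dsimp only
  have h1 := rest_r_nonneg (r := r) (c := c) j' i' i
  have h2 := rest_c_nonneg (r := r) (c := c) j' i' j
  have h3 : 0 ≤ (∑ l, (r l : ℝ)) - min (r i' : ℝ) (c j') := by
    linarith [corner_u_le_r (r := r) (c := c) j' i', r_le_sum (r := r) i']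
  have h4 : 0 ≤ (if j = j' ∧ i = i' then min (r i' : ℝ) (c j') else 0) := by
    split_ifs
    · exact corner_u_nonneg j' i'
    · exact le_rfl
  positivity

theorem cornerTab_diag_ge (j : Fin n) (i : Fin m) :
    min (r i : ℝ) (c j) ≤ cornerTab r c j i j i := by
  unfold cornerTab
  dsimp only
  have h1 := rest_r_nonneg (r := r) (c := c) j i i
  have h2 := rest_c_nonneg (r := r) (c := c) j i j
  have h3 : 0 ≤ (∑ l, (r l : ℝ)) - min (r i : ℝ) (c j) := by
    linarith [corner_u_le_r (r := r) (c := c) j i, r_le_sum (r := r) i]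
  rw [if_pos ⟨rfl, rfl⟩]
  have h5 : 0 ≤ ((r i : ℝ) - (if i = i then min (r i : ℝ) (c j) else 0))
      * ((c j : ℝ) - (if j = j then min (r i : ℝ) (c j) else 0))
      / ((∑ l, (r l : ℝ)) - min (r i : ℝ) (c j)) := by positivity
  linarith

private lemma sum_ite_eq_single {ι : Type*} [Fintype ι] [DecidableEq ι] (x : ι → ℝ) (a : ι) (u : ℝ) :
    ∑ k, (x k - if k = a then u else 0) = (∑ k, x k) - u := by
  rw [Finset.sum_sub_distrib]
  simp

theorem cornerTab_col (hsum : ∑ i, r i = ∑ j, c j) (j' : Fin n) (i' : Fin m) (j : Fin n) :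
    ∑ i, cornerTab r c j' i' j i = c j := by
  unfold cornerTab
  dsimp only
  set u : ℝ := min (r i' : ℝ) (c j') with hu
  rw [Finset.sum_add_distrib]
  have h1 : ∑ i, (if j = j' ∧ i = i' then u else 0) = if j = j' then u else 0 := by
    by_cases h : j = j'
    · simp [h]
    · simp [h]
  have h2 : ∑ i, ((r i : ℝ) - (if i = i' then u else 0)) * ((c j : ℝ) - (if j = j' then u else 0))
      / ((∑ l, (r l : ℝ)) - u) = (c j : ℝ) - (if j = j' then u else 0) := by
    rw [← Finset.sum_div, ← Finset.sum_mul, sum_ite_eq_single]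
    by_cases h0 : (∑ l, (r l : ℝ)) - u = 0
    · -- degenerate
      have hc : (c j : ℝ) - (if j = j' then u else 0) = 0 := by
        have hS : ∑ l, (c l : ℝ) = u := by rw [← sum_r_eq_c hsum]; linarith
        by_cases hjj : j = j'
        · subst hjj
          have h5 := c_le_sum (c := c) j
          have h6 : u ≤ c j := corner_u_le_c (r := r) (c := c) j i'
          rw [if_pos rfl]; linarith
        · rw [if_neg hjj, sub_zero]
          have h7 : (c j : ℝ) + c j' ≤ ∑ l, (c l : ℝ) := by
            have := Finset.add_le_sum (s := univ) (f := fun l => (c l : ℝ))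
              (fun _ _ => Nat.cast_nonneg _) (mem_univ j) (mem_univ j') hjj
            simpa using this
          have h6 : u ≤ c j' := corner_u_le_c (r := r) (c := c) j' i'
          have h8 : (0 : ℝ) ≤ c j := Nat.cast_nonneg _
          linarith
      rw [hc]; simp
    · field_simp
  rw [h1, h2]; ring

theorem cornerTab_row (hsum : ∑ i, r i = ∑ j, c j) (j' : Fin n) (i' : Fin m) (i : Fin m) :
    ∑ j, cornerTab r c j' i' j i = r i := by
  unfold cornerTab
  dsimp only
  set u : ℝ := min (r i' : ℝ) (c j') with hu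
  rw [Finset.sum_add_distrib]
  have h1 : ∑ j, (if j = j' ∧ i = i' then u else 0) = if i = i' then u else 0 := by
    by_cases h : i = i'
    · simp [h]
    · simp [h]
  have h2 : ∑ j, ((r i : ℝ) - (if i = i' then u else 0)) * ((c j : ℝ) - (if j = j' then u else 0))
      / ((∑ l, (r l : ℝ)) - u) = (r i : ℝ) - (if i = i' then u else 0) := by
    rw [← Finset.sum_div, ← Finset.mul_sum, sum_ite_eq_single, ← sum_r_eq_c hsum]
    by_cases h0 : (∑ l, (r l : ℝ)) - u = 0
    · have hc : (r i : ℝ) - (if i = i' then u else 0) = 0 := by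
        have hS : ∑ l, (r l : ℝ) = u := by linarith
        by_cases hii : i = i'
        · subst hii
          have h5 := r_le_sum (r := r) i
          have h6 : u ≤ r i := corner_u_le_r (r := r) (c := c) j' i
          rw [if_pos rfl]; linarith
        · rw [if_neg hii, sub_zero]
          have h7 : (r i : ℝ) + r i' ≤ ∑ l, (r l : ℝ) := by
            have := Finset.add_le_sum (s := univ) (f := fun l => (r l : ℝ))
              (fun _ _ => Nat.cast_nonneg _) (mem_univ i) (mem_univ i') hii
            simpa using this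
          have h6 : u ≤ r i' := corner_u_le_r (r := r) (c := c) j' i'
          have h8 : (0 : ℝ) ≤ r i := Nat.cast_nonneg _
          linarith
      rw [hc]; simp
    · field_simp
  rw [h1, h2]; ring

end Corner

section Centre

variable {r : Fin m → ℕ} {c : Fin n → ℕ}

private lemma nm_pos (j : Fin n) (i : Fin m) : (0 : ℝ) < (n : ℝ) * m := by
  have h1 : 0 < n := Fin.pos j
  have h2 : 0 < m := Fin.pos i
  positivity

theorem centreTab_nonneg (_hsum : ∑ i, r i = ∑ j, c j) (j : Fin n) (i : Fin m) :
    0 ≤ centreTab r c j i := by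
  unfold centreTab
  have h : 0 ≤ ∑ j', ∑ i', cornerTab r c j' i' j i :=
    Finset.sum_nonneg fun _ _ => Finset.sum_nonneg fun _ _ => cornerTab_nonneg _ _ _ _
  have := nm_pos j i
  positivity

theorem centreTab_col (hsum : ∑ i, r i = ∑ j, c j) (j : Fin n) :
    ∑ i, centreTab r c j i = c j := by
  unfold centreTab
  rcases isEmpty_or_nonempty (Fin m) with hm | ⟨⟨i0⟩⟩
  · have h0 : ∑ j, c j = 0 := by rw [← hsum]; simp
    have h1 : c j = 0 := (Finset.sum_eq_zero_iff.1 h0) j (mem_univ j)
    simp [h1]
  · have hnm := nm_pos j i0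
    rw [← Finset.sum_div, Finset.sum_comm]
    have h1 : ∀ j' : Fin n, ∑ i, ∑ i', cornerTab r c j' i' j i = (m : ℝ) * c j := by
      intro j'
      rw [Finset.sum_comm]
      simp [cornerTab_col hsum]
    simp only [h1, Finset.sum_const, Finset.card_univ, Fintype.card_fin, nsmul_eq_mul]
    rw [← mul_assoc]
    exact mul_div_cancel_left₀ _ hnm.ne'

theorem centreTab_row (hsum : ∑ i, r i = ∑ j, c j) (i : Fin m) :
    ∑ j, centreTab r c j i = r i := by
  unfold centreTab
  rcases isEmpty_or_nonempty (Fin n) with hn | ⟨⟨j0⟩⟩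
  · have h0 : ∑ i, r i = 0 := by rw [hsum]; simp
    have h1 : r i = 0 := (Finset.sum_eq_zero_iff.1 h0) i (mem_univ i)
    simp [h1]
  · have hnm := nm_pos j0 i
    rw [← Finset.sum_div, Finset.sum_comm]
    have h1 : ∀ j' : Fin n, ∑ j, ∑ i', cornerTab r c j' i' j i = (m : ℝ) * r i := by
      intro j'
      rw [Finset.sum_comm]
      simp [cornerTab_row hsum]
    simp only [h1, Finset.sum_const, Finset.card_univ, Fintype.card_fin, nsmul_eq_mul]
    rw [← mul_assoc]
    exact mul_div_cancel_left₀ _ hnm.ne'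

theorem centreTab_ge (_hsum : ∑ i, r i = ∑ j, c j) (j : Fin n) (i : Fin m) :
    min (r i : ℝ) (c j) / ((n : ℝ) * m) ≤ centreTab r c j i := by
  unfold centreTab
  have hnm := nm_pos j i
  apply div_le_div_of_nonneg_right _ hnm.le
  calc min (r i : ℝ) (c j) ≤ cornerTab r c j i j i := cornerTab_diag_ge j i
    _ ≤ ∑ i', cornerTab r c j i' j i :=
        Finset.single_le_sum (f := fun i' => cornerTab r c j i' j i)
          (fun _ _ => cornerTab_nonneg _ _ _ _) (mem_univ i)
    _ ≤ ∑ j', ∑ i', cornerTab r c j' i' j i :=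
        Finset.single_le_sum (f := fun j' => ∑ i', cornerTab r c j' i' j i)
          (fun _ _ => Finset.sum_nonneg fun _ _ => cornerTab_nonneg _ _ _ _) (mem_univ j)

end Centre

section Linear

variable (i0 : Fin m) (j0 : Fin n) (r : Fin m → ℕ) (c : Fin n → ℕ)

/-- The linear part of `tCol`. -/
noncomputable def tColL (y : Fin n × Fin m → ℝ) (j : Fin n) : ℝ :=
  scS m n (c j) * y (j, i0) - ∑ i' ∈ univ.erase i0, scF r c j i' * y (j, i')

lemma tColL_add (y y' : Fin n × Fin m → ℝ) (j : Fin n) :
    tColL i0 r c (y + y') j = tColL i0 r c y j + tColL i0 r c y' j := by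
  simp only [tColL, Pi.add_apply, mul_add, Finset.sum_add_distrib]
  ring

lemma tColL_smul (a : ℝ) (y : Fin n × Fin m → ℝ) (j : Fin n) :
    tColL i0 r c (a • y) j = a * tColL i0 r c y j := by
  have hsw : ∀ (x b : ℝ), x * (a * b) = a * (x * b) := fun x b => by ring
  simp only [tColL, Pi.smul_apply, smul_eq_mul, hsw, ← Finset.mul_sum]
  ring

/-- The linear part of `tMap`, flat. -/
noncomputable def tLinFun (y : Fin n × Fin m → ℝ) (p : Fin n × Fin m) : ℝ :=
  if p.1 = j0 then
    if p.2 = i0 then
      scS m n (r i0) * y (j0, i0) - ∑ j' ∈ univ.erase j0, tColL i0 r c y j'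
    else
      scS m n (r p.2) * y (j0, p.2) - ∑ j' ∈ univ.erase j0, scF r c j' p.2 * y (j', p.2)
  else
    if p.2 = i0 then tColL i0 r c y p.1 else scF r c p.1 p.2 * y (p.1, p.2)

/-- The linear part of `tMap`, flat, as a linear map. -/
noncomputable def tLin : (Fin n × Fin m → ℝ) →ₗ[ℝ] (Fin n × Fin m → ℝ) where
  toFun := tLinFun i0 j0 r c
  map_add' y y' := by
    funext p
    simp only [tLinFun, tColL_add, Pi.add_apply, mul_add, Finset.sum_add_distrib]
    split_ifs <;> ring
  map_smul' a y := by
    funext p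
    have hsw : ∀ (x b : ℝ), x * (a * b) = a * (x * b) := fun x b => by ring
    simp only [tLinFun, tColL_smul, Pi.smul_apply, smul_eq_mul, RingHom.id_apply, hsw,
      ← Finset.mul_sum]
    split_ifs <;> ring

lemma tLin_apply (y : Fin n × Fin m → ℝ) (p : Fin n × Fin m) :
    tLin i0 j0 r c y p = tLinFun i0 j0 r c y p := rfl

lemma tFree_eq (y : Fin n × Fin m → ℝ) (j : Fin n) (i : Fin m) :
    tFree r c y j i = tFree r c 0 j i + scF r c j i * y (j, i) := by
  simp [tFree]

lemma tCol_eq (y : Fin n × Fin m → ℝ) (j : Fin n) :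
    tCol i0 r c y j = tCol i0 r c 0 j + tColL i0 r c y j := by
  simp only [tCol, tColL]
  rw [Finset.sum_congr rfl (fun i' _ => tFree_eq r c y j i'), Finset.sum_add_distrib]
  simp only [Pi.zero_apply, mul_zero]
  ring

/-- `tMap` is the constant `tMap 0` plus the linear map `tLin`. -/
theorem tMap_eq_add (y : Fin n × Fin m → ℝ) (j : Fin n) (i : Fin m) :
    tMap i0 j0 r c y j i = tMap i0 j0 r c 0 j i + tLin i0 j0 r c y (j, i) := by
  rw [tLin_apply]
  simp only [tMap, tLinFun]
  by_cases hj : j = j0
  · by_cases hi : i = i0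
    · rw [if_pos hj, if_pos hi, if_pos hj, if_pos hi, if_pos hj, if_pos hi]
      rw [Finset.sum_congr rfl (fun j' _ => tCol_eq i0 r c y j'), Finset.sum_add_distrib]
      simp only [Pi.zero_apply, mul_zero, add_zero]
      ring
    · rw [if_pos hj, if_neg hi, if_pos hj, if_neg hi, if_pos hj, if_neg hi]
      rw [Finset.sum_congr rfl (fun j' _ => tFree_eq r c y j' i), Finset.sum_add_distrib]
      simp only [Pi.zero_apply, mul_zero, add_zero]
      subst hj
      ring
  · by_cases hi : i = i0
    · rw [if_neg hj, if_pos hi, if_neg hj, if_pos hi, if_neg hj, if_pos hi]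
      rw [tCol_eq i0 r c y j]
    · rw [if_neg hj, if_neg hi, if_neg hj, if_neg hi, if_neg hj, if_neg hi]
      rw [tFree_eq r c y j i]

end Linear

variable {i0 : Fin m} {j0 : Fin n} {r : Fin m → ℕ} {c : Fin n → ℕ}

/-- `tMap` is affine. -/
theorem tMap_affine (i0 : Fin m) (j0 : Fin n) (r : Fin m → ℕ) (c : Fin n → ℕ)
    (y y' : Fin n × Fin m → ℝ) {a b : ℝ} (hab : a + b = 1) :
    tMap i0 j0 r c (a • y + b • y') = a • tMap i0 j0 r c y + b • tMap i0 j0 r c y' := by
  funext j i
  simp only [Pi.add_apply, Pi.smul_apply, smul_eq_mul]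
  rw [tMap_eq_add i0 j0 r c (a • y + b • y'), tMap_eq_add i0 j0 r c y, tMap_eq_add i0 j0 r c y',
    map_add, map_smul, map_smul]
  simp only [Pi.add_apply, Pi.smul_apply, smul_eq_mul]
  have hb : b = 1 - a := by linarith
  subst hb
  ring

theorem continuous_tMap (i0 : Fin m) (j0 : Fin n) (r : Fin m → ℕ) (c : Fin n → ℕ) :
    Continuous (tMap i0 j0 r c) := by
  refine continuous_pi fun j => continuous_pi fun i => ?_
  have h : (fun y => tMap i0 j0 r c y j i)
      = fun y => tMap i0 j0 r c 0 j i + tLin i0 j0 r c y (j, i) := by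
    funext y; exact tMap_eq_add i0 j0 r c y j i
  rw [h]
  have hL : Continuous (tLin i0 j0 r c) := LinearMap.continuous_of_finiteDimensional _
  exact continuous_const.add ((continuous_apply _).comp hL)

/-- The row sums in the coordinates. -/
theorem tMap_row (y : Fin n × Fin m → ℝ) (i : Fin m) :
    ∑ j, tMap i0 j0 r c y j i = (r i : ℝ) + n + scS m n (r i) * y (j0, i) := by
  rw [← Finset.add_sum_erase univ _ (mem_univ j0)]
  by_cases hi : i = i0
  · subst hi
    have h : ∀ j ∈ univ.erase j0, tMap i j0 r c y j i = tCol i r c y j := by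
      intro j hj
      have := (Finset.mem_erase.1 hj).1
      simp [tMap, this]
    rw [Finset.sum_congr rfl h]
    simp [tMap]
  · have h : ∀ j ∈ univ.erase j0, tMap i0 j0 r c y j i = tFree r c y j i := by
      intro j hj
      have := (Finset.mem_erase.1 hj).1
      simp [tMap, this, hi]
    rw [Finset.sum_congr rfl h]
    simp [tMap, hi]

/-- The column sums in the coordinates. -/
theorem tMap_col (y : Fin n × Fin m → ℝ) {j : Fin n} (hj : j ≠ j0) :
    ∑ i, tMap i0 j0 r c y j i = (c j : ℝ) + m + scS m n (c j) * y (j, i0) := by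
  rw [← Finset.add_sum_erase univ _ (mem_univ i0)]
  have h : ∀ i ∈ univ.erase i0, tMap i0 j0 r c y j i = tFree r c y j i := by
    intro i hi
    have := (Finset.mem_erase.1 hi).1
    simp [tMap, hj, this]
  rw [Finset.sum_congr rfl h]
  simp [tMap, hj, tCol]

private lemma scF_pos (r : Fin m → ℕ) (c : Fin n → ℕ) (j : Fin n) (i : Fin m) : 0 < scF r c j i := by
  unfold scF
  have := nm_pos j i
  have h : 0 ≤ min (r i : ℝ) (c j) := le_min (Nat.cast_nonneg _) (Nat.cast_nonneg _)
  positivity

private lemma scS_pos (j : Fin n) (i : Fin m) (x : ℕ) : 0 < scS m n x := by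
  unfold scS
  have := nm_pos j i
  positivity

theorem detT_pos (i0 : Fin m) (j0 : Fin n) (r : Fin m → ℕ) (c : Fin n → ℕ) : 0 < detT i0 j0 r c := by
  unfold detT
  refine mul_pos (mul_pos ?_ ?_) ?_
  · exact Finset.prod_pos fun j _ => Finset.prod_pos fun i _ => scF_pos r c j i
  · exact Finset.prod_pos fun j _ => scS_pos j i0 _
  · exact Finset.prod_pos fun i _ => scS_pos j0 i _

/-- Triangular determinants, for an injective key to the naturals. -/
lemma det_of_key {ι : Type*} [Fintype ι] [DecidableEq ι] (key : ι → ℕ)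
    (hkey : Function.Injective key) (M : Matrix ι ι ℝ) (h : ∀ p q, key p < key q → M p q = 0) :
    M.det = ∏ p, M p p := by
  classical
  have hM : Matrix.BlockTriangular M (fun p => OrderDual.toDual (key p)) := by
    intro p q hpq
    exact h p q hpq
  rw [hM.det, Finset.prod_image]
  · refine Finset.prod_congr rfl fun p _ => ?_
    have : Subsingleton { q // OrderDual.toDual (key q) = OrderDual.toDual (key p) } :=
      ⟨fun a b => Subtype.ext (hkey (by
        have h1 := a.2
        have h2 := b.2
        exact OrderDual.toDual.injective (h1.trans h2.symm)))⟩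
    rw [Matrix.det_eq_elem_of_subsingleton _ ⟨p, rfl⟩]
    rfl
  · intro a _ b _ hab
    exact hkey (OrderDual.toDual.injective hab)

/-- The rank of a coordinate: free entries first, then sums of one line, then the corner. -/
def rkT (i0 : Fin m) (j0 : Fin n) (p : Fin n × Fin m) : ℕ :=
  (if p.1 = j0 then 1 else 0) + (if p.2 = i0 then 1 else 0)

/-- An injective key which refines the rank. -/
def keyT (i0 : Fin m) (j0 : Fin n) (p : Fin n × Fin m) : ℕ :=
  rkT i0 j0 p * (n * m) + (finProdFinEquiv p : Fin (n * m)).val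

private lemma keyT_lt (p : Fin n × Fin m) : (finProdFinEquiv p : Fin (n * m)).val < n * m :=
  (finProdFinEquiv p : Fin (n * m)).isLt

private lemma mul_add_inj {a b x y K : ℕ} (h : a * K + x = b * K + y) (hx : x < K) (hy : y < K) :
    a = b ∧ x = y := by
  have hab : a = b := by
    rcases lt_trichotomy a b with hlt | heq | hgt
    · have h1 : (a + 1) * K ≤ b * K := Nat.mul_le_mul_right _ hlt
      have h3 : (a + 1) * K = a * K + K := by ring
      omega
    · exact heq
    · have h1 : (b + 1) * K ≤ a * K := Nat.mul_le_mul_right _ hgt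
      have h3 : (b + 1) * K = b * K + K := by ring
      omega
  subst hab
  exact ⟨rfl, by omega⟩

lemma keyT_inj (i0 : Fin m) (j0 : Fin n) : Function.Injective (keyT i0 j0) := by
  intro p q h
  have h1 := keyT_lt p
  have h2 := keyT_lt q
  unfold keyT at h
  exact finProdFinEquiv.injective (Fin.ext (mul_add_inj h h1 h2).2)

lemma rk_le_of_key_lt {i0 : Fin m} {j0 : Fin n} {p q : Fin n × Fin m} (h : keyT i0 j0 p < keyT i0 j0 q) :
    rkT i0 j0 p ≤ rkT i0 j0 q := by
  by_contra hlt
  push Not at hlt
  have h1 := keyT_lt p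
  have h2 := keyT_lt q
  unfold keyT at h
  have : (rkT i0 j0 q + 1) * (n * m) ≤ rkT i0 j0 p * (n * m) := Nat.mul_le_mul_right _ hlt
  have h3 : (rkT i0 j0 q + 1) * (n * m) = rkT i0 j0 q * (n * m) + n * m := by ring
  omega

/-- The basis vector. -/
private def eT (q p : Fin n × Fin m) : ℝ := if p = q then 1 else 0

private lemma single_eq_eT (q : Fin n × Fin m) : (Pi.single q 1 : Fin n × Fin m → ℝ) = eT q := by
  funext p
  simp [eT, Pi.single_apply]

/-- Diagonal entries of `tLin`. -/
noncomputable def dT (i0 : Fin m) (j0 : Fin n) (r : Fin m → ℕ) (c : Fin n → ℕ) (p : Fin n × Fin m) : ℝ :=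
  if p.1 = j0 then scS m n (r p.2) else if p.2 = i0 then scS m n (c p.1) else scF r c p.1 p.2

private lemma tColL_eT_of_ne (i0 : Fin m) (r : Fin m → ℕ) (c : Fin n → ℕ) (q : Fin n × Fin m)
    {j : Fin n} (h : j ≠ q.1) : tColL i0 r c (eT q) j = 0 := by
  have h1 : ∀ i : Fin m, eT q (j, i) = 0 := fun i => by
    unfold eT
    rw [if_neg]
    intro h2
    exact h (by rw [← h2])
  simp [tColL, h1]

private lemma tLin_eT (i0 : Fin m) (j0 : Fin n) (r : Fin m → ℕ) (c : Fin n → ℕ)
    (p q : Fin n × Fin m) : tLin i0 j0 r c (eT q) p = tLinFun i0 j0 r c (eT q) p := rfl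

lemma tLin_matrix_offdiag (i0 : Fin m) (j0 : Fin n) (r : Fin m → ℕ) (c : Fin n → ℕ)
    {p q : Fin n × Fin m} (h : keyT i0 j0 p < keyT i0 j0 q) :
    tLinFun i0 j0 r c (eT q) p = 0 := by
  have hne : p ≠ q := fun h' => by subst h'; exact lt_irrefl _ h
  have hrk := rk_le_of_key_lt h
  obtain ⟨j, i⟩ := p
  obtain ⟨j', i'⟩ := q
  have hep : eT (j', i') (j, i) = 0 := by
    unfold eT; rw [if_neg hne]
  by_cases hj : j = j0
  · by_cases hi : i = i0
    · exfalso
      subst hj; subst hi
      simp only [rkT] at hrk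
      apply hne
      simp only [if_true] at hrk
      by_cases h1 : j' = j <;> by_cases h2 : i' = i
      · rw [h1, h2]
      · simp [h1, h2] at hrk
      · simp [h1, h2] at hrk
      · simp [h1, h2] at hrk
    · -- the row sum entry
      subst hj
      simp only [tLinFun, if_true, if_neg hi]
      rw [hep, mul_zero, zero_sub, neg_eq_zero]
      refine Finset.sum_eq_zero fun l hl => ?_
      have hl' := (Finset.mem_erase.1 hl).1
      have : eT (j', i') (l, i) = 0 := by
        unfold eT
        rw [if_neg]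
        intro h4
        have h5 : l = j' := congrArg Prod.fst h4
        have h6 : i = i' := congrArg Prod.snd h4
        subst h5; subst h6
        simp [rkT, hl', hi] at hrk
      rw [this, mul_zero]
  · by_cases hi : i = i0
    · subst hi
      simp only [tLinFun, if_neg hj, if_true, tColL]
      rw [hep, mul_zero, zero_sub, neg_eq_zero]
      refine Finset.sum_eq_zero fun l hl => ?_
      have hl' := (Finset.mem_erase.1 hl).1
      have : eT (j', i') (j, l) = 0 := by
        unfold eT
        rw [if_neg]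
        intro h4
        have h5 : j = j' := congrArg Prod.fst h4
        have h6 : l = i' := congrArg Prod.snd h4
        subst h5; subst h6
        simp [rkT, hl', hj] at hrk
      rw [this, mul_zero]
    · simp only [tLinFun, if_neg hj, if_neg hi]
      rw [hep, mul_zero]

lemma tLin_matrix_diag (i0 : Fin m) (j0 : Fin n) (r : Fin m → ℕ) (c : Fin n → ℕ)
    (p : Fin n × Fin m) : tLinFun i0 j0 r c (eT p) p = dT i0 j0 r c p := by
  obtain ⟨j, i⟩ := p
  have hself : eT (j, i) (j, i) = 1 := by simp [eT]
  by_cases hj : j = j0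
  · subst hj
    by_cases hi : i = i0
    · subst hi
      simp only [tLinFun, dT, if_true]
      rw [hself, mul_one]
      rw [Finset.sum_eq_zero, sub_zero]
      intro l hl
      exact tColL_eT_of_ne i r c _ (Finset.mem_erase.1 hl).1
    · simp only [tLinFun, dT, if_true, if_neg hi]
      rw [hself, mul_one, Finset.sum_eq_zero, sub_zero]
      intro l hl
      have hl' := (Finset.mem_erase.1 hl).1
      have : eT (j, i) (l, i) = 0 := by
        unfold eT
        rw [if_neg]
        intro h4
        exact hl' (congrArg Prod.fst h4)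
      rw [this, mul_zero]
  · by_cases hi : i = i0
    · subst hi
      simp only [tLinFun, dT, if_neg hj, if_true, tColL]
      rw [hself, mul_one, Finset.sum_eq_zero, sub_zero]
      intro l hl
      have hl' := (Finset.mem_erase.1 hl).1
      have : eT (j, i) (j, l) = 0 := by
        unfold eT
        rw [if_neg]
        intro h4
        exact hl' (congrArg Prod.snd h4)
      rw [this, mul_zero]
    · simp only [tLinFun, dT, if_neg hj, if_neg hi]
      rw [hself, mul_one]

lemma prod_dT (i0 : Fin m) (j0 : Fin n) (r : Fin m → ℕ) (c : Fin n → ℕ) :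
    ∏ p, dT i0 j0 r c p = detT i0 j0 r c := by
  rw [Fintype.prod_prod_type, ← Finset.mul_prod_erase univ _ (mem_univ j0)]
  have h1 : ∏ i, dT i0 j0 r c (j0, i) = ∏ i, scS m n (r i) :=
    Finset.prod_congr rfl fun i _ => by simp [dT]
  have h2 : ∀ j ∈ univ.erase j0, ∏ i, dT i0 j0 r c (j, i)
      = scS m n (c j) * ∏ i ∈ univ.erase i0, scF r c j i := by
    intro j hj
    have hj' := (Finset.mem_erase.1 hj).1
    rw [← Finset.mul_prod_erase univ _ (mem_univ i0)]
    congr 1
    · simp [dT, hj']
    · refine Finset.prod_congr rfl fun i hi => ?_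
      have hi' := (Finset.mem_erase.1 hi).1
      simp [dT, hj', hi']
  rw [h1, Finset.prod_congr rfl h2, Finset.prod_mul_distrib]
  unfold detT
  ring

lemma det_tLin (i0 : Fin m) (j0 : Fin n) (r : Fin m → ℕ) (c : Fin n → ℕ) :
    LinearMap.det (tLin i0 j0 r c) = detT i0 j0 r c := by
  rw [← LinearMap.det_toMatrix', det_of_key (keyT i0 j0) (keyT_inj i0 j0), ← prod_dT]
  · refine Finset.prod_congr rfl fun p _ => ?_
    rw [LinearMap.toMatrix'_apply, single_eq_eT, ← tLin_matrix_diag i0 j0 r c p]
    rfl
  · intro p q h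
    rw [LinearMap.toMatrix'_apply, single_eq_eT, ← tLin_matrix_offdiag i0 j0 r c h]
    rfl

/-- Currying preserves the volume. -/
lemma map_uncurry_volume :
    Measure.map (fun (t : Fin n → Fin m → ℝ) (p : Fin n × Fin m) => t p.1 p.2) volume
      = (volume : Measure (Fin n × Fin m → ℝ)) := by
  symm
  have hmeas : Measurable (fun (t : Fin n → Fin m → ℝ) (p : Fin n × Fin m) => t p.1 p.2) :=
    measurable_pi_lambda _ fun p => (measurable_pi_apply p.2).comp (measurable_pi_apply p.1)
  refine Measure.pi_eq fun s hs => ?_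
  rw [Measure.map_apply hmeas (MeasurableSet.univ_pi hs)]
  have h1 : (fun (t : Fin n → Fin m → ℝ) (p : Fin n × Fin m) => t p.1 p.2) ⁻¹' Set.univ.pi s
      = Set.univ.pi fun j => Set.univ.pi fun i => s (j, i) := by
    ext t
    simp only [Set.mem_preimage, Set.mem_pi, Set.mem_univ, forall_true_left, Prod.forall]
  rw [h1, volume_pi_pi, Fintype.prod_prod_type]
  refine Finset.prod_congr rfl fun j _ => ?_
  rw [volume_pi_pi]

/-- **The change of variables.** -/
theorem tMap_volume (i0 : Fin m) (j0 : Fin n) (r : Fin m → ℕ) (c : Fin n → ℕ)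
    {f : (Fin n → Fin m → ℝ) → ℝ≥0∞} (hf : Measurable f) :
    ∫⁻ t, f t = ENNReal.ofReal (detT i0 j0 r c) * ∫⁻ y, f (tMap i0 j0 r c y) := by
  set U : (Fin n → Fin m → ℝ) → (Fin n × Fin m → ℝ) := fun t p => t p.1 p.2 with hU
  set C : (Fin n × Fin m → ℝ) → (Fin n → Fin m → ℝ) := fun s j i => s (j, i) with hC
  have hUm : Measurable U :=
    measurable_pi_lambda _ fun p => (measurable_pi_apply p.2).comp (measurable_pi_apply p.1)
  have hCm : Measurable C :=
    measurable_pi_lambda _ fun j => measurable_pi_lambda _ fun i => measurable_pi_apply _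
  set L := tLin i0 j0 r c with hL
  have hdet : LinearMap.det L = detT i0 j0 r c := det_tLin i0 j0 r c
  have hpos := detT_pos i0 j0 r c
  have hdet0 : LinearMap.det L ≠ 0 := by rw [hdet]; exact hpos.ne'
  -- step 1: flatten
  have h1 : ∫⁻ t, f t = ∫⁻ s, f (C s) := by
    have h2 : ∫⁻ s, f (C s) ∂(Measure.map U volume) = ∫⁻ t, f (C (U t)) :=
      lintegral_map (hf.comp hCm) hUm
    rw [map_uncurry_volume] at h2
    rw [h2]
  -- step 2: translate
  set b : Fin n × Fin m → ℝ := U (tMap i0 j0 r c 0) with hb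
  have h3 : ∫⁻ s, f (C s) = ∫⁻ s, f (C (b + s)) :=
    (lintegral_add_left_eq_self (fun s => f (C s)) b).symm
  -- step 3: the linear map
  have hg : Measurable fun s => f (C (b + s)) :=
    hf.comp (hCm.comp (measurable_const.add measurable_id))
  have h4 : ∫⁻ y, f (C (b + L y)) = ENNReal.ofReal (|(LinearMap.det L)⁻¹|) * ∫⁻ s, f (C (b + s)) := by
    have h5 := Real.map_linearMap_volume_pi_eq_smul_volume_pi hdet0
    have h6 : ∫⁻ s, f (C (b + s)) ∂(Measure.map L volume) = ∫⁻ y, f (C (b + L y)) :=
      lintegral_map hg (LinearMap.continuous_of_finiteDimensional L).measurable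
    rw [h5, lintegral_smul_measure] at h6
    rw [← h6, smul_eq_mul]
  have h7 : ∀ y, C (b + L y) = tMap i0 j0 r c y := by
    intro y
    funext j i
    exact (tMap_eq_add i0 j0 r c y j i).symm
  simp only [h7] at h4
  rw [h1, h3, h4, ← mul_assoc, ← ENNReal.ofReal_mul hpos.le, hdet, abs_of_pos (inv_pos.2 hpos),
    mul_inv_cancel₀ hpos.ne', ENNReal.ofReal_one, one_mul]

end Vale.Agent.Lib.P328.Samp
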