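import Vale.Agent.Lib.P328.Samp.KLTest

set_option linter.unusedSectionVars false

/-!
# P328, explicit algorithm: the inner cube of the coordinates (module K2b)

The main estimate `tMap_inner_of`, stated with the facts on `centreTab` as hypotheses. See the
header of `Round.lean` for the proof on paper.
-/

namespace Vale.Agent.Lib.P328.Samp

open Finset

variable {m n : ℕ}

/-- One entry: `a + (1 + e + w)` is far from zero and has small distance from `a`. -/
theorem hkl_entry {a e w B : ℝ} (ha : 0 ≤ a) (he : |e| ≤ 1 / 2) (hw : |w| ≤ B)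
    (hB : 1 / 4 < B → 14 * B ≤ a ∧ 25 * B ^ 2 ≤ a) :
    1 / 4 ≤ a + (1 + e + w) ∧ hkl a (a + (1 + e + w)) ≤ 2 := by
  have he' := abs_le.1 he
  have hw' := abs_le.1 hw
  by_cases hw4 : |w| ≤ 1 / 4
  · have hw4' := abs_le.1 hw4
    have hv : 0 < 1 + e + w := by linarith
    exact ⟨by linarith, (hkl_le_of_nonneg ha hv).trans (by linarith)⟩
  · push Not at hw4
    have hB4 : 1 / 4 < B := lt_of_lt_of_le hw4 hw
    obtain ⟨h1, h2⟩ := hB hB4
    have ha0 : 0 < a := by nlinarith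
    have hv : -(a / 2) ≤ 1 + e + w := by linarith
    refine ⟨by linarith, ?_⟩
    refine (hkl_le_sq ha0 hv).trans ?_
    rw [div_le_iff₀ ha0]
    have h3 : (1 + e + w) ^ 2 ≤ (7 * B) ^ 2 := by
      apply sq_le_sq' <;> linarith
    nlinarith

/-- The free entries of the reference table. -/
noncomputable def fA (r : Fin m → ℕ) (c : Fin n → ℕ) (y : Fin n × Fin m → ℝ) (j : Fin n)
    (i : Fin m) : ℝ :=
  centreTab r c j i + min (r i : ℝ) (c j) * (y (j, i) / (2 * ((n : ℝ) * m) ^ 2))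

/-- The entries of the row `i0` of the reference table. -/
noncomputable def colA (i0 : Fin m) (r : Fin m → ℕ) (c : Fin n → ℕ) (y : Fin n × Fin m → ℝ)
    (j : Fin n) : ℝ :=
  (c j : ℝ) - ∑ i' ∈ univ.erase i0, fA r c y j i'

/-- The reference table with the margins `r, c`. -/
noncomputable def tabA (i0 : Fin m) (j0 : Fin n) (r : Fin m → ℕ) (c : Fin n → ℕ)
    (y : Fin n × Fin m → ℝ) : Fin n → Fin m → ℝ := fun j i =>
  if j = j0 then
    if i = i0 then (r i0 : ℝ) - ∑ j' ∈ univ.erase j0, colA i0 r c y j'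
    else (r i : ℝ) - ∑ j' ∈ univ.erase j0, fA r c y j' i
  else
    if i = i0 then colA i0 r c y j else fA r c y j i

variable {i0 : Fin m} {j0 : Fin n} {r : Fin m → ℕ} {c : Fin n → ℕ} {y : Fin n × Fin m → ℝ}

theorem tabA_col (hsum : ∑ i, r i = ∑ j, c j) (j : Fin n) :
    ∑ i, tabA i0 j0 r c y j i = c j := by
  by_cases hj : j = j0
  · subst hj
    rw [← Finset.add_sum_erase univ _ (mem_univ i0)]
    have h1 : ∑ i ∈ univ.erase i0, tabA i0 j r c y j i
        = ∑ i ∈ univ.erase i0, ((r i : ℝ) - ∑ j' ∈ univ.erase j, fA r c y j' i) := by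
      refine Finset.sum_congr rfl fun i hi => ?_
      simp [tabA, (Finset.mem_erase.1 hi).1]
    rw [h1]
    have h2 : tabA i0 j r c y j i0 = (r i0 : ℝ) - ∑ j' ∈ univ.erase j, colA i0 r c y j' := by
      simp [tabA]
    rw [h2, Finset.sum_sub_distrib]
    have h3 : ∑ j' ∈ univ.erase j, colA i0 r c y j'
        = ∑ j' ∈ univ.erase j, (c j' : ℝ)
          - ∑ i ∈ univ.erase i0, ∑ j' ∈ univ.erase j, fA r c y j' i := by
      unfold colA
      rw [Finset.sum_sub_distrib, Finset.sum_comm]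
    rw [h3]
    have h4 : (r i0 : ℝ) + ∑ i ∈ univ.erase i0, (r i : ℝ) = ∑ j', (c j' : ℝ) := by
      rw [Finset.add_sum_erase univ (fun i => (r i : ℝ)) (mem_univ i0)]
      exact_mod_cast hsum
    have h5 : (c j : ℝ) + ∑ j' ∈ univ.erase j, (c j' : ℝ) = ∑ j', (c j' : ℝ) :=
      Finset.add_sum_erase univ (fun j' => (c j' : ℝ)) (mem_univ j)
    linarith
  · rw [← Finset.add_sum_erase univ _ (mem_univ i0)]
    have h1 : ∑ i ∈ univ.erase i0, tabA i0 j0 r c y j i = ∑ i ∈ univ.erase i0, fA r c y j i := by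
      refine Finset.sum_congr rfl fun i hi => ?_
      simp [tabA, hj, (Finset.mem_erase.1 hi).1]
    rw [h1]
    have h2 : tabA i0 j0 r c y j i0 = colA i0 r c y j := by simp [tabA, hj]
    rw [h2]
    unfold colA
    ring

theorem tabA_row (i : Fin m) : ∑ j, tabA i0 j0 r c y j i = r i := by
  rw [← Finset.add_sum_erase univ _ (mem_univ j0)]
  by_cases hi : i = i0
  · subst hi
    have h1 : ∑ j ∈ univ.erase j0, tabA i j0 r c y j i = ∑ j ∈ univ.erase j0, colA i r c y j := by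
      refine Finset.sum_congr rfl fun j hj => ?_
      simp [tabA, (Finset.mem_erase.1 hj).1]
    rw [h1]
    have h2 : tabA i j0 r c y j0 i = (r i : ℝ) - ∑ j' ∈ univ.erase j0, colA i r c y j' := by
      simp [tabA]
    rw [h2]
    ring
  · have h1 : ∑ j ∈ univ.erase j0, tabA i0 j0 r c y j i = ∑ j ∈ univ.erase j0, fA r c y j i := by
      refine Finset.sum_congr rfl fun j hj => ?_
      simp [tabA, hi, (Finset.mem_erase.1 hj).1]
    rw [h1]
    have h2 : tabA i0 j0 r c y j0 i = (r i : ℝ) - ∑ j' ∈ univ.erase j0, fA r c y j' i := by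
      simp [tabA, hi]
    rw [h2]
    ring

/-- The sum of at most `k` terms of size at most `b`. -/
theorem abs_sum_erase_le {ι : Type*} [Fintype ι] [DecidableEq ι] (a : ι) (g : ι → ℝ) {b : ℝ}
    (hb : ∀ x, |g x| ≤ b) :
    |∑ x ∈ univ.erase a, g x| ≤ ((Fintype.card ι : ℝ) - 1) * b := by
  have h1 : |∑ x ∈ univ.erase a, g x| ≤ ∑ x ∈ univ.erase a, |g x| :=
    Finset.abs_sum_le_sum_abs _ _
  have h2 : ∑ x ∈ univ.erase a, |g x| ≤ ∑ _x ∈ univ.erase a, b :=
    Finset.sum_le_sum fun x _ => hb x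
  have h3 : ((univ.erase a).card : ℝ) = (Fintype.card ι : ℝ) - 1 := by
    have : Nonempty ι := ⟨a⟩
    rw [Finset.card_erase_of_mem (mem_univ a), Finset.card_univ, Nat.cast_sub Fintype.card_pos]
    simp
  rw [Finset.sum_const, nsmul_eq_mul, h3] at h2
  exact h1.trans h2

/-- The inequality behind all lower bounds of the reference table. -/
theorem half_bound {u K D : ℝ} (hu : 0 ≤ u) (hD : 1 ≤ D) (hK : K ≤ D) :
    u / (2 * D) ≤ u / D - K * (u * (1 / (2 * D ^ 2))) := by
  have hD0 : 0 < D := by linarith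
  have h1 : K * (1 / (2 * D ^ 2)) ≤ 1 / (2 * D) := by
    rw [mul_one_div, div_le_div_iff₀ (by positivity) (by positivity)]
    nlinarith [mul_le_mul_of_nonneg_right hK (mul_pos hD0 hD0).le]
  have h2 : u / D - K * (u * (1 / (2 * D ^ 2))) = u * (1 / D - K * (1 / (2 * D ^ 2))) := by ring
  have h3 : u / (2 * D) = u * (1 / (2 * D)) := by ring
  have h4 : 1 / D = 2 * (1 / (2 * D)) := by field_simp
  rw [h2, h3]
  exact mul_le_mul_of_nonneg_left (by linarith) hu

/-- The condition of `hkl_entry` for a term with square root `s`. -/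
theorem hB_aux {a s D K : ℝ} (hD : 1 ≤ D) (hK : 0 < K) (hKD : K ≤ D ^ 3) (hs : 0 ≤ s)
    (ha : s ^ 2 / (2 * K * D) ≤ a) :
    1 / 4 < s / (16 * D ^ 2) → 14 * (s / (16 * D ^ 2)) ≤ a ∧ 25 * (s / (16 * D ^ 2)) ^ 2 ≤ a := by
  intro h
  have hD0 : 0 < D := by linarith
  have hs4 : 4 * D ^ 2 < s := by
    rw [lt_div_iff₀ (by positivity)] at h
    linarith
  constructor
  · refine le_trans ?_ ha
    have h1 : 14 * (s / (16 * D ^ 2)) = (14 * s) / (16 * D ^ 2) := by ring
    rw [h1, div_le_div_iff₀ (by positivity) (by positivity)]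
    have key : 28 * K ≤ 16 * s * D := by
      have h2 : 4 * D ^ 2 * D ≤ s * D := mul_le_mul_of_nonneg_right hs4.le hD0.le
      nlinarith
    nlinarith [mul_nonneg (mul_nonneg hs hD0.le) (sub_nonneg.2 key)]
  · refine le_trans ?_ ha
    have h1 : 25 * (s / (16 * D ^ 2)) ^ 2 = (25 * s ^ 2) / (256 * D ^ 4) := by
      field_simp
      ring
    rw [h1, div_le_div_iff₀ (by positivity) (by positivity)]
    have key : 50 * K ≤ 256 * D ^ 3 := by nlinarith [pow_pos hD0 3]
    have h3 : 0 ≤ s ^ 2 * D * (256 * D ^ 3 - 50 * K) :=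
      mul_nonneg (mul_nonneg (sq_nonneg s) hD0.le) (sub_nonneg.2 key)
    nlinarith

/-- The part of the column entry which is bounded. -/
noncomputable def eC (i0 : Fin m) (y : Fin n × Fin m → ℝ) (j : Fin n) : ℝ :=
  y (j, i0) / (16 * ((n : ℝ) * m) ^ 2)
    - ∑ i' ∈ univ.erase i0, y (j, i') / (2 * ((n : ℝ) * m) ^ 2)

/-- The part of the column entry with the square root. -/
noncomputable def wC (i0 : Fin m) (c : Fin n → ℕ) (y : Fin n × Fin m → ℝ) (j : Fin n) : ℝ :=
  Real.sqrt (c j) * (y (j, i0) / (16 * ((n : ℝ) * m) ^ 2))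

theorem tFree_eq_fA (j : Fin n) (i : Fin m) :
    tFree r c y j i = fA r c y j i + (1 + y (j, i) / (2 * ((n : ℝ) * m) ^ 2)) := by
  unfold tFree fA scF
  ring

theorem tFree_sum_i_fA (hi : 0 < m) (j : Fin n) :
    ∑ i' ∈ univ.erase i0, tFree r c y j i' = ∑ i' ∈ univ.erase i0, fA r c y j i' + ((m : ℝ) - 1)
      + ∑ i' ∈ univ.erase i0, y (j, i') / (2 * ((n : ℝ) * m) ^ 2) := by
  simp_rw [tFree_eq_fA]
  rw [Finset.sum_add_distrib, Finset.sum_add_distrib, Finset.sum_const,
    Finset.card_erase_of_mem (mem_univ i0), Finset.card_univ, Fintype.card_fin, nsmul_eq_mul,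
    Nat.cast_sub hi]
  simp only [Nat.cast_one, mul_one]
  ring

theorem tFree_sum_j_fA (hj : 0 < n) (i : Fin m) :
    ∑ j' ∈ univ.erase j0, tFree r c y j' i = ∑ j' ∈ univ.erase j0, fA r c y j' i + ((n : ℝ) - 1)
      + ∑ j' ∈ univ.erase j0, y (j', i) / (2 * ((n : ℝ) * m) ^ 2) := by
  simp_rw [tFree_eq_fA]
  rw [Finset.sum_add_distrib, Finset.sum_add_distrib, Finset.sum_const,
    Finset.card_erase_of_mem (mem_univ j0), Finset.card_univ, Fintype.card_fin, nsmul_eq_mul,
    Nat.cast_sub hj]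
  simp only [Nat.cast_one, mul_one]
  ring

theorem tCol_eq_colA (j : Fin n) :
    tCol i0 r c y j = colA i0 r c y j + (1 + eC i0 y j + wC i0 c y j) := by
  have hm : 0 < m := Fin.pos i0
  unfold tCol colA eC wC scS
  rw [tFree_sum_i_fA hm]
  ring

theorem tMap_row_eq {i : Fin m} (hi : i ≠ i0) : tMap i0 j0 r c y j0 i
    = (r i : ℝ) - ∑ j' ∈ univ.erase j0, fA r c y j' i
      + (1 + (y (j0, i) / (16 * ((n : ℝ) * m) ^ 2)
        - ∑ j' ∈ univ.erase j0, y (j', i) / (2 * ((n : ℝ) * m) ^ 2))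
        + Real.sqrt (r i) * (y (j0, i) / (16 * ((n : ℝ) * m) ^ 2))) := by
  have hn : 0 < n := Fin.pos j0
  simp only [tMap, if_true, hi, if_false]
  unfold scS
  rw [tFree_sum_j_fA hn]
  ring

theorem tMap_corner_eq : tMap i0 j0 r c y j0 i0
    = (r i0 : ℝ) - ∑ j' ∈ univ.erase j0, colA i0 r c y j'
      + (1 + (y (j0, i0) / (16 * ((n : ℝ) * m) ^ 2) - ∑ j' ∈ univ.erase j0, eC i0 y j')
        + (Real.sqrt (r i0) * (y (j0, i0) / (16 * ((n : ℝ) * m) ^ 2))
          - ∑ j' ∈ univ.erase j0, wC i0 c y j')) := by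
  have hn : 0 < n := Fin.pos j0
  simp only [tMap, if_true]
  unfold scS
  simp_rw [tCol_eq_colA]
  rw [Finset.sum_add_distrib, Finset.sum_add_distrib, Finset.sum_add_distrib, Finset.sum_const,
    Finset.card_erase_of_mem (mem_univ j0), Finset.card_univ, Fintype.card_fin, nsmul_eq_mul,
    Nat.cast_sub hn]
  simp only [Nat.cast_one, mul_one]
  ring

/-- The bound for the bounded part. -/
theorem e_bound {D a b : ℝ} (hD : 1 ≤ D) (ha : a ≤ D) (hb : b ≤ D - 1) :
    a * (1 / (16 * D ^ 2)) + b * (1 / (2 * D ^ 2)) ≤ 1 / 2 := by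
  have hD0 : 0 < D := by linarith
  have h1 : a * (1 / (16 * D ^ 2)) + b * (1 / (2 * D ^ 2)) = (a + 8 * b) / (16 * D ^ 2) := by
    field_simp
    ring
  rw [h1, div_le_div_iff₀ (by positivity) (by norm_num)]
  nlinarith [sq_nonneg (D - 1), sq_nonneg (8 * D - 9)]

/-- The facts about the instance and the centre which are used. -/
structure InnerHyp (i0 : Fin m) (j0 : Fin n) (r : Fin m → ℕ) (c : Fin n → ℕ)
    (y : Fin n × Fin m → ℝ) : Prop where
  hsum : ∑ i, r i = ∑ j, c j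
  hi0 : ∀ i, r i ≤ r i0
  hj0 : ∀ j, c j ≤ c j0
  hge : ∀ j i, min (r i : ℝ) (c j) / ((n : ℝ) * m) ≤ centreTab r c j i
  hcol : ∀ j, ∑ i, centreTab r c j i = c j
  hrow : ∀ i, ∑ j, centreTab r c j i = r i
  hy : ∀ k, |y k| ≤ 1

section Inner

variable (H : InnerHyp i0 j0 r c y)

include H

theorem D_ge : 1 ≤ (n : ℝ) * m := by
  have hm : 1 ≤ (m : ℝ) := by exact_mod_cast Fin.pos i0
  have hn : 1 ≤ (n : ℝ) := by exact_mod_cast Fin.pos j0
  nlinarith

theorem m_le_D : (m : ℝ) ≤ (n : ℝ) * m := by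
  have hm : 1 ≤ (m : ℝ) := by exact_mod_cast Fin.pos i0
  have hn : 1 ≤ (n : ℝ) := by exact_mod_cast Fin.pos j0
  nlinarith

theorem n_le_D : (n : ℝ) ≤ (n : ℝ) * m := by
  have hm : 1 ≤ (m : ℝ) := by exact_mod_cast Fin.pos i0
  have hn : 1 ≤ (n : ℝ) := by exact_mod_cast Fin.pos j0
  nlinarith

theorem u_nonneg (j : Fin n) (i : Fin m) : 0 ≤ min (r i : ℝ) (c j) :=
  le_min (Nat.cast_nonneg _) (Nat.cast_nonneg _)

theorem u_le_col (j : Fin n) (i : Fin m) : min (r i : ℝ) (c j) ≤ min (r i0 : ℝ) (c j) :=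
  min_le_min_right _ (by exact_mod_cast H.hi0 i)

theorem u_le_row (j : Fin n) (i : Fin m) : min (r i : ℝ) (c j) ≤ min (r i : ℝ) (c j0) :=
  min_le_min_left _ (by exact_mod_cast H.hj0 j)

theorem abs_y_term (j : Fin n) (i : Fin m) {u : ℝ} (hu0 : 0 ≤ u) :
    |u * (y (j, i) / (2 * ((n : ℝ) * m) ^ 2))| ≤ u * (1 / (2 * ((n : ℝ) * m) ^ 2)) := by
  have hD := D_ge H
  have hpos : 0 < 2 * ((n : ℝ) * m) ^ 2 := by positivity
  rw [abs_mul, abs_of_nonneg hu0, abs_div, abs_of_pos hpos]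
  exact mul_le_mul_of_nonneg_left
    (div_le_div_of_nonneg_right (H.hy _) hpos.le) hu0

/-- The row `i0` of the reference table. -/
theorem colA_eq (j : Fin n) : colA i0 r c y j = centreTab r c j i0
    - ∑ i' ∈ univ.erase i0, min (r i' : ℝ) (c j) * (y (j, i') / (2 * ((n : ℝ) * m) ^ 2)) := by
  unfold colA fA
  rw [Finset.sum_add_distrib]
  have h := H.hcol j
  rw [← Finset.add_sum_erase univ _ (mem_univ i0)] at h
  linarith

/-- The column `j0` of the reference table. -/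
theorem rowA_eq (i : Fin m) : (r i : ℝ) - ∑ j' ∈ univ.erase j0, fA r c y j' i = centreTab r c j0 i
    - ∑ j' ∈ univ.erase j0, min (r i : ℝ) (c j') * (y (j', i) / (2 * ((n : ℝ) * m) ^ 2)) := by
  unfold fA
  rw [Finset.sum_add_distrib]
  have h := H.hrow i
  rw [← Finset.add_sum_erase univ _ (mem_univ j0)] at h
  linarith

/-- The corner of the reference table. -/
theorem cornerA_eq : (r i0 : ℝ) - ∑ j' ∈ univ.erase j0, colA i0 r c y j' = centreTab r c j0 i0
    + ∑ j' ∈ univ.erase j0, ∑ i' ∈ univ.erase i0,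
        min (r i' : ℝ) (c j') * (y (j', i') / (2 * ((n : ℝ) * m) ^ 2)) := by
  simp_rw [colA_eq H]
  rw [Finset.sum_sub_distrib]
  have h := H.hrow i0
  rw [← Finset.add_sum_erase univ _ (mem_univ j0)] at h
  linarith

theorem tabA_ge (j : Fin n) (i : Fin m) :
    min (r i : ℝ) (c j) / (2 * ((n : ℝ) * m)) ≤ tabA i0 j0 r c y j i := by
  have hD := D_ge H
  have hm1 : (1 : ℝ) ≤ m := by exact_mod_cast Fin.pos i0
  have hn1 : (1 : ℝ) ≤ n := by exact_mod_cast Fin.pos j0
  by_cases hj : j = j0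
  · subst hj
    by_cases hi : i = i0
    · subst hi
      have h1 : tabA i j r c y j i = centreTab r c j i
          + ∑ j' ∈ univ.erase j, ∑ i' ∈ univ.erase i,
            min (r i' : ℝ) (c j') * (y (j', i') / (2 * ((n : ℝ) * m) ^ 2)) := by
        rw [← cornerA_eq H]
        simp [tabA]
      have h2 : |∑ j' ∈ univ.erase j, ∑ i' ∈ univ.erase i,
            min (r i' : ℝ) (c j') * (y (j', i') / (2 * ((n : ℝ) * m) ^ 2))|
          ≤ (((n : ℝ) - 1) * ((m : ℝ) - 1)) *
            (min (r i : ℝ) (c j) * (1 / (2 * ((n : ℝ) * m) ^ 2))) := by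
        have h3 := abs_sum_erase_le j (fun j' => ∑ i' ∈ univ.erase i,
            min (r i' : ℝ) (c j') * (y (j', i') / (2 * ((n : ℝ) * m) ^ 2)))
            (b := ((m : ℝ) - 1) * (min (r i : ℝ) (c j) * (1 / (2 * ((n : ℝ) * m) ^ 2)))) ?_
        · simpa [mul_assoc] using h3
        · intro j'
          have h4 := abs_sum_erase_le i (fun i' =>
            min (r i' : ℝ) (c j') * (y (j', i') / (2 * ((n : ℝ) * m) ^ 2)))
            (b := min (r i : ℝ) (c j) * (1 / (2 * ((n : ℝ) * m) ^ 2))) ?_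
          · simpa using h4
          · intro i'
            refine (abs_y_term H j' i' (u_nonneg H j' i')).trans ?_
            refine mul_le_mul_of_nonneg_right ?_ (by positivity)
            exact (u_le_col H j' i').trans (u_le_row H j' i)
      have h5 := half_bound (K := ((n : ℝ) - 1) * ((m : ℝ) - 1)) (u_nonneg H j i) hD
        (by nlinarith)
      have h6 := H.hge j i
      rw [h1]
      have h7 := (abs_le.1 h2).1
      linarith
    · have h1 : tabA i0 j r c y j i = centreTab r c j i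
          - ∑ j' ∈ univ.erase j, min (r i : ℝ) (c j') * (y (j', i) / (2 * ((n : ℝ) * m) ^ 2)) := by
        rw [← rowA_eq H]
        simp [tabA, hi]
      have h3 := abs_sum_erase_le j (fun j' =>
          min (r i : ℝ) (c j') * (y (j', i) / (2 * ((n : ℝ) * m) ^ 2)))
          (b := min (r i : ℝ) (c j) * (1 / (2 * ((n : ℝ) * m) ^ 2))) (by
            intro j'
            refine (abs_y_term H j' i (u_nonneg H j' i)).trans ?_
            exact mul_le_mul_of_nonneg_right (u_le_row H j' i) (by positivity))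
      have h5 := half_bound (K := (n : ℝ) - 1) (u_nonneg H j i) hD (by nlinarith)
      have h6 := H.hge j i
      rw [h1]
      have h7 := (abs_le.1 h3).2
      rw [Fintype.card_fin] at h7
      linarith
  · by_cases hi : i = i0
    · subst hi
      have h1 : tabA i j0 r c y j i = centreTab r c j i
          - ∑ i' ∈ univ.erase i, min (r i' : ℝ) (c j) * (y (j, i') / (2 * ((n : ℝ) * m) ^ 2)) := by
        rw [← colA_eq H]
        simp [tabA, hj]
      have h3 := abs_sum_erase_le i (fun i' =>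
          min (r i' : ℝ) (c j) * (y (j, i') / (2 * ((n : ℝ) * m) ^ 2)))
          (b := min (r i : ℝ) (c j) * (1 / (2 * ((n : ℝ) * m) ^ 2))) (by
            intro i'
            refine (abs_y_term H j i' (u_nonneg H j i')).trans ?_
            exact mul_le_mul_of_nonneg_right (u_le_col H j i') (by positivity))
      have h5 := half_bound (K := (m : ℝ) - 1) (u_nonneg H j i) hD (by nlinarith)
      have h6 := H.hge j i
      rw [h1]
      have h7 := (abs_le.1 h3).2
      rw [Fintype.card_fin] at h7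
      linarith
    · have h1 : tabA i0 j0 r c y j i = fA r c y j i := by simp [tabA, hj, hi]
      rw [h1]
      unfold fA
      have h3 := abs_y_term H j i (u_nonneg H j i)
      have h5 := half_bound (K := 1) (u_nonneg H j i) hD hD
      have h6 := H.hge j i
      have h7 := (abs_le.1 h3).1
      linarith

theorem tabA_nonneg (j : Fin n) (i : Fin m) : 0 ≤ tabA i0 j0 r c y j i := by
  have hD := D_ge H
  refine le_trans ?_ (tabA_ge H j i)
  exact div_nonneg (u_nonneg H j i) (by positivity)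

theorem abs_y_div (j : Fin n) (i : Fin m) {A : ℝ} (hA : 0 < A) :
    |y (j, i) / A| ≤ 1 / A := by
  rw [abs_div, abs_of_pos hA]
  exact div_le_div_of_nonneg_right (H.hy _) hA.le

/-- The bounded part of a column entry. -/
theorem eC_abs (j : Fin n) :
    |eC i0 y j| ≤ 1 / (16 * ((n : ℝ) * m) ^ 2) + ((m : ℝ) - 1) * (1 / (2 * ((n : ℝ) * m) ^ 2)) := by
  have hD := D_ge H
  unfold eC
  refine (abs_sub _ _).trans (add_le_add (abs_y_div H _ _ (by positivity)) ?_)
  have h := abs_sum_erase_le i0 (fun i' => y (j, i') / (2 * ((n : ℝ) * m) ^ 2))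
    (b := 1 / (2 * ((n : ℝ) * m) ^ 2)) fun i' => abs_y_div H _ _ (by positivity)
  simpa using h

/-- The total. -/
theorem N_r : ∑ i, (r i : ℝ) = ∑ j, (c j : ℝ) := by exact_mod_cast H.hsum

theorem c_le_N (j : Fin n) : (c j : ℝ) ≤ ∑ i, (r i : ℝ) := by
  rw [N_r H]
  exact Finset.single_le_sum (f := fun j => (c j : ℝ)) (fun _ _ => Nat.cast_nonneg _) (mem_univ j)

theorem r_le_N (i : Fin m) : (r i : ℝ) ≤ ∑ i, (r i : ℝ) :=
  Finset.single_le_sum (f := fun i => (r i : ℝ)) (fun _ _ => Nat.cast_nonneg _) (mem_univ i)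

theorem N_le_r0 : ∑ i, (r i : ℝ) ≤ m * (r i0 : ℝ) := by
  have h : ∑ i, (r i : ℝ) ≤ ∑ _i : Fin m, (r i0 : ℝ) :=
    Finset.sum_le_sum fun i _ => by exact_mod_cast H.hi0 i
  simpa using h

theorem N_le_c0 : ∑ i, (r i : ℝ) ≤ n * (c j0 : ℝ) := by
  rw [N_r H]
  have h : ∑ j, (c j : ℝ) ≤ ∑ _j : Fin n, (c j0 : ℝ) :=
    Finset.sum_le_sum fun j _ => by exact_mod_cast H.hj0 j
  simpa using h

/-- Entries in the row `i0`, outside the corner. -/
theorem entry_col {j : Fin n} (hj : j ≠ j0) :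
    1 / 4 ≤ tMap i0 j0 r c y j i0 ∧ hkl (tabA i0 j0 r c y j i0) (tMap i0 j0 r c y j i0) ≤ 2 := by
  have hD := D_ge H
  have hm1 : (1 : ℝ) ≤ m := by exact_mod_cast Fin.pos i0
  have hn1 : (1 : ℝ) ≤ n := by exact_mod_cast Fin.pos j0
  have hmD := m_le_D H
  have h1 : tMap i0 j0 r c y j i0 = tCol i0 r c y j := by simp [tMap, hj]
  have h2 : tabA i0 j0 r c y j i0 = colA i0 r c y j := by simp [tabA, hj]
  rw [h1, h2, tCol_eq_colA]
  have hge := tabA_ge H j i0
  rw [h2] at hge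
  have h0 := tabA_nonneg H j i0
  rw [h2] at h0
  refine hkl_entry (B := Real.sqrt (c j) / (16 * ((n : ℝ) * m) ^ 2)) h0 ?_ ?_ ?_
  · refine (eC_abs H j).trans ?_
    have := e_bound (a := 1) (b := (m : ℝ) - 1) hD (by linarith) (by linarith)
    simpa using this
  · unfold wC
    rw [abs_mul, abs_of_nonneg (Real.sqrt_nonneg _)]
    have := abs_y_div H (j := j) (i := i0) (A := 16 * ((n : ℝ) * m) ^ 2) (by positivity)
    calc _ ≤ Real.sqrt (c j) * (1 / (16 * ((n : ℝ) * m) ^ 2)) :=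
          mul_le_mul_of_nonneg_left this (Real.sqrt_nonneg _)
      _ = _ := by ring
  · refine hB_aux (K := (m : ℝ)) hD (by linarith) ?_ (Real.sqrt_nonneg _) ?_
    · nlinarith [pow_le_pow_left₀ (by linarith : (0:ℝ) ≤ 1) hD 2, mul_nonneg (sub_nonneg.2 hD)
        (by positivity : (0:ℝ) ≤ (n * m : ℝ) ^ 2), mul_nonneg (sub_nonneg.2 hD)
        (by positivity : (0:ℝ) ≤ (n * m : ℝ))]
    · rw [Real.sq_sqrt (Nat.cast_nonneg _)]
      refine le_trans ?_ hge
      have hu : (c j : ℝ) / m ≤ min (r i0 : ℝ) (c j) := by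
        refine le_min ?_ ?_
        · rw [div_le_iff₀ (by linarith)]
          have := c_le_N H j
          have := N_le_r0 H
          linarith
        · exact div_le_self (Nat.cast_nonneg _) hm1
      calc (c j : ℝ) / (2 * m * ((n : ℝ) * m)) = ((c j : ℝ) / m) / (2 * ((n : ℝ) * m)) := by
            field_simp
        _ ≤ _ := div_le_div_of_nonneg_right hu (by positivity)

/-- Entries in the column `j0`, outside the corner. -/
theorem entry_row {i : Fin m} (hi : i ≠ i0) :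
    1 / 4 ≤ tMap i0 j0 r c y j0 i ∧ hkl (tabA i0 j0 r c y j0 i) (tMap i0 j0 r c y j0 i) ≤ 2 := by
  have hD := D_ge H
  have hm1 : (1 : ℝ) ≤ m := by exact_mod_cast Fin.pos i0
  have hn1 : (1 : ℝ) ≤ n := by exact_mod_cast Fin.pos j0
  have hnD := n_le_D H
  have h2 : tabA i0 j0 r c y j0 i = (r i : ℝ) - ∑ j' ∈ univ.erase j0, fA r c y j' i := by
    simp [tabA, hi]
  rw [tMap_row_eq hi]
  have hge := tabA_ge H j0 i
  have h0 := tabA_nonneg H j0 i
  rw [h2] at hge h0 ⊢
  refine hkl_entry (B := Real.sqrt (r i) / (16 * ((n : ℝ) * m) ^ 2)) h0 ?_ ?_ ?_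
  · refine (abs_sub _ _).trans ?_
    have h3 := abs_y_div H (j := j0) (i := i) (A := 16 * ((n : ℝ) * m) ^ 2) (by positivity)
    have h4 := abs_sum_erase_le j0 (fun j' => y (j', i) / (2 * ((n : ℝ) * m) ^ 2))
      (b := 1 / (2 * ((n : ℝ) * m) ^ 2)) fun j' => abs_y_div H _ _ (by positivity)
    have := e_bound (a := 1) (b := (n : ℝ) - 1) hD (by linarith) (by linarith)
    simp only [Fintype.card_fin] at h4
    linarith
  · rw [abs_mul, abs_of_nonneg (Real.sqrt_nonneg _)]
    have := abs_y_div H (j := j0) (i := i) (A := 16 * ((n : ℝ) * m) ^ 2) (by positivity)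
    calc _ ≤ Real.sqrt (r i) * (1 / (16 * ((n : ℝ) * m) ^ 2)) :=
          mul_le_mul_of_nonneg_left this (Real.sqrt_nonneg _)
      _ = _ := by ring
  · refine hB_aux (K := (n : ℝ)) hD (by linarith) ?_ (Real.sqrt_nonneg _) ?_
    · nlinarith [pow_le_pow_left₀ (by linarith : (0:ℝ) ≤ 1) hD 2, mul_nonneg (sub_nonneg.2 hD)
        (by positivity : (0:ℝ) ≤ (n * m : ℝ) ^ 2), mul_nonneg (sub_nonneg.2 hD)
        (by positivity : (0:ℝ) ≤ (n * m : ℝ))]
    · rw [Real.sq_sqrt (Nat.cast_nonneg _)]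
      refine le_trans ?_ hge
      have hu : (r i : ℝ) / n ≤ min (r i : ℝ) (c j0) := by
        refine le_min ?_ ?_
        · exact div_le_self (Nat.cast_nonneg _) hn1
        · rw [div_le_iff₀ (by linarith)]
          have := r_le_N H i
          have := N_le_c0 H
          linarith
      calc (r i : ℝ) / (2 * n * ((n : ℝ) * m)) = ((r i : ℝ) / n) / (2 * ((n : ℝ) * m)) := by
            field_simp
        _ ≤ _ := div_le_div_of_nonneg_right hu (by positivity)

/-- The corner. -/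
theorem entry_corner :
    1 / 4 ≤ tMap i0 j0 r c y j0 i0 ∧ hkl (tabA i0 j0 r c y j0 i0) (tMap i0 j0 r c y j0 i0) ≤ 2 := by
  have hD := D_ge H
  have hm1 : (1 : ℝ) ≤ m := by exact_mod_cast Fin.pos i0
  have hn1 : (1 : ℝ) ≤ n := by exact_mod_cast Fin.pos j0
  have hnD := n_le_D H
  have hmD := m_le_D H
  have h2 : tabA i0 j0 r c y j0 i0 = (r i0 : ℝ) - ∑ j' ∈ univ.erase j0, colA i0 r c y j' := by
    simp [tabA]
  rw [tMap_corner_eq]
  have hge := tabA_ge H j0 i0
  have h0 := tabA_nonneg H j0 i0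
  rw [h2] at hge h0 ⊢
  set N : ℝ := ∑ i, (r i : ℝ) with hN
  have hN0 : 0 ≤ N := Finset.sum_nonneg fun _ _ => Nat.cast_nonneg _
  refine hkl_entry (B := ((n : ℝ) * Real.sqrt N) / (16 * ((n : ℝ) * m) ^ 2)) h0 ?_ ?_ ?_
  · refine (abs_sub _ _).trans ?_
    have h3 := abs_y_div H (j := j0) (i := i0) (A := 16 * ((n : ℝ) * m) ^ 2) (by positivity)
    have h4 := abs_sum_erase_le j0 (fun j' => eC i0 y j') fun j' => eC_abs H j'
    simp only [Fintype.card_fin] at h4
    have := e_bound (a := (n : ℝ)) (b := ((n : ℝ) - 1) * ((m : ℝ) - 1)) hD hnD (by nlinarith)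
    nlinarith
  · refine (abs_sub _ _).trans ?_
    have hε : (0 : ℝ) ≤ 1 / (16 * ((n : ℝ) * m) ^ 2) := by positivity
    have h3 : |Real.sqrt (r i0) * (y (j0, i0) / (16 * ((n : ℝ) * m) ^ 2))|
        ≤ Real.sqrt N * (1 / (16 * ((n : ℝ) * m) ^ 2)) := by
      rw [abs_mul, abs_of_nonneg (Real.sqrt_nonneg _)]
      exact mul_le_mul (Real.sqrt_le_sqrt (r_le_N H i0))
        (abs_y_div H _ _ (by positivity)) (abs_nonneg _) (Real.sqrt_nonneg _)
    have h4 := abs_sum_erase_le j0 (fun j' => wC i0 c y j')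
      (b := Real.sqrt N * (1 / (16 * ((n : ℝ) * m) ^ 2))) (fun j' => by
        unfold wC
        rw [abs_mul, abs_of_nonneg (Real.sqrt_nonneg _)]
        exact mul_le_mul (Real.sqrt_le_sqrt (c_le_N H j'))
          (abs_y_div H _ _ (by positivity)) (abs_nonneg _) (Real.sqrt_nonneg _))
    simp only [Fintype.card_fin] at h4
    have h5 : ((n : ℝ) * Real.sqrt N) / (16 * ((n : ℝ) * m) ^ 2)
        = Real.sqrt N * (1 / (16 * ((n : ℝ) * m) ^ 2))
          + ((n : ℝ) - 1) * (Real.sqrt N * (1 / (16 * ((n : ℝ) * m) ^ 2))) := by ring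
    rw [h5]
    exact add_le_add h3 h4
  · refine hB_aux (K := (n : ℝ) ^ 2 * ((n : ℝ) * m)) hD (by positivity) ?_
      (by positivity) ?_
    · have h6 : (n : ℝ) ^ 2 ≤ ((n : ℝ) * m) ^ 2 := pow_le_pow_left₀ (by linarith) hnD 2
      calc (n : ℝ) ^ 2 * ((n : ℝ) * m) ≤ ((n : ℝ) * m) ^ 2 * ((n : ℝ) * m) :=
            mul_le_mul_of_nonneg_right h6 (by linarith)
        _ = _ := by ring
    · have h7 : ((n : ℝ) * Real.sqrt N) ^ 2 = (n : ℝ) ^ 2 * N := by
        rw [mul_pow, Real.sq_sqrt hN0]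
      rw [h7]
      refine le_trans ?_ hge
      have hu : N / ((n : ℝ) * m) ≤ min (r i0 : ℝ) (c j0) := by
        refine le_min ?_ ?_
        · rw [div_le_iff₀ (by linarith)]
          have h8 := N_le_r0 H
          have h9 : (0 : ℝ) ≤ r i0 := Nat.cast_nonneg _
          nlinarith [mul_nonneg h9 (by linarith : (0 : ℝ) ≤ (n : ℝ) - 1),
            mul_nonneg (mul_nonneg h9 (by linarith : (0 : ℝ) ≤ (m : ℝ))) (by linarith : (0 : ℝ) ≤ (n : ℝ) - 1)]
        · rw [div_le_iff₀ (by linarith)]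
          have h8 := N_le_c0 H
          have h9 : (0 : ℝ) ≤ c j0 := Nat.cast_nonneg _
          nlinarith [mul_nonneg (mul_nonneg h9 (by linarith : (0 : ℝ) ≤ (n : ℝ))) (by linarith : (0 : ℝ) ≤ (m : ℝ) - 1)]
      calc (n : ℝ) ^ 2 * N / (2 * ((n : ℝ) ^ 2 * ((n : ℝ) * m)) * ((n : ℝ) * m))
          = (N / ((n : ℝ) * m)) / (2 * ((n : ℝ) * m)) := by
            field_simp
        _ ≤ _ := div_le_div_of_nonneg_right hu (by positivity)

/-- Free entries. -/
theorem entry_free {j : Fin n} {i : Fin m} (hj : j ≠ j0) (hi : i ≠ i0) :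
    1 / 4 ≤ tMap i0 j0 r c y j i ∧ hkl (tabA i0 j0 r c y j i) (tMap i0 j0 r c y j i) ≤ 2 := by
  have hD := D_ge H
  have h1 : tMap i0 j0 r c y j i = tFree r c y j i := by simp [tMap, hj, hi]
  have h2 : tabA i0 j0 r c y j i = fA r c y j i := by simp [tabA, hj, hi]
  have h0 := tabA_nonneg H j i
  rw [h2] at h0
  rw [h1, h2, tFree_eq_fA]
  have h3 := hkl_entry (e := y (j, i) / (2 * ((n : ℝ) * m) ^ 2)) (w := 0) (B := 0) h0 ?_ (by simp)
    (by norm_num)
  · simpa using h3
  · refine (abs_y_div H _ _ (by positivity)).trans ?_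
    rw [div_le_div_iff₀ (by positivity) (by norm_num)]
    nlinarith [pow_le_pow_left₀ (by norm_num : (0:ℝ) ≤ 1) hD 2]

theorem entry (j : Fin n) (i : Fin m) :
    1 / 4 ≤ tMap i0 j0 r c y j i ∧ hkl (tabA i0 j0 r c y j i) (tMap i0 j0 r c y j i) ≤ 2 := by
  by_cases hj : j = j0
  · subst hj
    by_cases hi : i = i0
    · subst hi
      exact entry_corner H
    · exact entry_row H hi
  · by_cases hi : i = i0
    · subst hi
      exact entry_col H hj
    · exact entry_free H hj hi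

/-- **The inner cube.** -/
theorem tMap_inner_of :
    (∀ j i, 1 / 4 ≤ tMap i0 j0 r c y j i) ∧ phiT r c (tMap i0 j0 r c y) ≤ 2 * ((n : ℝ) * m) := by
  refine ⟨fun j i => (entry H j i).1, ?_⟩
  have h1 := phiT_le_kl (r := r) (c := c) H.hsum (t := tMap i0 j0 r c y)
    (fun j i => lt_of_lt_of_le (by norm_num) (entry H j i).1) (A := tabA i0 j0 r c y)
    (tabA_nonneg H) (tabA_col H.hsum) tabA_row
  refine h1.trans ?_
  have h2 : ∑ j, ∑ i, hkl (tabA i0 j0 r c y j i) (tMap i0 j0 r c y j i)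
      ≤ ∑ _j : Fin n, ∑ _i : Fin m, (2 : ℝ) :=
    Finset.sum_le_sum fun j _ => Finset.sum_le_sum fun i _ => (entry H j i).2
  refine h2.trans (le_of_eq ?_)
  simp
  ring

end Inner

end Vale.Agent.Lib.P328.Samp
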