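import Vale.Agent.Lib.P328.Samp.KLTest
import Vale.Agent.Lib.P328.Samp.RoundA
import Vale.Agent.Lib.P328.Samp.RoundB

/-!
# P328, explicit algorithm: the coordinates (module K2)

Notation: `D = n * m`, `N = Σ r`, `u j i = min (r i) (c j)`, `Ā = centreTab r c`, `ε0 = 1 / (16 D²)`.

(a) `centreTab`. Each `cornerTab r c j' i'` is `≥ 0`, has margins `(r, c)`: row sum over `i`:
`(if j = j' then u else 0) + (c j - if j = j' then u else 0)` (if `N = u` then `r i = 0` off `i'` and `r i' = u`, so the second term vanishes anyway);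
so `Ā ≥ 0` has margins `(r, c)`, `Ā j i ≤ u j i` (any entry is below its row and column sums) and `Ā j i ≥ u j i / D`.

(b) `tMap_inner`. Let `|y| ≤ 1`. Define the table `A`: `A j i = Ā j i + u j i y (j,i) / (2 D²)` for `j ≠ j0, i ≠ i0`, and the others by the margins:
`A j i0 = c j - Σ_{i ≠ i0} A j i`, `A j0 i = r i - Σ_{j ≠ j0} A j i`, `A j0 i0 = r i0 - Σ_{j ≠ j0} A j i0`. All four kinds of entries are `≥ u j i / (2 D)`
since `u j i ≤ u j i0`, `u j i ≤ u j0 i`, `u j i ≤ u j0 i0` for free `(j, i)`, so `A ≥ 0` has margins `(r, c)`. Put `v = tMap y - A`. Then: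
free: `v j i = 1 + y (j,i) / (2 D²)`;
`v j i0 = 1 + scS (c j) y (j, i0) - Σ_{i ≠ i0} y (j,i) / (2 D²)` for `j ≠ j0`;
`v j0 i = 1 + scS (r i) y (j0, i) - Σ_{j ≠ j0} y (j,i) / (2 D²)` for `i ≠ i0`;
`v j0 i0 = 1 + scS (r i0) y (j0, i0) - Σ_{j ≠ j0} (v j i0 - 1)`.
Hence `v = 1 + e + w` with `|e| ≤ 1/2`, `|w| ≤ ε0 √x` with `x = c j` resp. `r i`, and at the corner `|w| ≤ ε0 (√ r i0 + Σ_j √ c j) ≤ ε0 √(2 n N)`.
Case `|w| ≤ 1/4`: `v ≥ 1/4`, `hkl a (a + v) ≤ v ≤ 2` (`hkl_le_of_nonneg`), `t ≥ 1/4`.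
Case `|w| > 1/4`, `x = c j`: `√ c j > 4 D²`, `a ≥ u j i0 / (2 D) ≥ c j / (2 m D)` since `r i0 ≥ N / m ≥ c j / m`. `|v| ≤ 6 ε0 √ c j ≤ a / 2`, so `hkl ≤ v² / a ≤ 72 ε0² m D ≤ 1` (`hkl_le_sq`), `t ≥ a / 2 ≥ 1/4`. Same for rows, `c j0 ≥ N / n ≥ r i / n`.
Corner, `|w| > 1/4`: `√(n N) > 2 D²`, `a ≥ u j0 i0 / (2 D) ≥ N / (2 D²)`, `|v| ≤ 10 ε0 √ (n N) ≤ a / 2`, `hkl ≤ v² / a ≤ 200 ε0² n D² ≤ 1`.
So `phiT ≤ Σ hkl ≤ 2 D` by `phiT_le_kl`.

(c) `tMap_outer`. By `phiT_row`, `phiT_col`, `hkl_bound`: `|s_i - r_i| ≤ 2 U + √(2 r_i U)`, `|q_j - c_j| ≤ 2 U + √(2 c_j U)`; so `t j i ≤ min(s_i, q_j) ≤ 2 u j i + 3 U`. In `y`: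
free: `|y| = |t - Ā - 1| / scF ≤ (2u + 3U + 1) 2 D² / (u + 1) ≤ 10 D² U`; sums: `s_i = r_i + n + scS (r_i) y (j0,i)` (`tMap` row sum identity, similarly columns for `j ≠ j0`), so
`|y| ≤ 16 D² (n + 2U + √(2U) √r_i) / (1 + √ r_i) ≤ 80 D³ U`.

(d) `tMap_upper`: from the formula, with `|y| ≤ rQ W = 2 W⁴`, `Ā ≤ N`, `scF ≤ N + 1`, `scS ≤ N + 1`.

(e) `tMap_volume`. `tMap y = tMap 0 + L y`, `L` linear. Flat version first: `(Fin n × Fin m → ℝ) → (Fin n × Fin m → ℝ)`, `y ↦ uncurry (tMap y)`, a matrix `M` with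
`det M = detT`: block triangular for the rank free < (j,i0),(j0,i) < corner (`Matrix.twoBlockTriangular_det` twice, or `Matrix.det_of_upperTriangular` after sorting);
`Real.map_matrix_volume_pi_eq_smul_volume_pi`. Then translation invariance, and `MeasurableEquiv.curry` is volume preserving (`Measure.pi_eq` on boxes).
-/

namespace Vale.Agent.Lib.P328.Samp

open Finset MeasureTheory Vale.Agent.Lib.P328.Cap Vale.Agent.Lib.P328.Fpras
open scoped ENNReal

variable {m n : ℕ}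

/-- The conditions on an instance. -/
structure InstOK (i0 : Fin m) (j0 : Fin n) (r : Fin m → ℕ) (c : Fin n → ℕ) : Prop where
  hc : ∀ j, 0 < c j
  hsum : ∑ i, r i = ∑ j, c j
  hi0 : ∀ i, r i ≤ r i0
  hj0 : ∀ j, c j ≤ c j0

variable {i0 : Fin m} {j0 : Fin n} {r : Fin m → ℕ} {c : Fin n → ℕ}

/-- **The inner cube.** -/
theorem tMap_inner (h : InstOK i0 j0 r c) {y : Fin n × Fin m → ℝ} (hy : ∀ k, |y k| ≤ 1) :
    (∀ j i, 1 / 4 ≤ tMap i0 j0 r c y j i) ∧ phiT r c (tMap i0 j0 r c y) ≤ 2 * ((n : ℝ) * m) :=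
  tMap_inner_of ⟨h.hsum, h.hi0, h.hj0, centreTab_ge h.hsum, centreTab_col h.hsum,
    centreTab_row h.hsum, hy⟩

/-- The bound for one margin: a row or column sum is close to its target. -/
theorem margin_upper {a : ℕ} {s U : ℝ} (hs : 0 < s) (hU : 1 ≤ U) (h : hkl a s ≤ U) :
    s ≤ 3 / 2 * (a : ℝ) + 3 * U := by
  have h1 := hkl_bound (Nat.cast_nonneg a) hs (by linarith) h
  have h2 : Real.sqrt (2 * (a : ℝ) * U) ≤ (a : ℝ) / 2 + U := by
    have ha : (0 : ℝ) ≤ a := Nat.cast_nonneg a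
    refine Real.sqrt_le_iff.2 ⟨by positivity, ?_⟩
    nlinarith [sq_nonneg ((a : ℝ) / 2 - U)]
  have h3 := le_abs_self (s - a)
  linarith

/-- The coordinate of a row or column sum is bounded. -/
theorem margin_coord {D M U s Y : ℝ} {a : ℕ} (hs : 0 < s) (hD : 0 < D) (hM : 0 ≤ M) (hU : 1 ≤ U)
    (h : hkl a s ≤ U) (hY : s = (a : ℝ) + M + (1 + Real.sqrt a) / (16 * D ^ 2) * Y) :
    |Y| ≤ 16 * D ^ 2 * (M + 4 * U) := by
  have h1 := hkl_bound (Nat.cast_nonneg a) hs (by linarith) h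
  set X := Real.sqrt (a : ℝ) with hX
  have hX0 : 0 ≤ X := Real.sqrt_nonneg _
  set T := Real.sqrt (2 * U) with hT
  have hT0 : 0 ≤ T := Real.sqrt_nonneg _
  have hT2 : T ≤ 2 * U := by
    refine Real.sqrt_le_iff.2 ⟨by linarith, ?_⟩
    nlinarith
  have h2 : Real.sqrt (2 * (a : ℝ) * U) = T * X := by
    rw [hT, hX, ← Real.sqrt_mul (by linarith)]
    congr 1
    ring
  rw [h2] at h1
  have hD2 : 0 < 16 * D ^ 2 := by positivity
  have h3 : (1 + X) / (16 * D ^ 2) * Y = s - a - M := by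
    rw [hY]
    ring
  have h4 : |(1 + X) / (16 * D ^ 2) * Y| ≤ (M + 4 * U) * (1 + X) := by
    rw [h3]
    have h5 : |s - a - M| ≤ |s - a| + M := by
      calc |s - a - M| ≤ |s - a| + |M| := abs_sub _ _
        _ = |s - a| + M := by rw [abs_of_nonneg hM]
    have h6 : T * X ≤ 2 * U * X := mul_le_mul_of_nonneg_right hT2 hX0
    have h7 : 0 ≤ (M + 2 * U) * X := by positivity
    nlinarith
  rw [abs_mul, abs_of_pos (by positivity : 0 < (1 + X) / (16 * D ^ 2))] at h4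
  have h5 : 0 < 1 + X := by linarith
  have h6 : |Y| * (1 + X) ≤ 16 * D ^ 2 * (M + 4 * U) * (1 + X) := by
    have h7 : (1 + X) / (16 * D ^ 2) * |Y| = |Y| * (1 + X) / (16 * D ^ 2) := by ring
    rw [h7, div_le_iff₀ hD2] at h4
    linarith
  exact le_of_mul_le_mul_right h6 h5

/-- **The outer cube.** -/
theorem tMap_outer (h : InstOK i0 j0 r c) {y : Fin n × Fin m → ℝ} {U : ℝ} (hU : 1 ≤ U)
    (ht : ∀ j i, 0 < tMap i0 j0 r c y j i) (hφ : phiT r c (tMap i0 j0 r c y) ≤ U) :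
    ∀ k, |y k| ≤ 80 * ((n : ℝ) * m) ^ 3 * U := by
  rintro ⟨j, i⟩
  have hn : 0 < n := lt_of_le_of_lt (Nat.zero_le _) j.isLt
  have hm : 0 < m := lt_of_le_of_lt (Nat.zero_le _) i.isLt
  have hn1 : (1 : ℝ) ≤ n := by exact_mod_cast hn
  have hm1 : (1 : ℝ) ≤ m := by exact_mod_cast hm
  set D : ℝ := (n : ℝ) * m with hD
  have hD1 : 1 ≤ D := by nlinarith
  have hD0 : 0 < D := by linarith
  have hnD : (n : ℝ) ≤ D := by nlinarith
  have hmD : (m : ℝ) ≤ D := by nlinarith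
  set t := tMap i0 j0 r c y with ht_def
  have hrow : ∀ i, hkl (r i) (∑ j, t j i) ≤ U := fun i => (phiT_row h.hsum ht hn i).trans hφ
  have hcol : ∀ j, hkl (c j) (∑ i, t j i) ≤ U := fun j => (phiT_col h.hsum ht hm j).trans hφ
  have hspos : ∀ i, 0 < ∑ j, t j i := fun i => by
    have : Nonempty (Fin n) := ⟨j⟩
    exact Finset.sum_pos (fun j _ => ht j i) Finset.univ_nonempty
  have hqpos : ∀ j, 0 < ∑ i, t j i := fun j => by
    have : Nonempty (Fin m) := ⟨i⟩
    exact Finset.sum_pos (fun i _ => ht j i) Finset.univ_nonempty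
  have hU0 : 0 < U := by linarith
  have hscale : ∀ M : ℝ, 1 ≤ M → M ≤ D → 16 * D ^ 2 * (M + 4 * U) ≤ 80 * D ^ 3 * U := by
    intro M hM1 hMD
    have h1 : M + 4 * U ≤ 5 * D * U := by nlinarith
    have h2 : (0 : ℝ) ≤ 16 * D ^ 2 := by positivity
    calc 16 * D ^ 2 * (M + 4 * U) ≤ 16 * D ^ 2 * (5 * D * U) := mul_le_mul_of_nonneg_left h1 h2
      _ = 80 * D ^ 3 * U := by ring
  by_cases hj : j = j0
  · -- a row sum
    subst hj
    have h1 : ∑ l, t l i = (r i : ℝ) + n + scS m n (r i) * y (j, i) := tMap_row y i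
    have h2 := margin_coord (D := D) (hspos i) hD0 (Nat.cast_nonneg n) hU (hrow i) (by
      rw [h1]
      rfl)
    exact h2.trans (hscale _ hn1 hnD)
  · by_cases hi : i = i0
    · -- a column sum
      subst hi
      have h1 : ∑ l, t j l = (c j : ℝ) + m + scS m n (c j) * y (j, i) := tMap_col y hj
      have h2 := margin_coord (D := D) (hqpos j) hD0 (Nat.cast_nonneg m) hU (hcol j) (by
        rw [h1]
        rfl)
      exact h2.trans (hscale _ hm1 hmD)
    · -- a free entry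
      have hfree : t j i = centreTab r c j i + 1 + scF r c j i * y (j, i) := by
        simp only [ht_def, tMap, if_neg hj, if_neg hi, tFree]
      set u : ℝ := min (r i : ℝ) (c j) with hu
      have hu0 : 0 ≤ u := le_min (Nat.cast_nonneg _) (Nat.cast_nonneg _)
      have hs1 : t j i ≤ ∑ l, t l i :=
        Finset.single_le_sum (f := fun l => t l i) (fun l _ => (ht l i).le) (Finset.mem_univ j)
      have hq1 : t j i ≤ ∑ l, t j l :=
        Finset.single_le_sum (f := fun l => t j l) (fun l _ => (ht j l).le) (Finset.mem_univ i)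
      have hs2 := margin_upper (hspos i) hU (hrow i)
      have hq2 := margin_upper (hqpos j) hU (hcol j)
      have ht_le : t j i ≤ 3 / 2 * u + 3 * U := by
        rcases min_choice (r i : ℝ) (c j) with h3 | h3
        · rw [hu, h3]
          linarith
        · rw [hu, h3]
          linarith
      have hA0 := centreTab_nonneg h.hsum j i
      have hA1 : centreTab r c j i ≤ u := by
        refine le_min ?_ ?_
        · rw [← centreTab_row h.hsum i]
          exact Finset.single_le_sum (f := fun l => centreTab r c l i)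
            (fun l _ => centreTab_nonneg h.hsum l i) (Finset.mem_univ j)
        · rw [← centreTab_col h.hsum j]
          exact Finset.single_le_sum (f := fun l => centreTab r c j l)
            (fun l _ => centreTab_nonneg h.hsum j l) (Finset.mem_univ i)
      have ht0 := ht j i
      have hprod : scF r c j i * y (j, i) = t j i - centreTab r c j i - 1 := by
        rw [hfree]
        ring
      have hu1 : 0 < u + 1 := by linarith
      have hbound : |scF r c j i * y (j, i)| ≤ 5 * U * (u + 1) := by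
        rw [hprod, abs_le]
        constructor <;> nlinarith
      have hD2 : 0 < 2 * D ^ 2 := by positivity
      have hF : scF r c j i = (u + 1) / (2 * D ^ 2) := rfl
      rw [hF, abs_mul, abs_of_pos (by positivity : 0 < (u + 1) / (2 * D ^ 2))] at hbound
      have h6 : |y (j, i)| * (u + 1) ≤ 2 * D ^ 2 * (5 * U) * (u + 1) := by
        have h7 : (u + 1) / (2 * D ^ 2) * |y (j, i)| = |y (j, i)| * (u + 1) / (2 * D ^ 2) := by ring
        rw [h7, div_le_iff₀ hD2] at hbound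
        linarith
      have h8 := le_of_mul_le_mul_right h6 hu1
      have h9 : 2 * D ^ 2 * (5 * U) ≤ 80 * D ^ 3 * U := by
        have h10 : D ^ 2 ≤ D ^ 3 := by nlinarith [sq_nonneg D]
        nlinarith
      exact h8.trans h9

/-- The total, as a real number. -/
noncomputable abbrev upN (r : Fin m → ℕ) : ℝ := ((∑ l, r l : ℕ) : ℝ)

/-- The bound for one term of the formula for `tMap`. -/
noncomputable abbrev upB (r : Fin m → ℕ) (W : ℕ) : ℝ := (upN r + 1) * (2 * (W : ℝ) ^ 4)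

theorem upN_row (r : Fin m → ℕ) (i : Fin m) : (r i : ℝ) ≤ upN r := by
  unfold upN
  exact_mod_cast Finset.single_le_sum (f := r) (fun _ _ => Nat.zero_le _) (Finset.mem_univ i)

theorem upN_col (h : InstOK i0 j0 r c) (j : Fin n) : (c j : ℝ) ≤ upN r := by
  unfold upN
  rw [h.hsum]
  exact_mod_cast Finset.single_le_sum (f := c) (fun _ _ => Nat.zero_le _) (Finset.mem_univ j)

theorem upB_nonneg (r : Fin m → ℕ) (W : ℕ) : 0 ≤ upB r W := by
  have : 0 ≤ upN r := Nat.cast_nonneg _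
  unfold upB
  positivity

theorem scF_abs_le (hn : 0 < n) (hm : 0 < m) {W : ℕ} {y : Fin n × Fin m → ℝ}
    (hy : ∀ k, |y k| ≤ rQ W) (j : Fin n) (i : Fin m) (k : Fin n × Fin m) :
    |scF r c j i * y k| ≤ upB r W := by
  have hn1 : (1 : ℝ) ≤ n := by exact_mod_cast hn
  have hm1 : (1 : ℝ) ≤ m := by exact_mod_cast hm
  have hD1 : 1 ≤ (n : ℝ) * m := one_le_mul_of_one_le_of_one_le hn1 hm1
  have hDsq : 1 ≤ ((n : ℝ) * m) ^ 2 := one_le_pow₀ hD1
  have h2 : 0 ≤ min (r i : ℝ) (c j) := le_min (Nat.cast_nonneg _) (Nat.cast_nonneg _)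
  have h1 : min (r i : ℝ) (c j) ≤ upN r := (min_le_left _ _).trans (upN_row r i)
  have hF0 : 0 ≤ scF r c j i := by
    unfold scF
    positivity
  have hF1 : scF r c j i ≤ upN r + 1 := by
    unfold scF
    rw [div_le_iff₀ (by positivity)]
    nlinarith
  rw [abs_mul, abs_of_nonneg hF0]
  have hy' : |y k| ≤ 2 * (W : ℝ) ^ 4 := hy k
  exact mul_le_mul hF1 hy' (abs_nonneg _) (by have : 0 ≤ upN r := Nat.cast_nonneg _; linarith)

theorem scS_abs_le (hn : 0 < n) (hm : 0 < m) {W : ℕ} {y : Fin n × Fin m → ℝ}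
    (hy : ∀ k, |y k| ≤ rQ W) {x : ℕ} (hx : (x : ℝ) ≤ upN r) (k : Fin n × Fin m) :
    |scS m n x * y k| ≤ upB r W := by
  have hn1 : (1 : ℝ) ≤ n := by exact_mod_cast hn
  have hm1 : (1 : ℝ) ≤ m := by exact_mod_cast hm
  have hD1 : 1 ≤ (n : ℝ) * m := one_le_mul_of_one_le_of_one_le hn1 hm1
  have hDsq : 1 ≤ ((n : ℝ) * m) ^ 2 := one_le_pow₀ hD1
  have h1 := Real.sqrt_nonneg (x : ℝ)
  have h2 := Real.sq_sqrt (Nat.cast_nonneg x : (0 : ℝ) ≤ x)
  have hN0 : 0 ≤ upN r := Nat.cast_nonneg _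
  have hS0 : 0 ≤ scS m n x := by
    unfold scS
    positivity
  have hS1 : scS m n x ≤ upN r + 1 := by
    unfold scS
    rw [div_le_iff₀ (by positivity)]
    have h3 : 1 + Real.sqrt (x : ℝ) ≤ 2 * (upN r + 1) := by nlinarith
    nlinarith
  rw [abs_mul, abs_of_nonneg hS0]
  have hy' : |y k| ≤ 2 * (W : ℝ) ^ 4 := hy k
  exact mul_le_mul hS1 hy' (abs_nonneg _) (by linarith)

theorem tFree_low (h : InstOK i0 j0 r c) (hn : 0 < n) (hm : 0 < m) {W : ℕ}
    {y : Fin n × Fin m → ℝ} (hy : ∀ k, |y k| ≤ rQ W) (j : Fin n) (i : Fin m) :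
    -upB r W ≤ tFree r c y j i := by
  have h1 := (abs_le.1 (scF_abs_le (r := r) (c := c) hn hm hy j i (j, i))).1
  have h2 := centreTab_nonneg h.hsum j i
  unfold tFree
  linarith

theorem tFree_up (h : InstOK i0 j0 r c) (hn : 0 < n) (hm : 0 < m) {W : ℕ}
    {y : Fin n × Fin m → ℝ} (hy : ∀ k, |y k| ≤ rQ W) (j : Fin n) (i : Fin m) :
    tFree r c y j i ≤ upN r + 1 + upB r W := by
  have h1 := (abs_le.1 (scF_abs_le (r := r) (c := c) hn hm hy j i (j, i))).2
  have h2 : centreTab r c j i ≤ upN r := by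
    refine le_trans ?_ (upN_row r i)
    rw [← centreTab_row h.hsum i]
    exact Finset.single_le_sum (f := fun l => centreTab r c l i)
      (fun l _ => centreTab_nonneg h.hsum l i) (Finset.mem_univ j)
  unfold tFree
  linarith

theorem sum_le_mul_of_le {κ : Type} (s : Finset κ) (f : κ → ℝ) {E M : ℝ} (hE : 0 ≤ E)
    (hM : (s.card : ℝ) ≤ M) (hf : ∀ x ∈ s, f x ≤ E) : ∑ x ∈ s, f x ≤ M * E :=
  calc ∑ x ∈ s, f x ≤ ∑ _x ∈ s, E := Finset.sum_le_sum hf
    _ = (s.card : ℝ) * E := by rw [Finset.sum_const, nsmul_eq_mul]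
    _ ≤ M * E := mul_le_mul_of_nonneg_right hM hE

theorem card_erase_le {k : ℕ} (x : Fin k) : ((univ.erase x : Finset (Fin k)).card : ℝ) ≤ k := by
  have : (univ.erase x : Finset (Fin k)).card ≤ k := by
    simpa using Finset.card_le_univ (univ.erase x : Finset (Fin k))
  exact_mod_cast this

theorem tCol_up (h : InstOK i0 j0 r c) (hn : 0 < n) (hm : 0 < m) {W : ℕ}
    {y : Fin n × Fin m → ℝ} (hy : ∀ k, |y k| ≤ rQ W) (j : Fin n) :
    tCol i0 r c y j ≤ upN r + m + upB r W + m * upB r W := by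
  unfold tCol
  have h1 := (abs_le.1 (scS_abs_le (r := r) hn hm hy (upN_col h j) (j, i0))).2
  have h2 : ∑ i' ∈ univ.erase i0, -tFree r c y j i' ≤ (m : ℝ) * upB r W :=
    sum_le_mul_of_le _ _ (upB_nonneg r W) (card_erase_le i0) fun i' _ => by
      linarith [tFree_low h hn hm hy j i']
  rw [Finset.sum_neg_distrib] at h2
  have h3 := upN_col h j
  linarith

theorem tCol_low (h : InstOK i0 j0 r c) (hn : 0 < n) (hm : 0 < m) {W : ℕ}
    {y : Fin n × Fin m → ℝ} (hy : ∀ k, |y k| ≤ rQ W) (j : Fin n) :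
    -(upB r W + m * (upN r + 1 + upB r W)) ≤ tCol i0 r c y j := by
  unfold tCol
  have h1 := (abs_le.1 (scS_abs_le (r := r) hn hm hy (upN_col h j) (j, i0))).1
  have hB0 := upB_nonneg r W
  have hN0 : 0 ≤ upN r := Nat.cast_nonneg _
  have h2 : ∑ i' ∈ univ.erase i0, tFree r c y j i' ≤ (m : ℝ) * (upN r + 1 + upB r W) :=
    sum_le_mul_of_le _ _ (by positivity) (card_erase_le i0) fun i' _ => tFree_up h hn hm hy j i'
  have h3 : (0 : ℝ) ≤ c j := Nat.cast_nonneg _
  have h4 : (0 : ℝ) ≤ m := Nat.cast_nonneg _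
  linarith

/-- The last step of the arithmetic of `tMap_upper`. -/
theorem upper_arith {N D B M E S : ℝ} (hN : 0 ≤ N) (hD : 1 ≤ D) (hNB : N + 1 ≤ B)
    (hM0 : 0 ≤ M) (hMD : M ≤ D) (hE : E ≤ 3 * D * B)
    (hS : S ≤ N + M + B + E) : S ≤ N + 1 + 4 * (D + 1) ^ 2 * B := by
  have hB1 : 1 ≤ B := by linarith
  have hB0 : 0 ≤ B := by linarith
  have h1 : M ≤ D * B := by
    have : D * 1 ≤ D * B := mul_le_mul_of_nonneg_left hB1 (by linarith)
    linarith
  have h2 : B * (1 + 4 * D) ≤ 4 * (D + 1) ^ 2 * B := by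
    have h3 : 1 + 4 * D ≤ 4 * (D + 1) ^ 2 := by nlinarith
    rw [mul_comm B]
    exact mul_le_mul_of_nonneg_right h3 hB0
  have h4 : N + M + B + E ≤ N + B * (1 + 4 * D) := by nlinarith
  linarith

/-- The numbers in the last step. -/
theorem upper_numbers {N D V : ℝ} (hN : 0 ≤ N) (hD : 1 ≤ D) (hV : 10 ^ 6 * (D + 1) ^ 2 ≤ V) :
    N + 1 + 4 * (D + 1) ^ 2 * ((N + 1) * (2 * V ^ 4)) ≤ (N + 1) * V ^ 5 := by
  have hV1 : 1 ≤ V := by nlinarith
  have hV4 : 1 ≤ V ^ 4 := one_le_pow₀ hV1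
  have h1 : 8 * (D + 1) ^ 2 * V ^ 4 ≤ V * V ^ 4 - V ^ 4 := by
    have h2 : 8 * (D + 1) ^ 2 ≤ V - 1 := by nlinarith
    have h3 : V * V ^ 4 - V ^ 4 = (V - 1) * V ^ 4 := by ring
    rw [h3]
    exact mul_le_mul_of_nonneg_right h2 (by positivity)
  have h4 : 1 + 8 * (D + 1) ^ 2 * V ^ 4 ≤ V ^ 5 := by
    have h5 : V ^ 5 = V * V ^ 4 := by ring
    rw [h5]
    linarith
  have h6 : N + 1 + 4 * (D + 1) ^ 2 * ((N + 1) * (2 * V ^ 4))
      = (N + 1) * (1 + 8 * (D + 1) ^ 2 * V ^ 4) := by ring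
  rw [h6]
  exact mul_le_mul_of_nonneg_left h4 (by linarith)

/-- Upper bound for the entries on the big cube. -/
theorem tMap_upper (h : InstOK i0 j0 r c) {W : ℕ} (hW : 10 ^ 6 * ((n : ℝ) * m + 1) ^ 2 ≤ W)
    {y : Fin n × Fin m → ℝ} (hy : ∀ k, |y k| ≤ rQ W) (j : Fin n) (i : Fin m) :
    tMap i0 j0 r c y j i ≤ (((∑ l, r l : ℕ) : ℝ) + 1) * (W : ℝ) ^ 5 := by
  have hn : 0 < n := lt_of_le_of_lt (Nat.zero_le _) j.isLt
  have hm : 0 < m := lt_of_le_of_lt (Nat.zero_le _) i.isLt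
  have hn1 : (1 : ℝ) ≤ n := by exact_mod_cast hn
  have hm1 : (1 : ℝ) ≤ m := by exact_mod_cast hm
  have hD1 : 1 ≤ (n : ℝ) * m := one_le_mul_of_one_le_of_one_le hn1 hm1
  have hnD : (n : ℝ) ≤ (n : ℝ) * m := by nlinarith
  have hmD : (m : ℝ) ≤ (n : ℝ) * m := by nlinarith
  have hN0 : 0 ≤ upN r := Nat.cast_nonneg _
  have hB0 := upB_nonneg r W
  have hV1 : (1 : ℝ) ≤ W := by nlinarith
  have hV4 : 1 ≤ (W : ℝ) ^ 4 := one_le_pow₀ hV1
  have hNB : upN r + 1 ≤ upB r W := by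
    have : (upN r + 1) * 1 ≤ (upN r + 1) * (2 * (W : ℝ) ^ 4) :=
      mul_le_mul_of_nonneg_left (by linarith) (by linarith)
    unfold upB
    linarith
  refine le_trans ?_ (upper_numbers hN0 hD1 hW)
  by_cases hj : j = j0
  · by_cases hi : i = i0
    · subst hj hi
      have h0 : tMap i j r c y j i = (r i : ℝ) + n + scS m n (r i) * y (j, i)
          - ∑ j' ∈ univ.erase j, tCol i r c y j' := by
        simp only [tMap, if_true]
      rw [h0]
      have h1 := (abs_le.1 (scS_abs_le (r := r) hn hm hy (upN_row r i) (j, i))).2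
      have h2 : ∑ j' ∈ univ.erase j, -tCol i r c y j'
          ≤ (n : ℝ) * (upB r W + m * (upN r + 1 + upB r W)) :=
        sum_le_mul_of_le _ _ (by positivity) (card_erase_le j) fun j' _ => by
          linarith [tCol_low h hn hm hy j']
      rw [Finset.sum_neg_distrib] at h2
      have h3 := upN_row r i
      have h4 : (n : ℝ) * (upB r W + m * (upN r + 1 + upB r W))
          ≤ 3 * ((n : ℝ) * m) * upB r W := by
        have h5 : (n : ℝ) * (upB r W + m * (upN r + 1 + upB r W))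
            = (n : ℝ) * upB r W + ((n : ℝ) * m) * (upN r + 1 + upB r W) := by ring
        rw [h5]
        have h6 : (n : ℝ) * upB r W ≤ ((n : ℝ) * m) * upB r W :=
          mul_le_mul_of_nonneg_right hnD hB0
        have h7 : ((n : ℝ) * m) * (upN r + 1 + upB r W) ≤ ((n : ℝ) * m) * (2 * upB r W) :=
          mul_le_mul_of_nonneg_left (by linarith) (by linarith)
        linarith
      exact upper_arith hN0 hD1 hNB (by linarith) hnD h4 (by linarith)
    · subst hj
      have h0 : tMap i0 j r c y j i = (r i : ℝ) + n + scS m n (r i) * y (j, i)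
          - ∑ j' ∈ univ.erase j, tFree r c y j' i := by
        simp only [tMap, if_true, if_neg hi]
      rw [h0]
      have h1 := (abs_le.1 (scS_abs_le (r := r) hn hm hy (upN_row r i) (j, i))).2
      have h2 : ∑ j' ∈ univ.erase j, -tFree r c y j' i ≤ (n : ℝ) * upB r W :=
        sum_le_mul_of_le _ _ hB0 (card_erase_le j) fun j' _ => by
          linarith [tFree_low h hn hm hy j' i]
      rw [Finset.sum_neg_distrib] at h2
      have h3 := upN_row r i
      have h6 : (n : ℝ) * upB r W ≤ 3 * ((n : ℝ) * m) * upB r W :=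
        mul_le_mul_of_nonneg_right (by linarith) hB0
      exact upper_arith hN0 hD1 hNB (by linarith) hnD h6 (by linarith)
  · by_cases hi : i = i0
    · subst hi
      have h0 : tMap i j0 r c y j i = tCol i r c y j := by
        simp only [tMap, if_neg hj, if_true]
      rw [h0]
      have h1 := tCol_up h hn hm hy j
      have h6 : (m : ℝ) * upB r W ≤ 3 * ((n : ℝ) * m) * upB r W :=
        mul_le_mul_of_nonneg_right (by linarith) hB0
      exact upper_arith hN0 hD1 hNB (by linarith) hmD h6 h1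
    · have h0 : tMap i0 j0 r c y j i = tFree r c y j i := by
        simp only [tMap, if_neg hj, if_neg hi]
      rw [h0]
      have h1 := tFree_up h hn hm hy j i
      have h6 : (0 : ℝ) ≤ 3 * ((n : ℝ) * m) * upB r W := by positivity
      exact upper_arith (M := 1) hN0 hD1 hNB (by norm_num) hD1 h6 (by linarith)


end Vale.Agent.Lib.P328.Samp
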