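import Vale.Agent.Lib.P328.Samp.Reg
import Vale.Agent.Lib.P328.Samp.Round
import Vale.Agent.Lib.P328.Samp.CapNum
import Vale.Agent.Lib.P328.Samp.Grid

/-!
# P328, explicit algorithm: the regularised potential of the capacity (module P)

`domY = {y : tMap y ≥ cutK W}`, `phiY y = phiT (tMap y)`, `U0 = 2 D`, `Λ = W^27`, `psiE = regPsi domY phiY Λ`.

`regHyp_inst`: `phiT_convex`, `phiT_nonneg`, `tMap_affine`, `tMap_inner`, `cutK W ≤ 1/4`.

`psiHat_close`, for `|y|∞ ≤ rQ W`: write `s_k = 1 + k / W^53`, `s_k ≤ 1 + 8 W^4` for `k ≤ 8 W^57`. For `s_k⁻¹ • y ∈ domY`: `s_k⁻¹ • y` is in the big cube so `tMap_upper` and `logCapHat_bound` give `|phiHat - phiY| ≤ 1/W^30`, and so `|psiVal k - regVal s_k| ≤ 9 W^4 / W^30`.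
Lower bound: `regVal s_k ≥ psiE` (`reg_le_val`); for infeasible `k` the value `W^32 ≥ psiE y` because `psiE y ≤ psiE 0 + rQ (U0 + Λ) ≤ U0 + 2 W^4 (U0 + W^27)` (`reg_lip`, `reg_le`). Upper bound: `reg_search` (`Rq = rQ W`, `2 Rq ≤ 4 W^4`) gives `s ≤ 4 W^4` with `regVal s < psiE + ξ`; take the first `s_k ≥ s`, `s_k - s ≤ 1/W^53`; `reg_step`: `regVal s_k ≤ regVal s + (U0 + Λ) / W^53`.
Total error `≤ 1/W^25`.

`psiCell_close`: `cellPt z (1/2)` and a point of the closed cube differ by at most `cellD / 2 ≤ 1/W^52`, `reg_lip`.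

`chain_close_unit`: apply with `Ψ x = a * psiE (x scaled: i ↦ -rQ W + cellD W * x i)`, `w z = exp (-a * psiCell z)`, `0 ≤ a ≤ 1`, `3/W^25 ≤ 1/8`.

`chain_tv`: `grid_tv` with `T = chainT W = W^150`, `M = cellM W ≤ 5 W^56`, `D² ≤ W`: `(1 - x)^T ≤ exp (-T x)`, `T x ≥ W^35`, `(Σ w) / w z0 ≤ M^D exp (W^32 + 1) ≤ exp (W^33)`. So `TV ≤ exp (-W^34) ≤ exp (-W)`.
(`psiCell` is in `[-1, W^32]` or so, `psi_bounds`.)

`psi_mass`: `reg_mass` with `θ = 1/W^25`, `Rq = rQ W`; `e^{θ U0} (1 + θ)^D + e^{-W² + U0} Rq^D ≤ 1 + 1/W^24`.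
-/
namespace Vale.Agent.Lib.P328.Samp

open Finset MeasureTheory Vale.Agent.Lib.P328.Cap Vale.Agent.Lib.P328.Fpras
open scoped ENNReal

variable {m n : ℕ} {i0 : Fin m} {j0 : Fin n} {r : Fin m → ℕ} {c : Fin n → ℕ}

/-- The domain of the potential. -/
def domY (W : ℕ) (i0 : Fin m) (j0 : Fin n) (r : Fin m → ℕ) (c : Fin n → ℕ) :
    Set (Fin n × Fin m → ℝ) :=
  {y | ∀ j i, cutK W ≤ tMap i0 j0 r c y j i}

/-- The potential in the coordinates `y`. -/
noncomputable def phiY (i0 : Fin m) (j0 : Fin n) (r : Fin m → ℕ) (c : Fin n → ℕ)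
    (y : Fin n × Fin m → ℝ) : ℝ :=
  phiT r c (tMap i0 j0 r c y)

/-- The regularised potential. -/
noncomputable def psiE (W : ℕ) (i0 : Fin m) (j0 : Fin n) (r : Fin m → ℕ) (c : Fin n → ℕ) :
    (Fin n × Fin m → ℝ) → ℝ :=
  regPsi (domY W i0 j0 r c) (phiY i0 j0 r c) ((W : ℝ) ^ 27)

/-- The number of steps and the size of the instance are compatible. -/
def WOK (m n W : ℕ) : Prop := 10 ^ 6 * ((n : ℝ) * m + 1) ^ 2 ≤ W

section Numeric

variable {W : ℕ}

theorem psi_one_le_D (i0 : Fin m) (j0 : Fin n) : (1 : ℝ) ≤ (n : ℝ) * m := by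
  have h1 : 1 ≤ n := Nat.one_le_iff_ne_zero.mpr (fun h => by subst h; exact j0.elim0)
  have h2 : 1 ≤ m := Nat.one_le_iff_ne_zero.mpr (fun h => by subst h; exact i0.elim0)
  have h3 : (1 : ℝ) ≤ n := by exact_mod_cast h1
  have h4 : (1 : ℝ) ≤ m := by exact_mod_cast h2
  nlinarith

theorem WOK.x_ge (i0 : Fin m) (j0 : Fin n) (hW : WOK m n W) : (4000000 : ℝ) ≤ W := by
  have h1 := psi_one_le_D i0 j0
  have h2 : (10 : ℝ) ^ 6 * ((n : ℝ) * m + 1) ^ 2 ≤ W := hW
  nlinarith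

/-- `D` is small compared with `W`. -/
theorem WOK.D_le (i0 : Fin m) (j0 : Fin n) (hW : WOK m n W) :
    1000000 * ((n : ℝ) * m) ≤ W := by
  have h1 := psi_one_le_D i0 j0
  have h2 : (10 : ℝ) ^ 6 * ((n : ℝ) * m + 1) ^ 2 ≤ W := hW
  nlinarith

/-- `D ^ 2` is small compared with `W`. -/
theorem WOK.D_sq_le (i0 : Fin m) (j0 : Fin n) (hW : WOK m n W) :
    1000000 * ((n : ℝ) * m) ^ 2 ≤ W := by
  have h1 := psi_one_le_D i0 j0
  have h2 : (10 : ℝ) ^ 6 * ((n : ℝ) * m + 1) ^ 2 ≤ W := hW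
  nlinarith

theorem WOK.n_le (i0 : Fin m) (_j0 : Fin n) (hW : WOK m n W) :
    10 ^ 6 * ((n : ℝ) + 1) ^ 2 ≤ W := by
  have h2 : (10 : ℝ) ^ 6 * ((n : ℝ) * m + 1) ^ 2 ≤ W := hW
  have h0 : (1 : ℝ) ≤ m := by
    have h2 : 1 ≤ m := Nat.one_le_iff_ne_zero.mpr (fun h => by subst h; exact i0.elim0)
    exact_mod_cast h2
  have h3 : (0 : ℝ) ≤ n := Nat.cast_nonneg n
  have h4 : (n : ℝ) ≤ (n : ℝ) * m := by nlinarith
  have h5 : ((n : ℝ) + 1) ^ 2 ≤ ((n : ℝ) * m + 1) ^ 2 := by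
    apply pow_le_pow_left₀ (by positivity)
    linarith
  linarith

theorem psi_x_pow_mono {x : ℝ} (hx : 1 ≤ x) {a b : ℕ} (hab : a ≤ b) : x ^ a ≤ x ^ b :=
  pow_le_pow_right₀ hx hab

theorem psi_cutK_le_quarter {W : ℕ} (hW : (4 : ℝ) ≤ W) : cutK W ≤ 1 / 4 := by
  unfold cutK
  have hW0 : (0 : ℝ) < (W : ℝ) := by linarith
  have h1 : (W : ℝ) ^ 1 ≤ (W : ℝ) ^ 26 := psi_x_pow_mono (by linarith) (by norm_num)
  have h2 : (0 : ℝ) < (W : ℝ) ^ 26 := by positivity
  rw [div_le_div_iff₀ h2 (by norm_num)]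
  linarith [pow_one (W : ℝ)]

theorem psi_cutK_pos {W : ℕ} (hW : (0 : ℝ) < W) : 0 < cutK W := by
  unfold cutK; positivity

theorem psi_one_le_rQ {W : ℕ} (hW : (1 : ℝ) ≤ W) : 1 ≤ rQ W := by
  unfold rQ
  have : (1 : ℝ) ≤ (W : ℝ) ^ 4 := one_le_pow₀ hW
  linarith

end Numeric

section Reg

theorem regHyp_inst (h : InstOK i0 j0 r c) {W : ℕ} (hW : WOK m n W) :
    RegHyp (domY W i0 j0 r c) (phiY i0 j0 r c) (2 * ((n : ℝ) * m)) := by
  have hx := hW.x_ge i0 j0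
  have hk0 : 0 < cutK W := psi_cutK_pos (by linarith)
  have hconvK : Convex ℝ (domY W i0 j0 r c) := by
    intro y hy y' hy' a b ha hb hab j i
    have h1 := tMap_affine i0 j0 r c y y' hab
    rw [h1]
    simp only [Pi.add_apply, Pi.smul_apply, smul_eq_mul]
    have h2 := hy j i
    have h3 := hy' j i
    have : cutK W = a * cutK W + b * cutK W := by
      rw [← add_mul, hab, one_mul]
    rw [this]
    gcongr
  refine ⟨⟨hconvK, ?_⟩, ?_, ?_⟩
  · intro y hy y' hy' a b ha hb hab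
    have h1 := tMap_affine i0 j0 r c y y' hab
    have hc := (phiT_convex (r := r) (c := c) h.hsum).2
      (x := tMap i0 j0 r c y) (y := tMap i0 j0 r c y')
      (fun j i => lt_of_lt_of_le hk0 (hy j i)) (fun j i => lt_of_lt_of_le hk0 (hy' j i)) ha hb hab
    unfold phiY
    rw [h1]
    exact hc
  · intro y hy
    exact phiT_nonneg h.hsum (fun j i => lt_of_lt_of_le hk0 (hy j i))
  · intro y hy
    obtain ⟨h1, h2⟩ := tMap_inner h hy
    refine ⟨?_, h2⟩
    intro j i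
    exact le_trans (psi_cutK_le_quarter (by linarith)) (h1 j i)

/-- The computed potential against the true one, on the big cube. -/
theorem phiHat_close (h : InstOK i0 j0 r c) {W : ℕ} (hW : WOK m n W) {y : Fin n × Fin m → ℝ}
    (hy : ∀ k, |y k| ≤ rQ W) (hd : y ∈ domY W i0 j0 r c) :
    phiY i0 j0 r c y - 1 / (W : ℝ) ^ 30 ≤ phiHat W (∑ i, r i) r c (tMap i0 j0 r c y)
      ∧ phiHat W (∑ i, r i) r c (tMap i0 j0 r c y) ≤ phiY i0 j0 r c y := by
  have hb := logCapHat_bound (W := W) (Nb := ∑ i, r i) (hW.n_le i0 j0) (r := r) (c := c) h.hsum le_rfl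
    (t := tMap i0 j0 r c y) (fun j i => ⟨hd j i, tMap_upper h hW hy j i⟩)
  unfold phiHat phiY phiT
  constructor <;> linarith [hb.1, hb.2]

end Reg

section Val

variable {W Nb : ℕ} {y : Fin n × Fin m → ℝ} {k : ℕ}

theorem psiVal_of_mem (hd : (1 + (k : ℝ) / (W : ℝ) ^ 53)⁻¹ • y ∈ domY W i0 j0 r c) :
    psiVal W Nb i0 j0 r c y k =
      (1 + (k : ℝ) / (W : ℝ) ^ 53) * phiHat W Nb r c (tMap i0 j0 r c ((1 + (k : ℝ) / (W : ℝ) ^ 53)⁻¹ • y))
        + (W : ℝ) ^ 27 * ((1 + (k : ℝ) / (W : ℝ) ^ 53) - 1) := by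
  unfold psiVal
  simp only
  exact if_pos hd

theorem psiVal_of_not_mem (hd : (1 + (k : ℝ) / (W : ℝ) ^ 53)⁻¹ • y ∉ domY W i0 j0 r c) :
    psiVal W Nb i0 j0 r c y k = (W : ℝ) ^ 32 := by
  unfold psiVal
  simp only
  exact if_neg hd

end Val

/-- The regularised potential is at most a large power on the big cube. -/
theorem psiE_upper (h : InstOK i0 j0 r c) {W : ℕ} (hW : WOK m n W) {y : Fin n × Fin m → ℝ}
    (hy : ∀ k, |y k| ≤ rQ W) : psiE W i0 j0 r c y + 1 ≤ (W : ℝ) ^ 32 := by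
  have hR := regHyp_inst h hW
  have hx := hW.x_ge i0 j0
  have hD := hW.D_le i0 j0
  have hD1 := psi_one_le_D i0 j0
  have hl0 : (0 : ℝ) ≤ (W : ℝ) ^ 27 := by positivity
  have h0 : psiE W i0 j0 r c 0 ≤ 2 * ((n : ℝ) * m) := by
    have h1 := reg_le hR hl0 hR.zero_mem
    exact le_trans h1 hR.phi_zero_le
  have h1 : psiE W i0 j0 r c y ≤ psiE W i0 j0 r c 0 + rQ W * (2 * ((n : ℝ) * m) + (W : ℝ) ^ 27) := by
    refine reg_lip hR hl0 (by unfold rQ; positivity) ?_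
    intro k
    simpa using hy k
  have hx1 : (1 : ℝ) ≤ W := by linarith
  have h2 : 2 * ((n : ℝ) * m) ≤ (W : ℝ) ^ 27 := by
    have : (W : ℝ) ^ 1 ≤ (W : ℝ) ^ 27 := psi_x_pow_mono hx1 (by norm_num)
    nlinarith [pow_one (W : ℝ)]
  have h3 : rQ W * (2 * ((n : ℝ) * m) + (W : ℝ) ^ 27) ≤ 4 * (W : ℝ) ^ 31 := by
    unfold rQ
    have : (0 : ℝ) ≤ 2 * (W : ℝ) ^ 4 := by positivity
    calc 2 * (W : ℝ) ^ 4 * (2 * ((n : ℝ) * m) + (W : ℝ) ^ 27)
        ≤ 2 * (W : ℝ) ^ 4 * (2 * (W : ℝ) ^ 27) := by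
          apply mul_le_mul_of_nonneg_left _ this
          linarith
      _ = 4 * (W : ℝ) ^ 31 := by ring
  have h4 : (W : ℝ) ^ 32 = W * (W : ℝ) ^ 31 := by ring
  have h5 : (1 : ℝ) ≤ (W : ℝ) ^ 31 := one_le_pow₀ hx1
  have h6 : (W : ℝ) ^ 27 ≤ (W : ℝ) ^ 31 := psi_x_pow_mono hx1 (by norm_num)
  have h7 : 4000000 * (W : ℝ) ^ 31 ≤ W * (W : ℝ) ^ 31 := by
    apply mul_le_mul_of_nonneg_right hx (by positivity)
  linarith

/-- `psiHat` is close to `psiE`. -/
theorem psiHat_close (h : InstOK i0 j0 r c) {W : ℕ} (hW : WOK m n W) {y : Fin n × Fin m → ℝ}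
    (hy : ∀ k, |y k| ≤ rQ W) :
    |psiHat W (∑ i, r i) i0 j0 r c y - psiE W i0 j0 r c y| ≤ 1 / (W : ℝ) ^ 25 := by
  have hR := regHyp_inst h hW
  have hx := hW.x_ge i0 j0
  have hx1 : (1 : ℝ) ≤ W := by linarith
  have hx0 : (0 : ℝ) < W := by linarith
  have hD := hW.D_le i0 j0
  have hD1 := psi_one_le_D i0 j0
  have hl0 : (0 : ℝ) ≤ (W : ℝ) ^ 27 := by positivity
  have hU0 : (0 : ℝ) ≤ 2 * ((n : ℝ) * m) := by positivity
  have hUL : 2 * ((n : ℝ) * m) ≤ (W : ℝ) ^ 27 := by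
    have : (W : ℝ) ^ 1 ≤ (W : ℝ) ^ 27 := psi_x_pow_mono hx1 (by norm_num)
    nlinarith [pow_one (W : ℝ)]
  rw [abs_le]
  constructor
  · -- the lower bound for every index
    have key : psiE W i0 j0 r c y - 1 / (W : ℝ) ^ 25 ≤ psiHat W (∑ i, r i) i0 j0 r c y := by
      unfold psiHat
      refine Finset.le_inf' _ _ ?_
      intro k hk
      have hk' : k ≤ 8 * W ^ 57 := by
        rw [Finset.mem_range] at hk
        omega
      have hkR : (k : ℝ) ≤ 8 * (W : ℝ) ^ 57 := by exact_mod_cast hk'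
      set s : ℝ := 1 + (k : ℝ) / (W : ℝ) ^ 53 with hs
      have hs1 : 1 ≤ s := by
        have : 0 ≤ (k : ℝ) / (W : ℝ) ^ 53 := by positivity
        linarith
      have hs2 : s ≤ 1 + 8 * (W : ℝ) ^ 4 := by
        have : (k : ℝ) / (W : ℝ) ^ 53 ≤ 8 * (W : ℝ) ^ 4 := by
          rw [div_le_iff₀ (by positivity)]
          calc (k : ℝ) ≤ 8 * (W : ℝ) ^ 57 := hkR
            _ = 8 * (W : ℝ) ^ 4 * (W : ℝ) ^ 53 := by ring
        rw [hs]; linarith
      have hs0 : 0 < s := by linarith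
      by_cases hd : s⁻¹ • y ∈ domY W i0 j0 r c
      · rw [psiVal_of_mem hd]
        have hcube : ∀ k, |(s⁻¹ • y) k| ≤ rQ W := by
          intro k
          simp only [Pi.smul_apply, smul_eq_mul, abs_mul, abs_inv, abs_of_pos hs0]
          rw [inv_mul_le_iff₀ hs0]
          have h1 := hy k
          have h2 : 0 ≤ |y k| := abs_nonneg _
          nlinarith [psi_one_le_rQ hx1]
        obtain ⟨h1, _⟩ := phiHat_close h hW hcube hd
        have h2 := reg_le_val hR hl0 hs1 hd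
        have h3 : s * (1 / (W : ℝ) ^ 30) ≤ 1 / (W : ℝ) ^ 25 := by
          rw [mul_one_div, div_le_div_iff₀ (by positivity) (by positivity)]
          calc s * (W : ℝ) ^ 25 ≤ (1 + 8 * (W : ℝ) ^ 4) * (W : ℝ) ^ 25 := by gcongr
            _ ≤ (W : ℝ) ^ 5 * (W : ℝ) ^ 25 := by
              apply mul_le_mul_of_nonneg_right _ (by positivity)
              have h4 : (W : ℝ) ^ 5 = W * (W : ℝ) ^ 4 := by ring
              have h5 : (1 : ℝ) ≤ (W : ℝ) ^ 4 := one_le_pow₀ hx1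
              have h6 : 4000000 * (W : ℝ) ^ 4 ≤ W * (W : ℝ) ^ 4 :=
                mul_le_mul_of_nonneg_right hx (by positivity)
              linarith
            _ = 1 * (W : ℝ) ^ 30 := by ring
        have h4 : s * phiHat W (∑ i, r i) r c (tMap i0 j0 r c (s⁻¹ • y))
            ≥ s * phiY i0 j0 r c (s⁻¹ • y) - s * (1 / (W : ℝ) ^ 30) := by
          have := mul_le_mul_of_nonneg_left h1 hs0.le
          linarith [mul_sub s (phiY i0 j0 r c (s⁻¹ • y)) (1 / (W : ℝ) ^ 30)]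
        have h5 : regVal (phiY i0 j0 r c) ((W : ℝ) ^ 27) y s
            = s * phiY i0 j0 r c (s⁻¹ • y) + (W : ℝ) ^ 27 * (s - 1) := rfl
        unfold psiE
        linarith
      · rw [psiVal_of_not_mem hd]
        have h1 := psiE_upper h hW hy
        have h2 : (0 : ℝ) ≤ 1 / (W : ℝ) ^ 25 := by positivity
        linarith
    linarith
  · -- the upper bound by one index
    have hRq := psi_one_le_rQ hx1
    have hxi : (0 : ℝ) < 1 / (2 * (W : ℝ) ^ 25) := by positivity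
    obtain ⟨s, hs1, hs2, hsd, hsv⟩ := reg_search hR hUL hU0 hRq hy hxi
    set K : ℕ := ⌈(s - 1) * (W : ℝ) ^ 53⌉₊ with hK
    have hnn : 0 ≤ (s - 1) * (W : ℝ) ^ 53 := by
      have : 0 ≤ s - 1 := by linarith
      positivity
    have hK1 : (s - 1) * (W : ℝ) ^ 53 ≤ K := Nat.le_ceil _
    have hK2 : (K : ℝ) < (s - 1) * (W : ℝ) ^ 53 + 1 := Nat.ceil_lt_add_one hnn
    have hKbd : (K : ℝ) ≤ 8 * (W : ℝ) ^ 57 := by
      have h1 : (s - 1) * (W : ℝ) ^ 53 ≤ 4 * (W : ℝ) ^ 4 * (W : ℝ) ^ 53 := by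
        apply mul_le_mul_of_nonneg_right _ (by positivity)
        have : 2 * rQ W = 4 * (W : ℝ) ^ 4 := by unfold rQ; ring
        linarith
      have h2 : (4 : ℝ) * (W : ℝ) ^ 4 * (W : ℝ) ^ 53 = 4 * (W : ℝ) ^ 57 := by ring
      have h3 : (1 : ℝ) ≤ (W : ℝ) ^ 57 := one_le_pow₀ hx1
      linarith
    have hKN : K ≤ 8 * W ^ 57 := by exact_mod_cast hKbd
    have hmem : K ∈ range (8 * W ^ 57 + 1) := by
      rw [Finset.mem_range]; omega
    have hle := Finset.inf'_le (s := range (8 * W ^ 57 + 1)) (psiVal W (∑ i, r i) i0 j0 r c y) hmem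
    set sK : ℝ := 1 + (K : ℝ) / (W : ℝ) ^ 53 with hsK
    have hpw : (0 : ℝ) < (W : ℝ) ^ 53 := by positivity
    have hss : s ≤ sK := by
      have : s - 1 ≤ (K : ℝ) / (W : ℝ) ^ 53 := by
        rw [le_div_iff₀ hpw]; exact hK1
      rw [hsK]; linarith
    have hss2 : sK - s ≤ 1 / (W : ℝ) ^ 53 := by
      have : (K : ℝ) / (W : ℝ) ^ 53 ≤ (s - 1) + 1 / (W : ℝ) ^ 53 := by
        rw [div_le_iff₀ hpw]
        have : ((s - 1) + 1 / (W : ℝ) ^ 53) * (W : ℝ) ^ 53 = (s - 1) * (W : ℝ) ^ 53 + 1 := by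
          field_simp
        rw [this]; exact hK2.le
      rw [hsK]; linarith
    obtain ⟨hd, hstep⟩ := reg_step hR hl0 hs1 hss hsd
    have hsK1 : 1 ≤ sK := le_trans hs1 hss
    have hsK0 : 0 < sK := by linarith
    have hcube : ∀ k, |(sK⁻¹ • y) k| ≤ rQ W := by
      intro k
      simp only [Pi.smul_apply, smul_eq_mul, abs_mul, abs_inv, abs_of_pos hsK0]
      rw [inv_mul_le_iff₀ hsK0]
      have h1 := hy k
      have h2 : 0 ≤ |y k| := abs_nonneg _
      nlinarith [psi_one_le_rQ hx1]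
    have hval := psiVal_of_mem (i0 := i0) (j0 := j0) (r := r) (c := c) (W := W)
      (Nb := ∑ i, r i) (y := y) (k := K) hd
    obtain ⟨_, hphi⟩ := phiHat_close h hW hcube hd
    have hv2 : psiVal W (∑ i, r i) i0 j0 r c y K ≤ regVal (phiY i0 j0 r c) ((W : ℝ) ^ 27) y sK := by
      rw [hval]
      have h1 := mul_le_mul_of_nonneg_left hphi hsK0.le
      have h5 : regVal (phiY i0 j0 r c) ((W : ℝ) ^ 27) y sK
            = sK * phiY i0 j0 r c (sK⁻¹ • y) + (W : ℝ) ^ 27 * (sK - 1) := rfl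
      rw [h5]
      linarith
    have herr : (sK - s) * (2 * ((n : ℝ) * m) + (W : ℝ) ^ 27) ≤ 1 / (2 * (W : ℝ) ^ 25) := by
      have h0 : 0 ≤ sK - s := by linarith
      calc (sK - s) * (2 * ((n : ℝ) * m) + (W : ℝ) ^ 27)
          ≤ 1 / (W : ℝ) ^ 53 * (2 * (W : ℝ) ^ 27) := by
            apply mul_le_mul hss2 (by linarith) (by positivity) (by positivity)
        _ ≤ 1 / (2 * (W : ℝ) ^ 25) := by
            rw [one_div_mul_eq_div, div_le_div_iff₀ hpw (by positivity)]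
            have : (W : ℝ) ^ 53 = (W : ℝ) ^ 1 * (W : ℝ) ^ 52 := by ring
            have h7 : 4 * (W : ℝ) ^ 52 ≤ W * (W : ℝ) ^ 52 :=
              mul_le_mul_of_nonneg_right (by linarith) (by positivity)
            have : 2 * (W : ℝ) ^ 27 * (2 * (W : ℝ) ^ 25) = 4 * (W : ℝ) ^ 52 := by ring
            rw [this]
            nlinarith [pow_one (W : ℝ)]
    have hfin : psiHat W (∑ i, r i) i0 j0 r c y ≤ psiVal W (∑ i, r i) i0 j0 r c y K := hle
    have hhalf : 1 / (2 * (W : ℝ) ^ 25) + 1 / (2 * (W : ℝ) ^ 25) = 1 / (W : ℝ) ^ 25 := by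
      field_simp
      norm_num
    have hpsiE : psiE W i0 j0 r c y
        = regPsi (domY W i0 j0 r c) (phiY i0 j0 r c) ((W : ℝ) ^ 27) y := rfl
    rw [hpsiE]
    linarith

section Cell

variable {W : ℕ}

theorem psi_cellM_cast (W : ℕ) : ((cellM W : ℕ) : ℝ) = 4 * (W : ℝ) ^ 56 + 1 := by
  unfold cellM; push_cast; ring

theorem psi_cellM_pos (W : ℕ) : 0 < cellM W := by
  unfold cellM; omega

theorem psi_cellPt_cube {ι : Type} {W : ℕ} (hW : (1 : ℝ) ≤ W) (z : ι → Fin (cellM W)) {u : ι → ℝ}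
    (hu : ∀ k, 0 ≤ u k ∧ u k ≤ 1) (k : ι) : |cellPt W z u k| ≤ rQ W := by
  unfold cellPt cellD
  have hM : (0 : ℝ) < (cellM W : ℝ) := by exact_mod_cast psi_cellM_pos W
  have hR : 0 < rQ W := by linarith [psi_one_le_rQ hW]
  have hz0 : (0 : ℝ) ≤ ((z k : ℕ) : ℝ) := Nat.cast_nonneg _
  have hz1 : ((z k : ℕ) : ℝ) + 1 ≤ (cellM W : ℝ) := by
    have := (z k).2
    exact_mod_cast this
  obtain ⟨hu0, hu1⟩ := hu k
  have hq0 : 0 ≤ (((z k : ℕ) : ℝ) + u k) / (cellM W : ℝ) := by positivity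
  have hq1 : (((z k : ℕ) : ℝ) + u k) / (cellM W : ℝ) ≤ 1 := by
    rw [div_le_one hM]; linarith
  have he : 2 * rQ W / (cellM W : ℝ) * (((z k : ℕ) : ℝ) + u k)
      = 2 * rQ W * ((((z k : ℕ) : ℝ) + u k) / (cellM W : ℝ)) := by ring
  rw [he, abs_le]
  constructor <;> nlinarith

theorem psi_cellD_half_le {W : ℕ} (hW : (1 : ℝ) ≤ W) : cellD W / 2 ≤ 1 / (W : ℝ) ^ 52 := by
  unfold cellD rQ
  have hM : (0 : ℝ) < (cellM W : ℝ) := by exact_mod_cast psi_cellM_pos W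
  rw [psi_cellM_cast] at hM ⊢
  have h0 : (0 : ℝ) < (W : ℝ) ^ 52 := by positivity
  rw [div_div, div_le_div_iff₀ (by positivity) h0]
  have : 2 * (2 * (W : ℝ) ^ 4) * (W : ℝ) ^ 52 = 4 * (W : ℝ) ^ 56 := by ring
  rw [this]
  linarith

end Cell

/-- `psiCell` is close to `psiE` on the whole small cube. -/
theorem psiCell_close (h : InstOK i0 j0 r c) {W : ℕ} (hW : WOK m n W)
    (z : Fin n × Fin m → Fin (cellM W)) {u : Fin n × Fin m → ℝ} (hu : ∀ k, 0 ≤ u k ∧ u k ≤ 1) :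
    |psiCell W (∑ i, r i) i0 j0 r c z - psiE W i0 j0 r c (cellPt W z u)| ≤ 3 / (W : ℝ) ^ 25 := by
  have hR := regHyp_inst h hW
  have hx := hW.x_ge i0 j0
  have hx1 : (1 : ℝ) ≤ W := by linarith
  have hx0 : (0 : ℝ) < W := by linarith
  have hD := hW.D_le i0 j0
  have hl0 : (0 : ℝ) ≤ (W : ℝ) ^ 27 := by positivity
  have hUL : 2 * ((n : ℝ) * m) ≤ (W : ℝ) ^ 27 := by
    have : (W : ℝ) ^ 1 ≤ (W : ℝ) ^ 27 := psi_x_pow_mono hx1 (by norm_num)
    nlinarith [pow_one (W : ℝ)]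
  have hc : ∀ k, (0 : ℝ) ≤ (fun _ : Fin n × Fin m => (1 / 2 : ℝ)) k ∧ (fun _ : Fin n × Fin m => (1 / 2 : ℝ)) k ≤ 1 := by
    intro k; constructor <;> norm_num
  have h1 := psiHat_close h hW (y := cellPt W z fun _ => 1 / 2) (psi_cellPt_cube hx1 z hc)
  have hdiff : ∀ (k : Fin n × Fin m), |(cellPt W z fun _ => (1 / 2 : ℝ)) k - cellPt W z u k| ≤ cellD W / 2 := by
    intro k
    unfold cellPt
    have hCD : 0 ≤ cellD W := by
      unfold cellD rQ
      positivity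
    have : (-rQ W + cellD W * (((z k : ℕ) : ℝ) + 1 / 2)) - (-rQ W + cellD W * (((z k : ℕ) : ℝ) + u k))
        = cellD W * (1 / 2 - u k) := by ring
    rw [this, abs_mul, abs_of_nonneg hCD]
    obtain ⟨hu0, hu1⟩ := hu k
    have : |(1 / 2 : ℝ) - u k| ≤ 1 / 2 := by
      rw [abs_le]; constructor <;> linarith
    nlinarith
  have hdiff' : ∀ (k : Fin n × Fin m), |cellPt W z u k - (cellPt W z fun _ => (1 / 2 : ℝ)) k| ≤ cellD W / 2 := by
    intro k; rw [abs_sub_comm]; exact hdiff k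
  have hCD : 0 ≤ cellD W / 2 := by
    unfold cellD rQ
    positivity
  have h2 := reg_lip hR hl0 hCD hdiff
  have h3 := reg_lip hR hl0 hCD hdiff'
  have herr : cellD W / 2 * (2 * ((n : ℝ) * m) + (W : ℝ) ^ 27) ≤ 2 / (W : ℝ) ^ 25 := by
    calc cellD W / 2 * (2 * ((n : ℝ) * m) + (W : ℝ) ^ 27)
        ≤ 1 / (W : ℝ) ^ 52 * (2 * (W : ℝ) ^ 27) :=
          mul_le_mul (psi_cellD_half_le hx1) (by linarith) (by positivity) (by positivity)
      _ = 2 / (W : ℝ) ^ 25 := by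
          field_simp
  have hdef : psiCell W (∑ i, r i) i0 j0 r c z
      = psiHat W (∑ i, r i) i0 j0 r c (cellPt W z fun _ => 1 / 2) := rfl
  have hp : (0 : ℝ) < 1 / (W : ℝ) ^ 25 := by positivity
  have h3' : (3 : ℝ) / (W : ℝ) ^ 25 = 1 / (W : ℝ) ^ 25 + 2 / (W : ℝ) ^ 25 := by ring
  have hpsiE : ∀ y, psiE W i0 j0 r c y
      = regPsi (domY W i0 j0 r c) (phiY i0 j0 r c) ((W : ℝ) ^ 27) y := fun _ => rfl
  rw [hdef, h3']
  rw [abs_le] at h1 ⊢
  rw [hpsiE] at h1 ⊢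
  constructor <;> linarith [h1.1, h1.2]

/-- Bounds for `psiCell`. -/
theorem psiCell_bounds (h : InstOK i0 j0 r c) {W : ℕ} (hW : WOK m n W)
    (z : Fin n × Fin m → Fin (cellM W)) :
    -1 ≤ psiCell W (∑ i, r i) i0 j0 r c z ∧ psiCell W (∑ i, r i) i0 j0 r c z ≤ (W : ℝ) ^ 32 := by
  have hR := regHyp_inst h hW
  have hx := hW.x_ge i0 j0
  have hx1 : (1 : ℝ) ≤ W := by linarith
  have hl0 : (0 : ℝ) ≤ (W : ℝ) ^ 27 := by positivity
  have hc : ∀ k, (0 : ℝ) ≤ (fun _ : Fin n × Fin m => (1 / 2 : ℝ)) k ∧ (fun _ : Fin n × Fin m => (1 / 2 : ℝ)) k ≤ 1 := by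
    intro k; constructor <;> norm_num
  have hcube := psi_cellPt_cube hx1 z hc
  have h1 := psiHat_close h hW (y := cellPt W z fun _ => 1 / 2) hcube
  have h2 := psiE_upper h hW hcube
  have h3 : 0 ≤ psiE W i0 j0 r c (cellPt W z fun _ => 1 / 2) := reg_nonneg hR hl0 _
  have h4 : (1 : ℝ) / (W : ℝ) ^ 25 ≤ 1 := by
    rw [div_le_one (by positivity)]
    exact one_le_pow₀ hx1
  have hdef : psiCell W (∑ i, r i) i0 j0 r c z
      = psiHat W (∑ i, r i) i0 j0 r c (cellPt W z fun _ => 1 / 2) := rfl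
  rw [hdef]
  rw [abs_le] at h1
  constructor <;> linarith [h1.1, h1.2]

/-- The grid potential for the chain at level `a`. -/
noncomputable def psiGrid (W : ℕ) (i0 : Fin m) (j0 : Fin n) (r : Fin m → ℕ) (c : Fin n → ℕ) (a : ℝ)
    (x : Fin n × Fin m → ℝ) : ℝ :=
  a * psiE W i0 j0 r c (fun k => -rQ W + cellD W * x k)

theorem psiGrid_convex (h : InstOK i0 j0 r c) {W : ℕ} (hW : WOK m n W) {a : ℝ} (ha0 : 0 ≤ a) :
    ConvexOn ℝ Set.univ (psiGrid W i0 j0 r c a) := by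
  have hR := regHyp_inst h hW
  have hl0 : (0 : ℝ) ≤ (W : ℝ) ^ 27 := by positivity
  have : Nonempty (Fin n × Fin m) := ⟨(j0, i0)⟩
  have hc := reg_convex hR hl0
  refine ⟨convex_univ, ?_⟩
  intro x _ x' _ α β hα hβ hαβ
  have h1 := hc.2 (Set.mem_univ (fun k => -rQ W + cellD W * x k))
    (Set.mem_univ (fun k => -rQ W + cellD W * x' k)) hα hβ hαβ
  have h2 : (fun k => -rQ W + cellD W * (α • x + β • x') k)
      = α • (fun k => -rQ W + cellD W * x k) + β • (fun k => -rQ W + cellD W * x' k) := by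
    ext k
    simp only [Pi.add_apply, Pi.smul_apply, smul_eq_mul]
    linear_combination (rQ W) * hαβ
  simp only [psiGrid, smul_eq_mul]
  rw [h2]
  have h3 := mul_le_mul_of_nonneg_left h1 ha0
  simp only [smul_eq_mul] at h3
  unfold psiE
  calc a * regPsi _ _ _ _ ≤ _ := h3
    _ = _ := by ring

theorem psiGrid_continuous (h : InstOK i0 j0 r c) {W : ℕ} (hW : WOK m n W) (a : ℝ) :
    Continuous (psiGrid W i0 j0 r c a) := by
  have hR := regHyp_inst h hW
  have hl0 : (0 : ℝ) ≤ (W : ℝ) ^ 27 := by positivity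
  have hc := reg_continuous hR hl0 (by positivity)
  unfold psiGrid
  refine continuous_const.mul ?_
  refine hc.comp ?_
  fun_prop

/-- **The chain mixes at all levels.** -/
theorem chain_tv (h : InstOK i0 j0 r c) {W : ℕ} (hW : WOK m n W) (hm : 0 < m) (hn : 0 < n) {a : ℝ}
    (ha0 : 0 ≤ a) (ha1 : a ≤ 1) :
    ∑ z, |chainLaw W (∑ i, r i) i0 j0 r c a z
        - Real.exp (-a * psiCell W (∑ i, r i) i0 j0 r c z)
          / ∑ z', Real.exp (-a * psiCell W (∑ i, r i) i0 j0 r c z')|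
      ≤ Real.exp (-(W : ℝ)) := by
  have : Nonempty (Fin n × Fin m) := ⟨(j0, i0)⟩
  have hx := hW.x_ge i0 j0
  have hx1 : (1 : ℝ) ≤ W := by linarith
  have hx0 : (0 : ℝ) < W := by linarith
  set w : (Fin n × Fin m → Fin (cellM W)) → ℝ :=
    fun z => Real.exp (-a * psiCell W (∑ i, r i) i0 j0 r c z) with hw
  have hwpos : ∀ z, 0 < w z := fun z => Real.exp_pos _
  have hclose : ∀ z, ∀ x ∈ unitCell z, |Real.log (w z) + psiGrid W i0 j0 r c a x| ≤ 1 / 8 := by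
    intro z x hxz
    set u : Fin n × Fin m → ℝ := fun k => x k - ((z k : ℕ) : ℝ) with hu
    have hu01 : ∀ k, 0 ≤ u k ∧ u k ≤ 1 := by
      intro k
      have := hxz k
      simp only [hu]
      constructor <;> linarith [this.1, this.2]
    have h1 := psiCell_close h hW z hu01
    have h2 : (fun k => -rQ W + cellD W * x k) = cellPt W z u := by
      ext k
      simp only [cellPt, hu]
      ring
    simp only [hw, Real.log_exp, psiGrid]
    rw [h2]
    have h3 : -a * psiCell W (∑ i, r i) i0 j0 r c z + a * psiE W i0 j0 r c (cellPt W z u)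
        = -(a * (psiCell W (∑ i, r i) i0 j0 r c z - psiE W i0 j0 r c (cellPt W z u))) := by ring
    rw [h3, abs_neg, abs_mul, abs_of_nonneg ha0]
    have h4 : (3 : ℝ) / (W : ℝ) ^ 25 ≤ 1 / 8 := by
      rw [div_le_div_iff₀ (by positivity) (by norm_num)]
      have : (W : ℝ) ^ 1 ≤ (W : ℝ) ^ 25 := psi_x_pow_mono hx1 (by norm_num)
      nlinarith [pow_one (W : ℝ)]
    have h5 := abs_nonneg (psiCell W (∑ i, r i) i0 j0 r c z - psiE W i0 j0 r c (cellPt W z u))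
    nlinarith
  have hT := grid_tv (ι := Fin n × Fin m) (M := cellM W) (psi_cellM_pos W)
    (psiGrid_convex h hW ha0) (psiGrid_continuous h hW a) hwpos hclose (zStart _ W) (chainT W)
  have hcard : (Fintype.card (Fin n × Fin m) : ℝ) = (n : ℝ) * m := by
    simp [Fintype.card_prod]
  rw [hcard] at hT
  have hlaw : ∀ z, chainLaw W (∑ i, r i) i0 j0 r c a z
      = (gridP (1 / (4 * ((n : ℝ) * m))) w ^ chainT W) (zStart _ W) z := fun z => rfl
  simp only [hlaw]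
  refine le_trans hT ?_
  rw [Real.sqrt_le_iff]
  refine ⟨(Real.exp_pos _).le, ?_⟩
  -- the numbers
  set D : ℝ := (n : ℝ) * m with hD
  have hD1 : 1 ≤ D := psi_one_le_D i0 j0
  have hDsq : 1000000 * D ^ 2 ≤ W := hW.D_sq_le i0 j0
  have hDW : D ≤ W := by have := hW.D_le i0 j0; nlinarith
  set M : ℝ := (cellM W : ℝ) with hM
  have hMeq : M = 4 * (W : ℝ) ^ 56 + 1 := psi_cellM_cast W
  have hMge : 1 ≤ M := by
    rw [hMeq]; have : 0 ≤ (W : ℝ) ^ 56 := by positivity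
    linarith
  have hMle : M ≤ 5 * (W : ℝ) ^ 56 := by
    rw [hMeq]; linarith [one_le_pow₀ (n := 56) hx1]
  set q : ℝ := 1 / (16384 * D ^ 2 * M ^ 2) with hq
  have hqpos : 0 < q := by rw [hq]; positivity
  have hden : 16384 * D ^ 2 * M ^ 2 ≤ (W : ℝ) ^ 113 := by
    have h1 : M ^ 2 ≤ 25 * (W : ℝ) ^ 112 := by
      calc M ^ 2 ≤ (5 * (W : ℝ) ^ 56) ^ 2 := by
            apply pow_le_pow_left₀ (by linarith) hMle
        _ = 25 * (W : ℝ) ^ 112 := by ring
    have h2 : D ^ 2 ≤ W / 1000000 := by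
      rw [le_div_iff₀ (by norm_num)]; linarith
    calc 16384 * D ^ 2 * M ^ 2 ≤ 16384 * ((W : ℝ) / 1000000) * (25 * (W : ℝ) ^ 112) := by
          gcongr
      _ ≤ (W : ℝ) ^ 113 := by
          have : (W : ℝ) ^ 113 = W * (W : ℝ) ^ 112 := by ring
          rw [this]
          have h3 : 0 ≤ (W : ℝ) * (W : ℝ) ^ 112 := by positivity
          nlinarith
  have hden1 : 1 ≤ 16384 * D ^ 2 * M ^ 2 := by
    have h1 : 1 ≤ D ^ 2 := one_le_pow₀ hD1
    have h2 : 1 ≤ M ^ 2 := one_le_pow₀ hMge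
    nlinarith
  have hq1 : q ≤ 1 := by
    rw [hq, div_le_one (by positivity)]; exact hden1
  have hpow : (1 - q) ^ chainT W ≤ Real.exp (-(W : ℝ) ^ 37) := by
    have h1 : 1 - q ≤ Real.exp (-q) := Real.one_sub_le_exp_neg q
    have h2 : (1 - q) ^ chainT W ≤ Real.exp (-q) ^ chainT W :=
      pow_le_pow_left₀ (by linarith) h1 _
    refine le_trans h2 ?_
    rw [← Real.exp_nat_mul]
    apply Real.exp_le_exp.mpr
    have h3 : ((chainT W : ℕ) : ℝ) = (W : ℝ) ^ 150 := by unfold chainT; push_cast; ring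
    rw [h3]
    have h4 : (W : ℝ) ^ 37 ≤ (W : ℝ) ^ 150 * q := by
      rw [hq, mul_one_div, le_div_iff₀ (by positivity)]
      calc (W : ℝ) ^ 37 * (16384 * D ^ 2 * M ^ 2) ≤ (W : ℝ) ^ 37 * (W : ℝ) ^ 113 := by gcongr
        _ = (W : ℝ) ^ 150 := by ring
    have : (W : ℝ) ^ 150 * -q = -((W : ℝ) ^ 150 * q) := by ring
    rw [this]
    linarith
  -- the weights
  have hbds := fun z => psiCell_bounds h hW z
  have hw0 : w (zStart _ W) ≥ Real.exp (-(W : ℝ) ^ 32) := by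
    apply Real.exp_le_exp.mpr
    have h1 := (hbds (zStart _ W)).2
    have h2 : (0 : ℝ) ≤ (W : ℝ) ^ 32 := by positivity
    nlinarith
  have hwle : ∀ z, w z ≤ Real.exp 1 := by
    intro z
    apply Real.exp_le_exp.mpr
    have h1 := (hbds z).1
    nlinarith
  have hsum : ∑ z', w z' ≤ Real.exp (57 * (W : ℝ) ^ 2 + 1) := by
    have hcardS : ∑ z' : Fin n × Fin m → Fin (cellM W), w z'
        ≤ (Fintype.card (Fin n × Fin m → Fin (cellM W)) : ℝ) * Real.exp 1 := by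
      have := Finset.sum_le_card_nsmul (univ : Finset (Fin n × Fin m → Fin (cellM W))) w (Real.exp 1)
        (fun z _ => hwle z)
      simpa [nsmul_eq_mul, Finset.card_univ] using this
    refine le_trans hcardS ?_
    have hcc : ((Fintype.card (Fin n × Fin m → Fin (cellM W)) : ℕ) : ℝ) = M ^ (n * m) := by
      simp [Fintype.card_prod, hM]
    rw [hcc, Real.exp_add]
    apply mul_le_mul_of_nonneg_right _ (Real.exp_pos _).le
    have hMexp : M ≤ Real.exp (57 * (W : ℝ)) := by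
      have h1 : (W : ℝ) ≤ Real.exp W := by linarith [Real.add_one_le_exp (W : ℝ)]
      have h2 : (W : ℝ) ^ 57 ≤ Real.exp (W : ℝ) ^ 57 := pow_le_pow_left₀ hx0.le h1 _
      rw [← Real.exp_nat_mul] at h2
      have h3 : M ≤ (W : ℝ) ^ 57 := by
        have : (W : ℝ) ^ 57 = W * (W : ℝ) ^ 56 := by ring
        rw [this]
        have h4 : 5 * (W : ℝ) ^ 56 ≤ W * (W : ℝ) ^ 56 :=
          mul_le_mul_of_nonneg_right (by linarith) (by positivity)
        linarith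
      refine le_trans h3 (le_trans h2 (le_of_eq ?_))
      norm_num
    calc M ^ (n * m) ≤ Real.exp (57 * (W : ℝ)) ^ (n * m) := pow_le_pow_left₀ (by linarith) hMexp _
      _ = Real.exp (((n * m : ℕ) : ℝ) * (57 * (W : ℝ))) := by rw [← Real.exp_nat_mul]
      _ ≤ Real.exp (57 * (W : ℝ) ^ 2) := by
          apply Real.exp_le_exp.mpr
          have : ((n * m : ℕ) : ℝ) = D := by rw [hD]; push_cast; ring
          rw [this]
          nlinarith
  have hpos0 := hwpos (zStart _ W)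
  have hratio : (∑ z', w z') / w (zStart _ W) ≤ Real.exp (57 * (W : ℝ) ^ 2 + 1 + (W : ℝ) ^ 32) := by
    rw [div_le_iff₀ hpos0]
    have h1 : Real.exp (57 * (W : ℝ) ^ 2 + 1 + (W : ℝ) ^ 32)
        = Real.exp (57 * (W : ℝ) ^ 2 + 1) * Real.exp ((W : ℝ) ^ 32) := by rw [Real.exp_add]
    rw [h1]
    have h2 : 1 ≤ Real.exp ((W : ℝ) ^ 32) * w (zStart _ W) := by
      have h3 : Real.exp ((W : ℝ) ^ 32) * Real.exp (-(W : ℝ) ^ 32) = 1 := by
        rw [← Real.exp_add]; simp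
      have h4 := mul_le_mul_of_nonneg_left hw0 (Real.exp_pos ((W : ℝ) ^ 32)).le
      linarith
    calc ∑ z', w z' ≤ Real.exp (57 * (W : ℝ) ^ 2 + 1) := hsum
      _ ≤ Real.exp (57 * (W : ℝ) ^ 2 + 1) * (Real.exp ((W : ℝ) ^ 32) * w (zStart _ W)) :=
          le_mul_of_one_le_right (Real.exp_pos _).le h2
      _ = _ := by ring
  have hqn : 0 ≤ 1 - q := by linarith
  have hS0 : 0 ≤ (∑ z', w z') / w (zStart _ W) := by
    apply div_nonneg (Finset.sum_nonneg fun z _ => (hwpos z).le) hpos0.le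
  calc (1 - q) ^ chainT W * ((∑ z', w z') / w (zStart _ W))
      ≤ Real.exp (-(W : ℝ) ^ 37) * Real.exp (57 * (W : ℝ) ^ 2 + 1 + (W : ℝ) ^ 32) :=
        mul_le_mul hpow hratio hS0 (Real.exp_pos _).le
    _ = Real.exp (-(W : ℝ) ^ 37 + (57 * (W : ℝ) ^ 2 + 1 + (W : ℝ) ^ 32)) :=
        (Real.exp_add _ _).symm
    _ ≤ Real.exp (-(W : ℝ)) ^ 2 := by
        rw [← Real.exp_nat_mul]
        apply Real.exp_le_exp.mpr
        have h1 : (W : ℝ) ^ 2 ≤ (W : ℝ) ^ 36 := psi_x_pow_mono hx1 (by norm_num)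
        have h2 : (W : ℝ) ^ 32 ≤ (W : ℝ) ^ 36 := psi_x_pow_mono hx1 (by norm_num)
        have h3 : (1 : ℝ) ≤ (W : ℝ) ^ 36 := one_le_pow₀ hx1
        have h4 : (W : ℝ) ^ 1 ≤ (W : ℝ) ^ 36 := psi_x_pow_mono hx1 (by norm_num)
        have h5 : (W : ℝ) ^ 37 = W * (W : ℝ) ^ 36 := by ring
        have h6 : 100 * (W : ℝ) ^ 36 ≤ W * (W : ℝ) ^ 36 :=
          mul_le_mul_of_nonneg_right (by linarith) (by positivity)
        push_cast
        nlinarith [pow_one (W : ℝ)]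

theorem psi_measurable_phiT (r : Fin m → ℕ) (c : Fin n → ℕ) : Measurable (phiT r c) := by
  unfold phiT
  have h1 := capa_measurable r c
  have h2 : Measurable fun t : Fin n → Fin m → ℝ => Real.log (capa r c t).toReal :=
    Real.measurable_log.comp h1.ennreal_toReal
  have h3 : Measurable fun t : Fin n → Fin m → ℝ => ∑ j, ∑ i, t j i := by
    refine Finset.measurable_sum _ fun j _ => Finset.measurable_sum _ fun i _ => ?_
    exact (measurable_pi_apply i).comp (measurable_pi_apply j)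
  exact (h3.sub h2).sub measurable_const

theorem psi_measurableSet_domY (W : ℕ) (i0 : Fin m) (j0 : Fin n) (r : Fin m → ℕ) (c : Fin n → ℕ) :
    MeasurableSet (domY W i0 j0 r c) := by
  have : domY W i0 j0 r c = ⋂ j, ⋂ i, {y | cutK W ≤ tMap i0 j0 r c y j i} := by
    ext y; simp [domY]
  rw [this]
  refine MeasurableSet.iInter fun j => MeasurableSet.iInter fun i => ?_
  have hc : Continuous fun y => tMap i0 j0 r c y j i :=
    (continuous_apply i).comp ((continuous_apply j).comp (continuous_tMap i0 j0 r c))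
  exact measurableSet_le measurable_const hc.measurable

/-- The mass of the regularised potential on the big cube. -/
theorem psi_mass (h : InstOK i0 j0 r c) {W : ℕ} (hW : WOK m n W) (hm : 0 < m) (hn : 0 < n) :
    ∫⁻ y in {y : Fin n × Fin m → ℝ | ∀ k, |y k| ≤ rQ W},
        ENNReal.ofReal (Real.exp (-psiE W i0 j0 r c y))
      ≤ ENNReal.ofReal (1 + 1 / (W : ℝ) ^ 24)
        * ∫⁻ y in domY W i0 j0 r c, ENNReal.ofReal (Real.exp (-phiY i0 j0 r c y)) := by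
  have hR := regHyp_inst h hW
  have hx := hW.x_ge i0 j0
  have hx1 : (1 : ℝ) ≤ W := by linarith
  have hx0 : (0 : ℝ) < W := by linarith
  have hl0 : (0 : ℝ) ≤ (W : ℝ) ^ 27 := by positivity
  have hK := psi_measurableSet_domY W i0 j0 r c
  have hφm : Measurable (phiY i0 j0 r c) :=
    (psi_measurable_phiT r c).comp (continuous_tMap i0 j0 r c).measurable
  have hφ : Measurable fun y => (domY W i0 j0 r c).indicator
      (fun y => ENNReal.ofReal (Real.exp (-phiY i0 j0 r c y))) y :=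
    (ENNReal.measurable_ofReal.comp (Real.measurable_exp.comp hφm.neg)).indicator hK
  set D : ℝ := (n : ℝ) * m with hD
  have hD1 : 1 ≤ D := psi_one_le_D i0 j0
  have hDW : 1000000 * D ≤ W := hW.D_le i0 j0
  have hθ : (0 : ℝ) < 1 / (W : ℝ) ^ 25 := by positivity
  have hmain := reg_mass hR hK hφ (by positivity) hl0 hθ (psi_one_le_rQ hx1)
  unfold psiE
  refine le_trans hmain ?_
  refine mul_le_mul' (ENNReal.ofReal_le_ofReal ?_) le_rfl
  have hcard : (Fintype.card (Fin n × Fin m)) = n * m := by simp [Fintype.card_prod]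
  rw [hcard]
  set θ : ℝ := 1 / (W : ℝ) ^ 25 with hθdef
  have hθW : (W : ℝ) ^ 27 * θ = (W : ℝ) ^ 2 := by
    rw [hθdef]; field_simp
  rw [hθW]
  have hnm : ((n * m : ℕ) : ℝ) = D := by rw [hD]; push_cast; ring
  have hpw24 : (0 : ℝ) < (W : ℝ) ^ 24 := by positivity
  -- first term
  have hθD : 3 * θ * D ≤ 1 / (1000 * (W : ℝ) ^ 24) := by
    rw [hθdef]
    have : 3 * (1 / (W : ℝ) ^ 25) * D = 3 * D / (W : ℝ) ^ 25 := by ring
    rw [this, div_le_div_iff₀ (by positivity) (by positivity)]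
    have h25 : (W : ℝ) ^ 25 = W * (W : ℝ) ^ 24 := by ring
    rw [h25]
    have h0 : 3000 * D ≤ W := by linarith
    have : 3 * D * (1000 * (W : ℝ) ^ 24) = (3000 * D) * (W : ℝ) ^ 24 := by ring
    rw [this, one_mul]
    exact mul_le_mul_of_nonneg_right h0 hpw24.le
  have hterm1 : Real.exp (θ * (2 * D)) * (1 + θ) ^ (n * m) ≤ 1 + 1 / (2 * (W : ℝ) ^ 24) := by
    have h1 : (1 + θ) ^ (n * m) ≤ Real.exp (θ * D) := by
      have : 1 + θ ≤ Real.exp θ := by linarith [Real.add_one_le_exp θ]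
      calc (1 + θ) ^ (n * m) ≤ Real.exp θ ^ (n * m) := pow_le_pow_left₀ (by positivity) this _
        _ = Real.exp (((n * m : ℕ) : ℝ) * θ) := by rw [Real.exp_nat_mul]
        _ = Real.exp (θ * D) := by rw [hnm]; ring_nf
    have h2 : Real.exp (θ * (2 * D)) * (1 + θ) ^ (n * m) ≤ Real.exp (3 * θ * D) := by
      calc Real.exp (θ * (2 * D)) * (1 + θ) ^ (n * m)
          ≤ Real.exp (θ * (2 * D)) * Real.exp (θ * D) :=
            mul_le_mul_of_nonneg_left h1 (Real.exp_pos _).le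
        _ = Real.exp (3 * θ * D) := by rw [← Real.exp_add]; ring_nf
    refine le_trans h2 ?_
    set v : ℝ := 3 * θ * D with hv
    have hv0 : 0 ≤ v := by rw [hv]; positivity
    have hv1 : v ≤ 1 := by
      refine le_trans hθD ?_
      rw [div_le_one (by positivity)]
      have : (1 : ℝ) ≤ (W : ℝ) ^ 24 := one_le_pow₀ hx1
      linarith
    have hexp : Real.exp v ≤ 1 + 2 * v := by
      by_cases hvz : v = 0
      · rw [hvz]; simp
      have hv00 : 0 < v := lt_of_le_of_ne hv0 (Ne.symm hvz)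
      have hv12 : v < 1 / 2 := by
        refine lt_of_le_of_lt hθD ?_
        rw [div_lt_div_iff₀ (by positivity) (by norm_num)]
        have : (1 : ℝ) ≤ (W : ℝ) ^ 24 := one_le_pow₀ hx1
        linarith
      have h3 : Real.exp v ≤ 1 / (1 - v) := by
        exact Real.exp_bound_div_one_sub_of_interval hv0 (by linarith)
      refine le_trans h3 ?_
      rw [div_le_iff₀ (by linarith)]
      nlinarith
    refine le_trans hexp ?_
    have : 2 * v ≤ 2 * (1 / (1000 * (W : ℝ) ^ 24)) := by linarith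
    have h5 : 2 * (1 / (1000 * (W : ℝ) ^ 24)) ≤ 1 / (2 * (W : ℝ) ^ 24) := by
      rw [mul_one_div, div_le_div_iff₀ (by positivity) (by positivity)]
      nlinarith
    linarith
  -- second term
  have hterm2 : Real.exp (-(W : ℝ) ^ 2 + 2 * D) * rQ W ^ (n * m) ≤ 1 / (2 * (W : ℝ) ^ 24) := by
    have h1 : rQ W ≤ Real.exp (4 * (W : ℝ) + 1) := by
      unfold rQ
      have h2 : (W : ℝ) ≤ Real.exp W := by linarith [Real.add_one_le_exp (W : ℝ)]
      have h3 : (W : ℝ) ^ 4 ≤ Real.exp (W : ℝ) ^ 4 := pow_le_pow_left₀ hx0.le h2 _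
      rw [← Real.exp_nat_mul] at h3
      have h4 : (2 : ℝ) ≤ Real.exp 1 := by linarith [Real.add_one_le_exp (1 : ℝ)]
      rw [Real.exp_add, mul_comm (Real.exp _)]
      apply mul_le_mul h4 _ (by positivity) (Real.exp_pos _).le
      refine le_trans h3 (le_of_eq ?_)
      norm_num
    have h2 : rQ W ^ (n * m) ≤ Real.exp (D * (4 * (W : ℝ) + 1)) := by
      calc rQ W ^ (n * m) ≤ Real.exp (4 * (W : ℝ) + 1) ^ (n * m) :=
            pow_le_pow_left₀ (by linarith [psi_one_le_rQ hx1]) h1 _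
        _ = Real.exp (D * (4 * (W : ℝ) + 1)) := by rw [← Real.exp_nat_mul, hnm]
    have hW24 : 2 * (W : ℝ) ^ 24 ≤ Real.exp (24 * (W : ℝ) + 1) := by
      have h2 : (W : ℝ) ≤ Real.exp W := by linarith [Real.add_one_le_exp (W : ℝ)]
      have h3 : (W : ℝ) ^ 24 ≤ Real.exp (W : ℝ) ^ 24 := pow_le_pow_left₀ hx0.le h2 _
      rw [← Real.exp_nat_mul] at h3
      have h4 : (2 : ℝ) ≤ Real.exp 1 := by linarith [Real.add_one_le_exp (1 : ℝ)]
      rw [Real.exp_add, mul_comm (Real.exp _)]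
      apply mul_le_mul h4 _ (by positivity) (Real.exp_pos _).le
      refine le_trans h3 (le_of_eq ?_)
      norm_num
    rw [le_div_iff₀ (by positivity)]
    calc Real.exp (-(W : ℝ) ^ 2 + 2 * D) * rQ W ^ (n * m) * (2 * (W : ℝ) ^ 24)
        ≤ Real.exp (-(W : ℝ) ^ 2 + 2 * D) * Real.exp (D * (4 * (W : ℝ) + 1))
            * Real.exp (24 * (W : ℝ) + 1) := by
          have hRpos : 0 ≤ rQ W ^ (n * m) := by
            have := psi_one_le_rQ hx1
            positivity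
          gcongr
      _ = Real.exp (-(W : ℝ) ^ 2 + 2 * D + D * (4 * (W : ℝ) + 1) + (24 * (W : ℝ) + 1)) := by
          rw [Real.exp_add _ (24 * (W : ℝ) + 1), Real.exp_add _ (D * (4 * (W : ℝ) + 1))]
      _ ≤ Real.exp 0 := by
          apply Real.exp_le_exp.mpr
          nlinarith
      _ = 1 := Real.exp_zero
  have hsum2 : 1 / (2 * (W : ℝ) ^ 24) + 1 / (2 * (W : ℝ) ^ 24) = 1 / (W : ℝ) ^ 24 := by
    field_simp
    norm_num
  have hfin : θ * (2 * D) = θ * (2 * ((n : ℝ) * m)) := by rw [hD]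
  linarith

end Vale.Agent.Lib.P328.Samp
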