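import Mathlib

/-!
# P328, explicit algorithm: regularisation of a convex function by its perspective (module R)

Generic, no capacity. `K ⊆ ℝ^ι`, `φ : K → ℝ` convex, `φ ≥ 0`, `φ ≤ U0` on the cube `[-1,1]^ι` (contained in `K`).
`ψ y = inf_{s ≥ 1, y / s ∈ K} val s`, `val s = s φ (y / s) + Λ (s - 1)`. The set of such `s` is nonempty (`s ≥ max 1 |y|∞`) and `val ≥ 0`.

* `reg_step`: `s ≤ s'`: `y / s' = (s / s') (y / s) + (1 - s / s') 0`, so `s' φ (y / s') ≤ s φ (y / s) + (s' - s) U0`.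
* `reg_convex`: perspective: for `(y, s), (y', s')`, `λ`: `s̄ = (1-λ) s + λ s'`, `ȳ / s̄ = ((1-λ) s / s̄) (y / s) + (λ s' / s̄) (y' / s')`,
  so `s̄ φ (ȳ / s̄) ≤ (1-λ) s φ (y/s) + λ s' φ (y'/s')`; take infima. (`K` convex is part of `ConvexOn`.)
* `reg_lip`: `a = sup |y - y'|`, `a > 0`. Given admissible `s` for `y`, `s' = s + a`, `z = (y' - y) / a ∈ [-1,1]^ι`:
  `y' / s' = (s / s') (y / s) + (a / s') z`, so `s' φ (y' / s') ≤ s φ (y / s) + a U0`, and `Λ (s' - 1) = Λ (s - 1) + a Λ`.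
* `reg_search`: `s0 = max 1 |y|∞ ≤ Rq`: `y / s0 ∈ [-1,1]^ι`, `val s0 ≤ s0 U0 + Λ (s0 - 1)`, and `val s ≥ Λ (s - 1) > val s0` for `s > 2 s0` when `U0 ≤ Λ`.
* `reg_mass`: (the strict set) if `ψ y < Λ θ`, take admissible `s` with `val s < Λ θ`, so `s < 1 + θ`, and `y / (1+θ) = (s/(1+θ)) (y/s) + (1 - s/(1+θ)) 0`
  gives `φ (y / (1+θ)) ≤ val s + θ U0`; hence `y / (1 + θ) ∈ K` and `φ (y / (1+θ)) ≤ ψ y + θ U0`. So
  `∫_{ψ < Λθ} e^{-ψ} ≤ e^{θ U0} ∫ 1_K (y/(1+θ)) e^{-φ (y/(1+θ))} dy = e^{θ U0} (1+θ)^D ∫_K e^{-φ}`. And on `Q ∩ {ψ ≥ Λ θ}`, `e^{-ψ} ≤ e^{-Λθ}`: mass `≤ e^{-Λθ} (2 Rq)^D`,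
  while `∫_K e^{-φ} ≥ e^{-U0} 2^D`.
-/

namespace Vale.Agent.Lib.P328.Samp

open Finset MeasureTheory
open scoped ENNReal

variable {ι : Type} [Fintype ι] [DecidableEq ι]

/-- What is needed of the convex function. -/
structure RegHyp (K : Set (ι → ℝ)) (φ : (ι → ℝ) → ℝ) (U0 : ℝ) : Prop where
  conv : ConvexOn ℝ K φ
  nn : ∀ y ∈ K, 0 ≤ φ y
  inner : ∀ y : ι → ℝ, (∀ i, |y i| ≤ 1) → y ∈ K ∧ φ y ≤ U0

/-- The value at `s` in the infimum. -/
noncomputable def regVal (φ : (ι → ℝ) → ℝ) (Λ : ℝ) (y : ι → ℝ) (s : ℝ) : ℝ :=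
  s * φ (s⁻¹ • y) + Λ * (s - 1)

/-- The regularised function. -/
noncomputable def regPsi (K : Set (ι → ℝ)) (φ : (ι → ℝ) → ℝ) (Λ : ℝ) (y : ι → ℝ) : ℝ :=
  ⨅ s : {s : ℝ // 1 ≤ s ∧ s⁻¹ • y ∈ K}, regVal φ Λ y s.1

variable {K : Set (ι → ℝ)} {φ : (ι → ℝ) → ℝ} {U0 Λ : ℝ}

theorem RegHyp.zero_mem (h : RegHyp K φ U0) : (0 : ι → ℝ) ∈ K := (h.inner 0 (by simp)).1

theorem RegHyp.phi_zero_le (h : RegHyp K φ U0) : φ 0 ≤ U0 := (h.inner 0 (by simp)).2

theorem RegHyp.combo (h : RegHyp K φ U0) {p q : ι → ℝ} (hp : p ∈ K) (hq : q ∈ K) {a b : ℝ}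
    (ha : 0 ≤ a) (hb : 0 ≤ b) (hab : a + b = 1) :
    a • p + b • q ∈ K ∧ φ (a • p + b • q) ≤ a * φ p + b * φ q := by
  have h1 := h.conv.1 hp hq ha hb hab
  have h2 := h.conv.2 hp hq ha hb hab
  exact ⟨h1, by simpa using h2⟩

theorem RegHyp.adm (h : RegHyp K φ U0) (y : ι → ℝ) :
    Nonempty {s : ℝ // 1 ≤ s ∧ s⁻¹ • y ∈ K} := by
  refine ⟨⟨1 + ∑ i, |y i|, ?_, ?_⟩⟩
  · have : 0 ≤ ∑ i, |y i| := Finset.sum_nonneg fun i _ => abs_nonneg _
    linarith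
  · refine (h.inner _ ?_).1
    intro i
    have hs : 0 ≤ ∑ i, |y i| := Finset.sum_nonneg fun i _ => abs_nonneg _
    have hpos : 0 < 1 + ∑ i, |y i| := by linarith
    have hle : |y i| ≤ 1 + ∑ i, |y i| := by
      have := Finset.single_le_sum (f := fun i => |y i|) (fun i _ => abs_nonneg _)
        (Finset.mem_univ i)
      linarith
    simp only [Pi.smul_apply, smul_eq_mul, abs_mul, abs_inv, abs_of_pos hpos]
    rw [inv_mul_le_iff₀ hpos]
    linarith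

theorem regVal_nonneg (h : RegHyp K φ U0) (hΛ : 0 ≤ Λ) {y : ι → ℝ} {s : ℝ} (hs : 1 ≤ s)
    (hy : s⁻¹ • y ∈ K) : 0 ≤ regVal φ Λ y s := by
  unfold regVal
  have h1 := h.nn _ hy
  have h2 : 0 ≤ s - 1 := by linarith
  have h3 : 0 ≤ s := by linarith
  positivity

theorem regPsi_bdd (h : RegHyp K φ U0) (hΛ : 0 ≤ Λ) (y : ι → ℝ) :
    BddBelow (Set.range fun s : {s : ℝ // 1 ≤ s ∧ s⁻¹ • y ∈ K} => regVal φ Λ y s.1) :=
  ⟨0, by rintro _ ⟨s, rfl⟩; exact regVal_nonneg h hΛ s.2.1 s.2.2⟩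

theorem reg_nonneg (h : RegHyp K φ U0) (hΛ : 0 ≤ Λ) (y : ι → ℝ) : 0 ≤ regPsi K φ Λ y := by
  have := h.adm y
  exact le_ciInf fun s => regVal_nonneg h hΛ s.2.1 s.2.2

theorem reg_le_val (h : RegHyp K φ U0) (hΛ : 0 ≤ Λ) {y : ι → ℝ} {s : ℝ} (hs : 1 ≤ s)
    (hy : s⁻¹ • y ∈ K) : regPsi K φ Λ y ≤ regVal φ Λ y s :=
  ciInf_le (regPsi_bdd h hΛ y) (⟨s, hs, hy⟩ : {s : ℝ // 1 ≤ s ∧ s⁻¹ • y ∈ K})

theorem reg_le (h : RegHyp K φ U0) (hΛ : 0 ≤ Λ) {y : ι → ℝ} (hy : y ∈ K) :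
    regPsi K φ Λ y ≤ φ y := by
  have := reg_le_val h hΛ (y := y) (s := 1) le_rfl (by simpa using hy)
  simpa [regVal] using this

theorem reg_exists (h : RegHyp K φ U0) (hΛ : 0 ≤ Λ) (y : ι → ℝ) {ξ : ℝ} (hξ : 0 < ξ) :
    ∃ s : ℝ, 1 ≤ s ∧ s⁻¹ • y ∈ K ∧ regVal φ Λ y s < regPsi K φ Λ y + ξ := by
  have := h.adm y
  obtain ⟨s, hs⟩ := exists_lt_of_ciInf_lt (show regPsi K φ Λ y < regPsi K φ Λ y + ξ by linarith)
  exact ⟨s.1, s.2.1, s.2.2, hs⟩

/-- The scaling identity behind most of the steps. -/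
theorem smul_inv_split {s s' : ℝ} (hs : 0 < s) (hs' : 0 < s') (y : ι → ℝ) :
    s'⁻¹ • y = (s / s') • (s⁻¹ • y) + (1 - s / s') • (0 : ι → ℝ) := by
  ext i
  simp only [Pi.add_apply, Pi.smul_apply, smul_eq_mul, Pi.zero_apply, mul_zero, add_zero]
  field_simp

theorem reg_step (h : RegHyp K φ U0) (hΛ : 0 ≤ Λ) {y : ι → ℝ} {s s' : ℝ} (hs : 1 ≤ s) (hss : s ≤ s')
    (hy : s⁻¹ • y ∈ K) :
    s'⁻¹ • y ∈ K ∧ regVal φ Λ y s' ≤ regVal φ Λ y s + (s' - s) * (U0 + Λ) := by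
  have hs0 : 0 < s := by linarith
  have hs0' : 0 < s' := by linarith
  have ha : 0 ≤ s / s' := by positivity
  have hb : 0 ≤ 1 - s / s' := by
    rw [sub_nonneg, div_le_one hs0']; exact hss
  obtain ⟨h1, h2⟩ := h.combo hy h.zero_mem ha hb (by ring)
  rw [← smul_inv_split hs0 hs0' y] at h1 h2
  refine ⟨h1, ?_⟩
  unfold regVal
  have h3 := h.phi_zero_le
  have h4 : s' * φ (s'⁻¹ • y) ≤ s * φ (s⁻¹ • y) + (s' - s) * U0 := by
    calc s' * φ (s'⁻¹ • y) ≤ s' * (s / s' * φ (s⁻¹ • y) + (1 - s / s') * φ 0) :=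
          mul_le_mul_of_nonneg_left h2 hs0'.le
      _ = s * φ (s⁻¹ • y) + (s' - s) * φ 0 := by field_simp
      _ ≤ s * φ (s⁻¹ • y) + (s' - s) * U0 := by
          have : 0 ≤ s' - s := by linarith
          nlinarith [mul_le_mul_of_nonneg_left h3 this]
  nlinarith

theorem reg_convex [Nonempty ι] (h : RegHyp K φ U0) (hΛ : 0 ≤ Λ) :
    ConvexOn ℝ Set.univ (regPsi K φ Λ) := by
  refine ⟨convex_univ, ?_⟩
  intro y _ y' _ a b ha hb hab
  simp only [smul_eq_mul]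
  refine le_of_forall_pos_le_add fun ξ hξ => ?_
  obtain ⟨s, hs, hsy, hsv⟩ := reg_exists h hΛ y hξ
  obtain ⟨s', hs', hsy', hsv'⟩ := reg_exists h hΛ y' hξ
  have hs0 : 0 < s := by linarith
  have hs0' : 0 < s' := by linarith
  set t : ℝ := a * s + b * s' with ht
  have ht1 : 1 ≤ t := by
    have : a * 1 + b * 1 ≤ a * s + b * s' :=
      add_le_add (mul_le_mul_of_nonneg_left hs ha) (mul_le_mul_of_nonneg_left hs' hb)
    rw [ht]; linarith
  have ht0 : 0 < t := by linarith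
  have ha' : 0 ≤ a * s / t := by positivity
  have hb' : 0 ≤ b * s' / t := by positivity
  have hab' : a * s / t + b * s' / t = 1 := by
    rw [← add_div]; exact div_self ht0.ne'
  obtain ⟨h1, h2⟩ := h.combo hsy hsy' ha' hb' hab'
  have key : t⁻¹ • (a • y + b • y') = (a * s / t) • (s⁻¹ • y) + (b * s' / t) • (s'⁻¹ • y') := by
    ext i
    simp only [Pi.add_apply, Pi.smul_apply, smul_eq_mul]
    field_simp
  rw [← key] at h1 h2
  have h3 := reg_le_val h hΛ (y := a • y + b • y') ht1 h1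
  have h4 : regVal φ Λ (a • y + b • y') t ≤ a * regVal φ Λ y s + b * regVal φ Λ y' s' := by
    unfold regVal
    have h5 : t * φ (t⁻¹ • (a • y + b • y')) ≤ a * (s * φ (s⁻¹ • y)) + b * (s' * φ (s'⁻¹ • y')) := by
      calc t * φ (t⁻¹ • (a • y + b • y'))
          ≤ t * (a * s / t * φ (s⁻¹ • y) + b * s' / t * φ (s'⁻¹ • y')) :=
            mul_le_mul_of_nonneg_left h2 ht0.le
        _ = a * (s * φ (s⁻¹ • y)) + b * (s' * φ (s'⁻¹ • y')) := by field_simp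
    have h6 : Λ * (t - 1) = a * (Λ * (s - 1)) + b * (Λ * (s' - 1)) := by
      have : a = 1 - b := by linarith
      rw [ht, this]; ring
    linarith
  have h7 : a * regVal φ Λ y s ≤ a * (regPsi K φ Λ y + ξ) := mul_le_mul_of_nonneg_left hsv.le ha
  have h8 : b * regVal φ Λ y' s' ≤ b * (regPsi K φ Λ y' + ξ) :=
    mul_le_mul_of_nonneg_left hsv'.le hb
  have h9 : a * ξ + b * ξ = ξ := by rw [← add_mul, hab, one_mul]
  nlinarith

theorem reg_lip (h : RegHyp K φ U0) (hΛ : 0 ≤ Λ) {y y' : ι → ℝ} {a : ℝ} (ha : 0 ≤ a)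
    (hyy : ∀ i, |y i - y' i| ≤ a) : regPsi K φ Λ y' ≤ regPsi K φ Λ y + a * (U0 + Λ) := by
  rcases ha.eq_or_lt with rfl | ha0
  · have : y = y' := by
      ext i
      have := hyy i
      have h0 := abs_nonneg (y i - y' i)
      have : |y i - y' i| = 0 := le_antisymm this h0
      exact sub_eq_zero.mp (abs_eq_zero.mp this)
    subst this
    simp
  refine le_of_forall_pos_le_add fun ξ hξ => ?_
  obtain ⟨s, hs, hsy, hsv⟩ := reg_exists h hΛ y hξ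
  have hs0 : 0 < s := by linarith
  set t : ℝ := s + a with ht
  have ht0 : 0 < t := by linarith
  have ht1 : 1 ≤ t := by linarith
  have hz : a⁻¹ • (y' - y) ∈ K ∧ φ (a⁻¹ • (y' - y)) ≤ U0 := by
    refine h.inner _ fun i => ?_
    simp only [Pi.smul_apply, Pi.sub_apply, smul_eq_mul, abs_mul, abs_inv, abs_of_pos ha0]
    rw [inv_mul_le_iff₀ ha0, mul_one, abs_sub_comm]
    exact hyy i
  have hA : 0 ≤ s / t := by positivity
  have hB : 0 ≤ a / t := by positivity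
  have hAB : s / t + a / t = 1 := by
    rw [← add_div]; exact div_self ht0.ne'
  obtain ⟨h1, h2⟩ := h.combo hsy hz.1 hA hB hAB
  have key : t⁻¹ • y' = (s / t) • (s⁻¹ • y) + (a / t) • (a⁻¹ • (y' - y)) := by
    ext i
    simp only [Pi.add_apply, Pi.smul_apply, Pi.sub_apply, smul_eq_mul]
    field_simp
    ring
  rw [← key] at h1 h2
  have h3 := reg_le_val h hΛ (y := y') ht1 h1
  have h5 : t * φ (t⁻¹ • y') ≤ s * φ (s⁻¹ • y) + a * φ (a⁻¹ • (y' - y)) := by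
    calc t * φ (t⁻¹ • y') ≤ t * (s / t * φ (s⁻¹ • y) + a / t * φ (a⁻¹ • (y' - y))) :=
          mul_le_mul_of_nonneg_left h2 ht0.le
      _ = s * φ (s⁻¹ • y) + a * φ (a⁻¹ • (y' - y)) := by field_simp
  have h6 : a * φ (a⁻¹ • (y' - y)) ≤ a * U0 := mul_le_mul_of_nonneg_left hz.2 ha
  have h7 : regVal φ Λ y' t = t * φ (t⁻¹ • y') + Λ * (s - 1) + a * Λ := by
    unfold regVal; rw [ht]; ring
  have h8 : regVal φ Λ y s = s * φ (s⁻¹ • y) + Λ * (s - 1) := rfl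
  nlinarith

theorem reg_continuous (h : RegHyp K φ U0) (hΛ : 0 ≤ Λ) (hU : 0 ≤ U0) :
    Continuous (regPsi K φ Λ) := by
  have hL : 0 ≤ U0 + Λ := by linarith
  have : LipschitzWith (Real.toNNReal (U0 + Λ)) (regPsi K φ Λ) := by
    refine LipschitzWith.of_dist_le_mul fun y y' => ?_
    rw [Real.coe_toNNReal _ hL, Real.dist_eq, abs_le]
    have hd : ∀ i, |y i - y' i| ≤ dist y y' := fun i => by
      rw [← Real.dist_eq]; exact dist_le_pi_dist y y' i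
    have hd' : ∀ i, |y' i - y i| ≤ dist y y' := fun i => by
      rw [abs_sub_comm]; exact hd i
    have h1 := reg_lip h hΛ dist_nonneg hd
    have h2 := reg_lip h hΛ dist_nonneg hd'
    constructor <;> nlinarith
  exact this.continuous

/-- The infimum can be restricted to `s ≤ 2 Rq` on the cube of half side `Rq`. -/
theorem reg_search (h : RegHyp K φ U0) (hU : U0 ≤ Λ) (hU0 : 0 ≤ U0) {Rq : ℝ} (hRq : 1 ≤ Rq)
    {y : ι → ℝ} (hy : ∀ i, |y i| ≤ Rq) {ξ : ℝ} (hξ : 0 < ξ) :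
    ∃ s : ℝ, 1 ≤ s ∧ s ≤ 2 * Rq ∧ s⁻¹ • y ∈ K ∧ regVal φ Λ y s < regPsi K φ Λ y + ξ := by
  have hΛ : 0 ≤ Λ := by linarith
  obtain ⟨s, hs, hsy, hsv⟩ := reg_exists h hΛ y hξ
  by_cases hle : s ≤ 2 * Rq
  · exact ⟨s, hs, hle, hsy, hsv⟩
  rw [not_le] at hle
  have hR0 : 0 < Rq := by linarith
  have hcube : Rq⁻¹ • y ∈ K ∧ φ (Rq⁻¹ • y) ≤ U0 := by
    refine h.inner _ fun i => ?_
    simp only [Pi.smul_apply, smul_eq_mul, abs_mul, abs_inv, abs_of_pos hR0]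
    rw [inv_mul_le_iff₀ hR0, mul_one]
    exact hy i
  refine ⟨Rq, hRq, by linarith, hcube.1, lt_of_le_of_lt ?_ hsv⟩
  have h1 : regVal φ Λ y Rq ≤ Rq * U0 + Λ * (Rq - 1) := by
    unfold regVal
    have := mul_le_mul_of_nonneg_left hcube.2 hR0.le
    linarith
  have h2 : Λ * (s - 1) ≤ regVal φ Λ y s := by
    unfold regVal
    have h3 := h.nn _ hsy
    have h4 : 0 ≤ s * φ (s⁻¹ • y) := mul_nonneg (by linarith) h3
    linarith
  have h5 : Rq * U0 ≤ Rq * Λ := mul_le_mul_of_nonneg_left hU hR0.le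
  have h6 : Λ * (2 * Rq - 1) ≤ Λ * (s - 1) := mul_le_mul_of_nonneg_left (by linarith) hΛ
  nlinarith

/-- The pointwise estimate on the set where the regularised function is small. -/
theorem reg_small (h : RegHyp K φ U0) (hΛ : 0 ≤ Λ) (hU0 : 0 ≤ U0) {θ : ℝ} (hθ : 0 < θ)
    {y : ι → ℝ} (hy : regPsi K φ Λ y < Λ * θ) :
    (1 + θ)⁻¹ • y ∈ K ∧ φ ((1 + θ)⁻¹ • y) ≤ regPsi K φ Λ y + θ * U0 := by
  have hΛ0 : 0 < Λ := by
    rcases hΛ.eq_or_lt with rfl | h0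
    · have := reg_nonneg h le_rfl y
      simp at hy
      linarith
    · exact h0
  have step : ∀ ξ : ℝ, 0 < ξ → regPsi K φ Λ y + ξ ≤ Λ * θ →
      (1 + θ)⁻¹ • y ∈ K ∧ φ ((1 + θ)⁻¹ • y) ≤ regPsi K φ Λ y + ξ + θ * U0 := by
    intro ξ hξ hξ2
    obtain ⟨s, hs, hsy, hsv⟩ := reg_exists h hΛ y hξ
    have hs0 : 0 < s := by linarith
    have hnn := h.nn _ hsy
    have hsn : 0 ≤ s * φ (s⁻¹ • y) := mul_nonneg hs0.le hnn
    have hv : regVal φ Λ y s = s * φ (s⁻¹ • y) + Λ * (s - 1) := rfl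
    have hlt : s < 1 + θ := by
      have : Λ * (s - 1) < Λ * θ := by linarith
      have := lt_of_mul_lt_mul_left this hΛ0.le
      linarith
    have hθ0 : 0 < 1 + θ := by linarith
    have ha : 0 ≤ s / (1 + θ) := by positivity
    have hb : 0 ≤ 1 - s / (1 + θ) := by
      rw [sub_nonneg, div_le_one hθ0]; exact hlt.le
    obtain ⟨h1, h2⟩ := h.combo hsy h.zero_mem ha hb (by ring)
    rw [← smul_inv_split hs0 hθ0 y] at h1 h2
    refine ⟨h1, ?_⟩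
    have h3 : s / (1 + θ) * φ (s⁻¹ • y) ≤ s * φ (s⁻¹ • y) := by
      rw [div_mul_eq_mul_div, div_le_iff₀ hθ0]
      nlinarith
    have h4 : 1 - s / (1 + θ) ≤ θ := by
      rw [sub_le_iff_le_add, ← sub_le_iff_le_add', div_eq_mul_inv]
      have h5 : (1 + θ)⁻¹ * (1 + θ) = 1 := inv_mul_cancel₀ hθ0.ne'
      have h6 : 0 < (1 + θ)⁻¹ := by positivity
      have h7 : (1 + θ)⁻¹ ≤ 1 := inv_le_one_of_one_le₀ (by linarith)
      nlinarith
    have h5 : (1 - s / (1 + θ)) * φ 0 ≤ θ * U0 := by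
      have h6 := h.phi_zero_le
      calc (1 - s / (1 + θ)) * φ 0 ≤ (1 - s / (1 + θ)) * U0 := mul_le_mul_of_nonneg_left h6 hb
        _ ≤ θ * U0 := mul_le_mul_of_nonneg_right h4 hU0
    have h6 : 0 ≤ Λ * (s - 1) := mul_nonneg hΛ (by linarith)
    linarith
  have hgap : 0 < Λ * θ - regPsi K φ Λ y := by linarith
  have hmem := (step ((Λ * θ - regPsi K φ Λ y) / 2) (by linarith) (by linarith)).1
  refine ⟨hmem, ?_⟩
  refine le_of_forall_pos_le_add fun ξ hξ => ?_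
  have hm : 0 < min ξ (Λ * θ - regPsi K φ Λ y) := lt_min hξ hgap
  have := (step (min ξ (Λ * θ - regPsi K φ Λ y)) hm (by
    have := min_le_right ξ (Λ * θ - regPsi K φ Λ y); linarith)).2
  have h2 := min_le_left ξ (Λ * θ - regPsi K φ Λ y)
  linarith

/-- The mass of the regularised function on a cube. -/
theorem reg_mass (h : RegHyp K φ U0) (hK : MeasurableSet K)
    (hφ : Measurable fun y => K.indicator (fun y => ENNReal.ofReal (Real.exp (-φ y))) y)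
    (hU0 : 0 ≤ U0) (hΛ : 0 ≤ Λ) {θ Rq : ℝ} (hθ : 0 < θ) (hRq : 1 ≤ Rq) :
    ∫⁻ y in {y : ι → ℝ | ∀ i, |y i| ≤ Rq}, ENNReal.ofReal (Real.exp (-regPsi K φ Λ y))
      ≤ ENNReal.ofReal (Real.exp (θ * U0) * (1 + θ) ^ Fintype.card ι
          + Real.exp (-(Λ * θ) + U0) * Rq ^ Fintype.card ι)
        * ∫⁻ y in K, ENNReal.ofReal (Real.exp (-φ y)) := by
  set G : (ι → ℝ) → ℝ≥0∞ := fun y => K.indicator (fun y => ENNReal.ofReal (Real.exp (-φ y))) y
    with hG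
  set D : ℕ := Fintype.card ι with hD
  have hθ0 : 0 < 1 + θ := by linarith
  have hR0 : 0 < Rq := by linarith
  have hIG : ∫⁻ y, G y = ∫⁻ y in K, ENNReal.ofReal (Real.exp (-φ y)) :=
    lintegral_indicator hK _
  -- the pointwise bound
  have hpt : ∀ y : ι → ℝ, ENNReal.ofReal (Real.exp (-regPsi K φ Λ y))
      ≤ ENNReal.ofReal (Real.exp (θ * U0)) * G ((1 + θ)⁻¹ • y)
        + ENNReal.ofReal (Real.exp (-(Λ * θ))) := by
    intro y
    by_cases hy : regPsi K φ Λ y < Λ * θ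
    · obtain ⟨h1, h2⟩ := reg_small h hΛ hU0 hθ hy
      refine le_trans ?_ le_self_add
      have hGv : G ((1 + θ)⁻¹ • y) = ENNReal.ofReal (Real.exp (-φ ((1 + θ)⁻¹ • y))) := by
        simp only [hG, Set.indicator_of_mem h1]
      rw [hGv, ← ENNReal.ofReal_mul (Real.exp_pos _).le, ← Real.exp_add]
      exact ENNReal.ofReal_le_ofReal (Real.exp_le_exp.mpr (by linarith))
    · rw [not_lt] at hy
      refine le_trans ?_ le_add_self
      exact ENNReal.ofReal_le_ofReal (Real.exp_le_exp.mpr (by linarith))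
  -- the cube
  have hQ : ∀ a : ℝ, {y : ι → ℝ | ∀ i, |y i| ≤ a} = Set.Icc (fun _ => -a) (fun _ => a) := by
    intro a
    ext y
    simp only [Set.mem_ofPred_eq, Set.mem_Icc, Pi.le_def, abs_le, forall_and]
  have hvol : ∀ a : ℝ, 0 ≤ a → volume {y : ι → ℝ | ∀ i, |y i| ≤ a}
      = ENNReal.ofReal ((2 * a) ^ D) := by
    intro a ha
    rw [hQ, Real.volume_Icc_pi]
    simp only [Finset.prod_const, Finset.card_univ]
    rw [ENNReal.ofReal_pow (by linarith)]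
    congr 2
    ring
  -- the change of variables
  have hcv : ∫⁻ y, G ((1 + θ)⁻¹ • y) = ENNReal.ofReal ((1 + θ) ^ D) * ∫⁻ y, G y := by
    have hr : (1 + θ)⁻¹ ≠ 0 := (inv_pos.mpr hθ0).ne'
    have hmap := Measure.map_addHaar_smul (volume : Measure (ι → ℝ)) hr
    have hmeas : Measurable fun y : ι → ℝ => (1 + θ)⁻¹ • y := measurable_const_smul _
    have : ∫⁻ y, G ((1 + θ)⁻¹ • y) = ∫⁻ y, G y ∂(Measure.map (fun y : ι → ℝ => (1 + θ)⁻¹ • y) volume) :=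
      (lintegral_map hφ hmeas).symm
    rw [this, hmap, lintegral_smul_measure]
    have hfin : Module.finrank ℝ (ι → ℝ) = D := by simp [hD]
    rw [hfin]
    have : |((1 + θ)⁻¹ ^ D)⁻¹| = (1 + θ) ^ D := by
      rw [inv_pow, inv_inv, abs_of_pos (by positivity)]
    rw [this]
    rfl
  -- the lower bound for the integral
  have hlow : ENNReal.ofReal (Real.exp (-U0) * 2 ^ D) ≤ ∫⁻ y in K, ENNReal.ofReal (Real.exp (-φ y)) := by
    have hsub : {y : ι → ℝ | ∀ i, |y i| ≤ 1} ⊆ K := fun y hy => (h.inner y hy).1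
    have hmeasQ : MeasurableSet {y : ι → ℝ | ∀ i, |y i| ≤ (1 : ℝ)} := by
      rw [hQ]; exact measurableSet_Icc
    calc ENNReal.ofReal (Real.exp (-U0) * 2 ^ D)
        = ∫⁻ _y in {y : ι → ℝ | ∀ i, |y i| ≤ 1}, ENNReal.ofReal (Real.exp (-U0)) := by
          rw [setLIntegral_const, hvol 1 zero_le_one,
            ENNReal.ofReal_mul (Real.exp_pos _).le]
          norm_num
      _ ≤ ∫⁻ y in {y : ι → ℝ | ∀ i, |y i| ≤ 1}, ENNReal.ofReal (Real.exp (-φ y)) := by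
          refine setLIntegral_mono' hmeasQ fun y hy => ?_
          exact ENNReal.ofReal_le_ofReal (Real.exp_le_exp.mpr (by
            have := (h.inner y hy).2
            linarith))
      _ ≤ ∫⁻ y in K, ENNReal.ofReal (Real.exp (-φ y)) := lintegral_mono_set hsub
  set I : ℝ≥0∞ := ∫⁻ y in K, ENNReal.ofReal (Real.exp (-φ y)) with hI
  -- assembly
  have hA : 0 ≤ Real.exp (θ * U0) * (1 + θ) ^ D := by positivity
  have hB : 0 ≤ Real.exp (-(Λ * θ) + U0) * Rq ^ D := by positivity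
  rw [ENNReal.ofReal_add hA hB, add_mul]
  calc ∫⁻ y in {y : ι → ℝ | ∀ i, |y i| ≤ Rq}, ENNReal.ofReal (Real.exp (-regPsi K φ Λ y))
      ≤ ∫⁻ y in {y : ι → ℝ | ∀ i, |y i| ≤ Rq}, (ENNReal.ofReal (Real.exp (θ * U0)) * G ((1 + θ)⁻¹ • y)
        + ENNReal.ofReal (Real.exp (-(Λ * θ)))) := lintegral_mono fun y => hpt y
    _ = (∫⁻ y in {y : ι → ℝ | ∀ i, |y i| ≤ Rq}, ENNReal.ofReal (Real.exp (θ * U0)) * G ((1 + θ)⁻¹ • y))
        + ∫⁻ _y in {y : ι → ℝ | ∀ i, |y i| ≤ Rq}, ENNReal.ofReal (Real.exp (-(Λ * θ))) :=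
        lintegral_add_right _ measurable_const
    _ ≤ ENNReal.ofReal (Real.exp (θ * U0) * (1 + θ) ^ D) * I
        + ENNReal.ofReal (Real.exp (-(Λ * θ) + U0) * Rq ^ D) * I := by
        refine add_le_add ?_ ?_
        · calc ∫⁻ y in {y : ι → ℝ | ∀ i, |y i| ≤ Rq}, ENNReal.ofReal (Real.exp (θ * U0)) * G ((1 + θ)⁻¹ • y)
              ≤ ∫⁻ y, ENNReal.ofReal (Real.exp (θ * U0)) * G ((1 + θ)⁻¹ • y) :=
                setLIntegral_le_lintegral _ _
            _ = ENNReal.ofReal (Real.exp (θ * U0)) * ∫⁻ y, G ((1 + θ)⁻¹ • y) :=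
                lintegral_const_mul _ (hφ.comp (measurable_const_smul _))
            _ = ENNReal.ofReal (Real.exp (θ * U0) * (1 + θ) ^ D) * I := by
                rw [hcv, hIG, ENNReal.ofReal_mul (Real.exp_pos _).le, mul_assoc]
        · rw [setLIntegral_const, hvol Rq hR0.le]
          refine le_trans (le_of_eq ?_) (mul_le_mul' le_rfl hlow)
          rw [← ENNReal.ofReal_mul (Real.exp_pos _).le,
            ← ENNReal.ofReal_mul (by positivity)]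
          congr 1
          rw [Real.exp_add, mul_pow]
          have : Real.exp U0 * Real.exp (-U0) = 1 := by
            rw [← Real.exp_add]; simp
          calc Real.exp (-(Λ * θ)) * (2 ^ D * Rq ^ D)
              = Real.exp (-(Λ * θ)) * (Real.exp U0 * Real.exp (-U0)) * (2 ^ D * Rq ^ D) := by
                rw [this]; ring
            _ = _ := by ring

end Vale.Agent.Lib.P328.Samp
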